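import Crest.Statements.S0010
import Crest.Agent.Row9.Rank

set_option autoImplicit false
open Crest.NumberTheoryR.MilnorK
open Crest Crest.NumberTheoryR

namespace Crest.Agent.S0010

/-- Let K and L be fields of characteristic p that are finitely generated and of transcendence degree at least 2 over algebraically closed subfields k and l. Let Θ be a linear isomorphism, over the integers mod p, from Kˣ/(Kˣ)^p to Lˣ/(Lˣ)^p that maps the span of the Steinberg elements [f] ⊗ [1 - f] (f ≠ 0, 1) of K exactly onto that of L. Then there is exactly one field isomorphism α from K to L with α(k) = l such that, for some non-zero scalar c, Θ[u] = c · [α(u)] for every unit u of K. -/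
theorem result {p : ℕ} [Fact p.Prime]
    {K L : Type*} [Field K] [Field L] [CharP K p] [CharP L p] (k : Subfield K) (l : Subfield L)
    [IsAlgClosed k] [IsAlgClosed l]
    (hK : ∃ s : Finset K, Subfield.closure ((k : Set K) ∪ (s : Set K)) = ⊤)
    (hL : ∃ s : Finset L, Subfield.closure ((l : Set L) ∪ (s : Set L)) = ⊤)
    (hK2 : 2 ≤ Algebra.trdeg k K) (hL2 : 2 ≤ Algebra.trdeg l L)
    (Θ : KOne K p ≃ₗ[ZMod p] KOne L p) (hΘ : IsCompatible Θ) :
    ∃! α : K ≃+* L, k.map α.toRingHom = l ∧
      ∃ c : ZMod p, c ≠ 0 ∧ ∀ u : Kˣ, Θ (cls K p u) = c • cls L p (Units.map α.toRingHom.toMonoidHom u) := by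
  have hKf : Algebra.EssFiniteType k K := Crest.Agent.Row9.essFiniteType_of k hK
  have hLf : Algebra.EssFiniteType l L := Crest.Agent.Row9.essFiniteType_of l hL
  have hKp : PerfectField k := inferInstance
  have hLp : PerfectField l := inferInstance
  have bK : Crest.Agent.Row9.BigDim p K := Crest.Agent.Row9.bigDim k hK2
  have bL : Crest.Agent.Row9.BigDim p L := Crest.Agent.Row9.bigDim l hL2
  obtain ⟨α, c, hc, hα⟩ := Crest.Agent.Row9.exists_iso hΘ bK bL
  refine ⟨α, ⟨?_, c, hc, hα⟩, ?_⟩
  · apply le_antisymm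
    · refine le_trans (Crest.Agent.Row9.le_Emax (p := p) ?_) (Crest.Agent.Row9.Emax_le (p := p) l)
      rintro e ⟨x, hx, rfl⟩
      obtain ⟨y, hy, hyx⟩ := Crest.Agent.Row9.roots_of_isAlgClosed (p := p) k x hx
      refine ⟨α y, ⟨y, hy, rfl⟩, ?_⟩
      rw [← map_pow, hyx]
      rfl
    · have h1 : l.map α.symm.toRingHom ≤ k := by
        refine le_trans (Crest.Agent.Row9.le_Emax (p := p) ?_)
          (Crest.Agent.Row9.Emax_le (p := p) k)
        rintro e ⟨x, hx, rfl⟩
        obtain ⟨y, hy, hyx⟩ := Crest.Agent.Row9.roots_of_isAlgClosed (p := p) l x hx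
        refine ⟨α.symm y, ⟨y, hy, rfl⟩, ?_⟩
        rw [← map_pow, hyx]
        rfl
      intro y hy
      refine ⟨α.symm y, h1 ⟨y, hy, rfl⟩, ?_⟩
      exact α.apply_symm_apply y
  · rintro β ⟨-, d, hd, hβ⟩
    exact Crest.Agent.Row9.iso_unique bK hd hc hβ hα

end Crest.Agent.S0010
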