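import Crest.Statements.S0066

set_option autoImplicit false
open Crest Crest.CombinatoricsR

namespace Crest.Agent.S0066

/-- filler / special entries of the pattern -/
def sp (f s : ℕ) : Bool :=
  (decide (f = 61) && decide (s = 64)) || (decide (f = 62) && decide (s ≠ 64))

/-- the pattern, as a function on `ℕ` -/
def Hn (i j : ℕ) : Bool :=
  if i < 63 then (if j < 63 then decide (i ≠ j) else sp i j)
  else (if j < 63 then sp j i else !(decide (i = 64) && decide (j = 64)))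

lemma Hn_symm (i j : ℕ) : Hn i j = Hn j i := by
  unfold Hn
  split_ifs <;> simp [ne_comm, Bool.and_comm]

lemma Hn_fill {i j : ℕ} (hi : i < 63) (hj : j < 63) : Hn i j = true ↔ i ≠ j := by
  simp [Hn, hi, hj]

lemma Hn_spec {i j : ℕ} (hi : 63 ≤ i) (hj : j < 63) :
    Hn i j = true ↔ (j = 61 ∧ i = 64) ∨ (j = 62 ∧ i ≠ 64) := by
  have : ¬ i < 63 := by omega
  simp [Hn, this, hj, sp]

lemma Hn_big {i j : ℕ} (hi : 63 ≤ i) (h : Hn i j = true) : 61 ≤ j := by
  by_cases hj : j < 63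
  · rw [Hn_spec hi hj] at h; omega
  · omega

lemma Hn_block {i j : ℕ} (hi : 63 ≤ i) (hj : 63 ≤ j) :
    Hn i j = true ↔ ¬ (i = 64 ∧ j = 64) := by
  have h1 : ¬ i < 63 := by omega
  have h2 : ¬ j < 63 := by omega
  simp [Hn, h1, h2]; tauto

abbrev T (h : ℕ) : Type := (Fin (4 * h + 1) × Fin 66) ⊕ Fin (h + 1)

abbrev X (h : ℕ) : Type := T h × Fin (2 ^ h)

/-- which robust rows of gadget `g` are really used -/
def used (h g k : ℕ) : Prop :=
  k < 63 ∨ (g < 4 * h ∧ g % 4 < 2 ∧ k = 63) ∨ (g < 4 * h ∧ 2 ≤ g % 4 ∧ k = 65) ∨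
    (4 * h ≤ g ∧ (k = 63 ∨ k = 64))

instance (h g k : ℕ) : Decidable (used h g k) := by unfold used; infer_instance

/-- role of the middle level `i` in gadget `g` -/
def midRole (h : ℕ) (p : Bool) (g i : ℕ) : Option ℕ :=
  if g < 4 * h then
    if i = g / 4 + 1 then (if g % 4 < 2 then some 65 else some 63)
    else if i ≤ g / 4 ∧ (decide (g % 2 = 0) = p → i = g / 4) then some 64 else none
  else if i = 0 then some 65 else none

def role (h : ℕ) (p : Bool) : T h → ℕ → Option ℕ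
  | Sum.inl (g', k), g => if (g' : ℕ) = g ∧ used h g k then some (k : ℕ) else none
  | Sum.inr i, g => midRole h p g i

def rv : Option ℕ → Option ℕ → Bool
  | some k, some l => Hn k l
  | _, _ => false

/-- the host matrix (p = true) and its transpose (p = false) -/
def Mp (h : ℕ) (p : Bool) (x y : X h) : Bool :=
  match x.1, y.1 with
  | Sum.inr i, Sum.inr j =>
      decide ((x.2 : ℕ) / 2 ^ (max (i : ℕ) j) = (y.2 : ℕ) / 2 ^ (max (i : ℕ) j))
  | Sum.inl (g, _), _ => rv (role h p x.1 g) (role h (!p) y.1 g)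
  | Sum.inr _, Sum.inl (g, _) => rv (role h p x.1 g) (role h (!p) y.1 g)

lemma rv_true {a b : Option ℕ} (h : rv a b = true) : ∃ k l, a = some k ∧ b = some l ∧ Hn k l = true := by
  cases a <;> cases b <;> simp [rv] at h
  exact ⟨_, _, rfl, rfl, h⟩

lemma rv_symm (a b : Option ℕ) : rv a b = rv b a := by
  cases a <;> cases b <;> simp [rv, Hn_symm]

lemma Mp_row {h : ℕ} {p : Bool} {x y : X h} {g : Fin (4 * h + 1)} {k : Fin 66}
    (hx : x.1 = Sum.inl (g, k)) : Mp h p x y = rv (role h p x.1 g) (role h (!p) y.1 g) := by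
  obtain ⟨x1, x2⟩ := x
  simp only at hx
  subst hx
  simp only [Mp]

lemma Mp_col {h : ℕ} {p : Bool} {x y : X h} {g : Fin (4 * h + 1)} {k : Fin 66}
    (hy : y.1 = Sum.inl (g, k)) : Mp h p x y = rv (role h p x.1 g) (role h (!p) y.1 g) := by
  obtain ⟨x1, x2⟩ := x
  obtain ⟨y1, y2⟩ := y
  simp only at hy
  subst hy
  rcases x1 with ⟨g', k'⟩ | i
  · simp only [Mp]
    by_cases hg : g = g'
    · subst hg; rfl
    · have h1 : (role h (!p) (Sum.inl (g, k)) g') = none := by
        simp only [role]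
        rw [if_neg]
        intro hh
        exact hg (Fin.ext hh.1)
      have h2 : (role h p (Sum.inl (g', k')) g) = none := by
        simp only [role]
        rw [if_neg]
        intro hh
        exact hg (Fin.ext hh.1).symm
      rw [h1, h2]
      cases (role h p (Sum.inl (g', k')) g') <;> rfl
  · simp only [Mp]

lemma Mp_symm {h : ℕ} (p : Bool) (x y : X h) : Mp h p x y = Mp h (!p) y x := by
  rcases hx : x.1 with ⟨g, k⟩ | i
  · rw [Mp_row hx, Mp_col (p := !p) (x := y) hx, rv_symm]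
    simp
  · rcases hy : y.1 with ⟨g, k⟩ | j
    · rw [Mp_col hy, Mp_row (p := !p) (y := x) hy, rv_symm]
      simp
    · simp only [Mp, hx, hy, max_comm, eq_comm]

/-! ### keys -/

def io (i a : ℕ) : ℕ := (2 * (a / 2 ^ i) + 1) * 2 ^ i

abbrev K : Type := ℕ ×ₗ (ℕ ×ₗ (ℕ ×ₗ ℕ))

def mk (a b c d : ℕ) : K := toLex (a, toLex (b, toLex (c, d)))

lemma mk_lt {a b c d a' b' c' d' : ℕ} : mk a b c d < mk a' b' c' d' ↔
    a < a' ∨ (a = a' ∧ (b < b' ∨ (b = b' ∧ (c < c' ∨ (c = c' ∧ d < d'))))) := by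
  simp [mk, Prod.Lex.toLex_lt_toLex]

lemma mk_inj {a b c d a' b' c' d' : ℕ} (h : mk a b c d = mk a' b' c' d') :
    a = a' ∧ b = b' ∧ c = c' ∧ d = d' := by
  simpa [mk] using h

def key {h : ℕ} (x : X h) : K :=
  match x.1 with
  | Sum.inl (g, k) => if (k : ℕ) = 65 then mk 2 g 65 x.2 else mk 0 g k x.2
  | Sum.inr i => mk 1 (io i x.2) i x.2

lemma key_inj {h : ℕ} : Function.Injective (key (h := h)) := by
  rintro ⟨x1, x2⟩ ⟨y1, y2⟩ hxy
  rcases x1 with ⟨g, k⟩ | i <;> rcases y1 with ⟨g', k'⟩ | j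
  · simp only [key] at hxy
    split_ifs at hxy with h1 h2 h2
    · obtain ⟨-, a, b, c⟩ := mk_inj hxy
      have : k = k' := Fin.ext (by omega)
      subst this
      rw [Fin.ext a, Fin.ext c]
    · obtain ⟨a, -⟩ := mk_inj hxy; omega
    · obtain ⟨a, -⟩ := mk_inj hxy; omega
    · obtain ⟨-, a, b, c⟩ := mk_inj hxy
      rw [Fin.ext a, Fin.ext b, Fin.ext c]
  · simp only [key] at hxy
    split_ifs at hxy with h1
    · obtain ⟨a, -⟩ := mk_inj hxy; omega
    · obtain ⟨a, -⟩ := mk_inj hxy; omega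
  · simp only [key] at hxy
    split_ifs at hxy with h1
    · obtain ⟨a, -⟩ := mk_inj hxy; omega
    · obtain ⟨a, -⟩ := mk_inj hxy; omega
  · simp only [key] at hxy
    obtain ⟨-, -, a, b⟩ := mk_inj hxy
    rw [Fin.ext a, Fin.ext b]

/-- rank of an element with respect to the key order -/
noncomputable def rk {h : ℕ} (x : X h) : ℕ := (Finset.univ.filter (fun y : X h => key y < key x)).card

lemma rk_lt {h : ℕ} {x y : X h} (hxy : key x < key y) : rk x < rk y := by
  apply Finset.card_lt_card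
  constructor
  · intro z hz
    simp only [Finset.mem_filter, Finset.mem_univ, true_and] at hz ⊢
    exact hz.trans hxy
  · intro hsub
    have : x ∈ Finset.univ.filter (fun z : X h => key z < key x) :=
      hsub (by simp [hxy])
    simp at this

lemma rk_lt_iff {h : ℕ} {x y : X h} : rk x < rk y ↔ key x < key y := by
  constructor
  · intro hr
    by_contra hk
    rcases lt_or_eq_of_le (not_lt.mp hk) with h1 | h1
    · have := rk_lt h1; omega
    · have := key_inj h1
      subst this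
      omega
  · exact rk_lt

lemma rk_inj {h : ℕ} : Function.Injective (rk (h := h)) := by
  intro x y hxy
  rcases lt_trichotomy (key x) (key y) with h1 | h1 | h1
  · have := rk_lt h1; omega
  · exact key_inj h1
  · have := rk_lt h1; omega

lemma card_X (h : ℕ) : Fintype.card (X h) = (265 * h + 67) * 2 ^ h := by
  simp only [Fintype.card_prod, Fintype.card_sum, Fintype.card_fin]
  ring

lemma rk_lt_n {h : ℕ} (hh : 1 ≤ h) (x : X h) : rk x < (386 * h + 2) * 2 ^ h := by
  have h1 : rk x < Fintype.card (X h) := by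
    rw [← Finset.card_univ]
    apply Finset.card_lt_card
    refine ⟨Finset.filter_subset _ _, ?_⟩
    intro hsub
    have := hsub (Finset.mem_univ x)
    simp at this
  rw [card_X] at h1
  refine h1.trans_le ?_
  exact Nat.mul_le_mul_right _ (by omega)

/-- the order embedding into `Fin n` -/
noncomputable def e {h : ℕ} (hh : 1 ≤ h) (x : X h) : Fin ((386 * h + 2) * 2 ^ h) := ⟨rk x, rk_lt_n hh x⟩

lemma e_inj {h : ℕ} (hh : 1 ≤ h) : Function.Injective (e hh) := by
  intro x y hxy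
  exact rk_inj (by simpa [e] using hxy)

lemma e_lt {h : ℕ} (hh : 1 ≤ h) {x y : X h} : e hh x < e hh y ↔ key x < key y := by
  rw [← rk_lt_iff]; rfl

open Classical in
/-- the host matrix on `Fin n` -/
noncomputable def Amat {h : ℕ} (hh : 1 ≤ h) (i j : Fin ((386 * h + 2) * 2 ^ h)) : Bool :=
  decide (∃ x y, e hh x = i ∧ e hh y = j ∧ Mp h true x y = true)

lemma Amat_e {h : ℕ} (hh : 1 ≤ h) (x y : X h) : Amat hh (e hh x) (e hh y) = Mp h true x y := by
  unfold Amat
  rw [Bool.eq_iff_iff]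
  simp only [decide_eq_true_eq]
  constructor
  · rintro ⟨x', y', hx, hy, hM⟩
    rw [← e_inj hh hx, ← e_inj hh hy]; exact hM
  · intro hM
    exact ⟨x, y, rfl, rfl, hM⟩

lemma Amat_true {h : ℕ} (hh : 1 ≤ h) {i j : Fin ((386 * h + 2) * 2 ^ h)} (hA : Amat hh i j = true) :
    (∃ x, e hh x = i) ∧ (∃ y, e hh y = j) := by
  unfold Amat at hA
  simp only [decide_eq_true_eq] at hA
  obtain ⟨x, y, hx, hy, -⟩ := hA
  exact ⟨⟨x, hx⟩, ⟨y, hy⟩⟩

/-! ### rigidity -/

structure Copy (h : ℕ) (p : Bool) (x y : ℕ → X h) : Prop where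
  hx : ∀ i j, i < j → j < 66 → key (x i) < key (x j)
  hy : ∀ i j, i < j → j < 66 → key (y i) < key (y j)
  hM : ∀ i j, i < 66 → j < 66 → Mp h p (x i) (y j) = Hn i j

lemma Copy.symm {h : ℕ} {p : Bool} {x y : ℕ → X h} (hc : Copy h p x y) : Copy h (!p) y x :=
  ⟨hc.hy, hc.hx, fun i j hi hj => by rw [← Mp_symm, hc.hM j i hj hi, Hn_symm]⟩

def R (i a j b : ℕ) : Prop := a / 2 ^ (max i j) = b / 2 ^ (max i j)

lemma R_symm {i a j b : ℕ} (h : R i a j b) : R j b i a := by
  unfold R at *; rw [max_comm]; exact h.symm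

lemma div_up {a b m I : ℕ} (hm : m ≤ I) (h : a / 2 ^ m = b / 2 ^ m) : a / 2 ^ I = b / 2 ^ I := by
  obtain ⟨d, rfl⟩ := Nat.exists_eq_add_of_le hm
  rw [pow_add, ← Nat.div_div_eq_div_mul, ← Nat.div_div_eq_div_mul, h]

lemma R_core {i1 a1 i2 a2 j1 b1 j3 b3 : ℕ} (h2 : i2 ≤ i1) (h3 : j1 ≤ i1) (h4 : j3 ≤ i1)
    (r13 : R i1 a1 j3 b3) (r23 : R i2 a2 j3 b3) (r21 : R i2 a2 j1 b1) : R i1 a1 j1 b1 := by
  unfold R at *
  rw [max_eq_left h3]
  rw [max_eq_left h4] at r13
  have e1 := div_up (I := i1) (by omega) r23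
  have e2 := div_up (I := i1) (by omega) r21
  rw [r13, ← e1, e2]

lemma J3_nat {i1 i2 i3 j1 j2 j3 a1 a2 a3 b1 b2 b3 : ℕ}
    (r12 : R i1 a1 j2 b2) (r13 : R i1 a1 j3 b3) (r21 : R i2 a2 j1 b1) (r23 : R i2 a2 j3 b3)
    (r31 : R i3 a3 j1 b1) (r32 : R i3 a3 j2 b2)
    (n1 : ¬ R i1 a1 j1 b1) (n2 : ¬ R i2 a2 j2 b2) (n3 : ¬ R i3 a3 j3 b3) : False := by
  have hmax : (i2 ≤ i1 ∧ j1 ≤ i1 ∧ j3 ≤ i1) ∨ (i1 ≤ i2 ∧ j2 ≤ i2 ∧ j3 ≤ i2) ∨
      (i1 ≤ i3 ∧ j3 ≤ i3 ∧ j2 ≤ i3) ∨ (j2 ≤ j1 ∧ i1 ≤ j1 ∧ i3 ≤ j1) ∨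
      (j1 ≤ j2 ∧ i2 ≤ j2 ∧ i3 ≤ j2) ∨ (j1 ≤ j3 ∧ i3 ≤ j3 ∧ i2 ≤ j3) := by omega
  rcases hmax with ⟨h1, h2, h3⟩ | ⟨h1, h2, h3⟩ | ⟨h1, h2, h3⟩ | ⟨h1, h2, h3⟩ | ⟨h1, h2, h3⟩ | ⟨h1, h2, h3⟩
  · exact n1 (R_core h1 h2 h3 r13 r23 r21)
  · exact n2 (R_core h1 h2 h3 r23 r13 r12)
  · exact n3 (R_core h1 h2 h3 r32 r12 r13)
  · exact n1 (R_symm (R_core h1 h2 h3 (R_symm r31) (R_symm r32) (R_symm r12)))
  · exact n2 (R_symm (R_core h1 h2 h3 (R_symm r32) (R_symm r31) (R_symm r21)))
  · exact n3 (R_symm (R_core h1 h2 h3 (R_symm r23) (R_symm r21) (R_symm r31)))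

lemma Mp_mid {h : ℕ} {p : Bool} {x y : X h} {i j : Fin (h + 1)} (hx : x.1 = Sum.inr i)
    (hy : y.1 = Sum.inr j) : Mp h p x y = true ↔ R i x.2 j y.2 := by
  simp [Mp, hx, hy, R]

def isMid {h : ℕ} (z : X h) : Prop := ∃ i, z.1 = Sum.inr i

lemma not_isMid {h : ℕ} {z : X h} (hz : ¬ isMid z) : ∃ g k, z.1 = Sum.inl (g, k) := by
  rcases hz1 : z.1 with ⟨g, k⟩ | i
  · exact ⟨g, k, rfl⟩
  · exact absurd ⟨i, hz1⟩ hz

lemma mid_interval {h : ℕ} {p : Bool} {g i i' i'' : ℕ} {ρ : Option ℕ}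
    (h1 : rv (midRole h p g i) ρ = true) (h2 : rv (midRole h p g i') ρ = true)
    (hi : i ≤ i'') (hi' : i'' ≤ i') : rv (midRole h p g i'') ρ = true := by
  unfold midRole at *
  by_cases hp : (decide (g % 2 = 0) = p)
  · simp only [hp, true_implies] at *
    split_ifs at * <;> first | exact h1 | exact h2 | omega | (simp [rv] at h1; done) | (simp [rv] at h2)
  · simp only [hp, false_implies, and_true] at *
    split_ifs at * <;> first | exact h1 | exact h2 | omega | (simp [rv] at h1; done) | (simp [rv] at h2)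

lemma Hn_diag {k : ℕ} (hk : k < 63) : Hn k k = false := by
  by_contra hne
  have : Hn k k = true := by simpa using hne
  rw [Hn_fill hk hk] at this
  exact this rfl

lemma J3_mid {h : ℕ} {p : Bool} {x y : ℕ → X h} (hc : Copy h p x y) {k1 k2 k3 : ℕ}
    (h1 : k1 < 63) (h2 : k2 < 63) (h3 : k3 < 63) (h12 : k1 ≠ k2) (h13 : k1 ≠ k3) (h23 : k2 ≠ k3)
    (x1 : isMid (x k1)) (x2 : isMid (x k2)) (x3 : isMid (x k3))
    (y1 : isMid (y k1)) (y2 : isMid (y k2)) (y3 : isMid (y k3)) : False := by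
  obtain ⟨i1, x1⟩ := x1
  obtain ⟨i2, x2⟩ := x2
  obtain ⟨i3, x3⟩ := x3
  obtain ⟨j1, y1⟩ := y1
  obtain ⟨j2, y2⟩ := y2
  obtain ⟨j3, y3⟩ := y3
  have key1 : ∀ {k l : ℕ} {i j : Fin (h + 1)}, k < 63 → l < 63 → (x k).1 = Sum.inr i →
      (y l).1 = Sum.inr j → k ≠ l → R i (x k).2 j (y l).2 := by
    intro k l i j hk hl hxk hyl hkl
    rw [← Mp_mid (p := p) hxk hyl, hc.hM k l (by omega) (by omega), Hn_fill hk hl]
    exact hkl
  have key2 : ∀ {k : ℕ} {i j : Fin (h + 1)}, k < 63 → (x k).1 = Sum.inr i →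
      (y k).1 = Sum.inr j → ¬ R i (x k).2 j (y k).2 := by
    intro k i j hk hxk hyl
    rw [← Mp_mid (p := p) hxk hyl, hc.hM k k (by omega) (by omega), Hn_diag hk]
    simp
  exact J3_nat (key1 h1 h2 x1 y2 h12) (key1 h1 h3 x1 y3 h13) (key1 h2 h1 x2 y1 h12.symm)
    (key1 h2 h3 x2 y3 h23) (key1 h3 h1 x3 y1 h13.symm) (key1 h3 h2 x3 y2 h23.symm)
    (key2 h1 x1 y1) (key2 h2 x2 y2) (key2 h3 x3 y3)

lemma J3_rob {h : ℕ} {p : Bool} {x y : ℕ → X h} (hc : Copy h p x y) {k1 k2 k3 : ℕ}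
    (h1 : k1 < 63) (h2 : k2 < 63) (h3 : k3 < 63) (h12 : k1 ≠ k2) (h13 : k1 ≠ k3) (h23 : k2 ≠ k3)
    (x1 : isMid (x k1)) (x2 : isMid (x k2)) (x3 : isMid (x k3))
    (y1 : ¬ isMid (y k1)) (y2 : ¬ isMid (y k2)) (y3 : ¬ isMid (y k3)) : False := by
  obtain ⟨i1, x1⟩ := x1
  obtain ⟨i2, x2⟩ := x2
  obtain ⟨i3, x3⟩ := x3
  have main : ∀ {k l m : ℕ} {ik il im : Fin (h + 1)}, k < 63 → l < 63 → m < 63 → k ≠ l → k ≠ m →
      (x k).1 = Sum.inr ik → (x l).1 = Sum.inr il → (x m).1 = Sum.inr im → ¬ isMid (y k) →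
      (il : ℕ) ≤ ik → (ik : ℕ) ≤ im → False := by
    intro k l m ik il im hk hl hm hkl hkm xk xl xm yk hik him
    obtain ⟨g, q, hyk⟩ := not_isMid yk
    have e1 : Mp h p (x l) (y k) = true := by
      rw [hc.hM l k (by omega) (by omega), Hn_fill hl hk]; exact hkl.symm
    have e2 : Mp h p (x m) (y k) = true := by
      rw [hc.hM m k (by omega) (by omega), Hn_fill hm hk]; exact hkm.symm
    have e3 : Mp h p (x k) (y k) = false := by
      rw [hc.hM k k (by omega) (by omega), Hn_diag hk]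
    rw [Mp_col hyk] at e1 e2 e3
    rw [xl] at e1
    rw [xm] at e2
    rw [xk] at e3
    simp only [role] at e1 e2 e3
    have := mid_interval e1 e2 hik him
    rw [e3] at this
    exact absurd this (by simp)
  have hord : ((i2 : ℕ) ≤ i1 ∧ (i1 : ℕ) ≤ i3) ∨ ((i3 : ℕ) ≤ i1 ∧ (i1 : ℕ) ≤ i2) ∨
      ((i1 : ℕ) ≤ i2 ∧ (i2 : ℕ) ≤ i3) ∨ ((i3 : ℕ) ≤ i2 ∧ (i2 : ℕ) ≤ i1) ∨
      ((i1 : ℕ) ≤ i3 ∧ (i3 : ℕ) ≤ i2) ∨ ((i2 : ℕ) ≤ i3 ∧ (i3 : ℕ) ≤ i1) := by omega
  rcases hord with ⟨a, b⟩ | ⟨a, b⟩ | ⟨a, b⟩ | ⟨a, b⟩ | ⟨a, b⟩ | ⟨a, b⟩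
  · exact main h1 h2 h3 h12 h13 x1 x2 x3 y1 a b
  · exact main h1 h3 h2 h13 h12 x1 x3 x2 y1 a b
  · exact main h2 h1 h3 h12.symm h23 x2 x1 x3 y2 a b
  · exact main h2 h3 h1 h23 h12.symm x2 x3 x1 y2 a b
  · exact main h3 h1 h2 h13.symm h23.symm x3 x1 x2 y3 a b
  · exact main h3 h2 h1 h23.symm h13.symm x3 x2 x1 y3 a b

open Classical in
lemma mid_le_four {h : ℕ} {p : Bool} {x y : ℕ → X h} (hc : Copy h p x y) :
    ((Finset.range 63).filter (fun k => isMid (x k))).card ≤ 4 := by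
  by_contra hcon
  push Not at hcon
  set D := (Finset.range 63).filter (fun k => isMid (x k)) with hD
  have hsum := Finset.card_filter_add_card_filter_not (s := D) (fun k => isMid (y k))
  have hor : 2 < (D.filter (fun k => isMid (y k))).card ∨
      2 < (D.filter (fun k => ¬ isMid (y k))).card := by omega
  rcases hor with h3 | h3
  · obtain ⟨a, ha, b, hb, c, hc', hab, hac, hbc⟩ := Finset.two_lt_card.mp h3
    simp only [hD, Finset.mem_filter, Finset.mem_range] at ha hb hc'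
    exact J3_mid hc ha.1.1 hb.1.1 hc'.1.1 hab hac hbc ha.1.2 hb.1.2 hc'.1.2 ha.2 hb.2 hc'.2
  · obtain ⟨a, ha, b, hb, c, hc', hab, hac, hbc⟩ := Finset.two_lt_card.mp h3
    simp only [hD, Finset.mem_filter, Finset.mem_range] at ha hb hc'
    exact J3_rob hc ha.1.1 hb.1.1 hc'.1.1 hab hac hbc ha.1.2 hb.1.2 hc'.1.2 ha.2 hb.2 hc'.2

lemma role_inl {h : ℕ} {p : Bool} {g' : Fin (4 * h + 1)} {k : Fin 66} {g r : ℕ}
    (hr : role h p (Sum.inl (g', k)) g = some r) : (g' : ℕ) = g ∧ used h g k ∧ (k : ℕ) = r := by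
  simp only [role] at hr
  split_ifs at hr with h1
  simp only [Option.some.injEq] at hr
  exact ⟨h1.1, h1.2, hr⟩

lemma role_lt {h : ℕ} {p : Bool} {τ : T h} {g r : ℕ} (hr : role h p τ g = some r) : r < 66 := by
  rcases τ with ⟨g', k⟩ | i
  · obtain ⟨-, -, h3⟩ := role_inl hr
    omega
  · simp only [role, midRole] at hr
    split_ifs at hr <;> simp at hr <;> omega

lemma role_small {h : ℕ} {p : Bool} {τ : T h} {g : Fin (4 * h + 1)} {r : ℕ}
    (hr : role h p τ g = some r) (h63 : r < 63) : ∃ k : Fin 66, τ = Sum.inl (g, k) ∧ (k : ℕ) = r := by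
  rcases τ with ⟨g', k⟩ | i
  · obtain ⟨h1, -, h3⟩ := role_inl hr
    exact ⟨k, by rw [Fin.ext h1], h3⟩
  · simp only [role, midRole] at hr
    split_ifs at hr <;> simp at hr <;> omega

lemma strict_lower {P : ℕ → ℕ} {N : ℕ} (hP : ∀ k l, k < l → l < N → P k < P l) :
    ∀ l k, k ≤ l → l < N → P k + (l - k) ≤ P l := by
  intro l
  induction l with
  | zero => intro k hk _; have : k = 0 := by omega
            subst this; simp
  | succ l ih =>
    intro k hk hl
    rcases Nat.lt_or_ge k (l + 1) with h1 | h1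
    · have h2 := ih k (by omega) (by omega)
      have h3 := hP l (l + 1) (by omega) hl
      omega
    · have : k = l + 1 := by omega
      subst this; simp

lemma strict_id {P : ℕ → ℕ} {N : ℕ} (hP : ∀ k l, k < l → l < N → P k < P l)
    (hN : ∀ k, k < N → P k < N) : ∀ k, k < N → P k = k := by
  intro k hk
  have h1 := strict_lower hP k 0 (by omega) hk
  have h2 := strict_lower hP (N - 1) k (by omega) (by omega)
  have h3 := hN (N - 1) (by omega)
  omega

open Classical in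
/-- good filler indices -/
noncomputable def Gd {h : ℕ} (x y : ℕ → X h) : Finset ℕ :=
  (Finset.range 63).filter (fun k => ¬ isMid (x k) ∧ ¬ isMid (y k))

lemma Gd_card {h : ℕ} {p : Bool} {x y : ℕ → X h} (hc : Copy h p x y) : 55 ≤ (Gd x y).card := by
  classical
  have h1 := mid_le_four hc
  have h2 := mid_le_four hc.symm
  have h3 : Finset.range 63 ⊆ Gd x y ∪ ((Finset.range 63).filter (fun k => isMid (x k)) ∪
      (Finset.range 63).filter (fun k => isMid (y k))) := by
    intro k hk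
    simp only [Gd, Finset.mem_union, Finset.mem_filter]
    by_cases hx : isMid (x k)
    · exact Or.inr (Or.inl ⟨hk, hx⟩)
    · by_cases hy : isMid (y k)
      · exact Or.inr (Or.inr ⟨hk, hy⟩)
      · exact Or.inl ⟨hk, hx, hy⟩
  have h4 := Finset.card_le_card h3
  have h5 := Finset.card_union_le (Gd x y) (((Finset.range 63).filter (fun k => isMid (x k)) ∪
      (Finset.range 63).filter (fun k => isMid (y k))))
  have h6 := Finset.card_union_le ((Finset.range 63).filter (fun k => isMid (x k)))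
      ((Finset.range 63).filter (fun k => isMid (y k)))
  simp only [Finset.card_range] at h4
  omega

lemma Gd_lt {h : ℕ} {x y : ℕ → X h} {k : ℕ} (hk : k ∈ Gd x y) : k < 63 := by
  simp only [Gd, Finset.mem_filter, Finset.mem_range] at hk; exact hk.1

lemma Gd_x {h : ℕ} {x y : ℕ → X h} {k : ℕ} (hk : k ∈ Gd x y) : ∃ g q, (x k).1 = Sum.inl (g, q) := by
  simp only [Gd, Finset.mem_filter, Finset.mem_range] at hk; exact not_isMid hk.2.1

lemma Gd_y {h : ℕ} {x y : ℕ → X h} {k : ℕ} (hk : k ∈ Gd x y) : ∃ g q, (y k).1 = Sum.inl (g, q) := by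
  simp only [Gd, Finset.mem_filter, Finset.mem_range] at hk; exact not_isMid hk.2.2

lemma Gd_comm {h : ℕ} (x y : ℕ → X h) : Gd x y = Gd y x := by
  classical
  ext k
  simp only [Gd, Finset.mem_filter, Finset.mem_range]
  tauto

/-- all good indices live in one gadget -/
lemma one_gadget {h : ℕ} {p : Bool} {x y : ℕ → X h} (hc : Copy h p x y) :
    ∃ g : Fin (4 * h + 1), ∀ k ∈ Gd x y, (∃ q, (x k).1 = Sum.inl (g, q)) ∧
      (∃ q, (y k).1 = Sum.inl (g, q)) := by
  have hcard := Gd_card hc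
  obtain ⟨a, ha, b, hb, c, hc', hab, hac, hbc⟩ := Finset.two_lt_card.mp
    (show 2 < (Gd x y).card by omega)
  have F : ∀ {k l : ℕ} {g1 g2 : Fin (4 * h + 1)} {q1 q2 : Fin 66}, k < 63 → l < 63 → k ≠ l →
      (x k).1 = Sum.inl (g1, q1) → (y l).1 = Sum.inl (g2, q2) → g2 = g1 := by
    intro k l g1 g2 q1 q2 hk hl hkl hxk hyl
    have e1 : Mp h p (x k) (y l) = true := by
      rw [hc.hM k l (by omega) (by omega), Hn_fill hk hl]; exact hkl
    rw [Mp_row hxk] at e1
    obtain ⟨r, s, hr, hs, -⟩ := rv_true e1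
    rw [hyl] at hs
    exact Fin.ext (role_inl hs).1
  obtain ⟨g, qa, hxa⟩ := Gd_x ha
  obtain ⟨gb, qb, hyb⟩ := Gd_y hb
  obtain ⟨gc, qc, hyc⟩ := Gd_y hc'
  have hgb := F (Gd_lt ha) (Gd_lt hb) hab hxa hyb
  have hgc := F (Gd_lt ha) (Gd_lt hc') hac hxa hyc
  subst hgb
  have hgc' : gc = gb := hgc
  subst hgc'
  have hX : ∀ k ∈ Gd x y, ∃ q, (x k).1 = Sum.inl (gc, q) := by
    intro k hk
    obtain ⟨g1, q, hxk⟩ := Gd_x hk
    by_cases hkb : k = b
    · have hkc : k ≠ c := by rw [hkb]; exact hbc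
      have := F (Gd_lt hk) (Gd_lt hc') hkc hxk hyc
      subst this
      exact ⟨q, hxk⟩
    · have := F (Gd_lt hk) (Gd_lt hb) hkb hxk hyb
      subst this
      exact ⟨q, hxk⟩
  refine ⟨gc, fun k hk => ⟨hX k hk, ?_⟩⟩
  obtain ⟨g1, q, hyk⟩ := Gd_y hk
  by_cases hka : k = a
  · obtain ⟨qb', hxb⟩ := hX b hb
    have := F (Gd_lt hb) (Gd_lt hk) (by rw [hka]; exact hab.symm) hxb hyk
    subst this
    exact ⟨q, hyk⟩
  · obtain ⟨qa', hxa'⟩ := hX a ha
    have := F (Gd_lt ha) (Gd_lt hk) (fun h => hka h.symm) hxa' hyk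
    subst this
    exact ⟨q, hyk⟩

/-- every filler row is a filler row of the gadget -/
lemma filler_row {h : ℕ} {p : Bool} {x y : ℕ → X h} (hc : Copy h p x y) {g : Fin (4 * h + 1)}
    (hg : ∀ k ∈ Gd x y, (∃ q, (x k).1 = Sum.inl (g, q)) ∧ (∃ q, (y k).1 = Sum.inl (g, q)))
    {k : ℕ} (hk : k < 63) : ∃ q : Fin 66, (x k).1 = Sum.inl (g, q) ∧ (q : ℕ) < 63 ∧
      role h p (x k).1 g = some (q : ℕ) := by
  classical
  have hcard := Gd_card hc
  have hE : ∀ {k l : ℕ}, k < 66 → l ∈ Gd x y →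
      rv (role h p (x k).1 g) (role h (!p) (y l).1 g) = Hn k l := by
    intro k l hk hl
    obtain ⟨q, hq⟩ := (hg l hl).2
    rw [← Mp_col hq]
    exact hc.hM k l hk (by have := Gd_lt hl; omega)
  -- existence of the role
  have hcard2 : 54 ≤ ((Gd x y).erase k).card := by
    have := Finset.pred_card_le_card_erase (s := Gd x y) (a := k)
    omega
  obtain ⟨l0, hl0⟩ : ((Gd x y).erase k).Nonempty := by
    rw [← Finset.card_pos]; omega
  have hl0' := Finset.mem_erase.mp hl0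
  have e0 := hE (k := k) (by omega) hl0'.2
  rw [(Hn_fill hk (Gd_lt hl0'.2)).mpr (Ne.symm hl0'.1)] at e0
  obtain ⟨r, s, hr, -, -⟩ := rv_true e0
  have hr63 : r < 63 := by
    by_contra hr63
    push Not at hr63
    -- the map l ↦ role of y l, is injective from (Gd \ k) into [61, 66)
    have hmaps : ∀ l ∈ (Gd x y).erase k, ∃ s, role h (!p) (y l).1 g = some s ∧ 61 ≤ s ∧ s < 66 := by
      intro l hl
      have hl' := Finset.mem_erase.mp hl
      have e1 := hE (k := k) (by omega) hl'.2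
      rw [(Hn_fill hk (Gd_lt hl'.2)).mpr (Ne.symm hl'.1)] at e1
      obtain ⟨r', s, hr', hs, hrs⟩ := rv_true e1
      rw [hr] at hr'
      simp only [Option.some.injEq] at hr'
      subst hr'
      exact ⟨s, hs, Hn_big hr63 hrs, role_lt hs⟩
    choose! f hf using hmaps
    have hinj : Set.InjOn f ((Gd x y).erase k : Set ℕ) := by
      intro l hl m hm hlm
      by_contra hne
      have hl' := Finset.mem_erase.mp hl
      have hm' := Finset.mem_erase.mp hm
      have e1 := hE (k := l) (by have := Gd_lt hl'.2; omega) hl'.2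
      have e2 := hE (k := l) (by have := Gd_lt hl'.2; omega) hm'.2
      rw [(hf l hl).1, Hn_diag (Gd_lt hl'.2)] at e1
      rw [(hf m hm).1, ← hlm, e1, (Hn_fill (Gd_lt hl'.2) (Gd_lt hm'.2)).mpr hne] at e2
      exact absurd e2 (by simp)
    have hle := Finset.card_le_card_of_injOn f (s := (Gd x y).erase k) (t := Finset.Ico 61 66)
      (fun l hl => by
        have := hf l hl
        simp only [Finset.coe_Ico, Set.mem_Ico]
        exact this.2) hinj
    simp at hle
    omega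
  obtain ⟨q, hq1, hq2⟩ := role_small hr hr63
  exact ⟨q, hq1, by omega, by rw [hr, hq2]⟩

lemma align_aux {h : ℕ} {p : Bool} {x y : ℕ → X h} (hc : Copy h p x y) {g : Fin (4 * h + 1)}
    (hX : ∀ k, k < 63 → ∃ q : Fin 66, (x k).1 = Sum.inl (g, q) ∧ (q : ℕ) < 63 ∧
      role h p (x k).1 g = some (q : ℕ))
    (hY : ∀ k, k < 63 → ∃ q : Fin 66, (y k).1 = Sum.inl (g, q) ∧ (q : ℕ) < 63 ∧
      role h (!p) (y k).1 g = some (q : ℕ)) :
    ∀ k, (hk : k < 63) → (x k).1 = Sum.inl (g, ⟨k, by omega⟩) := by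
  choose! P hP using hX
  choose! Q hQ using hY
  have hE : ∀ {k l : ℕ}, k < 63 → l < 63 → Hn (P k) (Q l) = Hn k l := by
    intro k l hk hl
    rw [← hc.hM k l (by omega) (by omega), Mp_row (hP k hk).1, (hP k hk).2.2, (hQ l hl).2.2]
    rfl
  have hmono : ∀ k l, k < l → l < 63 → (P k : ℕ) < P l := by
    intro k l hkl hl
    have hk : k < 63 := by omega
    have h1 := hc.hx k l hkl (by omega)
    have h2 : (P k : ℕ) ≤ P l := by
      simp only [key, (hP k hk).1, (hP l hl).1] at h1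
      rw [if_neg (by have := (hP k hk).2.1; omega), if_neg (by have := (hP l hl).2.1; omega),
        mk_lt] at h1
      omega
    have h3 : (P k : ℕ) ≠ P l := by
      intro h3
      have e1 := hE hk hk
      have e2 := hE hl hk
      rw [Hn_diag hk] at e1
      rw [← h3, e1, (Hn_fill hl hk).mpr (by omega)] at e2
      exact absurd e2 (by simp)
    omega
  have hid := strict_id (P := fun k => (P k : ℕ)) hmono (fun k hk => (hP k hk).2.1)
  intro k hk
  rw [(hP k hk).1]
  congr 2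
  exact Fin.ext (hid k hk)

lemma align {h : ℕ} {p : Bool} {x y : ℕ → X h} (hc : Copy h p x y) :
    ∃ g : Fin (4 * h + 1), (∀ k, (hk : k < 63) → (x k).1 = Sum.inl (g, ⟨k, by omega⟩)) ∧
      (∀ k, (hk : k < 63) → (y k).1 = Sum.inl (g, ⟨k, by omega⟩)) := by
  obtain ⟨g, hg⟩ := one_gadget hc
  have hg' : ∀ k ∈ Gd y x, (∃ q, (y k).1 = Sum.inl (g, q)) ∧ (∃ q, (x k).1 = Sum.inl (g, q)) := by
    intro k hk
    rw [Gd_comm] at hk
    exact (hg k hk).symm
  have hX : ∀ k, k < 63 → ∃ q : Fin 66, (x k).1 = Sum.inl (g, q) ∧ (q : ℕ) < 63 ∧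
      role h p (x k).1 g = some (q : ℕ) := fun k hk => filler_row hc hg hk
  have hY : ∀ k, k < 63 → ∃ q : Fin 66, (y k).1 = Sum.inl (g, q) ∧ (q : ℕ) < 63 ∧
      role h (!p) (y k).1 g = some (q : ℕ) := fun k hk => filler_row hc.symm hg' hk
  refine ⟨g, align_aux hc hX hY, align_aux (p := !p) hc.symm hY ?_⟩
  simpa using hX

/-- the special rows -/
lemma special_role {h : ℕ} {p : Bool} {x y : ℕ → X h} (hc : Copy h p x y) {g : Fin (4 * h + 1)}
    (hY : ∀ k, (hk : k < 63) → (y k).1 = Sum.inl (g, ⟨k, by omega⟩)) {s : ℕ}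
    (hs : 63 ≤ s) (hs' : s < 66) : ∃ r, role h p (x s).1 g = some r ∧ 63 ≤ r ∧ (r = 64 ↔ s = 64) := by
  have hE : ∀ {l : ℕ}, l < 63 → rv (role h p (x s).1 g) (some l) = Hn s l := by
    intro l hl
    rw [← hc.hM s l (by omega) (by omega), Mp_col (hY l hl)]
    congr 1
    rw [hY l hl]
    simp only [role]
    rw [if_pos]
    exact ⟨trivial, Or.inl hl⟩
  have hex : ∃ l, l < 63 ∧ Hn s l = true := by
    by_cases hs64 : s = 64
    · exact ⟨61, by omega, by rw [Hn_spec hs (by omega)]; omega⟩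
    · exact ⟨62, by omega, by rw [Hn_spec hs (by omega)]; omega⟩
  obtain ⟨l, hl, hl'⟩ := hex
  have e0 := hE hl
  rw [hl'] at e0
  obtain ⟨r, s', hr, -, -⟩ := rv_true e0
  rw [hr] at hE
  refine ⟨r, hr, ?_, ?_⟩
  · by_contra hr63
    push Not at hr63
    have hex2 : ∃ m, m < 61 ∧ m ≠ r := by
      by_cases hr0 : r = 0
      · exact ⟨1, by omega, by omega⟩
      · exact ⟨0, by omega, by omega⟩
    obtain ⟨m, hm, hmr⟩ := hex2
    have e1 := hE (l := m) (by omega)
    have e2 : Hn r m = true := (Hn_fill hr63 (by omega)).mpr (Ne.symm hmr)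
    simp only [rv] at e1
    rw [e2] at e1
    have := Hn_big hs e1.symm
    omega
  · have e1 := hE (l := 61) (by omega)
    simp only [rv] at e1
    have hr63 : 63 ≤ r := by
      by_contra hr63
      push Not at hr63
      have hex2 : ∃ m, m < 61 ∧ m ≠ r := by
        by_cases hr0 : r = 0
        · exact ⟨1, by omega, by omega⟩
        · exact ⟨0, by omega, by omega⟩
      obtain ⟨m, hm, hmr⟩ := hex2
      have e1 := hE (l := m) (by omega)
      have e2 : Hn r m = true := (Hn_fill hr63 (by omega)).mpr (Ne.symm hmr)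
      simp only [rv] at e1
      rw [e2] at e1
      have := Hn_big hs e1.symm
      omega
    have a1 := Hn_spec hr63 (j := 61) (by omega)
    have a2 := Hn_spec hs (j := 61) (by omega)
    rw [e1] at a1
    constructor
    · intro h64
      have := a1.mpr (by omega)
      have := a2.mp this
      omega
    · intro h64
      have := a2.mpr (by omega)
      have := a1.mp this
      omega

lemma key_mid {h : ℕ} {x : X h} {i : Fin (h + 1)} (hx : x.1 = Sum.inr i) :
    key x = mk 1 (io i x.2) i x.2 := by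
  simp only [key, hx]

lemma key_top {h : ℕ} {x : X h} {g : Fin (4 * h + 1)} {k : Fin 66} (hx : x.1 = Sum.inl (g, k))
    (hk : (k : ℕ) ≠ 65) : key x = mk 0 g k x.2 := by
  simp only [key, hx, if_neg hk]

lemma key_bot {h : ℕ} {x : X h} {g : Fin (4 * h + 1)} {k : Fin 66} (hx : x.1 = Sum.inl (g, k))
    (hk : (k : ℕ) = 65) : key x = mk 2 g 65 x.2 := by
  simp only [key, hx, if_pos hk]

/-- position of a node inside a bigger one -/
lemma io_bounds {i t x : ℕ} (hi : i ≤ t) :
    2 * (x / 2 ^ t) * 2 ^ t < io i x ∧ io i x < (2 * (x / 2 ^ t) + 2) * 2 ^ t := by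
  obtain ⟨d, rfl⟩ := Nat.exists_eq_add_of_le hi
  unfold io
  have e1 : x / 2 ^ (i + d) = (x / 2 ^ i) / 2 ^ d := by
    rw [pow_add, Nat.div_div_eq_div_mul]
  rw [e1]
  set q := x / 2 ^ i
  have h1 : q / 2 ^ d * 2 ^ d ≤ q := Nat.div_mul_le_self q (2 ^ d)
  have h2 : q + 1 ≤ (q / 2 ^ d + 1) * 2 ^ d := by
    have := Nat.lt_div_mul_add (a := q) (b := 2 ^ d) (by positivity)
    nlinarith
  have hpos : 0 < 2 ^ i := by positivity
  rw [pow_add]
  constructor
  · calc 2 * (q / 2 ^ d) * (2 ^ i * 2 ^ d) = 2 * (q / 2 ^ d * 2 ^ d) * 2 ^ i := by ring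
      _ ≤ 2 * q * 2 ^ i := by gcongr
      _ < (2 * q + 1) * 2 ^ i := by nlinarith
  · calc (2 * q + 1) * 2 ^ i < (2 * (q + 1)) * 2 ^ i := by nlinarith
      _ ≤ (2 * ((q / 2 ^ d + 1) * 2 ^ d)) * 2 ^ i := by gcongr
      _ = (2 * (q / 2 ^ d) + 2) * (2 ^ i * 2 ^ d) := by ring

/-- left half / right half -/
lemma half_left {i t x x' : ℕ} (hi : i ≤ t) (he : x' / 2 ^ (t + 1) = x / 2 ^ (t + 1))
    (hle : io i x ≤ io (t + 1) x') : x / 2 ^ t = 2 * (x / 2 ^ (t + 1)) := by
  have h1 := (io_bounds (x := x) hi).1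
  have h2 : io (t + 1) x' = (2 * (x / 2 ^ (t + 1)) + 1) * 2 * 2 ^ t := by
    unfold io; rw [he, pow_succ]; ring
  have h3 : x / 2 ^ (t + 1) = x / 2 ^ t / 2 := by
    rw [pow_succ, Nat.div_div_eq_div_mul]
  have h4 : 2 * (x / 2 ^ t) * 2 ^ t < (2 * (x / 2 ^ (t + 1)) + 1) * 2 * 2 ^ t := by omega
  have h5 := Nat.lt_of_mul_lt_mul_right h4
  omega

lemma half_right {i t x x' : ℕ} (hi : i ≤ t) (he : x' / 2 ^ (t + 1) = x / 2 ^ (t + 1))
    (hle : io (t + 1) x' ≤ io i x) : x / 2 ^ t = 2 * (x / 2 ^ (t + 1)) + 1 := by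
  have h1 := (io_bounds (x := x) hi).2
  have h2 : io (t + 1) x' = (2 * (x / 2 ^ (t + 1)) + 1) * 2 * 2 ^ t := by
    unfold io; rw [he, pow_succ]; ring
  have h3 : x / 2 ^ (t + 1) = x / 2 ^ t / 2 := by
    rw [pow_succ, Nat.div_div_eq_div_mul]
  have h4 : (2 * (x / 2 ^ (t + 1)) + 1) * 2 * 2 ^ t < (2 * (x / 2 ^ t) + 2) * 2 ^ t := by omega
  have h5 := Nat.lt_of_mul_lt_mul_right h4
  omega

lemma io_left {i t x : ℕ} (hi : i ≤ t) (hx : (x / 2 ^ t) % 2 = 0) : io i x < io (t + 1) x := by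
  have h1 := (io_bounds (x := x) hi).2
  have h3 : x / 2 ^ (t + 1) = x / 2 ^ t / 2 := by
    rw [pow_succ, Nat.div_div_eq_div_mul]
  have h2 : io (t + 1) x = (2 * (x / 2 ^ t) + 2) * 2 ^ t := by
    unfold io
    rw [h3, pow_succ]
    have : x / 2 ^ t = 2 * (x / 2 ^ t / 2) := by omega
    calc (2 * (x / 2 ^ t / 2) + 1) * (2 ^ t * 2) = (2 * (2 * (x / 2 ^ t / 2)) + 2) * 2 ^ t := by ring
      _ = _ := by rw [← this]
  omega

lemma io_right {i t x : ℕ} (hi : i ≤ t) (hx : (x / 2 ^ t) % 2 = 1) : io (t + 1) x < io i x := by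
  have h1 := (io_bounds (x := x) hi).1
  have h3 : x / 2 ^ (t + 1) = x / 2 ^ t / 2 := by
    rw [pow_succ, Nat.div_div_eq_div_mul]
  have h2 : io (t + 1) x = 2 * (x / 2 ^ t) * 2 ^ t := by
    unfold io
    rw [h3, pow_succ]
    have : x / 2 ^ t = 2 * (x / 2 ^ t / 2) + 1 := by omega
    calc (2 * (x / 2 ^ t / 2) + 1) * (2 ^ t * 2) = (2 * (2 * (x / 2 ^ t / 2) + 1)) * 2 ^ t := by ring
      _ = _ := by rw [← this]
  omega

lemma midRole_64 {h : ℕ} {p : Bool} {g i : ℕ} (hm : midRole h p g i = some 64) :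
    g < 4 * h ∧ i ≤ g / 4 ∧ (decide (g % 2 = 0) = p → i = g / 4) := by
  unfold midRole at hm
  split_ifs at hm with h1 h2 h3 h4 h4 <;> simp at hm
  exact ⟨h1, h4.1, h4.2⟩

lemma main_mid {h : ℕ} {p : Bool} {z : X h} {g : Fin (4 * h + 1)} (hg : (g : ℕ) < 4 * h)
    (hr : role h p z.1 g = some 64) :
    ∃ i : Fin (h + 1), z.1 = Sum.inr i ∧ (i : ℕ) ≤ g / 4 ∧ (decide ((g : ℕ) % 2 = 0) = p → (i : ℕ) = g / 4) := by
  rcases hz : z.1 with ⟨g', k⟩ | i
  · rw [hz] at hr
    obtain ⟨h1, h2, h3⟩ := role_inl hr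
    unfold used at h2
    omega
  · rw [hz] at hr
    simp only [role] at hr
    obtain ⟨-, h2, h3⟩ := midRole_64 hr
    exact ⟨i, rfl, h2, h3⟩

lemma E_left {h : ℕ} {p : Bool} {x : ℕ → X h} {g : Fin (4 * h + 1)} (hg : (g : ℕ) < 4 * h)
    (hL : (g : ℕ) % 4 < 2) (hx : key (x 64) < key (x 65)) (h64 : ∃ i : Fin (h + 1), (x 64).1 = Sum.inr i)
    {r : ℕ} (hr : role h p (x 65).1 g = some r) (hr63 : 63 ≤ r) (hr64 : r ≠ 64) :
    ∃ i : Fin (h + 1), (x 65).1 = Sum.inr i ∧ (i : ℕ) = g / 4 + 1 := by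
  obtain ⟨i64, h64⟩ := h64
  rcases hz : (x 65).1 with ⟨g', k⟩ | i
  · rw [hz] at hr
    obtain ⟨h1, h2, h3⟩ := role_inl hr
    unfold used at h2
    rw [key_mid h64, key_top hz (by omega), mk_lt] at hx
    omega
  · refine ⟨i, rfl, ?_⟩
    rw [hz] at hr
    simp only [role, midRole] at hr
    split_ifs at hr with h1 <;> simp at hr <;> omega

lemma E_right {h : ℕ} {p : Bool} {x : ℕ → X h} {g : Fin (4 * h + 1)} (hg : (g : ℕ) < 4 * h)
    (hL : ¬ (g : ℕ) % 4 < 2) (hx : key (x 63) < key (x 64)) (h64 : ∃ i : Fin (h + 1), (x 64).1 = Sum.inr i)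
    {r : ℕ} (hr : role h p (x 63).1 g = some r) (hr63 : 63 ≤ r) (hr64 : r ≠ 64) :
    ∃ i : Fin (h + 1), (x 63).1 = Sum.inr i ∧ (i : ℕ) = g / 4 + 1 := by
  obtain ⟨i64, h64⟩ := h64
  rcases hz : (x 63).1 with ⟨g', k⟩ | i
  · rw [hz] at hr
    obtain ⟨h1, h2, h3⟩ := role_inl hr
    unfold used at h2
    rw [key_mid h64, key_bot hz (by omega), mk_lt] at hx
    omega
  · refine ⟨i, rfl, ?_⟩
    rw [hz] at hr
    simp only [role, midRole] at hr
    split_ifs at hr with h1 <;> simp at hr <;> omega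

lemma G0_row {h : ℕ} {p : Bool} {x : ℕ → X h} {g : Fin (4 * h + 1)} (hg : ¬ (g : ℕ) < 4 * h)
    (hx : key (x 64) < key (x 65)) (h64 : role h p (x 64).1 g = some 64)
    {r : ℕ} (hr : role h p (x 65).1 g = some r) (hr63 : 63 ≤ r) (hr64 : r ≠ 64) :
    (x 65).1 = Sum.inr 0 := by
  have hx64 : ∃ k : Fin 66, (x 64).1 = Sum.inl (g, k) ∧ (k : ℕ) = 64 := by
    rcases hz : (x 64).1 with ⟨g', k⟩ | i
    · rw [hz] at h64
      obtain ⟨h1, h2, h3⟩ := role_inl h64
      exact ⟨k, by rw [Fin.ext h1], h3⟩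
    · rw [hz] at h64
      simp only [role] at h64
      exact absurd (midRole_64 h64).1 hg
  obtain ⟨k, hk, hk'⟩ := hx64
  rcases hz : (x 65).1 with ⟨g', k'⟩ | i
  · rw [hz] at hr
    obtain ⟨h1, h2, h3⟩ := role_inl hr
    unfold used at h2
    rw [key_top hk (by omega), key_top hz (by omega), mk_lt] at hx
    omega
  · rw [hz] at hr
    simp only [role, midRole, if_neg hg] at hr
    split_ifs at hr with h1
    rw [show i = 0 from Fin.ext h1]

theorem rigid {h : ℕ} {x y : ℕ → X h} (hc : Copy h true x y) :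
    (x 65).1 = Sum.inr 0 ∧ (y 65).1 = Sum.inr 0 ∧ (x 65).2 = (y 65).2 := by
  obtain ⟨g, hX, hY⟩ := align hc
  obtain ⟨rx3, hrx3, hrx3', hrx3''⟩ := special_role hc hY (s := 63) (by omega) (by omega)
  obtain ⟨rx4, hrx4, hrx4', hrx4''⟩ := special_role hc hY (s := 64) (by omega) (by omega)
  obtain ⟨rx5, hrx5, hrx5', hrx5''⟩ := special_role hc hY (s := 65) (by omega) (by omega)
  obtain ⟨ry3, hry3, hry3', hry3''⟩ := special_role hc.symm hX (s := 63) (by omega) (by omega)
  obtain ⟨ry4, hry4, hry4', hry4''⟩ := special_role hc.symm hX (s := 64) (by omega) (by omega)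
  obtain ⟨ry5, hry5, hry5', hry5''⟩ := special_role hc.symm hX (s := 65) (by omega) (by omega)
  have hrx4e : rx4 = 64 := by omega
  have hry4e : ry4 = 64 := by omega
  subst hrx4e hry4e
  by_cases hg : (g : ℕ) < 4 * h
  · exfalso
    obtain ⟨i, hi, hi1, hi2⟩ := main_mid hg hrx4
    obtain ⟨j, hj, hj1, hj2⟩ := main_mid hg hry4
    have hmax : max (i : ℕ) (j : ℕ) = g / 4 := by
      by_cases hpar : (g : ℕ) % 2 = 0
      · have := hi2 (by simp [hpar]); omega
      · have := hj2 (by simp [hpar]); omega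
    -- it is enough to show that both labels are in the same block of level `g/4`
    have goal : ¬ ((x 64).2 : ℕ) / 2 ^ ((g : ℕ) / 4) = ((y 64).2 : ℕ) / 2 ^ ((g : ℕ) / 4) := by
      intro hcon
      have e1 := hc.hM 64 64 (by omega) (by omega)
      have e2 : Mp h true (x 64) (y 64) = true := by
        rw [Mp_mid hi hj]
        unfold R
        rw [hmax]; exact hcon
      rw [e2] at e1
      exact absurd ((Hn_block (i := 64) (j := 64) (by omega) (by omega)).mp e1.symm) (by simp)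
    by_cases hL : (g : ℕ) % 4 < 2
    · obtain ⟨i', hi', hi'1⟩ := E_left hg hL (hc.hx 64 65 (by omega) (by omega)) ⟨i, hi⟩ hrx5 hrx5' (by omega)
      obtain ⟨j', hj', hj'1⟩ := E_left hg hL (hc.hy 64 65 (by omega) (by omega)) ⟨j, hj⟩ hry5 hry5' (by omega)
      have m1 : R i (x 64).2 j' (y 65).2 := by
        rw [← Mp_mid (p := true) hi hj', hc.hM 64 65 (by omega) (by omega), Hn_block (by omega) (by omega)]
        omega
      have m2 : R i' (x 65).2 j (y 64).2 := by
        rw [← Mp_mid (p := true) hi' hj, hc.hM 65 64 (by omega) (by omega), Hn_block (by omega) (by omega)]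
        omega
      have m3 : R i' (x 65).2 j' (y 65).2 := by
        rw [← Mp_mid (p := true) hi' hj', hc.hM 65 65 (by omega) (by omega), Hn_block (by omega) (by omega)]
        omega
      unfold R at m1 m2 m3
      rw [show max (i : ℕ) (j' : ℕ) = g / 4 + 1 by omega] at m1
      rw [show max (i' : ℕ) (j : ℕ) = g / 4 + 1 by omega] at m2
      rw [show max (i' : ℕ) (j' : ℕ) = g / 4 + 1 by omega] at m3
      have ox := hc.hx 64 65 (by omega) (by omega)
      rw [key_mid hi, key_mid hi', mk_lt] at ox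
      have oy := hc.hy 64 65 (by omega) (by omega)
      rw [key_mid hj, key_mid hj', mk_lt] at oy
      rw [hi'1] at ox
      rw [hj'1] at oy
      have a1 := half_left (x := (x 64).2) (x' := (x 65).2) hi1 (by omega) (by omega)
      have a2 := half_left (x := (y 64).2) (x' := (y 65).2) hj1 (by omega) (by omega)
      apply goal
      omega
    · obtain ⟨i', hi', hi'1⟩ := E_right hg hL (hc.hx 63 64 (by omega) (by omega)) ⟨i, hi⟩ hrx3 hrx3' (by omega)
      obtain ⟨j', hj', hj'1⟩ := E_right hg hL (hc.hy 63 64 (by omega) (by omega)) ⟨j, hj⟩ hry3 hry3' (by omega)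
      have m1 : R i (x 64).2 j' (y 63).2 := by
        rw [← Mp_mid (p := true) hi hj', hc.hM 64 63 (by omega) (by omega), Hn_block (by omega) (by omega)]
        omega
      have m2 : R i' (x 63).2 j (y 64).2 := by
        rw [← Mp_mid (p := true) hi' hj, hc.hM 63 64 (by omega) (by omega), Hn_block (by omega) (by omega)]
        omega
      have m3 : R i' (x 63).2 j' (y 63).2 := by
        rw [← Mp_mid (p := true) hi' hj', hc.hM 63 63 (by omega) (by omega), Hn_block (by omega) (by omega)]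
        omega
      unfold R at m1 m2 m3
      rw [show max (i : ℕ) (j' : ℕ) = g / 4 + 1 by omega] at m1
      rw [show max (i' : ℕ) (j : ℕ) = g / 4 + 1 by omega] at m2
      rw [show max (i' : ℕ) (j' : ℕ) = g / 4 + 1 by omega] at m3
      have ox := hc.hx 63 64 (by omega) (by omega)
      rw [key_mid hi, key_mid hi', mk_lt] at ox
      have oy := hc.hy 63 64 (by omega) (by omega)
      rw [key_mid hj, key_mid hj', mk_lt] at oy
      rw [hi'1] at ox
      rw [hj'1] at oy
      have a1 := half_right (x := (x 64).2) (x' := (x 63).2) hi1 (by omega) (by omega)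
      have a2 := half_right (x := (y 64).2) (x' := (y 63).2) hj1 (by omega) (by omega)
      apply goal
      omega
  · have hx5 := G0_row hg (hc.hx 64 65 (by omega) (by omega)) hrx4 hrx5 hrx5' (by omega)
    have hy5 := G0_row hg (hc.hy 64 65 (by omega) (by omega)) hry4 hry5 hry5' (by omega)
    refine ⟨hx5, hy5, ?_⟩
    have m3 : R (0 : Fin (h + 1)) (x 65).2 (0 : Fin (h + 1)) (y 65).2 := by
      rw [← Mp_mid (p := true) hx5 hy5, hc.hM 65 65 (by omega) (by omega), Hn_block (by omega) (by omega)]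
      omega
    unfold R at m3
    simp at m3
    exact Fin.ext m3

/-! ### counting copies -/

def H66 : Fin 66 → Fin 66 → Bool := fun i j => Hn i j

lemma Hn_row_one {i : ℕ} (hi : i < 66) : ∃ j, j < 66 ∧ Hn i j = true := by
  rcases (by omega : i = 0 ∨ (i ≠ 0 ∧ i < 63) ∨ i = 64 ∨ (63 ≤ i ∧ i ≠ 64)) with h | h | h | h
  · exact ⟨1, by omega, by rw [Hn_fill (by omega) (by omega)]; omega⟩
  · exact ⟨0, by omega, by rw [Hn_fill (by omega) (by omega)]; omega⟩
  · exact ⟨61, by omega, by rw [Hn_spec (by omega) (by omega)]; omega⟩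
  · exact ⟨62, by omega, by rw [Hn_spec (by omega) (by omega)]; omega⟩

lemma copy_form {h : ℕ} (hh : 1 ≤ h) {r c : Fin 66 → Fin ((386 * h + 2) * 2 ^ h)}
    (hr : StrictMono r) (hc : StrictMono c) (hA : ∀ i j, Amat hh (r i) (c j) = H66 i j) :
    ∃ a : Fin (2 ^ h), r (Fin.last 65) = e hh (Sum.inr 0, a) ∧ c (Fin.last 65) = e hh (Sum.inr 0, a) := by
  have hrx : ∀ i, ∃ x, e hh x = r i := by
    intro i
    obtain ⟨j, hj, hij⟩ := Hn_row_one i.2
    exact (Amat_true hh (i := r i) (j := c ⟨j, hj⟩) (by rw [hA]; exact hij)).1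
  have hcx : ∀ i, ∃ x, e hh x = c i := by
    intro i
    obtain ⟨j, hj, hij⟩ := Hn_row_one i.2
    rw [Hn_symm] at hij
    exact (Amat_true hh (i := r ⟨j, hj⟩) (j := c i) (by rw [hA]; exact hij)).2
  choose x hx using hrx
  choose y hy using hcx
  have hcopy : Copy h true (fun k => x (Fin.ofNat 66 k)) (fun k => y (Fin.ofNat 66 k)) := by
    refine ⟨?_, ?_, ?_⟩
    · intro i j hij hj
      rw [← e_lt hh, hx, hx]
      apply hr
      rw [Fin.lt_def]
      simp only [Fin.ofNat]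
      rw [Nat.mod_eq_of_lt (by omega), Nat.mod_eq_of_lt hj]
      exact hij
    · intro i j hij hj
      rw [← e_lt hh, hy, hy]
      apply hc
      rw [Fin.lt_def]
      simp only [Fin.ofNat]
      rw [Nat.mod_eq_of_lt (by omega), Nat.mod_eq_of_lt hj]
      exact hij
    · intro i j hi hj
      rw [← Amat_e hh, hx, hy, hA]
      simp only [H66, Fin.ofNat]
      rw [Nat.mod_eq_of_lt hi, Nat.mod_eq_of_lt hj]
  obtain ⟨h1, h2, h3⟩ := rigid hcopy
  have h65 : (Fin.ofNat 66 65) = Fin.last 65 := by rfl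
  simp only [h65] at h1 h2 h3
  refine ⟨(x (Fin.last 65)).2, ?_, ?_⟩
  · rw [← hx, ← h1]
  · rw [← hy, h3, ← h2]

open Crest.CombinatoricsR.OrderedMatrix in
lemma count_le {h : ℕ} (hh : 1 ≤ h) : orderedCopyCount H66 (Amat hh) ≤
    2 ^ h * (((386 * h + 2) * 2 ^ h) ^ 65 * ((386 * h + 2) * 2 ^ h) ^ 65) := by
  classical
  unfold orderedCopyCount
  have key1 : ∀ rc : {rc : (Fin 66 → Fin ((386 * h + 2) * 2 ^ h)) × (Fin 66 → Fin ((386 * h + 2) * 2 ^ h)) //
      StrictMono rc.1 ∧ StrictMono rc.2 ∧ ∀ i j : Fin 66, Amat hh (rc.1 i) (rc.2 j) = H66 i j},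
      ∃ a : Fin (2 ^ h), rc.1.1 (Fin.last 65) = e hh (Sum.inr 0, a) ∧
        rc.1.2 (Fin.last 65) = e hh (Sum.inr 0, a) := fun rc => copy_form hh rc.2.1 rc.2.2.1 rc.2.2.2
  choose f hf using key1
  have hinj : Function.Injective (fun rc : {rc : (Fin 66 → Fin ((386 * h + 2) * 2 ^ h)) × (Fin 66 → Fin ((386 * h + 2) * 2 ^ h)) //
      StrictMono rc.1 ∧ StrictMono rc.2 ∧ ∀ i j : Fin 66, Amat hh (rc.1 i) (rc.2 j) = H66 i j} =>
      ((f rc, ((fun i : Fin 65 => rc.1.1 i.castSucc), (fun i : Fin 65 => rc.1.2 i.castSucc))) :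
        Fin (2 ^ h) × ((Fin 65 → Fin ((386 * h + 2) * 2 ^ h)) × (Fin 65 → Fin ((386 * h + 2) * 2 ^ h))))) := by
    intro rc rc' heq
    simp only [Prod.mk.injEq] at heq
    obtain ⟨h1, h2, h3⟩ := heq
    apply Subtype.ext
    apply Prod.ext
    · funext i
      refine Fin.lastCases ?_ (fun i => congrFun h2 i) i
      rw [(hf rc).1, (hf rc').1, h1]
    · funext i
      refine Fin.lastCases ?_ (fun i => congrFun h3 i) i
      rw [(hf rc).2, (hf rc').2, h1]
  have := Fintype.card_le_of_injective _ hinj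
  simpa [Fintype.card_prod, Fintype.card_fin] using this

/-! ### farness -/

def low {h : ℕ} (τ : T h) : Prop := ∃ i : Fin (h + 1), τ = Sum.inr i ∧ (i : ℕ) < h

open Classical in
noncomputable def rl {h : ℕ} (x y : Fin (2 ^ h)) (τ : T h) : Fin (2 ^ h) := if low τ then x else x + y

open Classical in
noncomputable def cl {h : ℕ} (x y : Fin (2 ^ h)) (τ : T h) : Fin (2 ^ h) := if low τ then x else y

lemma step_mono {κ : ℕ → K} (hκ : ∀ k, k + 1 < 66 → κ k < κ (k + 1)) :
    ∀ i j, i < j → j < 66 → κ i < κ j := by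
  intro i j hij
  induction j with
  | zero => omega
  | succ j ih =>
    intro hj
    rcases Nat.lt_or_ge i j with h1 | h1
    · exact (ih h1 (by omega)).trans (hκ j hj)
    · have : i = j := by omega
      subst this; exact hκ i hj

lemma io_top {h : ℕ} (a : Fin (2 ^ h)) : io h a = 2 ^ h := by
  unfold io
  rw [Nat.div_eq_of_lt a.2]; ring

/-- a copy from the embedded data -/
lemma copy_of {h : ℕ} (hh : 1 ≤ h) {B : Fin ((386 * h + 2) * 2 ^ h) → Fin ((386 * h + 2) * 2 ^ h) → Bool}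
    {x y : ℕ → X h} (hx : ∀ k, k + 1 < 66 → key (x k) < key (x (k + 1)))
    (hy : ∀ k, k + 1 < 66 → key (y k) < key (y (k + 1)))
    (hB : ∀ i j, i < 66 → j < 66 → B (e hh (x i)) (e hh (y j)) = Hn i j) :
    Crest.CombinatoricsR.OrderedMatrix.orderedCopyCount H66 B ≠ 0 := by
  unfold Crest.CombinatoricsR.OrderedMatrix.orderedCopyCount
  have hx' := step_mono (κ := fun k => key (x k)) hx
  have hy' := step_mono (κ := fun k => key (y k)) hy
  have : Nonempty {rc : (Fin 66 → Fin ((386 * h + 2) * 2 ^ h)) × (Fin 66 → Fin ((386 * h + 2) * 2 ^ h)) //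
      StrictMono rc.1 ∧ StrictMono rc.2 ∧ ∀ i j : Fin 66, B (rc.1 i) (rc.2 j) = H66 i j} := by
    refine ⟨⟨((fun i : Fin 66 => e hh (x i)), (fun i : Fin 66 => e hh (y i))), ?_, ?_, ?_⟩⟩
    · intro i j hij
      exact (e_lt hh).mpr (hx' i j hij j.2)
    · intro i j hij
      exact (e_lt hh).mpr (hy' i j hij j.2)
    · intro i j
      exact hB i j i.2 j.2
  exact Fintype.card_ne_zero

/-- rows (columns) realising gadget `g < 4h` with main level `i` and E-role `ε` -/
def rho {h : ℕ} (g : Fin (4 * h + 1)) (i t1 : Fin (h + 1)) (ε : ℕ) (k : ℕ) : T h :=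
  if k = 64 then Sum.inr i else if k = ε then Sum.inr t1 else Sum.inl (g, Fin.ofNat 66 k)

lemma rho_key {h : ℕ} {g : Fin (4 * h + 1)} {i t1 : Fin (h + 1)} {ε t : ℕ} {x : Fin (2 ^ h)}
    {lab : T h → Fin (2 ^ h)} (hlow : ∀ τ, low τ → lab τ = x)
    (hconst : ∀ τ τ', ¬ low τ → ¬ low τ' → lab τ = lab τ')
    (ht : (t1 : ℕ) = t + 1) (hi : (i : ℕ) ≤ t)
    (hε : (ε = 65 ∧ ((x : ℕ) / 2 ^ t) % 2 = 0) ∨ (ε = 63 ∧ ((x : ℕ) / 2 ^ t) % 2 = 1)) :
    ∀ k, k + 1 < 66 → key (rho g i t1 ε k, lab (rho g i t1 ε k)) <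
      key (rho g i t1 ε (k + 1), lab (rho g i t1 ε (k + 1))) := by
  have hio : io t1 (lab (Sum.inr t1)) = io (t + 1) x := by
    by_cases hl : (t1 : ℕ) < h
    · rw [hlow _ ⟨t1, rfl, hl⟩, ht]
    · have h1 : (t1 : ℕ) = h := by omega
      rw [h1, io_top, ← ht, h1, io_top]
  have hli : lab (Sum.inr i) = x := hlow _ ⟨i, rfl, by omega⟩
  have hrob : ∀ k l : Fin 66, lab (Sum.inl (g, k)) = lab (Sum.inl (g, l)) := by
    intro k l
    apply hconst <;> rintro ⟨i, hi, -⟩ <;> simp at hi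
  have hkt : ∀ k, k < 65 → key ((Sum.inl (g, Fin.ofNat 66 k), lab (Sum.inl (g, Fin.ofNat 66 k))) : X h) =
      mk 0 g k (lab (Sum.inl (g, 0))) := by
    intro k hk
    rw [key_top (g := g) (k := Fin.ofNat 66 k) rfl (by simp only [Fin.ofNat]; omega), hrob _ 0]
    simp only [Fin.ofNat]
    rw [Nat.mod_eq_of_lt (by omega)]
  have hkb : key ((Sum.inl (g, Fin.ofNat 66 65), lab (Sum.inl (g, Fin.ofNat 66 65))) : X h) =
      mk 2 g 65 (lab (Sum.inl (g, 0))) := by
    rw [key_bot (g := g) (k := Fin.ofNat 66 65) rfl (by simp [Fin.ofNat]), hrob _ 0]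
  have hki : key ((Sum.inr i, lab (Sum.inr i)) : X h) = mk 1 (io i x) i x := by
    rw [key_mid (i := i) rfl, hli]
  have hkt1 : key ((Sum.inr t1, lab (Sum.inr t1)) : X h) = mk 1 (io (t + 1) x) t1 (lab (Sum.inr t1)) := by
    rw [key_mid (i := t1) rfl, hio]
  intro k hk
  rcases hε with ⟨rfl, hbit⟩ | ⟨rfl, hbit⟩
  · have hio' := io_left hi hbit
    rcases (by omega : k + 1 < 64 ∨ k = 63 ∨ k = 64) with h1 | h1 | h1
    · have e1 : rho g i t1 65 k = Sum.inl (g, Fin.ofNat 66 k) := by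
        unfold rho; rw [if_neg (by omega), if_neg (by omega)]
      have e2 : rho g i t1 65 (k + 1) = Sum.inl (g, Fin.ofNat 66 (k + 1)) := by
        unfold rho; rw [if_neg (by omega), if_neg (by omega)]
      rw [e1, e2, hkt k (by omega), hkt (k + 1) (by omega), mk_lt]
      omega
    · subst h1
      have e1 : rho g i t1 65 63 = Sum.inl (g, Fin.ofNat 66 63) := by
        unfold rho; rw [if_neg (by omega), if_neg (by omega)]
      have e2 : rho g i t1 65 (63 + 1) = Sum.inr i := by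
        unfold rho; rw [if_pos (by omega)]
      rw [e1, e2, hkt 63 (by omega), hki, mk_lt]
      omega
    · subst h1
      have e1 : rho g i t1 65 64 = Sum.inr i := by
        unfold rho; rw [if_pos rfl]
      have e2 : rho g i t1 65 (64 + 1) = Sum.inr t1 := by
        unfold rho; rw [if_neg (by omega), if_pos (by omega)]
      rw [e1, e2, hki, hkt1, mk_lt]
      omega
  · have hio' := io_right hi hbit
    rcases (by omega : k + 1 < 63 ∨ k = 62 ∨ k = 63 ∨ k = 64) with h1 | h1 | h1 | h1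
    · have e1 : rho g i t1 63 k = Sum.inl (g, Fin.ofNat 66 k) := by
        unfold rho; rw [if_neg (by omega), if_neg (by omega)]
      have e2 : rho g i t1 63 (k + 1) = Sum.inl (g, Fin.ofNat 66 (k + 1)) := by
        unfold rho; rw [if_neg (by omega), if_neg (by omega)]
      rw [e1, e2, hkt k (by omega), hkt (k + 1) (by omega), mk_lt]
      omega
    · subst h1
      have e1 : rho g i t1 63 62 = Sum.inl (g, Fin.ofNat 66 62) := by
        unfold rho; rw [if_neg (by omega), if_neg (by omega)]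
      have e2 : rho g i t1 63 (62 + 1) = Sum.inr t1 := by
        unfold rho; rw [if_neg (by omega), if_pos (by omega)]
      rw [e1, e2, hkt 62 (by omega), hkt1, mk_lt]
      omega
    · subst h1
      have e1 : rho g i t1 63 63 = Sum.inr t1 := by
        unfold rho; rw [if_neg (by omega), if_pos (by omega)]
      have e2 : rho g i t1 63 (63 + 1) = Sum.inr i := by
        unfold rho; rw [if_pos (by omega)]
      rw [e1, e2, hkt1, hki, mk_lt]
      omega
    · subst h1
      have e1 : rho g i t1 63 64 = Sum.inr i := by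
        unfold rho; rw [if_pos rfl]
      have e2 : rho g i t1 63 (64 + 1) = Sum.inl (g, Fin.ofNat 66 65) := by
        unfold rho; rw [if_neg (by omega), if_neg (by omega)]
      rw [e1, e2, hki, hkb, mk_lt]
      omega

lemma rho_role {h : ℕ} {p : Bool} {g : Fin (4 * h + 1)} {i t1 : Fin (h + 1)} {ε t : ℕ}
    (hg : (g : ℕ) < 4 * h) (hgt : (g : ℕ) / 4 = t) (ht : (t1 : ℕ) = t + 1) (hi : (i : ℕ) ≤ t)
    (hε : (ε = 65 ∧ (g : ℕ) % 4 < 2) ∨ (ε = 63 ∧ 2 ≤ (g : ℕ) % 4))
    (hU : decide ((g : ℕ) % 2 = 0) = p → (i : ℕ) = t) :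
    ∀ k, k < 66 → role h p (rho g i t1 ε k) g = some k := by
  intro k hk
  unfold rho
  split_ifs with h1 h2
  · simp only [role, midRole]
    rw [if_pos hg, if_neg (by omega), if_pos ⟨by omega, fun hh => by rw [hU hh, hgt]⟩, h1]
  · simp only [role, midRole]
    rw [if_pos hg, if_pos (by omega)]
    rcases hε with ⟨h3, h4⟩ | ⟨h3, h4⟩
    · rw [if_pos h4, h2, h3]
    · rw [if_neg (by omega), h2, h3]
  · simp only [role, Fin.ofNat]
    rw [Nat.mod_eq_of_lt hk, if_pos]
    refine ⟨trivial, ?_⟩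
    unfold used
    omega

lemma rl_low {h : ℕ} {x y : Fin (2 ^ h)} {τ : T h} (hl : low τ) : rl x y τ = x := by
  unfold rl; rw [if_pos hl]

lemma cl_low {h : ℕ} {x y : Fin (2 ^ h)} {τ : T h} (hl : low τ) : cl x y τ = x := by
  unfold cl; rw [if_pos hl]

lemma low_inr {h : ℕ} {i : Fin (h + 1)} (hl : low (Sum.inr i : T h)) : (i : ℕ) < h := by
  obtain ⟨j, hj, hj'⟩ := hl
  simp only [Sum.inr.injEq] at hj
  rw [hj]; exact hj'

lemma not_low_inl {h : ℕ} {a : Fin (4 * h + 1) × Fin 66} : ¬ low (Sum.inl a : T h) := by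
  rintro ⟨i, hi, -⟩
  simp at hi

lemma chain {h : ℕ} (hh : 1 ≤ h)
    {B : Fin ((386 * h + 2) * 2 ^ h) → Fin ((386 * h + 2) * 2 ^ h) → Bool}
    (hB : Crest.CombinatoricsR.OrderedMatrix.orderedCopyCount H66 B = 0) (x y : Fin (2 ^ h))
    (hag : ∀ τ τ' : T h, ¬ (low τ ∧ low τ') →
      B (e hh (τ, rl x y τ)) (e hh (τ', cl x y τ')) = Mp h true (τ, rl x y τ) (τ', cl x y τ')) :
    False := by
  have P : ∀ n (i j : Fin (h + 1)), (i : ℕ) < h → (j : ℕ) < h → h - max (i : ℕ) j = n →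
      B (e hh (Sum.inr i, x)) (e hh (Sum.inr j, x)) = true := by
    intro n
    induction n using Nat.strong_induction_on with
    | _ n ih =>
      intro i j hi hj hn
      by_contra hne
      have hfalse : B (e hh (Sum.inr i, x)) (e hh (Sum.inr j, x)) = false := by simpa using hne
      obtain ⟨t, ht⟩ : ∃ t, t = max (i : ℕ) j := ⟨_, rfl⟩
      obtain ⟨s, hs⟩ : ∃ s, s = ((x : ℕ) / 2 ^ t) % 2 := ⟨_, rfl⟩
      have hs2 : s < 2 := by rw [hs]; exact Nat.mod_lt _ (by omega)
      obtain ⟨kd, hkd⟩ : ∃ kd, kd = if (i : ℕ) = t then 0 else 1 := ⟨_, rfl⟩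
      have hkd2 : (kd = 0 ∧ (i : ℕ) = t) ∨ (kd = 1 ∧ (j : ℕ) = t) := by
        by_cases hit : (i : ℕ) = t
        · rw [if_pos hit] at hkd; exact Or.inl ⟨hkd, hit⟩
        · rw [if_neg hit] at hkd; exact Or.inr ⟨hkd, by omega⟩
      have hgb : 4 * t + 2 * s + kd < 4 * h + 1 := by omega
      obtain ⟨g, hg⟩ : ∃ g : Fin (4 * h + 1), (g : ℕ) = 4 * t + 2 * s + kd := ⟨⟨_, hgb⟩, rfl⟩
      obtain ⟨t1, ht1⟩ : ∃ t1 : Fin (h + 1), (t1 : ℕ) = t + 1 := ⟨⟨t + 1, by omega⟩, rfl⟩
      obtain ⟨ε, hε⟩ : ∃ ε, (ε = 65 ∧ s = 0) ∨ (ε = 63 ∧ s = 1) := by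
        rcases (by omega : s = 0 ∨ s = 1) with h0 | h0
        · exact ⟨65, Or.inl ⟨rfl, h0⟩⟩
        · exact ⟨63, Or.inr ⟨rfl, h0⟩⟩
      have hε1 : (ε = 65 ∧ ((x : ℕ) / 2 ^ t) % 2 = 0) ∨ (ε = 63 ∧ ((x : ℕ) / 2 ^ t) % 2 = 1) := by
        rw [← hs]; exact hε
      have hε2 : (ε = 65 ∧ (g : ℕ) % 4 < 2) ∨ (ε = 63 ∧ 2 ≤ (g : ℕ) % 4) := by omega
      have hkx := rho_key (g := g) (i := i) (t1 := t1) (ε := ε) (t := t) (x := x) (lab := rl x y)
        (fun τ hτ => rl_low hτ) (fun τ τ' h1 h2 => by unfold rl; rw [if_neg h1, if_neg h2])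
        ht1 (by omega) hε1
      have hky := rho_key (g := g) (i := j) (t1 := t1) (ε := ε) (t := t) (x := x) (lab := cl x y)
        (fun τ hτ => cl_low hτ) (fun τ τ' h1 h2 => by unfold cl; rw [if_neg h1, if_neg h2])
        ht1 (by omega) hε1
      have hrx := rho_role (p := true) (g := g) (i := i) (t1 := t1) (ε := ε) (t := t)
        (by omega) (by omega) ht1 (by omega) hε2 (by simp only [decide_eq_true_eq]; omega)
      have hry := rho_role (p := false) (g := g) (i := j) (t1 := t1) (ε := ε) (t := t)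
        (by omega) (by omega) ht1 (by omega) hε2 (by simp only [decide_eq_false_iff_not]; omega)
      refine copy_of hh hkx hky ?_ hB
      intro k l hk hl
      by_cases hlow : low (rho g i t1 ε k) ∧ low (rho g j t1 ε l)
      · obtain ⟨hl1, hl2⟩ := hlow
        rw [rl_low hl1, cl_low hl2]
        by_cases hk64 : k = 64
        · have e1 : rho g i t1 ε k = Sum.inr i := by unfold rho; rw [if_pos hk64]
          rw [e1]
          by_cases hl64 : l = 64
          · have e2 : rho g j t1 ε l = Sum.inr j := by unfold rho; rw [if_pos hl64]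
            rw [e2, hfalse, hk64, hl64]
            rfl
          · have e2 : rho g j t1 ε l = if l = ε then Sum.inr t1 else Sum.inl (g, Fin.ofNat 66 l) := by
              unfold rho; rw [if_neg hl64]
            by_cases hlε : l = ε
            · rw [if_pos hlε] at e2
              rw [e2] at hl2 ⊢
              have ht1h := low_inr hl2
              rw [ih (h - max (i : ℕ) t1) (by omega) i t1 hi ht1h rfl]
              symm
              rw [Hn_block (by omega) (by omega)]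
              omega
            · rw [if_neg hlε] at e2
              rw [e2] at hl2
              exact absurd hl2 not_low_inl
        · have e1 : rho g i t1 ε k = if k = ε then Sum.inr t1 else Sum.inl (g, Fin.ofNat 66 k) := by
            unfold rho; rw [if_neg hk64]
          by_cases hkε : k = ε
          · rw [if_pos hkε] at e1
            rw [e1] at hl1 ⊢
            have ht1h := low_inr hl1
            by_cases hl64 : l = 64
            · have e2 : rho g j t1 ε l = Sum.inr j := by unfold rho; rw [if_pos hl64]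
              rw [e2]
              rw [ih (h - max (t1 : ℕ) j) (by omega) t1 j ht1h hj rfl]
              symm
              rw [Hn_block (by omega) (by omega)]
              omega
            · have e2 : rho g j t1 ε l = if l = ε then Sum.inr t1 else Sum.inl (g, Fin.ofNat 66 l) := by
                unfold rho; rw [if_neg hl64]
              by_cases hlε : l = ε
              · rw [if_pos hlε] at e2
                rw [e2] at hl2 ⊢
                rw [ih (h - max (t1 : ℕ) t1) (by omega) t1 t1 ht1h ht1h rfl]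
                symm
                rw [Hn_block (by omega) (by omega)]
                omega
              · rw [if_neg hlε] at e2
                rw [e2] at hl2
                exact absurd hl2 not_low_inl
          · rw [if_neg hkε] at e1
            rw [e1] at hl1
            exact absurd hl1 not_low_inl
      · rw [hag _ _ hlow]
        have hr1 := hrx k hk
        have hr2 := hry l hl
        rcases h1 : rho g i t1 ε k with ⟨g', q⟩ | i'
        · rw [h1] at hr1
          have hg' : g' = g := Fin.ext (role_inl hr1).1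
          subst hg'
          rw [Mp_row (g := g') (k := q) rfl]
          simp only [Bool.not_true]
          rw [hr1, hr2]; rfl
        · rcases h2 : rho g j t1 ε l with ⟨g', q⟩ | j'
          · rw [h1] at hr1
            rw [h2] at hr2
            have hg' : g' = g := Fin.ext (role_inl hr2).1
            subst hg'
            rw [Mp_col (g := g') (k := q) rfl]
            simp only [Bool.not_true]
            rw [hr1, hr2]; rfl
          · rw [h1, h2] at hlow
            have hi' : (i' = i ∧ k = 64) ∨ (i' = t1 ∧ k = ε) := by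
              unfold rho at h1
              split_ifs at h1 with h3 h4
              · simp only [Sum.inr.injEq] at h1; exact Or.inl ⟨h1.symm, h3⟩
              · simp only [Sum.inr.injEq] at h1; exact Or.inr ⟨h1.symm, h4⟩
            have hj' : (j' = j ∧ l = 64) ∨ (j' = t1 ∧ l = ε) := by
              unfold rho at h2
              split_ifs at h2 with h3 h4
              · simp only [Sum.inr.injEq] at h2; exact Or.inl ⟨h2.symm, h3⟩
              · simp only [Sum.inr.injEq] at h2; exact Or.inr ⟨h2.symm, h4⟩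
            have hnl : ¬ (low (Sum.inr i' : T h) ∧ low (Sum.inr j' : T h)) := hlow
            have hor : ((i' : ℕ) = h ∧ i' = t1 ∧ k = ε) ∨ ((j' : ℕ) = h ∧ j' = t1 ∧ l = ε) := by
              by_contra hcon
              apply hnl
              constructor
              · refine ⟨i', rfl, ?_⟩
                rcases hi' with ⟨h3, h4⟩ | ⟨h3, h4⟩
                · rw [h3]; exact hi
                · by_contra h5
                  exact hcon (Or.inl ⟨by omega, h3, h4⟩)
              · refine ⟨j', rfl, ?_⟩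
                rcases hj' with ⟨h3, h4⟩ | ⟨h3, h4⟩
                · rw [h3]; exact hj
                · by_contra h5
                  exact hcon (Or.inr ⟨by omega, h3, h4⟩)
            have hM : Mp h true ((Sum.inr i', rl x y (Sum.inr i')) : X h)
                ((Sum.inr j', cl x y (Sum.inr j')) : X h) = true := by
              rw [Mp_mid (i := i') (j := j') rfl rfl]
              unfold R
              have : max (i' : ℕ) j' = h := by omega
              rw [this, Nat.div_eq_of_lt (rl x y (Sum.inr i')).2, Nat.div_eq_of_lt (cl x y (Sum.inr j')).2]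
            rw [hM]
            symm
            rw [Hn_block (by omega) (by omega)]
            omega
  have h00 := P (h - max ((0 : Fin (h + 1)) : ℕ) ((0 : Fin (h + 1)) : ℕ)) 0 0 (by simp; omega) (by simp; omega) rfl
  have low0 : low (Sum.inr 0 : T h) := ⟨0, rfl, by simp; omega⟩
  obtain ⟨g, hg⟩ : ∃ g : Fin (4 * h + 1), (g : ℕ) = 4 * h := ⟨⟨4 * h, by omega⟩, rfl⟩
  have hrole : ∀ p k, k < 66 → role h p (if k = 65 then Sum.inr 0 else Sum.inl (g, Fin.ofNat 66 k)) g = some k := by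
    intro p k hk
    split_ifs with h1
    · simp only [role, midRole]
      rw [if_neg (by omega), if_pos (by simp), h1]
    · simp only [role, Fin.ofNat]
      rw [Nat.mod_eq_of_lt hk, if_pos]
      refine ⟨trivial, ?_⟩
      unfold used
      omega
  have hkey : ∀ lab : T h → Fin (2 ^ h), (∀ k l : Fin 66, lab (Sum.inl (g, k)) = lab (Sum.inl (g, l))) →
      ∀ k, k + 1 < 66 → key (((if k = 65 then Sum.inr 0 else Sum.inl (g, Fin.ofNat 66 k)),
        lab (if k = 65 then Sum.inr 0 else Sum.inl (g, Fin.ofNat 66 k))) : X h) <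
        key (((if k + 1 = 65 then Sum.inr 0 else Sum.inl (g, Fin.ofNat 66 (k + 1))),
        lab (if k + 1 = 65 then Sum.inr 0 else Sum.inl (g, Fin.ofNat 66 (k + 1)))) : X h) := by
    intro lab hlab k hk
    have hkt : ∀ k, k < 65 → key ((Sum.inl (g, Fin.ofNat 66 k), lab (Sum.inl (g, Fin.ofNat 66 k))) : X h) =
        mk 0 g k (lab (Sum.inl (g, 0))) := by
      intro k hk
      rw [key_top (g := g) (k := Fin.ofNat 66 k) rfl (by simp only [Fin.ofNat]; omega), hlab _ 0]
      simp only [Fin.ofNat]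
      rw [Nat.mod_eq_of_lt (by omega)]
    rw [if_neg (by omega : ¬ k = 65), hkt k (by omega)]
    by_cases h1 : k + 1 = 65
    · rw [if_pos h1, key_mid (i := 0) rfl, mk_lt]; omega
    · rw [if_neg h1, hkt (k + 1) (by omega), mk_lt]; omega
  refine copy_of hh (hkey (rl x y) (fun k l => by unfold rl; rw [if_neg not_low_inl, if_neg not_low_inl]))
    (hkey (cl x y) (fun k l => by unfold cl; rw [if_neg not_low_inl, if_neg not_low_inl])) ?_ hB
  intro k l hk hl
  by_cases hkl : k = 65 ∧ l = 65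
  · obtain ⟨rfl, rfl⟩ := hkl
    rw [if_pos rfl, rl_low low0, cl_low low0, h00]
    rfl
  · rw [hag]
    · by_cases h1 : k = 65
      · have h2 : ¬ l = 65 := fun h2 => hkl ⟨h1, h2⟩
        rw [Mp_col (g := g) (k := Fin.ofNat 66 l) (by simp only; rw [if_neg h2])]
        simp only [Bool.not_true]
        rw [hrole true k hk, hrole false l hl]; rfl
      · rw [Mp_row (g := g) (k := Fin.ofNat 66 k) (by simp only; rw [if_neg h1])]
        simp only [Bool.not_true]
        rw [hrole true k hk, hrole false l hl]; rfl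
    · rintro ⟨h1, h2⟩
      by_cases h3 : k = 65
      · have h4 : ¬ l = 65 := fun h4 => hkl ⟨h3, h4⟩
        rw [if_neg h4] at h2
        exact not_low_inl h2
      · rw [if_neg h3] at h1
        exact not_low_inl h1

lemma far {h : ℕ} (hh : 1 ≤ h)
    {B : Fin ((386 * h + 2) * 2 ^ h) → Fin ((386 * h + 2) * 2 ^ h) → Bool}
    (hB : Crest.CombinatoricsR.OrderedMatrix.orderedCopyCount H66 B = 0) :
    2 ^ h * 2 ^ h ≤ (Finset.univ.filter (fun rc : Fin ((386 * h + 2) * 2 ^ h) × Fin ((386 * h + 2) * 2 ^ h) =>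
                Amat hh rc.1 rc.2 ≠ B rc.1 rc.2)).card := by
  have hex : ∀ xy : Fin (2 ^ h) × Fin (2 ^ h), ∃ τ τ' : T h, ¬ (low τ ∧ low τ') ∧
      B (e hh (τ, rl xy.1 xy.2 τ)) (e hh (τ', cl xy.1 xy.2 τ')) ≠
        Mp h true (τ, rl xy.1 xy.2 τ) (τ', cl xy.1 xy.2 τ') := by
    intro xy
    by_contra hcon
    push Not at hcon
    exact chain hh hB xy.1 xy.2 (fun τ τ' h1 => hcon τ τ' (fun h2 => not_and.mp h1 h2))
  choose τ τ' hτ using hex
  have hinj : Set.InjOn (fun xy : Fin (2 ^ h) × Fin (2 ^ h) =>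
      ((e hh (τ xy, rl xy.1 xy.2 (τ xy)), e hh (τ' xy, cl xy.1 xy.2 (τ' xy))) :
        Fin ((386 * h + 2) * 2 ^ h) × Fin ((386 * h + 2) * 2 ^ h)))
      ((Finset.univ : Finset (Fin (2 ^ h) × Fin (2 ^ h))) : Set (Fin (2 ^ h) × Fin (2 ^ h))) := by
    intro a _ b _ hab
    simp only [Prod.mk.injEq] at hab
    have h1 := e_inj hh hab.1
    have h2 := e_inj hh hab.2
    simp only [Prod.mk.injEq] at h1 h2
    obtain ⟨h3, h4⟩ := h1
    obtain ⟨h5, h6⟩ := h2
    rw [h3] at h4
    rw [h5] at h6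
    have hn := (hτ b).1
    by_cases hl1 : low (τ b)
    · have hl2 : ¬ low (τ' b) := fun hl2 => hn ⟨hl1, hl2⟩
      unfold rl at h4; unfold cl at h6
      rw [if_pos hl1, if_pos hl1] at h4
      rw [if_neg hl2, if_neg hl2] at h6
      exact Prod.ext h4 h6
    · unfold rl at h4
      rw [if_neg hl1, if_neg hl1] at h4
      unfold cl at h6
      by_cases hl2 : low (τ' b)
      · rw [if_pos hl2, if_pos hl2] at h6
        rw [h6] at h4
        exact Prod.ext h6 (add_left_cancel h4)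
      · rw [if_neg hl2, if_neg hl2] at h6
        rw [h6] at h4
        exact Prod.ext (add_right_cancel h4) h6
  have := Finset.card_le_card_of_injOn _ (t := (Finset.univ.filter (fun rc : Fin ((386 * h + 2) * 2 ^ h) × Fin ((386 * h + 2) * 2 ^ h) =>
                Amat hh rc.1 rc.2 ≠ B rc.1 rc.2))) (fun xy _ => by
      simp only [Finset.coe_filter, Finset.mem_univ, true_and, Set.mem_ofPred_eq]
      rw [Amat_e]
      exact (hτ xy).2.symm) hinj
  simpa using this

/-- There is a fixed 66 × 66 binary pattern H such that for every h ≥ 1, with n = (386h + 2) · 2^h and ε = (386h + 2)⁻², some n × n binary matrix A is ε-far from free of ordered copies of H (every n × n binary matrix without an ordered copy of H differs from A in at least ε · n² cells) while the number of ordered copies of H in A is at most ε · 2^(-h) · n^132. An ordered copy picks 66 rows and 66 columns in increasing order on which A coincides with H, zeros included. -/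
theorem result :
    ∃ H : Fin 66 → Fin 66 → Bool, ∀ h : ℕ, 1 ≤ h →
      ∃ A : Fin ((386 * h + 2) * 2 ^ h) → Fin ((386 * h + 2) * 2 ^ h) → Bool,
        (∀ B : Fin ((386 * h + 2) * 2 ^ h) → Fin ((386 * h + 2) * 2 ^ h) → Bool,
          Crest.CombinatoricsR.OrderedMatrix.orderedCopyCount H B = 0 →
            ((386 * (h : ℝ) + 2) ^ 2)⁻¹ * (((386 * h + 2) * 2 ^ h : ℕ) : ℝ) ^ 2 ≤
              ((Finset.univ.filter (fun rc : Fin ((386 * h + 2) * 2 ^ h) × Fin ((386 * h + 2) * 2 ^ h) =>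
                A rc.1 rc.2 ≠ B rc.1 rc.2)).card : ℝ)) ∧
        (Crest.CombinatoricsR.OrderedMatrix.orderedCopyCount H A : ℝ) /
            (((386 * h + 2) * 2 ^ h : ℕ) : ℝ) ^ 132 ≤
          ((386 * (h : ℝ) + 2) ^ 2)⁻¹ * (2 : ℝ)⁻¹ ^ h := by
  refine ⟨H66, fun h hh => ⟨Amat hh, ?_, ?_⟩⟩
  · intro B hB
    have h1 := far hh hB
    have h2 : ((2 ^ h * 2 ^ h : ℕ) : ℝ) ≤ ((Finset.univ.filter (fun rc : Fin ((386 * h + 2) * 2 ^ h) × Fin ((386 * h + 2) * 2 ^ h) =>
                Amat hh rc.1 rc.2 ≠ B rc.1 rc.2)).card : ℝ) := by exact_mod_cast h1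
    refine le_trans (le_of_eq ?_) h2
    push_cast
    have h3 : (386 * (h : ℝ) + 2) ≠ 0 := by positivity
    field_simp
  · have h1 := count_le hh
    have h2 : (Crest.CombinatoricsR.OrderedMatrix.orderedCopyCount H66 (Amat hh) : ℝ) ≤
        ((2 ^ h * (((386 * h + 2) * 2 ^ h) ^ 65 * ((386 * h + 2) * 2 ^ h) ^ 65) : ℕ) : ℝ) := by
      exact_mod_cast h1
    have h3 : (0 : ℝ) < (386 * (h : ℝ) + 2) := by positivity
    have h4 : (0 : ℝ) < (2 : ℝ) ^ h := by positivity
    rw [div_le_iff₀ (by positivity)]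
    refine h2.trans (le_of_eq ?_)
    push_cast
    rw [inv_pow]
    generalize (386 * (h : ℝ) + 2) = m at *
    generalize (2 : ℝ) ^ h = N at *
    field_simp

end Crest.Agent.S0066
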