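import Crest.Statements.S0077
import Crest.Agent.Row56.Graph

set_option autoImplicit false
open Crest Crest.CombinatoricsR

namespace Crest.Agent.S0077

/-- Let n ≥ 2 and let P be a family of simple graphs on n labelled vertices that is invariant under renaming vertices, closed under adding edges, non-empty and not everything; let 0 < ε < 1/2. If the binomial random graph with edge probability p ∈ [0, 1] lies in P with probability at least ε, then at every edge probability q ∈ [0, 1] with q ≥ p + 2^19 · log(1/(2ε)) / (log n)² it lies in P with probability at least 1 - ε: the threshold interval from ε to 1 - ε is at most that long. -/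
theorem result (n : ℕ) (hn : 2 ≤ n)
    (P : Set (SimpleGraph (Fin n)))
    (hsymm : ∀ σ : Equiv.Perm (Fin n), ∀ G : SimpleGraph (Fin n), G ∈ P → G.map σ.toEmbedding ∈ P)
    (hmono : ∀ G G' : SimpleGraph (Fin n), G ≤ G' → G ∈ P → G' ∈ P)
    (hne : P.Nonempty) (hnu : P ≠ Set.univ) (ε : ℝ) (hε0 : 0 < ε) (hε : ε < 1 / 2)
    (p q : ℝ) (hp0 : 0 ≤ p) (hp1 : p ≤ 1) (hq0 : 0 ≤ q) (hq1 : q ≤ 1)
    (hp : ε ≤ Crest.CombinatoricsR.RandomGraph.gnpProb n p P)
    (hq : p + 2 ^ 19 / Real.log n ^ 2 * Real.log (1 / (2 * ε)) ≤ q) :
    1 - ε ≤ Crest.CombinatoricsR.RandomGraph.gnpProb n q P := by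
  have hL0 : 0 < Real.log n := Real.log_pos (by exact_mod_cast (by omega : 1 < n))
  set F : (HypergraphCube.HyperedgeSlot n 2 → Bool) → ℝ :=
    Crest.Agent.Row56.toR (Crest.Agent.Row56.propF P) with hF
  have hInv : Crest.Agent.Row56.Inv F :=
    Crest.Agent.Row56.toR_inv _ (Crest.Agent.Row56.propF_sym P hsymm)
  have hB : Crest.Agent.Row56.IsBool F := Crest.Agent.Row56.toR_isBool _
  rw [Crest.Agent.Row56.gnpProb_eq] at hp ⊢
  -- the empty graph is not in `P`, the complete graph is
  have hbot : (⊥ : SimpleGraph (Fin n)) ∉ P := by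
    intro h
    exact hnu (Set.eq_univ_of_forall (fun G => hmono ⊥ G bot_le h))
  have htop : (⊤ : SimpleGraph (Fin n)) ∈ P := by
    obtain ⟨G, hG⟩ := hne
    exact hmono G ⊤ le_top hG
  have hgr0 : Crest.Agent.Row56.gr (fun _ : HypergraphCube.HyperedgeSlot n 2 => false)
      = (⊥ : SimpleGraph (Fin n)) := by
    ext i j
    rw [Crest.Agent.Row56.gr_adj]
    simp
  have hgr1 : Crest.Agent.Row56.gr (fun _ : HypergraphCube.HyperedgeSlot n 2 => true)
      = (⊤ : SimpleGraph (Fin n)) := by
    ext i j
    rw [Crest.Agent.Row56.gr_adj]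
    simp
  have hF0 : F (fun _ => false) = 0 := by
    rw [hF]
    unfold Crest.Agent.Row56.toR
    rw [if_neg]
    rw [Crest.Agent.Row56.propF_eq_true, hgr0]
    exact hbot
  have hF1 : F (fun _ => true) = 1 := by
    rw [hF]
    unfold Crest.Agent.Row56.toR
    rw [if_pos]
    rw [Crest.Agent.Row56.propF_eq_true, hgr1]
    exact htop
  have hlogpos : 0 < Real.log (1 / (2 * ε)) := by
    refine Real.log_pos ?_
    rw [lt_div_iff₀ (by positivity)]
    linarith
  have hpq : p < q := by
    have : 0 < 2 ^ 19 / Real.log n ^ 2 * Real.log (1 / (2 * ε)) := by positivity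
    linarith
  have hp1' : p < 1 := lt_of_lt_of_le hpq hq1
  -- `p > 0`
  have hp0' : 0 < p := by
    rcases hp0.eq_or_lt with h | h
    · exfalso
      rw [← h] at hp
      have hz : Crest.Agent.Row56.Ex (0:ℝ) F = 0 := by
        unfold Crest.Agent.Row56.Ex
        refine Finset.sum_eq_zero (fun x _ => ?_)
        by_cases hx : ∃ i, x i = true
        · obtain ⟨i, hi⟩ := hx
          have : Crest.FinProb.bernoulliWeight (0:ℝ) x = 0 := by
            unfold Crest.FinProb.bernoulliWeight
            refine Finset.prod_eq_zero (Finset.mem_univ i) ?_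
            rw [if_pos hi]
          rw [this, zero_mul]
        · push Not at hx
          have hx' : x = fun _ => false := by
            funext i
            have := hx i
            simpa using this
          rw [hx', hF0, mul_zero]
      rw [hz] at hp
      linarith
    · exact h
  rcases hq1.eq_or_lt with hq1' | hq1'
  · -- `q = 1`
    have hone : Crest.Agent.Row56.Ex (1:ℝ) F = 1 := by
      have h1 : Crest.Agent.Row56.Ex (1:ℝ) F
          = Crest.Agent.Row56.Ex (ι := HypergraphCube.HyperedgeSlot n 2) (1:ℝ)
            (fun _ => (1:ℝ)) := by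
        unfold Crest.Agent.Row56.Ex
        refine Finset.sum_congr rfl (fun x _ => ?_)
        by_cases hx : ∃ i, x i = false
        · obtain ⟨i, hi⟩ := hx
          have : Crest.FinProb.bernoulliWeight (1:ℝ) x = 0 := by
            unfold Crest.FinProb.bernoulliWeight
            refine Finset.prod_eq_zero (Finset.mem_univ i) ?_
            rw [if_neg (by rw [hi]; decide)]
            norm_num
          rw [this, zero_mul, zero_mul]
        · push Not at hx
          have hx' : x = fun _ => true := by
            funext i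
            have := hx i
            simpa using this
          rw [hx', hF1]
      exact h1.trans
        (Crest.Agent.Row56.Ex_const (ι := HypergraphCube.HyperedgeSlot n 2) 1 1)
    rw [hq1', hone]
    linarith
  · refine Crest.Agent.Row56.threshold (K := Real.log n ^ 2 / 2 ^ 17) hB ?_
      ⟨fun _ => true, hF1⟩ ⟨fun _ => false, hF0⟩ (by positivity) ?_ hε0 hε hp0' hpq.le hq1' hp ?_
    · intro e x
      refine Crest.Agent.Row56.propF_mono P hmono _ _ (fun e' he' => ?_)
      by_cases h : e' = e
      · subst h; simp
      · rw [Function.update_of_ne h] at he' ⊢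
        exact he'
    · intro s hs0 hs1
      have h := Crest.Agent.Row56.main_ineq (n := n) (r := 2) le_rfl hn hs0 hs1 F hInv hB
      have e1 : ((2:ℕ):ℝ) / (((2:ℕ):ℝ) - 1) = (2:ℝ) := by norm_num
      rw [e1, Real.rpow_two, div_mul_eq_mul_div, le_div_iff₀ (by positivity)] at h
      rw [div_mul_eq_mul_div, div_le_iff₀ (by positivity)]
      have e2 : (2:ℝ) ^ 15 * ((2:ℕ):ℝ) ^ 2 = 2 ^ 17 := by norm_num
      rw [e2] at h
      linarith
    · have e3 : 4 / (Real.log n ^ 2 / 2 ^ 17) = 2 ^ 19 / Real.log n ^ 2 := by
        field_simp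
        norm_num
      rw [e3]
      exact hq

end Crest.Agent.S0077
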