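import Crest.Statements.S0078
import Crest.Agent.Row56.Bridge

set_option autoImplicit false
open Crest Crest.CombinatoricsR

namespace Crest.Agent.S0078

/-- For every r ≥ 3 there is a real constant C such that for all n ≥ r, all 0 < p < 1 and every Boolean function f of the simple r-uniform hypergraph on n labelled vertices that is invariant under renaming the vertices (no monotonicity assumed), the variance of f under independent edge-coins of bias p, namely P(f = true) · (1 - P(f = true)), is at most C · (log n)^(-r/(r-1)) times the total pivotal influence of f at bias p (natural logarithm). -/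
theorem result (r : ℕ) (hr : 3 ≤ r) :
    ∃ C : ℝ, ∀ n : ℕ, r ≤ n → ∀ p : ℝ, 0 < p → p < 1 →
      ∀ f : (Crest.CombinatoricsR.HypergraphCube.HyperedgeSlot n r → Bool) → Bool,
        Crest.CombinatoricsR.HypergraphCube.IsSymmetric f →
          Crest.CombinatoricsR.HypergraphCube.probTrue p f *
              (1 - Crest.CombinatoricsR.HypergraphCube.probTrue p f) ≤
            C / Real.log n ^ ((r : ℝ) / ((r : ℝ) - 1)) *
              Crest.CombinatoricsR.HypergraphCube.totalInfluence p f := by
  refine ⟨2 ^ 15 * (r:ℝ) ^ 2, ?_⟩
  intro n hn p hp0 hp1 f hf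
  have h := Crest.Agent.Row56.main_ineq (n := n) (r := r) (by omega) (by omega) hp0 hp1
    (Crest.Agent.Row56.toR f) (Crest.Agent.Row56.toR_inv f hf)
    (Crest.Agent.Row56.toR_isBool f)
  rw [Crest.Agent.Row56.var_toR] at h
  rw [Crest.Agent.Row56.probTrue_eq, Crest.Agent.Row56.totalInfluence_eq]
  exact h

end Crest.Agent.S0078
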