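import Crest.Statements.S0094
import Crest.Agent.R71.Geom
import Crest.Agent.R71.Zero
import Crest.Agent.R71.Code
import Crest.Agent.R71.Cover

set_option autoImplicit false
open Pointwise Crest.AnalysisR
open Crest Crest.AnalysisR

namespace Crest.Agent.S0094

open Crest.Agent.R71 in
/-- numerical choice of the parameters -/
theorem log_bound (b : ℝ) (hb : 1 ≤ b) (B k m D C p G : ℕ) (hm : 0 < m) (hC : 0 < C)
    (hk : 12 * b * B ≤ (k + 1 : ℕ)) (hD : (k + 1) ^ m ≤ 3 * D) (hD0 : 0 < D) (hp : 1 < p)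
    (hp2 : 4 * b * Real.log C < Real.log p) (hG0 : 0 < G)
    (hG : G ≤ C * p ^ (B * (k + 1) ^ (m - 1))) :
    b * (2 * Real.log G) < Real.log ((p ^ D : ℕ) : ℝ) := by
  have hlp : 0 < Real.log p := Real.log_pos (by exact_mod_cast hp)
  have hGR : (0 : ℝ) < G := by exact_mod_cast hG0
  have hpR : (0 : ℝ) < p := by exact_mod_cast (by omega : 0 < p)
  have hCR : (0 : ℝ) < C := by exact_mod_cast hC
  have h1 : Real.log G ≤ Real.log C + (B * (k + 1 : ℝ) ^ (m - 1)) * Real.log p := by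
    have h2 : (G : ℝ) ≤ (C : ℝ) * (p : ℝ) ^ (B * (k + 1) ^ (m - 1)) := by exact_mod_cast hG
    have h3 := Real.log_le_log hGR h2
    rw [Real.log_mul (by positivity) (by positivity), Real.log_pow] at h3
    push_cast at h3
    exact h3
  have h4 : Real.log ((p ^ D : ℕ) : ℝ) = D * Real.log p := by
    push_cast
    rw [Real.log_pow]
  rw [h4]
  have hR : ((k + 1 : ℝ)) ^ m = (k + 1 : ℝ) * (k + 1 : ℝ) ^ (m - 1) := by
    rw [← pow_succ']
    congr 1
    omega
  have hk' : 12 * b * B ≤ (k + 1 : ℝ) := by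
    have := hk
    push_cast at this
    exact this
  have hD' : (k + 1 : ℝ) ^ m ≤ 3 * D := by exact_mod_cast hD
  have hpos : (0 : ℝ) < (k + 1 : ℝ) ^ (m - 1) := by positivity
  have h5 : 12 * b * B * (k + 1 : ℝ) ^ (m - 1) ≤ 3 * D := by
    rw [hR] at hD'
    have := mul_le_mul_of_nonneg_right hk' hpos.le
    linarith
  have h6 : 2 * b * (B * (k + 1 : ℝ) ^ (m - 1)) * Real.log p ≤ D / 2 * Real.log p := by
    apply mul_le_mul_of_nonneg_right _ hlp.le
    linarith
  have h7 : (1 : ℝ) ≤ D := by exact_mod_cast hD0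
  have h8 : b * (2 * Real.log G) ≤
      2 * b * Real.log C + 2 * b * (B * (k + 1 : ℝ) ^ (m - 1)) * Real.log p := by
    have := mul_le_mul_of_nonneg_left h1 (by linarith : 0 ≤ 2 * b)
    linarith
  have h9 : Real.log p ≤ D * Real.log p := by nlinarith
  linarith

open Crest.Agent.R71 in
/-- For all real a, b ≥ 1 there are n ≥ 1 and a compact convex set K in Euclidean n-space with nonempty interior, symmetric about 0, such that, with L the cube of points having all coordinates in [-1, 1] and polars taken for the standard inner product (the y pairing to at most 1 with each point of the set): some m translates of a⁻¹ • (polar of K) cover the polar of L, while any k translates of L covering K satisfy b * log m < log k. So log N(K, L) > b log N(L°, a⁻¹K°) for covering numbers N. -/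
theorem result
    (a b : ℝ) (ha : 1 ≤ a) (hb : 1 ≤ b) :
    ∃ n : ℕ, 0 < n ∧ ∃ K : Set (EuclideanSpace ℝ (Fin n)),
      Convex ℝ K ∧ IsCompact K ∧ (interior K).Nonempty ∧ (∀ x ∈ K, -x ∈ K) ∧
      ∃ t₁ : Finset (EuclideanSpace ℝ (Fin n)),
        polarSet {x : EuclideanSpace ℝ (Fin n) | ∀ i, |x i| ≤ 1} ⊆ ⋃ y ∈ t₁, (y +ᵥ a⁻¹ • polarSet K) ∧
        ∀ t₂ : Finset (EuclideanSpace ℝ (Fin n)),
          K ⊆ ⋃ x ∈ t₂, (x +ᵥ {z : EuclideanSpace ℝ (Fin n) | ∀ i, |z i| ≤ 1}) →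
          b * Real.log t₁.card < Real.log t₂.card := by
  classical
  obtain ⟨B, hB⟩ := exists_nat_ge (30 * a)
  have hBpos : 0 < B := by
    have : (0 : ℝ) < B := by linarith
    exact_mod_cast this
  obtain ⟨k', hk'⟩ := exists_nat_ge (12 * b * B)
  obtain ⟨k, hk⟩ : ∃ k : ℕ, k = k' + 1 := ⟨_, rfl⟩
  have hk1 : 12 * b * B ≤ ((k + 1 : ℕ) : ℝ) := by
    have : (k' : ℝ) ≤ ((k + 1 : ℕ) : ℝ) := by
      rw [hk]; push_cast; linarith
    linarith
  obtain ⟨m0, hm0⟩ := exists_forb B k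
  obtain ⟨m, hm⟩ : ∃ m : ℕ, m = m0 + 1 := ⟨_, rfl⟩
  have hmpos : 0 < m := by omega
  have hforb := hm0 m (by omega)
  have hR2 : 2 ≤ (k + 1) ^ m := by
    calc 2 ≤ k + 1 := by omega
      _ = (k + 1) ^ 1 := (pow_one _).symm
      _ ≤ (k + 1) ^ m := Nat.pow_le_pow_right (by omega) hmpos
  obtain ⟨D, hDdef⟩ : ∃ D : ℕ, D = (k + 1) ^ m / 2 := ⟨_, rfl⟩
  have hD2 : 2 * D ≤ (k + 1) ^ m := by omega
  have hD3 : (k + 1) ^ m ≤ 3 * D := by omega
  have hD0 : 0 < D := by omega
  obtain ⟨C, hC, hcov⟩ := cover m k B hmpos hBpos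
  obtain ⟨P, hP⟩ := exists_nat_gt (Real.exp (4 * b * Real.log C))
  obtain ⟨p, hpP, hpp⟩ := Nat.exists_infinite_primes (P + (k + 1) ^ m)
  haveI : Fact p.Prime := ⟨hpp⟩
  have hp2 : 4 * b * Real.log C < Real.log p := by
    rw [Real.lt_log_iff_exp_lt (by exact_mod_cast hpp.pos)]
    refine lt_of_lt_of_le hP ?_
    exact_mod_cast (by omega : P ≤ p)
  obtain ⟨W, hWcard, hWagr⟩ := exists_code m k D hD2 p (by omega)
  obtain ⟨Γ, _, cls, hΓ, hcls⟩ := hcov (ZMod p)
  haveI : Nonempty (Col m k B (ZMod p)) := ⟨(⟨∅, by simp⟩, fun _ => 0)⟩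
  have hBR : (0 : ℝ) < B := by exact_mod_cast hBpos
  refine geom a b ha hb (I := Col m k B (ZMod p)) W
    (fun w c => 3 / B * (lev B c.1.1 (agr c.2 w) : ℝ)) ?_ (Γ := Γ) cls ?_ ?_
  · intro w hw w' hw' hne
    obtain ⟨F, hF, hlev⟩ := hforb (agr w w') (hWagr w hw w' hw' hne)
    refine ⟨(⟨F, hF⟩, w), ?_⟩
    simp only
    rw [agr_self, lev_univ, hlev]
    have : (3 : ℝ) / B * B = 3 := by field_simp
    rw [this]
    norm_num
  · intro y y' h0 h1 h0' h1' hyy w _
    have h := hcls y y' h0 h1 h0' h1' hyy w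
    have e : ∀ z : Col m k B (ZMod p) → ℝ,
        ∑ c, z c * (3 / B * (lev B c.1.1 (agr c.2 w) : ℝ)) = 3 / B * val B z w := by
      intro z
      unfold val
      rw [Finset.mul_sum]
      apply Finset.sum_congr rfl
      intro c _
      ring
    rw [e, e, ← mul_sub, abs_mul, abs_of_pos (by positivity : (0 : ℝ) < 3 / B)]
    have h2 : 3 / (B : ℝ) * |val B y w - val B y' w| ≤ 3 / B * 5 :=
      mul_le_mul_of_nonneg_left h (by positivity)
    refine le_trans h2 ?_
    rw [div_mul_eq_mul_div, div_le_div_iff₀ hBR (by linarith)]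
    linarith
  · rw [hWcard]
    have hcardQ : Fintype.card (ZMod p) = p := ZMod.card p
    rw [hcardQ] at hΓ
    haveI : Nonempty Γ := ⟨cls 0⟩
    exact log_bound b hb B k m D C p _ hmpos hC hk1 hD3 hD0 hpp.one_lt hp2 Fintype.card_pos hΓ

end Crest.Agent.S0094
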