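import Crest.Statements.S0097
import Crest.Agent.R72.D11

set_option autoImplicit false
open Crest Crest.AnalysisR

namespace Crest.Agent.S0097

/-- For real functions F₀, F₁, F₂ on ℝ × ℝ that are measurable, bounded and compactly supported, and every finite set of admissible dyadic triples, indexed by (k, n₀, n₁) : ℤ × ℕ × ℕ with third index the bitwise exclusive-or n₀ ^^^ n₁, the sum of the absolute values of the local forms TriangularDyadic.localForm is at most 40 times the product of the three L³ norms over the quarter plane [0,∞)². By non-negativity this is the same bound for the full sum over any finite set of scales. -/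
theorem result
    (F₀ F₁ F₂ : ℝ × ℝ → ℝ) (hF₀ : Measurable F₀) (hF₁ : Measurable F₁) (hF₂ : Measurable F₂)
    (hb : ∃ M : ℝ, ∀ z, abs (F₀ z) ≤ M ∧ abs (F₁ z) ≤ M ∧ abs (F₂ z) ≤ M)
    (hc₀ : HasCompactSupport F₀) (hc₁ : HasCompactSupport F₁) (hc₂ : HasCompactSupport F₂)
    (𝓘 : Finset (ℤ × ℕ × ℕ)) :
    ∑ i ∈ 𝓘, abs (Crest.AnalysisR.TriangularDyadic.localForm i.1 i.2.1 i.2.2 (i.2.1 ^^^ i.2.2) F₀ F₁ F₂) ≤
      40 * (∫ z in Set.Ici 0 ×ˢ Set.Ici 0, abs (F₀ z) ^ 3) ^ (1 / 3 : ℝ) *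
        (∫ z in Set.Ici 0 ×ˢ Set.Ici 0, abs (F₁ z) ^ 3) ^ (1 / 3 : ℝ) *
        (∫ z in Set.Ici 0 ×ˢ Set.Ici 0, abs (F₂ z) ^ 3) ^ (1 / 3 : ℝ) :=
  Crest.Agent.R72.final_of Crest.Agent.R72.samplingId Crest.Agent.R72.normId
    (Crest.Agent.R72.discIneq_of_box
      (Crest.Agent.R72.box_of_laBox (Crest.Agent.R72.laBox_of_gapXX Crest.Agent.R72.gapXX)))
    F₀ F₁ F₂ hF₀ hF₁ hF₂ hb hc₀ hc₁ hc₂ 𝓘

end Crest.Agent.S0097
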