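import Crest.Statements.S0109
import Crest.Agent.R82.Limit
import Crest.Agent.R82.CellFinal
import Crest.Agent.R82.GradInterp

set_option autoImplicit false
open MeasureTheory
open scoped ENNReal NNReal
open Crest.AnalysisR.OT
open Crest Crest.AnalysisR Crest.AnalysisR.OT

namespace Crest.Agent.S0109

/-- Fix d ≥ 2, a compact convex K ⊆ ℝᵈ with nonempty interior, ρ the uniform probability measure on K, and a nonempty compact Y ⊆ ℝᵈ. There is a constant C such that for all probability measures μ, ν carried by Y, all quadratic optimal transport maps Tμ from ρ to μ and Tν from ρ to ν, and every coupling π of μ and ν, ∫ ‖Tμ - Tν‖² dρ ≤ C · (∫ ‖y - z‖² dπ)^(1/3). With the best coupling: the L²(ρ) distance of the maps is at most √C times the cube root of the Wasserstein-2 distance of the targets. -/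
theorem result
    (d : ℕ) (hd : 2 ≤ d) (K : Set (EuclideanSpace ℝ (Fin d))) (hKc : IsCompact K) (hKv : Convex ℝ K)
    (hKi : (interior K).Nonempty) (Y : Set (EuclideanSpace ℝ (Fin d))) (hYc : IsCompact Y) (hYn : Y.Nonempty) :
    ∃ C : ℝ≥0, ∀ μ ν : Measure (EuclideanSpace ℝ (Fin d)), IsProbabilityOn Y μ → IsProbabilityOn Y ν →
      ∀ Tμ Tν : EuclideanSpace ℝ (Fin d) → EuclideanSpace ℝ (Fin d),
        IsOptimalMap (uniformProbOn K) μ Tμ → IsOptimalMap (uniformProbOn K) ν Tν →
        ∀ π : Measure (EuclideanSpace ℝ (Fin d) × EuclideanSpace ℝ (Fin d)), IsPairCoupling μ ν π →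
          ∫⁻ x, ‖Tμ x - Tν x‖ₑ ^ 2 ∂(uniformProbOn K) ≤ C * quadCost π ^ (1 / 3 : ℝ) := by
  exact Crest.Agent.R82.result_of (by omega) hKc hKi hYc hYn
    (fun L => Crest.Agent.R82.potential_stability d K hKc hKv hKi L)
    (fun L => Crest.Agent.R82.GradInterp.grad_interp d K hKc hKv L)

end Crest.Agent.S0109
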