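import Crest.Statements.S0110
import Crest.Agent.R82.FY

set_option autoImplicit false
open MeasureTheory
open scoped ENNReal NNReal
open Crest.AnalysisR.OT
open Crest Crest.AnalysisR Crest.AnalysisR.OT

namespace Crest.Agent.S0110

open Crest.Agent.R82.FY

section

variable {d : ℕ}

/-- The cube. -/
def Q (d : ℕ) : Set (EuclideanSpace ℝ (Fin d)) := {x | ∀ i, |x i| ≤ 1}

lemma volume_box (a b : Fin d → ℝ) :
    volume {x : EuclideanSpace ℝ (Fin d) | ∀ i, a i ≤ x i ∧ x i ≤ b i} =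
      ∏ i, ENNReal.ofReal (b i - a i) := by
  rw [← Real.volume_Icc_pi, ← (PiLp.volume_preserving_ofLp (Fin d)).measure_preimage
    (measurableSet_Icc.nullMeasurableSet)]
  congr 1
  ext x
  simp only [Set.mem_ofPred_eq, Set.mem_preimage, Set.mem_Icc, Pi.le_def]
  exact ⟨fun h => ⟨fun i => (h i).1, fun i => (h i).2⟩, fun h i => ⟨h.1 i, h.2 i⟩⟩

lemma volume_Q : volume (Q d) = 2 ^ d := by
  have h := volume_box (d := d) (fun _ => -1) (fun _ => 1)
  have e : Q d = {x : EuclideanSpace ℝ (Fin d) | ∀ i, (-1 : ℝ) ≤ x i ∧ x i ≤ 1} := by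
    ext x; simp only [Q, Set.mem_ofPred_eq, abs_le]
  rw [e, h]
  simp
  norm_num

lemma measurableSet_Q : MeasurableSet (Q d) := by
  have : IsClosed (Q d) := by
    simp only [Q, Set.ofPred_forall]
    refine isClosed_iInter fun i => ?_
    exact isClosed_le (by fun_prop) continuous_const
  exact this.measurableSet

instance : IsProbabilityMeasure (uniformProbOn (Q d)) := by
  constructor
  simp only [uniformProbOn, Measure.smul_apply, Measure.restrict_apply_univ, smul_eq_mul]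
  rw [volume_Q]
  exact ENNReal.inv_mul_cancel (by simp) (by simp)

lemma uniform_apply (A : Set (EuclideanSpace ℝ (Fin d))) (hA : MeasurableSet A) :
    uniformProbOn (Q d) A = (2 ^ d)⁻¹ * volume (A ∩ Q d) := by
  simp only [uniformProbOn, Measure.smul_apply, smul_eq_mul]
  rw [volume_Q, Measure.restrict_apply hA]

lemma ae_mem_Q : ∀ᵐ x ∂(uniformProbOn (Q d)), x ∈ Q d := by
  have : ∀ᵐ x ∂(volume.restrict (Q d)), x ∈ Q d := ae_restrict_mem measurableSet_Q
  exact Measure.ae_smul_measure this _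

lemma norm_le_of_mem_Q {x : EuclideanSpace ℝ (Fin d)} (hx : x ∈ Q d) : ‖x‖ ≤ Real.sqrt d := by
  rw [EuclideanSpace.norm_eq]
  apply Real.sqrt_le_sqrt
  calc ∑ i, ‖x i‖ ^ 2 ≤ ∑ _i : Fin d, (1 : ℝ) := by
        apply Finset.sum_le_sum
        intro i _
        have := hx i
        rw [Real.norm_eq_abs]
        nlinarith [abs_nonneg (x i)]
    _ = d := by simp


/-- Reflection of the coordinate `j`. -/
noncomputable def refl (j : Fin d) : EuclideanSpace ℝ (Fin d) ≃ₗᵢ[ℝ] EuclideanSpace ℝ (Fin d) :=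
  LinearIsometryEquiv.piLpCongrRight 2
    (fun i => if i = j then LinearIsometryEquiv.neg ℝ else LinearIsometryEquiv.refl ℝ ℝ)

lemma refl_apply (j i : Fin d) (x : EuclideanSpace ℝ (Fin d)) :
    refl j x i = if i = j then - x i else x i := by
  simp only [refl, LinearIsometryEquiv.piLpCongrRight_apply]
  split_ifs <;> simp

lemma refl_refl (j : Fin d) (x : EuclideanSpace ℝ (Fin d)) : refl j (refl j x) = x := by
  ext i
  simp only [refl_apply]
  split_ifs <;> simp

lemma refl_preimage_Q (j : Fin d) : (refl j) ⁻¹' (Q d) = Q d := by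
  ext x
  simp only [Q, Set.mem_preimage, Set.mem_ofPred_eq, refl_apply]
  refine forall_congr' fun i => ?_
  split_ifs <;> simp

lemma map_refl (j : Fin d) : (uniformProbOn (Q d)).map (refl j) = uniformProbOn (Q d) := by
  have h1 : MeasurePreserving (refl j) (volume : Measure (EuclideanSpace ℝ (Fin d))) volume :=
    (refl j).measurePreserving
  have h2 := h1.restrict_preimage (s := Q d) measurableSet_Q
  rw [refl_preimage_Q] at h2
  simp only [uniformProbOn]
  rw [Measure.map_smul, h2.map_eq]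

/-- The map `T`. -/
noncomputable def T (i₀ i₁ : Fin d) (η : ℝ) (x : EuclideanSpace ℝ (Fin d)) :
    EuclideanSpace ℝ (Fin d) :=
  if |x i₀| ≤ η * x i₁ then EuclideanSpace.single i₁ η
  else if 0 ≤ x i₀ then EuclideanSpace.single i₀ 1 else EuclideanSpace.single i₀ (-1)

lemma measurable_T (i₀ i₁ : Fin d) (η : ℝ) : Measurable (T i₀ i₁ η) := by
  unfold T
  refine Measurable.ite ?_ measurable_const (Measurable.ite ?_ measurable_const measurable_const)
  · exact (isClosed_le (by fun_prop) (by fun_prop)).measurableSet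
  · exact (isClosed_le (by fun_prop) (by fun_prop)).measurableSet

/-- The potential. -/
noncomputable def phi (i₀ i₁ : Fin d) (η : ℝ) (x : EuclideanSpace ℝ (Fin d)) : ℝ :=
  max |x i₀| (η * x i₁)

/-- The support. -/
def Y (i₀ i₁ : Fin d) (η : ℝ) : Set (EuclideanSpace ℝ (Fin d)) :=
  {EuclideanSpace.single i₀ (-1), EuclideanSpace.single i₀ 1, EuclideanSpace.single i₁ η}

lemma T_mem (i₀ i₁ : Fin d) (η : ℝ) (x : EuclideanSpace ℝ (Fin d)) : T i₀ i₁ η x ∈ Y i₀ i₁ η := by
  unfold T Y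
  split_ifs <;> simp

lemma inner_T (i₀ i₁ : Fin d) (η : ℝ) (x : EuclideanSpace ℝ (Fin d)) :
    inner ℝ x (T i₀ i₁ η x) = phi i₀ i₁ η x := by
  unfold T phi
  split_ifs with h1 h2
  · rw [max_eq_right h1]; simp [EuclideanSpace.inner_single_right]
  · rw [max_eq_left (not_le.1 h1).le, abs_of_nonneg h2]; simp [EuclideanSpace.inner_single_right]
  · rw [max_eq_left (not_le.1 h1).le, abs_of_neg (not_le.1 h2)]
    simp [EuclideanSpace.inner_single_right]

lemma inner_le (i₀ i₁ : Fin d) (η : ℝ) (x : EuclideanSpace ℝ (Fin d))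
    (y : EuclideanSpace ℝ (Fin d)) (hy : y ∈ Y i₀ i₁ η) : inner ℝ x y ≤ phi i₀ i₁ η x := by
  unfold Y at hy
  unfold phi
  rcases hy with rfl | rfl | rfl
  · simp only [EuclideanSpace.inner_single_right]
    refine le_trans ?_ (le_max_left _ _)
    have := neg_abs_le (x i₀)
    simp; linarith
  · simp only [EuclideanSpace.inner_single_right]
    refine le_trans ?_ (le_max_left _ _)
    have := le_abs_self (x i₀)
    simp; linarith
  · simp only [EuclideanSpace.inner_single_right]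
    refine le_trans ?_ (le_max_right _ _)
    simp

lemma norm_le_of_mem_Y (i₀ i₁ : Fin d) (η : ℝ) (h0 : 0 ≤ η) (h1 : η ≤ 1)
    (y : EuclideanSpace ℝ (Fin d)) (hy : y ∈ Y i₀ i₁ η) : ‖y‖ ≤ 1 := by
  unfold Y at hy
  rcases hy with rfl | rfl | rfl
  · simp
  · simp
  · simp [abs_of_nonneg h0, h1]

lemma finite_Y (i₀ i₁ : Fin d) (η : ℝ) : (Y i₀ i₁ η).Finite := by
  unfold Y; simp

lemma measurableSet_Y (i₀ i₁ : Fin d) (η : ℝ) : MeasurableSet (Y i₀ i₁ η) :=
  (finite_Y i₀ i₁ η).measurableSet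

lemma data (i₀ i₁ : Fin d) (η : ℝ) (h0 : 0 ≤ η) (h1 : η ≤ 1) :
    Data (uniformProbOn (Q d)) ((uniformProbOn (Q d)).map (T i₀ i₁ η)) (Y i₀ i₁ η)
      (Real.sqrt d) 1 where
  probρ := inferInstance
  probμ := Measure.isProbabilityMeasure_map (measurable_T i₀ i₁ η).aemeasurable
  ballρ := by filter_upwards [ae_mem_Q] with x hx using norm_le_of_mem_Q hx
  Ynull := by
    rw [Measure.map_apply (measurable_T i₀ i₁ η) (measurableSet_Y _ _ _).compl]
    have : T i₀ i₁ η ⁻¹' (Y i₀ i₁ η)ᶜ = ∅ := by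
      ext x; simp [T_mem]
    rw [this]; simp
  ballY := norm_le_of_mem_Y i₀ i₁ η h0 h1

lemma measurable_phi (i₀ i₁ : Fin d) (η : ℝ) : Measurable (phi i₀ i₁ η) := by
  unfold phi; fun_prop

lemma potentials (i₀ i₁ : Fin d) (η : ℝ) (h0 : 0 ≤ η) (h1 : η ≤ 1) :
    Potentials (uniformProbOn (Q d)) ((uniformProbOn (Q d)).map (T i₀ i₁ η)) (Y i₀ i₁ η)
      (phi i₀ i₁ η) (fun _ => 0) where
  intφ := by
    refine Integrable.of_bound (C := 1) (measurable_phi _ _ _).aestronglyMeasurable ?_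
    filter_upwards [ae_mem_Q] with x hx
    have a := hx i₀
    have b := hx i₁
    unfold phi
    rw [Real.norm_of_nonneg (le_trans (abs_nonneg _) (le_max_left _ _))]
    refine max_le a ?_
    have := le_abs_self (x i₁)
    nlinarith
  intψ := by
    simp
  young := by
    refine Filter.Eventually.of_forall fun x y hy => ?_
    simpa using inner_le i₀ i₁ η x y hy


lemma optimal_T (i₀ i₁ : Fin d) (η : ℝ) (h0 : 0 ≤ η) (h1 : η ≤ 1) :
    IsOptimalMap (uniformProbOn (Q d)) ((uniformProbOn (Q d)).map (T i₀ i₁ η)) (T i₀ i₁ η) :=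
  optimal_of_eq (data i₀ i₁ η h0 h1) (potentials i₀ i₁ η h0 h1) (measurable_T _ _ _) rfl
    (Filter.Eventually.of_forall fun x => by simpa using inner_T i₀ i₁ η x)

lemma ae_of_optimal (i₀ i₁ : Fin d) (η : ℝ) (h0 : 0 ≤ η) (h1 : η ≤ 1)
    {S : EuclideanSpace ℝ (Fin d) → EuclideanSpace ℝ (Fin d)}
    (hS : IsOptimalMap (uniformProbOn (Q d)) ((uniformProbOn (Q d)).map (T i₀ i₁ η)) S) :
    ∀ᵐ x ∂(uniformProbOn (Q d)), inner ℝ x (S x) = phi i₀ i₁ η x ∧ S x ∈ Y i₀ i₁ η := by
  have a := eq_of_optimal (data i₀ i₁ η h0 h1) (potentials i₀ i₁ η h0 h1)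
    (measurable_T i₀ i₁ η) rfl
    (Filter.Eventually.of_forall fun x => by simpa using inner_T i₀ i₁ η x) hS
  have b := (data i₀ i₁ η h0 h1).ae_mem hS.1 hS.2.1
  filter_upwards [a, b] with x hx hy
  exact ⟨by simpa using hx, hy⟩

lemma conj_optimal {E : Type*} [NormedAddCommGroup E] [InnerProductSpace ℝ E]
    [MeasurableSpace E] [BorelSpace E] [SecondCountableTopology E] {ρ μ : Measure E}
    (σ : E ≃ₗᵢ[ℝ] E)
    (hσ : ∀ x, σ (σ x) = x) (hρ : ρ.map σ = ρ) {S : E → E} (hS : IsOptimalMap ρ μ S) :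
    IsOptimalMap ρ (μ.map σ) (fun x => σ (S (σ x))) := by
  have hσm : Measurable σ := σ.continuous.measurable
  have hcost : ∀ {R : E → E}, Measurable R →
      ∫⁻ x, ‖x - σ (R (σ x))‖ₑ ^ 2 ∂ρ = ∫⁻ x, ‖x - R x‖ₑ ^ 2 ∂ρ := by
    intro R hR
    have e1 : ∀ x, ‖x - σ (R (σ x))‖ₑ = ‖σ x - R (σ x)‖ₑ := by
      intro x
      have : x - σ (R (σ x)) = σ (σ x - R (σ x)) := by rw [map_sub, hσ]
      rw [this]
      simp only [← ofReal_norm, LinearIsometryEquiv.norm_map]
    simp only [e1]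
    conv_rhs => rw [← hρ]
    have hm : Measurable (fun x => ‖x - R x‖ₑ ^ 2) := (measurable_id.sub hR).enorm.pow_const 2
    rw [lintegral_map hm hσm]
  have hmap : ∀ {R : E → E} {κ : Measure E}, Measurable R → ρ.map R = κ →
      ρ.map (fun x => σ (R (σ x))) = κ.map σ := by
    intro R κ hR hκ
    have : (fun x => σ (R (σ x))) = σ ∘ (R ∘ σ) := rfl
    rw [this, ← Measure.map_map hσm (hR.comp hσm), ← Measure.map_map hR hσm, hρ, hκ]
  refine ⟨hσm.comp (hS.1.comp hσm), hmap hS.1 hS.2.1, fun R hR hRmap => ?_⟩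
  rw [hcost hS.1]
  have h2 := hS.2.2 (fun x => σ (R (σ x))) (hσm.comp (hR.comp hσm)) (by
    rw [hmap hR hRmap, Measure.map_map hσm hσm]
    have : σ ∘ σ = id := by funext x; exact hσ x
    rw [this, Measure.map_id])
  rwa [hcost hR] at h2


lemma map_eq_sum {E : Type*} [MeasurableSpace E] [MeasurableSingletonClass E] {ρ : Measure E}
    {n : ℕ} (y : Fin n → E) (hy : Function.Injective y) {f : E → E} (hf : Measurable f)
    (hr : ∀ x, ∃ i, f x = y i) :
    ρ.map f = ∑ i, ρ (f ⁻¹' {y i}) • Measure.dirac (y i) := by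
  classical
  ext s hs
  rw [Measure.map_apply hf hs]
  simp only [Measure.coe_finsetSum, Finset.sum_apply, Measure.smul_apply, smul_eq_mul,
    Measure.dirac_apply' _ hs, Set.indicator_apply, Pi.one_apply, mul_ite, mul_one, mul_zero]
  rw [← Finset.sum_filter]
  rw [← measure_biUnion_finset]
  · congr 1
    ext x
    simp only [Set.mem_preimage, Finset.mem_filter, Finset.mem_univ, true_and, Set.mem_iUnion,
      Set.mem_singleton_iff, exists_prop]
    constructor
    · intro hx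
      obtain ⟨i, hi⟩ := hr x
      exact ⟨i, hi ▸ hx, hi⟩
    · rintro ⟨i, hi, hxi⟩
      rw [hxi]; exact hi
  · intro i _ j _ hij
    refine Set.disjoint_left.2 fun x hx hx' => hij (hy ?_)
    simp only [Set.mem_preimage, Set.mem_singleton_iff] at hx hx'
    rw [← hx, hx']
  · intro i _
    exact hf (measurableSet_singleton _)

/-- The atoms. -/
noncomputable def pts (i₀ i₁ : Fin d) (η : ℝ) : Fin 3 → EuclideanSpace ℝ (Fin d) :=
  ![EuclideanSpace.single i₀ (-1), EuclideanSpace.single i₀ 1, EuclideanSpace.single i₁ η]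

lemma pts_injective (i₀ i₁ : Fin d) (h01 : i₀ ≠ i₁) (η : ℝ) (h0 : 0 < η) :
    Function.Injective (pts i₀ i₁ η) := by
  have a : (EuclideanSpace.single i₀ (-1) : EuclideanSpace ℝ (Fin d)) ≠
      EuclideanSpace.single i₀ 1 := by
    intro h
    have := congrArg (fun v : EuclideanSpace ℝ (Fin d) => v i₀) h
    simp at this
    norm_num at this
  have b : (EuclideanSpace.single i₀ (-1) : EuclideanSpace ℝ (Fin d)) ≠
      EuclideanSpace.single i₁ η := by
    intro h
    have := congrArg (fun v : EuclideanSpace ℝ (Fin d) => v i₁) h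
    simp [h01.symm] at this
    exact h0.ne this
  have c : (EuclideanSpace.single i₀ 1 : EuclideanSpace ℝ (Fin d)) ≠
      EuclideanSpace.single i₁ η := by
    intro h
    have := congrArg (fun v : EuclideanSpace ℝ (Fin d) => v i₁) h
    simp [h01.symm] at this
    exact h0.ne this
  intro i j hij
  fin_cases i <;> fin_cases j <;> simp_all [pts]


/-- Box with prescribed sides in the coordinates `i₀, i₁`. -/
def box (i₀ i₁ : Fin d) (a₀ b₀ a₁ b₁ : ℝ) : Set (EuclideanSpace ℝ (Fin d)) :=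
  {x | ∀ i, (if i = i₀ then a₀ else if i = i₁ then a₁ else -1) ≤ x i ∧
    x i ≤ (if i = i₀ then b₀ else if i = i₁ then b₁ else 1)}

lemma box_measure (i₀ i₁ : Fin d) (h01 : i₀ ≠ i₁) (a₀ b₀ a₁ b₁ : ℝ) (h₀ : a₀ ≤ b₀) (h₁ : a₁ ≤ b₁)
    (ha₀ : -1 ≤ a₀) (hb₀ : b₀ ≤ 1) (ha₁ : -1 ≤ a₁) (hb₁ : b₁ ≤ 1) :
    uniformProbOn (Q d) (box i₀ i₁ a₀ b₀ a₁ b₁) =
      ENNReal.ofReal ((b₀ - a₀) / 2 * ((b₁ - a₁) / 2)) := by
  have hsub : box i₀ i₁ a₀ b₀ a₁ b₁ ⊆ Q d := by
    intro x hx i
    have := hx i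
    rw [abs_le]
    split_ifs at this <;> constructor <;> linarith [this.1, this.2]
  have hmeas : MeasurableSet (box i₀ i₁ a₀ b₀ a₁ b₁) := by
    have : IsClosed (box i₀ i₁ a₀ b₀ a₁ b₁) := by
      simp only [box, Set.ofPred_forall]
      refine isClosed_iInter fun i => ?_
      have hc : Continuous fun x : EuclideanSpace ℝ (Fin d) => x i := by fun_prop
      exact (isClosed_le continuous_const hc).inter (isClosed_le hc continuous_const)
    exact this.measurableSet
  rw [uniform_apply _ hmeas, Set.inter_eq_left.2 hsub]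
  unfold box
  rw [volume_box, ← ENNReal.ofReal_prod_of_nonneg]
  · have h2 : ((2 : ℝ≥0∞) ^ d)⁻¹ = ENNReal.ofReal ((2 ^ d)⁻¹) := by
      rw [ENNReal.ofReal_inv_of_pos (by positivity), ENNReal.ofReal_pow (by norm_num)]
      simp
    rw [h2, ← ENNReal.ofReal_mul (by positivity)]
    congr 1
    have : ((2 : ℝ) ^ d)⁻¹ = ∏ _i : Fin d, (2 : ℝ)⁻¹ := by simp
    rw [this, ← Finset.prod_mul_distrib]
    rw [Finset.prod_eq_mul i₀ i₁ h01]
    · simp [h01.symm]; ring
    · intro i _ hi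
      simp [hi.1, hi.2]; norm_num
    · simp
    · simp
  · intro i _
    split_ifs <;> linarith

lemma box_pos₂ (i₀ i₁ : Fin d) (h01 : i₀ ≠ i₁) (η : ℝ) (h0 : 0 < η) (h1 : η ≤ 1) :
    ENNReal.ofReal (η / 8) ≤
      uniformProbOn (Q d) (T i₀ i₁ η ⁻¹' {EuclideanSpace.single i₁ η}) := by
  have h := box_measure i₀ i₁ h01 (-(η / 2)) (η / 2) (1 / 2) 1 (by linarith) (by norm_num)
    (by linarith) (by linarith) (by norm_num) le_rfl
  have e : (η / 2 - -(η / 2)) / 2 * ((1 - 1 / 2) / 2) = η / 8 := by ring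
  rw [e] at h
  rw [← h]
  refine measure_mono fun x hx => ?_
  have a := hx i₀
  have b := hx i₁
  simp only [if_true, h01.symm, if_false] at a b
  have : |x i₀| ≤ η * x i₁ := by
    rw [abs_le]
    constructor <;> nlinarith [a.1, a.2, b.1]
  simp [T, this]

lemma box_pos₁ (i₀ i₁ : Fin d) (h01 : i₀ ≠ i₁) (η : ℝ) (h0 : 0 < η) :
    ENNReal.ofReal (1 / 8) ≤
      uniformProbOn (Q d) (T i₀ i₁ η ⁻¹' {EuclideanSpace.single i₀ 1}) := by
  have h := box_measure i₀ i₁ h01 (1 / 2) 1 (-1) 0 (by norm_num) (by norm_num)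
    (by norm_num) le_rfl le_rfl (by norm_num)
  have e : ((1 : ℝ) - 1 / 2) / 2 * ((0 - -1) / 2) = 1 / 8 := by norm_num
  rw [e] at h
  rw [← h]
  refine measure_mono fun x hx => ?_
  have a := hx i₀
  have b := hx i₁
  simp only [if_true, h01.symm, if_false] at a b
  have h1 : ¬ |x i₀| ≤ η * x i₁ := by
    rw [abs_of_nonneg (by linarith [a.1])]
    nlinarith [a.1, b.2]
  have h2 : 0 ≤ x i₀ := by linarith [a.1]
  simp [T, h1, h2]

lemma box_pos₀ (i₀ i₁ : Fin d) (h01 : i₀ ≠ i₁) (η : ℝ) (h0 : 0 < η) :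
    ENNReal.ofReal (1 / 8) ≤
      uniformProbOn (Q d) (T i₀ i₁ η ⁻¹' {EuclideanSpace.single i₀ (-1)}) := by
  have h := box_measure i₀ i₁ h01 (-1) (-(1 / 2)) (-1) 0 (by norm_num) (by norm_num)
    (by norm_num) (by norm_num) le_rfl (by norm_num)
  have e : (-(1 / 2) - (-1 : ℝ)) / 2 * ((0 - -1) / 2) = 1 / 8 := by norm_num
  rw [e] at h
  rw [← h]
  refine measure_mono fun x hx => ?_
  have a := hx i₀
  have b := hx i₁
  simp only [if_true, h01.symm, if_false] at a b
  have h1 : ¬ |x i₀| ≤ η * x i₁ := by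
    rw [abs_of_neg (by linarith [a.2])]
    nlinarith [a.2, b.2]
  have h2 : ¬ 0 ≤ x i₀ := by linarith [a.2]
  simp [T, h1, h2]

lemma threeAtomic_μ (i₀ i₁ : Fin d) (h01 : i₀ ≠ i₁) (η : ℝ) (h0 : 0 < η) (h1 : η ≤ 1) :
    IsThreeAtomic ((uniformProbOn (Q d)).map (T i₀ i₁ η)) := by
  refine ⟨pts i₀ i₁ η, pts_injective i₀ i₁ h01 η h0,
    fun i => (uniformProbOn (Q d) (T i₀ i₁ η ⁻¹' {pts i₀ i₁ η i})).toReal, ?_, ?_⟩
  · intro i
    refine ENNReal.toReal_pos ?_ (measure_ne_top _ _)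
    fin_cases i
    · exact (lt_of_lt_of_le (by simp) (box_pos₀ i₀ i₁ h01 η h0)).ne'
    · exact (lt_of_lt_of_le (by simp) (box_pos₁ i₀ i₁ h01 η h0)).ne'
    · exact (lt_of_lt_of_le (by simp; linarith) (box_pos₂ i₀ i₁ h01 η h0 h1)).ne'
  · rw [map_eq_sum (pts i₀ i₁ η) (pts_injective i₀ i₁ h01 η h0) (measurable_T _ _ _)]
    · refine Finset.sum_congr rfl fun i _ => ?_
      rw [ENNReal.ofReal_toReal (measure_ne_top _ _)]
    · intro x
      have := T_mem i₀ i₁ η x
      rcases this with h | h | h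
      · exact ⟨0, h⟩
      · exact ⟨1, h⟩
      · exact ⟨2, h⟩

lemma threeAtomic_map {E : Type*} [MeasurableSpace E] {μ : Measure E} (h : IsThreeAtomic μ)
    (σ : E → E) (hσ : Measurable σ) (hinj : Function.Injective σ) : IsThreeAtomic (μ.map σ) := by
  obtain ⟨y, hy, m, hm, rfl⟩ := h
  refine ⟨σ ∘ y, hinj.comp hy, m, hm, ?_⟩
  rw [← Measure.mapₗ_apply_of_measurable hσ, map_sum]
  refine Finset.sum_congr rfl fun i _ => ?_
  rw [Measure.mapₗ_apply_of_measurable hσ, Measure.map_smul, Measure.map_dirac' hσ]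
  rfl


lemma exists_eta (C α : ℝ) (hC : 0 ≤ C) (hα : 1 / 3 < α) :
    ∃ η : ℝ, 0 < η ∧ η ≤ 1 / 2 ∧ ∀ w : ℝ, η / 8 ≤ w → w ≤ 1 → C * (4 * η ^ 2 * w) ^ α < w := by
  set β := min α 1 with hβ
  have hβ1 : β ≤ 1 := min_le_right _ _
  have hβ3 : 1 / 3 < β := lt_min hα (by norm_num)
  have hγ : 0 < 3 * β - 1 := by linarith
  have ht : Filter.Tendsto (fun η : ℝ => C * 4 ^ β * 8 ^ (1 - β) * η ^ (3 * β - 1))
      (nhdsWithin 0 (Set.Ioi 0)) (nhds 0) := by
    have h1 : ContinuousAt (fun η : ℝ => C * 4 ^ β * 8 ^ (1 - β) * η ^ (3 * β - 1)) 0 :=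
      continuousAt_const.mul (Real.continuousAt_rpow_const 0 _ (Or.inr hγ.le))
    have h2 := h1.tendsto
    rw [Real.zero_rpow hγ.ne', mul_zero] at h2
    exact h2.mono_left nhdsWithin_le_nhds
  have he : ∀ᶠ η : ℝ in nhdsWithin 0 (Set.Ioi 0),
      C * 4 ^ β * 8 ^ (1 - β) * η ^ (3 * β - 1) < 1 := ht.eventually_lt_const one_pos
  have he2 : ∀ᶠ η : ℝ in nhdsWithin 0 (Set.Ioi 0), η ≤ 1 / 2 := by
    have : ∀ᶠ η : ℝ in nhds 0, η < 1 / 2 := by
      apply eventually_lt_nhds; norm_num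
    exact (this.filter_mono nhdsWithin_le_nhds).mono fun _ h => h.le
  have he3 : ∀ᶠ η : ℝ in nhdsWithin 0 (Set.Ioi 0), 0 < η := eventually_mem_nhdsWithin
  obtain ⟨η, h1, h2, h3⟩ := (he.and (he2.and he3)).exists
  refine ⟨η, h3, h2, fun w hw hw1 => ?_⟩
  have hw0 : 0 < w := lt_of_lt_of_le (by linarith) hw
  have hbase0 : 0 < 4 * η ^ 2 * w := by positivity
  have hbase1 : 4 * η ^ 2 * w ≤ 1 := by
    have : η ^ 2 ≤ 1 / 4 := by nlinarith
    nlinarith
  have s1 : (4 * η ^ 2 * w) ^ α ≤ (4 * η ^ 2 * w) ^ β :=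
    Real.rpow_le_rpow_of_exponent_ge hbase0 hbase1 (min_le_left _ _)
  have s2 : (4 * η ^ 2 * w) ^ β = 4 ^ β * η ^ (2 * β) * w ^ β := by
    rw [Real.mul_rpow (by positivity) hw0.le, Real.mul_rpow (by norm_num) (by positivity)]
    congr 2
    rw [← Real.rpow_natCast η 2, ← Real.rpow_mul h3.le]
    norm_num
  have s3 : w ^ β ≤ w * (η / 8) ^ (β - 1) := by
    have e : w ^ β = w * w ^ (β - 1) := by
      rw [← Real.rpow_one_add' hw0.le (by linarith : (1 : ℝ) + (β - 1) ≠ 0)]
      congr 1; ring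
    rw [e]
    apply mul_le_mul_of_nonneg_left _ hw0.le
    exact Real.rpow_le_rpow_of_nonpos (by positivity) hw (by linarith)
  have s4 : η ^ (2 * β) * (η / 8) ^ (β - 1) = 8 ^ (1 - β) * η ^ (3 * β - 1) := by
    rw [Real.div_rpow h3.le (by norm_num)]
    have e1 : (8 : ℝ) ^ (1 - β) = (8 ^ (β - 1))⁻¹ := by
      rw [← Real.rpow_neg (by norm_num)]; congr 1; ring
    have e2 : η ^ (3 * β - 1) = η ^ (2 * β) * η ^ (β - 1) := by
      rw [← Real.rpow_add h3]; congr 1; ring
    rw [e1, e2]; ring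
  calc C * (4 * η ^ 2 * w) ^ α ≤ C * (4 ^ β * η ^ (2 * β) * (w * (η / 8) ^ (β - 1))) := by
        apply mul_le_mul_of_nonneg_left _ hC
        rw [s2] at s1
        refine s1.trans ?_
        apply mul_le_mul_of_nonneg_left s3 (by positivity)
    _ = (C * 4 ^ β * 8 ^ (1 - β) * η ^ (3 * β - 1)) * w := by
        have : C * (4 ^ β * η ^ (2 * β) * (w * (η / 8) ^ (β - 1))) =
          C * 4 ^ β * (η ^ (2 * β) * (η / 8) ^ (β - 1)) * w := by ring
        rw [this, s4]; ring
    _ < 1 * w := by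
        apply mul_lt_mul_of_pos_right h1 hw0
    _ = w := one_mul w

lemma coord_ne_zero_ae (i₁ : Fin d) : ∀ᵐ x ∂(uniformProbOn (Q d)), x i₁ ≠ 0 := by
  have h : ∀ᵐ x ∂(volume : Measure (EuclideanSpace ℝ (Fin d))), x i₁ ≠ 0 := by
    rw [ae_iff]
    simp only [ne_eq, not_not]
    let f : EuclideanSpace ℝ (Fin d) →ₗ[ℝ] ℝ :=
      (EuclideanSpace.proj i₁ : EuclideanSpace ℝ (Fin d) →L[ℝ] ℝ).toLinearMap
    have e : {x : EuclideanSpace ℝ (Fin d) | x i₁ = 0} = (LinearMap.ker f : Set _) := by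
      ext x; simp [f]
    rw [e]
    apply Measure.addHaar_submodule
    intro htop
    have : (EuclideanSpace.single i₁ (1 : ℝ) : EuclideanSpace ℝ (Fin d)) ∈ LinearMap.ker f := by
      rw [htop]; trivial
    simp [f] at this
  exact Measure.ae_smul_measure (ae_restrict_of_ae h) _

theorem main (i₀ i₁ : Fin d) (h01 : i₀ ≠ i₁) (α : ℝ) (hα : 1 / 3 < α) (C : ℝ≥0) :
    ∃ μ ν : Measure (EuclideanSpace ℝ (Fin d)),
      IsProbabilityOn (Q d) μ ∧ IsProbabilityOn (Q d) ν ∧
      IsThreeAtomic μ ∧ IsThreeAtomic ν ∧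
      (∃ T, IsOptimalMap (uniformProbOn (Q d)) μ T) ∧
      (∃ T, IsOptimalMap (uniformProbOn (Q d)) ν T) ∧
      ∀ Tμ Tν : EuclideanSpace ℝ (Fin d) → EuclideanSpace ℝ (Fin d),
        IsOptimalMap (uniformProbOn (Q d)) μ Tμ →
        IsOptimalMap (uniformProbOn (Q d)) ν Tν →
        ∃ π : Measure (EuclideanSpace ℝ (Fin d) × EuclideanSpace ℝ (Fin d)),
          IsPairCoupling μ ν π ∧
          (C : ℝ≥0∞) * quadCost π ^ α < ∫⁻ x, ‖Tμ x - Tν x‖ₑ ^ 2 ∂(uniformProbOn (Q d)) := by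
  obtain ⟨η, h0, h12, hη⟩ := exists_eta C α C.2 hα
  have h1 : η ≤ 1 := by linarith
  have hTm := measurable_T i₀ i₁ η
  have hσm : Measurable (refl i₁) := (refl i₁).continuous.measurable
  have hYQ : ∀ y ∈ Y i₀ i₁ η, y ∈ Q d := by
    intro y hy i
    have := norm_le_of_mem_Y i₀ i₁ η h0.le h1 y hy
    exact (Real.norm_eq_abs _ ▸ PiLp.norm_apply_le y i).trans this
  set μ := (uniformProbOn (Q d)).map (T i₀ i₁ η) with hμ
  have hμp : IsProbabilityMeasure μ := Measure.isProbabilityMeasure_map hTm.aemeasurable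
  have hνp : IsProbabilityMeasure (μ.map (refl i₁)) :=
    Measure.isProbabilityMeasure_map hσm.aemeasurable
  refine ⟨μ, μ.map (refl i₁), ⟨hμp, ?_⟩, ⟨hνp, ?_⟩, threeAtomic_μ i₀ i₁ h01 η h0 h1,
    threeAtomic_map (threeAtomic_μ i₀ i₁ h01 η h0 h1) _ hσm (refl i₁).injective,
    ⟨_, optimal_T i₀ i₁ η h0.le h1⟩,
    ⟨_, conj_optimal (refl i₁) (refl_refl i₁) (map_refl i₁) (optimal_T i₀ i₁ η h0.le h1)⟩, ?_⟩
  · rw [hμ, Measure.map_apply hTm measurableSet_Q.compl]
    have : T i₀ i₁ η ⁻¹' (Q d)ᶜ = ∅ := by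
      ext x
      simp only [Set.mem_preimage, Set.mem_compl_iff, Set.mem_empty_iff_false, iff_false, not_not]
      exact hYQ _ (T_mem _ _ _ _)
    rw [this]; simp
  · rw [Measure.map_apply hσm measurableSet_Q.compl, Set.preimage_compl, refl_preimage_Q, hμ,
      Measure.map_apply hTm measurableSet_Q.compl]
    have : T i₀ i₁ η ⁻¹' (Q d)ᶜ = ∅ := by
      ext x
      simp only [Set.mem_preimage, Set.mem_compl_iff, Set.mem_empty_iff_false, iff_false, not_not]
      exact hYQ _ (T_mem _ _ _ _)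
    rw [this]; simp
  intro Tμ Tν hTμ hTν
  have hpm : Measurable (fun y : EuclideanSpace ℝ (Fin d) => (y, refl i₁ y)) :=
    measurable_id.prodMk hσm
  refine ⟨μ.map (fun y => (y, refl i₁ y)), ⟨?_, ?_⟩, ?_⟩
  · rw [Measure.map_map measurable_fst hpm]
    have : Prod.fst ∘ (fun y => (y, refl i₁ y)) = (id : EuclideanSpace ℝ (Fin d) → _) := rfl
    rw [this, Measure.map_id]
  · rw [Measure.map_map measurable_snd hpm]
    rfl
  -- the atom
  set P : EuclideanSpace ℝ (Fin d) := EuclideanSpace.single i₁ η with hP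
  have hw : μ {P} = uniformProbOn (Q d) (T i₀ i₁ η ⁻¹' {P}) := by
    rw [hμ, Measure.map_apply hTm (measurableSet_singleton _)]
  have hw8 : ENNReal.ofReal (η / 8) ≤ μ {P} := by
    rw [hw]; exact box_pos₂ i₀ i₁ h01 η h0 h1
  have hw1 : μ {P} ≤ 1 := prob_le_one
  -- cost
  have hcost : quadCost (μ.map (fun y => (y, refl i₁ y))) =
      ENNReal.ofReal (4 * η ^ 2) * μ {P} := by
    unfold quadCost
    have hm : Measurable (fun p : EuclideanSpace ℝ (Fin d) × EuclideanSpace ℝ (Fin d) =>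
        ‖p.1 - p.2‖ₑ ^ 2) := (measurable_fst.sub measurable_snd).enorm.pow_const 2
    rw [lintegral_map hm hpm]
    have e : ∀ᵐ y ∂μ, ‖y - refl i₁ y‖ₑ ^ 2 =
        Set.indicator {P} (fun _ => ENNReal.ofReal (4 * η ^ 2)) y := by
      have hY : ∀ᵐ y ∂μ, y ∈ Y i₀ i₁ η := by
        rw [ae_iff]; exact (data i₀ i₁ η h0.le h1).Ynull
      filter_upwards [hY] with y hy
      have hne : ∀ a : ℝ, (EuclideanSpace.single i₀ a : EuclideanSpace ℝ (Fin d)) ≠ P := by
        intro a h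
        have := congrArg (fun v : EuclideanSpace ℝ (Fin d) => v i₁) h
        simp [hP, h01.symm] at this
        exact h0.ne this
      have hfix : ∀ a : ℝ, refl i₁ (EuclideanSpace.single i₀ a : EuclideanSpace ℝ (Fin d)) =
          EuclideanSpace.single i₀ a := by
        intro a
        ext i
        rw [refl_apply]
        split_ifs with h
        · subst h; simp [h01.symm]
        · rfl
      rcases hy with rfl | rfl | rfl
      · rw [hfix, Set.indicator_of_notMem (by simpa using hne (-1))]; simp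
      · rw [hfix, Set.indicator_of_notMem (by simpa using hne 1)]; simp
      · rw [Set.indicator_of_mem (by simp [hP])]
        have e2 : (EuclideanSpace.single i₁ η : EuclideanSpace ℝ (Fin d)) -
            refl i₁ (EuclideanSpace.single i₁ η) = EuclideanSpace.single i₁ (2 * η) := by
          ext i
          simp only [PiLp.sub_apply, refl_apply]
          split_ifs with h
          · subst h; simp; ring
          · simp [h]
        rw [e2, ← ofReal_norm, ← ENNReal.ofReal_pow (norm_nonneg _)]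
        congr 1
        simp only [EuclideanSpace.norm_single, norm_mul, Real.norm_eq_abs, mul_pow, sq_abs]
        norm_num
    rw [lintegral_congr_ae e, lintegral_indicator (measurableSet_singleton _)]
    simp
  -- lower bound
  have hlow : μ {P} ≤ ∫⁻ x, ‖Tμ x - Tν x‖ₑ ^ 2 ∂(uniformProbOn (Q d)) := by
    have hA : μ {P} = uniformProbOn (Q d) (Tμ ⁻¹' {P}) := by
      conv_lhs => rw [← hTμ.2.1]
      rw [Measure.map_apply hTμ.1 (measurableSet_singleton _)]
    have a1 := ae_of_optimal i₀ i₁ η h0.le h1 hTμ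
    have hTν' := conj_optimal (refl i₁) (refl_refl i₁) (map_refl i₁) hTν
    have hmm : (μ.map (refl i₁)).map (refl i₁) = μ := by
      rw [Measure.map_map hσm hσm]
      have : (refl i₁ : EuclideanSpace ℝ (Fin d) → _) ∘ (refl i₁) = id := by
        funext x; exact refl_refl i₁ x
      rw [this, Measure.map_id]
    rw [hmm] at hTν'
    have a2 := ae_of_optimal i₀ i₁ η h0.le h1 hTν'
    have a3 : ∀ᵐ x ∂(uniformProbOn (Q d)),
        inner ℝ (refl i₁ x) (refl i₁ (Tν x)) = phi i₀ i₁ η (refl i₁ x) ∧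
          refl i₁ (Tν x) ∈ Y i₀ i₁ η := by
      rw [← map_refl i₁] at a2
      have := ae_of_ae_map hσm.aemeasurable a2
      filter_upwards [this] with x hx
      rw [refl_refl] at hx
      exact hx
    have a4 := coord_ne_zero_ae (d := d) i₁
    have hind : ∀ᵐ x ∂(uniformProbOn (Q d)),
        Set.indicator (Tμ ⁻¹' {P}) (fun _ => (1 : ℝ≥0∞)) x ≤ ‖Tμ x - Tν x‖ₑ ^ 2 := by
      filter_upwards [a1, a3, a4] with x hx1 hx3 hx4
      by_cases hx : Tμ x = P
      · rw [Set.indicator_of_mem (by simpa using hx)]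
        have hx1' := hx1.1
        rw [hx, hP] at hx1'
        simp only [EuclideanSpace.inner_single_right, phi] at hx1'
        have hpos : 0 < x i₁ := by
          have h5 : |x i₀| ≤ max |x i₀| (η * x i₁) := le_max_left _ _
          have h6 : 0 ≤ η * x i₁ := by
            simp at hx1'
            have := abs_nonneg (x i₀)
            linarith
          rcases lt_or_gt_of_ne hx4 with h7 | h7
          · nlinarith
          · exact h7
        have hne : ∀ a : ℝ, |a| = 1 → Tν x = EuclideanSpace.single i₀ a →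
            (1 : ℝ≥0∞) ≤ ‖Tμ x - Tν x‖ₑ ^ 2 := by
          intro a ha h8
          rw [hx, h8, ← ofReal_norm, ← ENNReal.ofReal_pow (norm_nonneg _), ← ENNReal.ofReal_one]
          apply ENNReal.ofReal_le_ofReal
          have h9 : 1 ≤ ‖P - EuclideanSpace.single i₀ a‖ := by
            have := PiLp.norm_apply_le (P - EuclideanSpace.single i₀ a) i₀
            simp [hP, h01] at this
            rwa [ha] at this
          nlinarith
        have hfix : ∀ a : ℝ, refl i₁ (EuclideanSpace.single i₀ a : EuclideanSpace ℝ (Fin d)) =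
            EuclideanSpace.single i₀ a := by
          intro a
          ext i
          rw [refl_apply]
          split_ifs with h
          · subst h; simp [h01.symm]
          · rfl
        rcases hx3.2 with h8 | h8 | h8
        · apply hne (-1) (by simp)
          rw [← refl_refl i₁ (Tν x), h8, hfix]
        · apply hne 1 (by simp)
          rw [← refl_refl i₁ (Tν x), h8, hfix]
        · exfalso
          have h9 := hx3.1
          rw [h8] at h9
          simp only [EuclideanSpace.inner_single_right, phi, refl_apply, if_true, h01,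
            if_false] at h9
          have h10 : |x i₀| ≤ max |x i₀| (η * -x i₁) := le_max_left _ _
          have h11 := abs_nonneg (x i₀)
          simp at h9
          nlinarith
      · rw [Set.indicator_of_notMem (by simpa using hx)]; exact bot_le
    calc μ {P} = ∫⁻ x, Set.indicator (Tμ ⁻¹' {P}) (fun _ => (1 : ℝ≥0∞)) x
          ∂(uniformProbOn (Q d)) := by
          rw [lintegral_indicator (hTμ.1 (measurableSet_singleton _)), hA]; simp
      _ ≤ _ := lintegral_mono_ae hind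
  refine lt_of_lt_of_le ?_ hlow
  rw [hcost]
  have hwr : μ {P} = ENNReal.ofReal (μ {P}).toReal :=
    (ENNReal.ofReal_toReal (measure_ne_top _ _)).symm
  have hwr8 : η / 8 ≤ (μ {P}).toReal := by
    have := ENNReal.toReal_mono (measure_ne_top _ _) hw8
    rwa [ENNReal.toReal_ofReal (by linarith)] at this
  have hwr1 : (μ {P}).toReal ≤ 1 := by
    have := ENNReal.toReal_mono ENNReal.one_ne_top hw1
    simpa using this
  have key := hη _ hwr8 hwr1
  have hwpos : 0 < (μ {P}).toReal := lt_of_lt_of_le (by linarith) hwr8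
  rw [hwr, ← ENNReal.ofReal_mul (by positivity),
    ENNReal.ofReal_rpow_of_pos (by positivity)]
  have hC' : (C : ℝ≥0∞) = ENNReal.ofReal (C : ℝ) := by simp
  rw [hC', ← ENNReal.ofReal_mul (by positivity)]
  exact (ENNReal.ofReal_lt_ofReal_iff hwpos).2 key

end

/-- The exponent one third is optimal, even on the cube with three-atom targets: for d ≥ 2, ρ the uniform probability measure on the cube of points of ℝᵈ with all coordinates in [-1, 1], every α > 1/3 and every C ≥ 0, there are three-atomic probability measures μ, ν on that cube, each admitting a quadratic optimal transport map from ρ, such that for all such optimal maps Tμ, Tν some coupling π of μ, ν has C · (∫ ‖y - z‖² dπ)^α < ∫ ‖Tμ - Tν‖² dρ. Hence ‖Tμ - Tν‖_{L²(ρ)} > √C · W₂(μ, ν)^α. -/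
theorem result
    (d : ℕ) (hd : 2 ≤ d) (α : ℝ) (hα : 1 / 3 < α) (C : ℝ≥0) :
    ∃ μ ν : Measure (EuclideanSpace ℝ (Fin d)),
      IsProbabilityOn {x : EuclideanSpace ℝ (Fin d) | ∀ i, |x i| ≤ 1} μ ∧
      IsProbabilityOn {x : EuclideanSpace ℝ (Fin d) | ∀ i, |x i| ≤ 1} ν ∧
      IsThreeAtomic μ ∧ IsThreeAtomic ν ∧
      (∃ T, IsOptimalMap (uniformProbOn {x : EuclideanSpace ℝ (Fin d) | ∀ i, |x i| ≤ 1}) μ T) ∧
      (∃ T, IsOptimalMap (uniformProbOn {x : EuclideanSpace ℝ (Fin d) | ∀ i, |x i| ≤ 1}) ν T) ∧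
      ∀ Tμ Tν : EuclideanSpace ℝ (Fin d) → EuclideanSpace ℝ (Fin d),
        IsOptimalMap (uniformProbOn {x : EuclideanSpace ℝ (Fin d) | ∀ i, |x i| ≤ 1}) μ Tμ →
        IsOptimalMap (uniformProbOn {x : EuclideanSpace ℝ (Fin d) | ∀ i, |x i| ≤ 1}) ν Tν →
        ∃ π : Measure (EuclideanSpace ℝ (Fin d) × EuclideanSpace ℝ (Fin d)), IsPairCoupling μ ν π ∧
          (C : ℝ≥0∞) * quadCost π ^ α < ∫⁻ x, ‖Tμ x - Tν x‖ₑ ^ 2 ∂(uniformProbOn {x : EuclideanSpace ℝ (Fin d) | ∀ i, |x i| ≤ 1}) := by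
  exact main (d := d) ⟨0, by omega⟩ ⟨1, by omega⟩ (by simp) α hα C

end Crest.Agent.S0110
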