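import Crest.Statements.S0122
import Crest.Agent.S0122H.Final

set_option autoImplicit false
open Crest.AnalysisR.MassAction
open Crest Crest.AnalysisR Crest.AnalysisR.MassAction

namespace Crest.Agent.S0122

/-- For a finite reaction network on `d ≥ 1` species that is weakly reversible, with positive rate constants and mass-action kinetics, every positive stoichiometric class `P` contains a nonempty compact convex set `K` that is forward invariant and absorbing: from every point of `P` there is a solution defined for all forward time, it is unique, it stays coordinatewise positive, and it lies in `K` from some finite time on. -/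
theorem result
    (d : ℕ) (hd : 1 ≤ d) (R : Network d) (hR : IsWeaklyReversible R)
    (k : (Fin d → ℕ) × (Fin d → ℕ) → ℝ) (hk : ∀ r ∈ R, 0 < k r)
    (c : Fin d → ℝ) (hc : ∀ i, 0 < c i) :
    ∃ K : Set (Fin d → ℝ), K ⊆ positiveClass R c ∧ K.Nonempty ∧ IsCompact K ∧ Convex ℝ K ∧
      (∀ x : ℝ → (Fin d → ℝ), IsForwardSolution (field R k) x → x 0 ∈ K →
        ∀ t : ℝ, 0 ≤ t → x t ∈ K) ∧
      (∀ x₀ ∈ positiveClass R c,
        (∃ x : ℝ → (Fin d → ℝ), IsForwardSolution (field R k) x ∧ x 0 = x₀) ∧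
        (∀ x x' : ℝ → (Fin d → ℝ), IsForwardSolution (field R k) x →
          IsForwardSolution (field R k) x' → x 0 = x₀ → x' 0 = x₀ →
          ∀ t : ℝ, 0 ≤ t → x t = x' t) ∧
        (∀ x : ℝ → (Fin d → ℝ), IsForwardSolution (field R k) x → x 0 = x₀ →
          (∀ t : ℝ, 0 ≤ t → ∀ i, 0 < x t i) ∧
          ∃ T : ℝ, 0 ≤ T ∧ ∀ t : ℝ, T ≤ t → x t ∈ K)) := by
  obtain ⟨ι, hfin, ⟨Φ⟩⟩ := Crest.Agent.S0122H.exists_fam hd R hR k hk c hc
  have hcK : c ∈ Φ.KS Φ.Λ0 := ⟨Φ.hc _ le_rfl, by rw [sub_self]; exact Submodule.zero_mem _⟩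
  refine ⟨Φ.KS Φ.Λ0, ?_, ⟨c, hcK⟩, Φ.KS_compact le_rfl, Φ.KS_convex _, ?_, ?_⟩
  · intro x hx
    exact ⟨Φ.hpos _ le_rfl x hx.1, hx.2⟩
  · intro x hx hx0 t ht
    exact Φ.stay le_rfl hx le_rfl hx0 t ht
  · intro x₀ hx₀
    obtain ⟨Λ', hΛ'⟩ := Filter.eventually_atTop.mp (Φ.hex x₀ hx₀.1)
    have hΛ1 : Φ.Λ0 ≤ max Φ.Λ0 Λ' := le_max_left _ _
    have hx₀K : x₀ ∈ Φ.KS (max Φ.Λ0 Λ') := ⟨hΛ' _ (le_max_right _ _), hx₀.2⟩
    refine ⟨Φ.exist hΛ1 hx₀K, ?_, ?_⟩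
    · intro x x' hx hx' h0 h0' t ht
      exact Φ.uniq hΛ1 hx hx' (by rw [h0]; exact hx₀K) (by rw [h0, h0']) t ht
    · intro x hx h0
      have hx0K : x 0 ∈ Φ.KS (max Φ.Λ0 Λ') := by rw [h0]; exact hx₀K
      refine ⟨fun t ht i => Φ.hpos _ hΛ1 _ (Φ.stay hΛ1 hx le_rfl hx0K t ht).1 i, ?_⟩
      exact Φ.absorb hΛ1 hx hx0K

end Crest.Agent.S0122
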