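import Crest.Statements.S0126
import Crest.Agent.R95.B5
import Crest.Agent.R95.AApprox

set_option autoImplicit false
open Crest Crest.AnalysisR Crest.AnalysisR.OperatorAlgebra

namespace Crest.Agent.S0126

/-- Let P ≤ M be von Neumann algebras on a separable complex Hilbert space H, both factors of type II₁, with P irreducible in M (an element of M commuting with all of P is a scalar), and let ξ present a faithful normal tracial state of M, with squared trace 2-norm x ↦ ∑ ‖x (ξ n)‖². Then the unitaries u of M such that every von Neumann algebra on H containing P and u contains M form a countable intersection of relatively 2-norm-open subsets of the unitaries of M, 2-norm-dense in the unitaries of M. -/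
theorem result
    (H : Type*) [NormedAddCommGroup H] [InnerProductSpace ℂ H] [CompleteSpace H]
    [TopologicalSpace.SeparableSpace H] (P M : VonNeumannAlgebra H) (hPM : P ≤ M)
    (hP : Crest.OpAlg.IsTypeIIOneFactor P) (hM : Crest.OpAlg.IsTypeIIOneFactor M)
    (hPM' : ∀ x ∈ M, (∀ y ∈ P, x * y = y * x) → ∃ c : ℂ, x = c • (1 : H →L[ℂ] H))
    (ξ : ℕ → H) (hξ : Crest.OpAlg.IsFaithfulTracialVectorState M ξ) :
    (∃ O : ℕ → Set (H →L[ℂ] H),
      (∀ k : ℕ, ∀ u ∈ M, u ∈ unitary (H →L[ℂ] H) → u ∈ O k → ∃ δ : ℝ, 0 < δ ∧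
        ∀ v ∈ M, v ∈ unitary (H →L[ℂ] H) → Crest.OpAlg.traceNormSq ξ (v - u) < δ → v ∈ O k) ∧
      (∀ u ∈ M, u ∈ unitary (H →L[ℂ] H) →
        ((∀ N : VonNeumannAlgebra H, P ≤ N → u ∈ N → M ≤ N) ↔ ∀ k : ℕ, u ∈ O k))) ∧
    (∀ u ∈ M, u ∈ unitary (H →L[ℂ] H) → ∀ ε : ℝ, 0 < ε →
      ∃ v ∈ M, v ∈ unitary (H →L[ℂ] H) ∧ (∀ N : VonNeumannAlgebra H, P ≤ N → v ∈ N → M ≤ N) ∧
        Crest.OpAlg.traceNormSq ξ (v - u) < ε) :=
  Crest.Agent.R95.gdelta_final (P := P) (M := M) (ξ := ξ) ⟨hPM, hξ, hPM', hP.2.1⟩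
    (fun _ _ hv hx _ _ hδ hε => Crest.Agent.R95.approx ⟨hPM, hξ, hPM', hP.2.1⟩ hv hx hδ hε)

end Crest.Agent.S0126
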