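import Crest.Statements.S0125
import Crest.Agent.R95.G7
import Crest.Agent.R95.VUnits
import Crest.Agent.S0126

set_option autoImplicit false
open Crest Crest.AnalysisR Crest.AnalysisR.OperatorAlgebra

namespace Crest.Agent.S0125

/-- Let H be a separable complex Hilbert space and M a von Neumann algebra on H that is a factor of type II₁: every element of M commuting with all of M is a scalar, M is infinite-dimensional, and M admits a faithful normal tracial state (presented in vector form). Then M is generated as a von Neumann algebra by one of its elements: some x in M is such that every von Neumann algebra on H containing x contains M. Separability of the predual is modelled by separability of H. -/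
theorem result
    (H : Type*) [NormedAddCommGroup H] [InnerProductSpace ℂ H] [CompleteSpace H]
    [TopologicalSpace.SeparableSpace H] (M : VonNeumannAlgebra H) (hM : Crest.OpAlg.IsTypeIIOneFactor M) :
    ∃ x ∈ M, ∀ N : VonNeumannAlgebra H, x ∈ N → M ≤ N := by
  refine Crest.Agent.R95.G.single_generator ?_ ?_ M hM
  · intro N hf hinf ξ hξ h hh hsa δ hδ k0
    obtain ⟨k, hk, e, he, hst, hmul, hone, μ, -, hμ⟩ :=
      Crest.Agent.R95.VN.exists_matrixUnits_approx N hf hinf ξ hξ h hh hsa δ hδ k0
    exact ⟨k, hk, e, he, ⟨hst, hmul, hone⟩, μ, hμ⟩
  · intro P M hPM hP hM hirr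
    obtain ⟨ξ, hξ⟩ := hM.2.2
    obtain ⟨v, hv, -, h, -⟩ := (Crest.Agent.S0126.result H P M hPM hP hM hirr ξ hξ).2 1 (one_mem M)
      (one_mem _) 1 one_pos
    exact ⟨v, hv, h⟩

end Crest.Agent.S0125
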