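import Crest.Statements.S0166
import Crest.Agent.Row125.Depth
import Crest.Agent.Row125.Lp2AMP
import Crest.Agent.Row125.DiamondBound
-- import your own Crest.Agent.* helpers here

set_option autoImplicit false
open Crest Crest.AnalysisR

namespace Crest.Agent.S0166

open Crest.Agent.Row125 Filter Topology

/-- There is a real Banach space (RealBanach record) that is separable, infinite-dimensional and reflexive, whose given norm has at every t > 0 averaged midpoint asymptotic modulus at least √(1 + t²/12) - 1 and at least (√(1 + t²/4) - 1)/2 and maximum-based midpoint modulus at least √(1 + t²/4) - 1, on which no equivalent norm is asymptotically uniformly convex, and in which for every k every map of the depth-k countably branching diamond graph of distortion at most D has 1 + k/4 ≤ D². -/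
theorem result :
    ∃ E : Crest.AnalysisR.RealBanach, E.IsSeparableInfiniteDim ∧ E.IsReflexive ∧
      (∀ t : ℝ, 0 < t → E.MidpointModulusGE E.norm t (Real.sqrt (1 + t ^ 2 / 12) - 1) ∧
        E.MidpointModulusGE E.norm t ((Real.sqrt (1 + t ^ 2 / 4) - 1) / 2) ∧
        E.MaxMidpointModulusGE E.norm t (Real.sqrt (1 + t ^ 2 / 4) - 1)) ∧
      (∀ N : E.X → ℝ, E.IsEquivNorm N → ¬ E.IsAUC N) ∧
      ∀ (k : ℕ) (f : Crest.AnalysisR.DiamondVertex k → E.X) (D : ℝ),
        E.HasDistortionLE k f D → 1 + (k : ℝ) / 4 ≤ D ^ 2 := by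
  let E : RealBanach := ⟨lp DS 2, inferInstance, inferInstance, inferInstance⟩
  have hAMP : AMP (lp DS 2) := AMP_lp (fun n => gspace_AMP (goodPD n) (bddPD n))
  have hauc : ∀ N : E.X → ℝ, E.IsEquivNorm N → ¬ E.IsAUC N := by
    refine not_isAUC_of_tree E 2 1 one_pos ?_
    intro n
    obtain ⟨x, h0, h1, h2⟩ := gspace_tree (goodPD n) (bddPD n) n (fun v _ hv => hv)
    refine ⟨fun v => lp.single 2 n (x v), ?_, ?_, ?_⟩
    · have : ‖(lp.single 2 n (x []) : lp DS 2)‖ = ‖x []‖ := lp.norm_single (by norm_num) n _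
      exact h0.trans this.symm.le
    · intro v _
      have : ‖(lp.single 2 n (x v) : lp DS 2)‖ = ‖x v‖ := lp.norm_single (by norm_num) n _
      exact this.le.trans (h1 v)
    · intro v hv
      obtain ⟨h3, h4⟩ := h2 v hv
      have hsub : ∀ a, (lp.single 2 n (x (a :: v)) : lp DS 2) - lp.single 2 n (x v) =
          lp.single 2 n (x (a :: v) - x v) := fun a => (lp.single_sub 2 n _ _).symm
      refine ⟨fun a => ?_, fun φ => ?_⟩
      · have h5 : ‖(lp.single 2 n (x (a :: v)) : lp DS 2) - lp.single 2 n (x v)‖ =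
            ‖x (a :: v) - x v‖ := by
          rw [hsub a]
          exact lp.norm_single (by norm_num) n _
        exact (h3 a).trans h5.symm.le
      · have h5 := h4 ((φ : StrongDual ℝ (lp DS 2)).comp
          (lp.singleContinuousLinearMap ℝ DS 2 n))
        refine h5.congr fun a => ?_
        change φ (lp.single 2 n (x (a :: v) - x v)) =
          φ ((lp.single 2 n (x (a :: v)) : lp DS 2) - lp.single 2 n (x v))
        rw [hsub a]
  have hmid : ∀ t : ℝ, 0 < t → E.MidpointModulusGE E.norm t (Real.sqrt (1 + t ^ 2 / 4) - 1) :=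
    fun t ht => midpoint_of_AMP E hAMP t ht
  refine ⟨E, ⟨lp_separable (fun n => gspace_separable (bddPD n)),
    infiniteDim_of_not_isAUC E hauc⟩, lp_refl (fun n => DS_refl n), ?_, hauc,
    fun k f D hD => distortion_bound E hAMP k f D hD⟩
  intro t ht
  refine ⟨?_, ?_, ?_⟩
  · intro x hx η hη
    obtain ⟨F, hF, hy⟩ := hmid t ht x hx η hη
    refine ⟨F, hF, fun y hyF hy1 => le_trans ?_ (hy y hyF hy1)⟩
    have : √(1 + t ^ 2 / 12) ≤ √(1 + t ^ 2 / 4) := by
      apply Real.sqrt_le_sqrt
      nlinarith [sq_nonneg t]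
    linarith
  · intro x hx η hη
    obtain ⟨F, hF, hy⟩ := hmid t ht x hx η hη
    refine ⟨F, hF, fun y hyF hy1 => le_trans ?_ (hy y hyF hy1)⟩
    have : 1 ≤ √(1 + t ^ 2 / 4) := by
      apply Real.le_sqrt_of_sq_le
      nlinarith [sq_nonneg t]
    linarith
  · intro x hx η hη
    obtain ⟨F, hF, hy⟩ := hmid t ht x hx η hη
    refine ⟨F, hF, fun y hyF hy1 => le_trans (hy y hyF hy1) ?_⟩
    have h1 := le_max_left (E.norm (x + t • y)) (E.norm (x - t • y))
    have h2 := le_max_right (E.norm (x + t • y)) (E.norm (x - t • y))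
    linarith

end Crest.Agent.S0166
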