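import Crest.Statements.S0167
import Crest.Agent.Row125.Daugavet
import Crest.Agent.Row125.Trunc
-- import your own Crest.Agent.* helpers here

set_option autoImplicit false
open Crest Crest.AnalysisR

namespace Crest.Agent.S0167

open Crest.Agent.Row125 MeasureTheory Filter Topology Crest.AnalysisR.L1Subspace

variable {Ω : Type} [MeasurableSpace Ω] (P : Measure Ω) [IsProbabilityMeasure P]

omit [IsProbabilityMeasure P] in
theorem norm_eq (f : Lp ℝ 1 P) : ‖f‖ = ∫ z, |f z| ∂P := L1.norm_eq_integral_norm f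

omit [IsProbabilityMeasure P] in
theorem int_sign (f g : Lp ℝ 1 P) : Integrable (fun z => f z * Real.sign (g z)) P := by
  have hf : Integrable (fun z => f z) P := L1.integrable_coeFn f
  have hgm : Measurable (fun z => g z) := (Lp.stronglyMeasurable g).measurable
  refine hf.mul_bdd (c := 1) (measurable_realSign.comp hgm).aestronglyMeasurable
    (ae_of_all _ fun z => ?_)
  exact abs_sign_le _

/-- pairing with the sign of `g`. -/
noncomputable def pairing (E : Submodule ℝ (Lp ℝ 1 P)) (g : Lp ℝ 1 P) : E →L[ℝ] ℝ :=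
  LinearMap.mkContinuous
    { toFun := fun y => ∫ z, (y : Lp ℝ 1 P) z * Real.sign (g z) ∂P
      map_add' := fun y1 y2 => by
        rw [← integral_add (int_sign P y1 g) (int_sign P y2 g)]
        refine integral_congr_ae ?_
        filter_upwards [Lp.coeFn_add (y1 : Lp ℝ 1 P) (y2 : Lp ℝ 1 P)] with z hz
        have : ((y1 + y2 : E) : Lp ℝ 1 P) = (y1 : Lp ℝ 1 P) + y2 := rfl
        rw [this, hz, Pi.add_apply, add_mul]
      map_smul' := fun c y => by
        rw [RingHom.id_apply, smul_eq_mul, ← integral_const_mul]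
        refine integral_congr_ae ?_
        filter_upwards [Lp.coeFn_smul c (y : Lp ℝ 1 P)] with z hz
        have : ((c • y : E) : Lp ℝ 1 P) = c • (y : Lp ℝ 1 P) := rfl
        rw [this, hz, Pi.smul_apply, smul_eq_mul, mul_assoc] } 1 (fun y => by
    rw [one_mul]
    change ‖∫ z, (y : Lp ℝ 1 P) z * Real.sign (g z) ∂P‖ ≤ ‖(y : Lp ℝ 1 P)‖
    rw [norm_eq P]
    refine (norm_integral_le_integral_norm _).trans ?_
    refine integral_mono (int_sign P y g).norm (L1.integrable_coeFn (y : Lp ℝ 1 P)).norm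
      (fun z => ?_)
    simp only [norm_mul, Real.norm_eq_abs]
    have := abs_sign_le (g z)
    nlinarith [abs_nonneg ((y : Lp ℝ 1 P) z)])

omit [IsProbabilityMeasure P] in
theorem pairing_apply (E : Submodule ℝ (Lp ℝ 1 P)) (g : Lp ℝ 1 P) (y : E) :
    pairing P E g y = ∫ z, (y : Lp ℝ 1 P) z * Real.sign (g z) ∂P := rfl

theorem measureDist_spec (y g : Lp ℝ 1 P) (ε : ℝ) (h : measureDist P y g < ε) :
    ∃ a, 0 < a ∧ a < ε ∧ P {z | a < |y z - g z|} < ENNReal.ofReal a := by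
  unfold measureDist at h
  have hne : {a : ℝ | 0 < a ∧ P {z | a < abs ((y : Ω → ℝ) z - (g : Ω → ℝ) z)} <
      ENNReal.ofReal a}.Nonempty := by
    refine ⟨2, by norm_num, lt_of_le_of_lt prob_le_one ?_⟩
    rw [show (1 : ENNReal) = ENNReal.ofReal 1 by simp]
    exact (ENNReal.ofReal_lt_ofReal_iff (by norm_num)).mpr (by norm_num)
  obtain ⟨a, ⟨ha1, ha2⟩, ha3⟩ := exists_lt_of_csInf_lt hne h
  exact ⟨a, ha1, ha3, ha2⟩

/-- the `t/2` lower bound. -/
theorem half_lower (E : Submodule ℝ (Lp ℝ 1 P)) (htb : UnitBallTotallyBoundedInMeasure P E)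
    (x : E) (hx : ‖x‖ = 1) (t : ℝ) (ht : 0 < t) (η : ℝ) (hη : 0 < η) :
    ∃ S : Submodule ℝ E, IsClosed (S : Set E) ∧ FiniteDimensional ℝ (E ⧸ S) ∧
      ∀ y ∈ S, ‖y‖ = 1 → 1 + t / 2 - η ≤ (‖x + t • y‖ + ‖x - t • y‖) / 2 := by
  classical
  set η' : ℝ := η / (1 + t) with hη'
  have hη'0 : 0 < η' := by positivity
  have hη't : η' * (1 + t) = η := by rw [hη']; field_simp
  have hxint : Integrable (fun z => (x : Lp ℝ 1 P) z) P := L1.integrable_coeFn _
  obtain ⟨M, hM, hunif⟩ := unif_int P (fun z => (x : Lp ℝ 1 P) z) hxint η' hη'0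
  set ε0 : ℝ := η' / (1 + 2 * M) with hε0
  have hε00 : 0 < ε0 := by positivity
  obtain ⟨s, hs1, hs2⟩ := htb ε0 hε00
  let Φ : E →L[ℝ] ({g // g ∈ s} → ℝ) := ContinuousLinearMap.pi fun g => pairing P E g.1
  refine ⟨LinearMap.ker Φ.toLinearMap, ContinuousLinearMap.isClosed_ker Φ,
    finDim_quot_ker Φ.toLinearMap, ?_⟩
  intro y hy hy1
  obtain ⟨g, hg, hdist⟩ := hs2 (y : Lp ℝ 1 P) y.2 hy1.le
  obtain ⟨a, ha0, haε, hPa⟩ := measureDist_spec P _ _ _ hdist
  have hsgn : ∫ z, (y : Lp ℝ 1 P) z * Real.sign (g z) ∂P = 0 := by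
    have h1 : Φ y = 0 := hy
    exact congrFun h1 ⟨g, hg⟩
  have hyint : Integrable (fun z => (y : Lp ℝ 1 P) z) P := L1.integrable_coeFn _
  have hym : Measurable (fun z => (y : Lp ℝ 1 P) z) :=
    (Lp.stronglyMeasurable (y : Lp ℝ 1 P)).measurable
  have hgm : Measurable (fun z => g z) := (Lp.stronglyMeasurable g).measurable
  have hR := R_lower P (fun z => (y : Lp ℝ 1 P) z) (fun z => g z) hyint hym hgm M hM a ha0 hPa hsgn
  have hynorm : ∫ z, |(y : Lp ℝ 1 P) z| ∂P = 1 := by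
    rw [← norm_eq P]; exact hy1
  have hxnorm : ∫ z, |(x : Lp ℝ 1 P) z| ∂P = 1 := by
    rw [← norm_eq P]; exact hx
  have haM : a * (1 + 2 * M) ≤ η' := by
    have : a * (1 + 2 * M) ≤ ε0 * (1 + 2 * M) :=
      mul_le_mul_of_nonneg_right haε.le (by positivity)
    rw [hε0, div_mul_cancel₀ _ (by positivity)] at this
    exact this
  have hR' : 1 / 2 - η' ≤ ∫ z, |(y : Lp ℝ 1 P) z - tr M ((y : Lp ℝ 1 P) z)| ∂P := by
    rw [hynorm] at hR
    linarith
  -- the small set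
  have hA : MeasurableSet {z | M < |(y : Lp ℝ 1 P) z|} :=
    measurableSet_lt measurable_const (by fun_prop)
  have hPA : P {z | M < |(y : Lp ℝ 1 P) z|} ≤ ENNReal.ofReal (1 / M) := by
    have h1 := mul_meas_ge_le_integral_of_nonneg (μ := P)
      (ae_of_all _ fun z => abs_nonneg ((y : Lp ℝ 1 P) z)) hyint.abs M
    rw [hynorm] at h1
    have h2 : P.real {z | M ≤ |(y : Lp ℝ 1 P) z|} ≤ 1 / M := by
      rw [le_div_iff₀ hM]; linarith
    have h3 : P {z | M < |(y : Lp ℝ 1 P) z|} ≤ P {z | M ≤ |(y : Lp ℝ 1 P) z|} :=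
      measure_mono fun z (hz : M < |(y : Lp ℝ 1 P) z|) => (le_of_lt hz : _)
    refine h3.trans ?_
    rw [← ENNReal.ofReal_toReal (measure_ne_top P _)]
    exact ENNReal.ofReal_le_ofReal h2
  have hAx := hunif _ hA hPA
  have havg := avg_lower P (fun z => (x : Lp ℝ 1 P) z) (fun z => (y : Lp ℝ 1 P) z) hxint hyint hym
    M t hM ht
  have e1 : ‖x + t • y‖ = ∫ z, |(x : Lp ℝ 1 P) z + t * (y : Lp ℝ 1 P) z| ∂P := by
    have h1 : ‖x + t • y‖ = ‖(x : Lp ℝ 1 P) + t • (y : Lp ℝ 1 P)‖ := rfl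
    rw [h1, norm_eq P]
    refine integral_congr_ae ?_
    filter_upwards [Lp.coeFn_add (x : Lp ℝ 1 P) (t • (y : Lp ℝ 1 P)),
      Lp.coeFn_smul t (y : Lp ℝ 1 P)] with z h1 h2
    rw [h1, Pi.add_apply, h2, Pi.smul_apply, smul_eq_mul]
  have e2 : ‖x - t • y‖ = ∫ z, |(x : Lp ℝ 1 P) z - t * (y : Lp ℝ 1 P) z| ∂P := by
    have h1 : ‖x - t • y‖ = ‖(x : Lp ℝ 1 P) - t • (y : Lp ℝ 1 P)‖ := rfl
    rw [h1, norm_eq P]
    refine integral_congr_ae ?_
    filter_upwards [Lp.coeFn_sub (x : Lp ℝ 1 P) (t • (y : Lp ℝ 1 P)),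
      Lp.coeFn_smul t (y : Lp ℝ 1 P)] with z h1 h2
    rw [h1, Pi.sub_apply, h2, Pi.smul_apply, smul_eq_mul]
  rw [e1, e2]
  have h5 : t * (1 / 2 - η') ≤ t * ∫ z, |(y : Lp ℝ 1 P) z - tr M ((y : Lp ℝ 1 P) z)| ∂P :=
    mul_le_mul_of_nonneg_left hR' ht.le
  rw [hxnorm] at havg
  nlinarith

/-- Let E be an infinite-dimensional closed subspace of the real L¹ of a probability space whose closed unit ball is totally bounded for convergence in measure and whose norm has the Daugavet property. Then at every unit x ∈ E and every t > 0 the averaged midpoint quantity sup_F inf_y ((‖x+ty‖+‖x-ty‖)/2 - 1) equals max(t/2, t-1) and the one-sided one sup_F inf_y (‖x+ty‖ - 1) equals max(0, t-2), as matching lower and upper bounds, and E admits no equivalent asymptotically uniformly convex norm. -/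
theorem result (Ω : Type) [MeasurableSpace Ω] (P : MeasureTheory.Measure Ω) [MeasureTheory.IsProbabilityMeasure P]
    (E : Submodule ℝ (MeasureTheory.Lp ℝ 1 P)) (hcl : IsClosed (E : Set (MeasureTheory.Lp ℝ 1 P)))
    (hinf : ¬ FiniteDimensional ℝ E)
    (htb : Crest.AnalysisR.L1Subspace.UnitBallTotallyBoundedInMeasure P E)
    (hD : Crest.AnalysisR.L1Subspace.HasDaugavetProperty E) :
    (∀ t : ℝ, 0 < t →
      (Crest.AnalysisR.L1Subspace.toRealBanach P E hcl).MidpointModulusGE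
          (Crest.AnalysisR.L1Subspace.toRealBanach P E hcl).norm t (max (t / 2) (t - 1)) ∧
        (Crest.AnalysisR.L1Subspace.toRealBanach P E hcl).MidpointModulusLE
          (Crest.AnalysisR.L1Subspace.toRealBanach P E hcl).norm t (max (t / 2) (t - 1)) ∧
        (Crest.AnalysisR.L1Subspace.toRealBanach P E hcl).OneSidedModulusGE
          (Crest.AnalysisR.L1Subspace.toRealBanach P E hcl).norm t (max 0 (t - 2)) ∧
        (Crest.AnalysisR.L1Subspace.toRealBanach P E hcl).OneSidedModulusLE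
          (Crest.AnalysisR.L1Subspace.toRealBanach P E hcl).norm t (max 0 (t - 2))) ∧
      ∀ N : E → ℝ, (Crest.AnalysisR.L1Subspace.toRealBanach P E hcl).IsEquivNorm N →
        ¬ (Crest.AnalysisR.L1Subspace.toRealBanach P E hcl).IsAUC N := by
  have hne : ∃ u : E, u ≠ 0 := by
    by_contra hcon
    push Not at hcon
    apply hinf
    have : Subsingleton E := ⟨fun a b => by rw [hcon a, hcon b]⟩
    infer_instance
  refine ⟨fun t ht => ⟨?_, ?_, ?_, ?_⟩, ?_⟩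
  · -- midpoint lower bound
    change ∀ x : E, ‖x‖ = 1 → ∀ η : ℝ, 0 < η → ∃ F : Set E, (toRealBanach P E hcl).IsCof F ∧
      ∀ y ∈ F, ‖y‖ = 1 → max (t / 2) (t - 1) - η ≤ (‖x + t • y‖ + ‖x - t • y‖) / 2 - 1
    intro x hx' η hη
    obtain ⟨S, hS1, hS2, hS3⟩ := half_lower P E htb x hx' t ht η hη
    refine ⟨(S : Set E), ⟨S, rfl, hS1, hS2⟩, fun y hy hy1' => ?_⟩
    have h1 := hS3 y hy hy1'
    have h2 : t ≤ (‖(x : E) + t • y‖ + ‖(x : E) - t • y‖) / 2 := by
      have h3 := norm_sub_le ((x : E) + t • y) ((x : E) - t • y)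
      have h4 : ((x : E) + t • y) - ((x : E) - t • y) = (2 * t) • y := by
        rw [two_mul, add_smul]; abel
      rw [h4, norm_smul, hy1', Real.norm_of_nonneg (by positivity)] at h3
      linarith
    rcases max_cases (t / 2) (t - 1) with ⟨h, _⟩ | ⟨h, _⟩ <;> rw [h] <;> linarith
  · -- midpoint upper bound
    change ∀ x : E, ‖x‖ = 1 → ∀ F : Set E, (toRealBanach P E hcl).IsCof F → ∀ η : ℝ, 0 < η →
      ∃ y ∈ F, ‖y‖ = 1 ∧ (‖x + t • y‖ + ‖x - t • y‖) / 2 - 1 ≤ max (t / 2) (t - 1) + η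
    intro x hx' F hF η hη
    obtain ⟨S, hSF, hclosed, hfin⟩ : ∃ S : Submodule ℝ E, (S : Set E) = F ∧ IsClosed F ∧
      FiniteDimensional ℝ (E ⧸ S) := hF
    have hcl' : IsClosed (S : Set E) := by rw [hSF]; exact hclosed
    obtain ⟨y, hyS, hy1, hy2, hy3⟩ := daug_upper hD hne S hcl' hfin x hx' t ht η hη
    refine ⟨y, by rw [← hSF]; exact hyS, hy1, ?_⟩
    rcases max_cases (t / 2) (t - 1) with ⟨h, h'⟩ | ⟨h, h'⟩ <;>
      rcases max_cases 1 (t - 1) with ⟨h2, h2'⟩ | ⟨h2, h2'⟩ <;> rw [h2] at hy2 <;> rw [h] <;>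
      linarith
  · -- one-sided lower bound
    change ∀ x : E, ‖x‖ = 1 → ∀ η : ℝ, 0 < η → ∃ F : Set E, (toRealBanach P E hcl).IsCof F ∧
      ∀ y ∈ F, ‖y‖ = 1 → max 0 (t - 2) - η ≤ ‖x + t • y‖ - 1
    intro x hx' η hη
    have hx0 : (x : E) ≠ 0 := by
      intro h
      rw [h, norm_zero] at hx'
      exact zero_ne_one hx'
    obtain ⟨ψ, hψ1, hψ2⟩ := exists_dual_vector ℝ (x : E) (norm_ne_zero_iff.mpr hx0)
    let Φ : E →L[ℝ] (Unit → ℝ) := ContinuousLinearMap.pi fun _ => ψ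
    have hcof : (toRealBanach P E hcl).IsCof (LinearMap.ker Φ.toLinearMap : Set E) := by
      change ∃ S : Submodule ℝ E, (S : Set E) = (LinearMap.ker Φ.toLinearMap : Set E) ∧
        IsClosed (LinearMap.ker Φ.toLinearMap : Set E) ∧ FiniteDimensional ℝ (E ⧸ S)
      exact ⟨LinearMap.ker Φ.toLinearMap, rfl,
        ContinuousLinearMap.isClosed_ker Φ, finDim_quot_ker Φ.toLinearMap⟩
    refine ⟨(LinearMap.ker Φ.toLinearMap : Set E), hcof, fun y hy hy1' => ?_⟩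
    have hψy : ψ y = 0 := by
      have h1 : Φ y = 0 := hy
      exact congrFun h1 ()
    have h1 : 1 ≤ ‖(x : E) + t • y‖ := by
      have h2 : ψ ((x : E) + t • y) = 1 := by
        rw [map_add, map_smul, hψy, hψ2, hx']; simp
      calc (1 : ℝ) = ψ ((x : E) + t • y) := h2.symm
        _ ≤ ‖ψ ((x : E) + t • y)‖ := le_abs_self _
        _ ≤ ‖ψ‖ * ‖(x : E) + t • y‖ := ψ.le_opNorm _
        _ = ‖(x : E) + t • y‖ := by rw [hψ1, one_mul]
    have h2 : t - 1 ≤ ‖(x : E) + t • y‖ := by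
      have h3 := norm_sub_norm_le (t • (y : E)) (-(x : E))
      rw [norm_smul, hy1', norm_neg, hx', Real.norm_of_nonneg ht.le, mul_one] at h3
      have h4 : t • (y : E) - (-(x : E)) = (x : E) + t • y := by abel
      rw [h4] at h3
      exact h3
    rcases max_cases 0 (t - 2) with ⟨h, _⟩ | ⟨h, _⟩ <;> rw [h] <;> linarith
  · -- one-sided upper bound
    change ∀ x : E, ‖x‖ = 1 → ∀ F : Set E, (toRealBanach P E hcl).IsCof F → ∀ η : ℝ, 0 < η →
      ∃ y ∈ F, ‖y‖ = 1 ∧ ‖x + t • y‖ - 1 ≤ max 0 (t - 2) + η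
    intro x hx' F hF η hη
    obtain ⟨S, hSF, hclosed, hfin⟩ : ∃ S : Submodule ℝ E, (S : Set E) = F ∧ IsClosed F ∧
      FiniteDimensional ℝ (E ⧸ S) := hF
    have hcl' : IsClosed (S : Set E) := by rw [hSF]; exact hclosed
    obtain ⟨y, hyS, hy1, hy2, hy3⟩ := daug_upper hD hne S hcl' hfin x hx' t ht η hη
    refine ⟨y, by rw [← hSF]; exact hyS, hy1, ?_⟩
    rcases max_cases 0 (t - 2) with ⟨h, h'⟩ | ⟨h, h'⟩ <;>
      rcases max_cases 1 (t - 1) with ⟨h2, h2'⟩ | ⟨h2, h2'⟩ <;> rw [h2] at hy2 <;> rw [h] <;>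
      linarith
  · -- no AUC renorming
    refine not_isAUC_of_game (toRealBanach P E hcl) 1 (1 / 2) (by norm_num) ?_
    change ∀ n : ℕ, ∃ A : ℕ → Set E, (∃ x ∈ A 0, (1 / 2 : ℝ) ≤ ‖x‖) ∧
        (∀ i ≤ n, ∀ x ∈ A i, ‖x‖ ≤ (1 : ℝ)) ∧
        ∀ i < n, ∀ x ∈ A i, ∀ F : Set E, (toRealBanach P E hcl).IsCof F → ∀ ε : ℝ, 0 < ε →
          ∃ z ∈ A (i + 1), ∃ y ∈ F, ‖z - x - y‖ < ε ∧ (1 / 2 : ℝ) ≤ ‖z - x‖
    intro n
    refine ⟨fun _ => {x : E | ‖x‖ ≤ 1}, ?_, fun i _ x hx => hx, ?_⟩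
    · obtain ⟨u, hu⟩ := hne
      refine ⟨‖u‖⁻¹ • u, ?_, ?_⟩
      · change ‖‖u‖⁻¹ • u‖ ≤ 1
        rw [norm_smul, norm_inv, norm_norm, inv_mul_cancel₀ (norm_ne_zero_iff.mpr hu)]
      · have : ‖‖u‖⁻¹ • u‖ = 1 := by
          rw [norm_smul, norm_inv, norm_norm, inv_mul_cancel₀ (norm_ne_zero_iff.mpr hu)]
        have h2 : (1 / 2 : ℝ) ≤ 1 := by norm_num
        exact h2.trans this.symm.le
    · intro i _ x hx F hF ε hε
      obtain ⟨S, hSF, hclosed, hfin⟩ : ∃ S : Submodule ℝ E, (S : Set E) = F ∧ IsClosed F ∧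
        FiniteDimensional ℝ (E ⧸ S) := hF
      have hcl' : IsClosed (S : Set E) := by rw [hSF]; exact hclosed
      obtain ⟨z, hz1, ⟨y, hyS, hy⟩, hz3⟩ := daug_cof hD hne S hcl' hfin x hx
        (min ε (1 / 2)) (lt_min hε (by norm_num))
      refine ⟨z, hz1, y, by rw [← hSF]; exact hyS, lt_of_lt_of_le hy (min_le_left _ _), ?_⟩
      have h1 : min ε (1 / 2) ≤ 1 / 2 := min_le_right _ _
      have h2 := norm_nonneg (x : E)
      have h3 : (1 / 2 : ℝ) ≤ ‖(z : E) - x‖ := by linarith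
      exact h3

end Crest.Agent.S0167
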