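import Crest.Statements.S0168
import Crest.Agent.Row125.GenSpace
-- import your own Crest.Agent.* helpers here

set_option autoImplicit false
open Crest Crest.AnalysisR

namespace Crest.Agent.S0168

open Crest.AnalysisR.TreePotential Crest.Agent.Row125 Filter Topology

/-- active vertices. -/
def active : PotentialModel → Set (List ℕ)
  | .rootlessSibling => {s | s ≠ []}
  | .rootedSibling => Set.univ
  | .antichain => Set.univ
  | .global => Set.univ

theorem pathPotential_single (s : List ℕ) (u : List ℕ) :
    pathPotential (Pi.single s 1) u = if s <:+ u then 1 else 0 := by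
  induction u with
  | nil =>
    simp only [pathPotential, List.suffix_nil]
    by_cases h : s = []
    · subst h; simp
    · have : ([] : List ℕ) ≠ s := fun h' => h h'.symm
      simp [h, this]
  | cons a v ih =>
    rw [pathPotential, ih]
    simp only [List.suffix_cons_iff]
    by_cases h : s = a :: v
    · subst h
      have h2 : ¬ (a :: v) <:+ v := by
        intro h3
        have := h3.length_le
        simp at this
      simp [h2]
    · have h' : a :: v ≠ s := fun h' => h h'.symm
      simp [h, h']

theorem sum_single_sq_le {ι : Type*} [DecidableEq ι] (A : Finset ι) (e : ι → List ℕ)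
    (he : ∀ i ∈ A, ∀ j ∈ A, e i = e j → i = j) (s : List ℕ) :
    ∑ i ∈ A, ((Pi.single s 1 : List ℕ → ℝ) (e i)) ^ 2 ≤ 1 := by
  classical
  by_cases h : ∃ i ∈ A, e i = s
  · obtain ⟨i, hi, his⟩ := h
    rw [Finset.sum_eq_single_of_mem i hi]
    · simp [his]
    · intro j hj hji
      have : e j ≠ s := fun h => hji (he j hj i hi (h.trans his.symm))
      simp [this]
  · push Not at h
    rw [Finset.sum_eq_zero]
    · norm_num
    · intro i hi
      simp [h i hi]

/-- the mixing estimate for square sums. -/
theorem mix_sum {ι : Type*} (A : Finset ι) (e : ι → List ℕ) (f g h : List ℕ → ℝ)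
    (S : Set (List ℕ)) (α β : ℝ) (hαβ : α ^ 2 + β ^ 2 ≤ 1)
    (h1 : ∀ s ∈ S, h s = α * f s) (h2 : ∀ s, s ∉ S → |h s| ≤ β * |g s|)
    (hf : ∑ i ∈ A, f (e i) ^ 2 ≤ 1) (hg : ∑ i ∈ A, g (e i) ^ 2 ≤ 1) :
    ∑ i ∈ A, h (e i) ^ 2 ≤ 1 := by
  calc ∑ i ∈ A, h (e i) ^ 2 ≤ ∑ i ∈ A, (α ^ 2 * f (e i) ^ 2 + β ^ 2 * g (e i) ^ 2) := by
        refine Finset.sum_le_sum fun i _ => ?_
        by_cases hi : e i ∈ S
        · rw [h1 _ hi]
          nlinarith [mul_nonneg (sq_nonneg β) (sq_nonneg (g (e i)))]
        · have h3 := h2 _ hi
          have h4 : h (e i) ^ 2 ≤ (β * |g (e i)|) ^ 2 := by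
            rw [← sq_abs]
            exact pow_le_pow_left₀ (abs_nonneg _) h3 2
          rw [mul_pow, sq_abs] at h4
          nlinarith [mul_nonneg (sq_nonneg α) (sq_nonneg (f (e i)))]
    _ = α ^ 2 * ∑ i ∈ A, f (e i) ^ 2 + β ^ 2 * ∑ i ∈ A, g (e i) ^ 2 := by
        rw [Finset.sum_add_distrib, Finset.mul_sum, Finset.mul_sum]
    _ ≤ α ^ 2 * 1 + β ^ 2 * 1 := by
        have := sq_nonneg α
        have := sq_nonneg β
        nlinarith
    _ ≤ 1 := by linarith

theorem good (m : PotentialModel) : GoodFamily (IsTest m) (active m) where
  pot f hf := hf.1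
  zero := by
    have hp : ∀ s : List ℕ, pathPotential (fun _ => 0) s = 0 := by
      intro s
      induction s with
      | nil => rfl
      | cons a v ih => simp [pathPotential, ih]
    refine ⟨fun s => by rw [hp]; simp, ?_⟩
    cases m <;> simp [ExtraCondition, Function.support]
  neg f hf := by
    have hp : ∀ s : List ℕ, pathPotential (fun s => -f s) s = -pathPotential f s := by
      intro s
      induction s with
      | nil => rfl
      | cons a v ih => simp [pathPotential, ih]; ring
    refine ⟨fun s => by rw [hp, abs_neg]; exact hf.1 s, ?_⟩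
    have h2 := hf.2
    cases m
    · simpa [ExtraCondition] using h2
    · simpa [ExtraCondition] using h2
    · refine ⟨?_, ?_⟩
      · have : Function.support (fun s => -f s) = Function.support f := by
          ext s; simp
        rw [this]; exact h2.1
      · simpa using h2.2
    · simpa [ExtraCondition] using h2
  single s hs := by
    refine ⟨fun u => ?_, ?_⟩
    · rw [pathPotential_single]
      split_ifs <;> simp
    · cases m
      · refine ⟨?_, ?_⟩
        · have hs' : s ≠ [] := hs
          have : ([] : List ℕ) ≠ s := fun h => hs' h.symm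
          simp [this]
        · intro r A
          exact sum_single_sq_le A (fun n => n :: r) (by simp) s
      · intro r A
        exact sum_single_sq_le A (fun n => n :: r) (by simp) s
      · refine ⟨?_, ?_⟩
        · refine Set.Finite.subset (Set.finite_singleton s) ?_
          intro u hu
          by_contra hne
          have hne' : u ≠ s := hne
          simp [hne'] at hu
        · intro A _
          exact sum_single_sq_le A (fun u => u) (by simp) s
      · intro A
        exact sum_single_sq_le A (fun u => u) (by simp) s
  off f hf s hs := by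
    cases m
    · have : s = [] := by
        by_contra h
        exact hs h
      rw [this]; exact hf.2.1
    all_goals exact absurd (Set.mem_univ s) hs
  child f hf r A := by
    cases m
    · exact hf.2.2 r A
    · exact hf.2 r A
    · have h := hf.2.2 (A.image fun n => n :: r) (by
        intro u hu v hv huv
        simp only [Finset.mem_image] at hu hv
        obtain ⟨a, _, rfl⟩ := hu
        obtain ⟨b, _, rfl⟩ := hv
        intro hsuf
        exact huv (hsuf.eq_of_length (by simp)))
      rwa [Finset.sum_image (by simp)] at h
    · have h := hf.2 (A.image fun n => n :: r)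
      rwa [Finset.sum_image (by simp)] at h
  mix f g h hf hg S hS0 α β hα hβ hαβ h1 h2 h3 := by
    refine ⟨h3, ?_⟩
    cases m
    · refine ⟨?_, ?_⟩
      · rw [h1 [] hS0, hf.2.1, mul_zero]
      · intro r A
        exact mix_sum A (fun n => n :: r) f g h S α β hαβ h1 h2 (hf.2.2 r A) (hg.2.2 r A)
    · intro r A
      exact mix_sum A (fun n => n :: r) f g h S α β hαβ h1 h2 (hf.2 r A) (hg.2 r A)
    · refine ⟨?_, ?_⟩
      · refine (hf.2.1.union hg.2.1).subset ?_
        intro s hs
        by_cases hsS : s ∈ S
        · left
          intro hfs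
          apply hs
          rw [h1 s hsS, hfs, mul_zero]
        · right
          intro hgs
          apply hs
          have := h2 s hsS
          rw [hgs, abs_zero, mul_zero] at this
          exact abs_eq_zero.mp (le_antisymm this (abs_nonneg _))
      · intro A hA
        exact mix_sum A (fun u => u) f g h S α β hαβ h1 h2 (hf.2.2 A hA) (hg.2.2 A hA)
    · intro A
      exact mix_sum A (fun u => u) f g h S α β hαβ h1 h2 (hf.2 A) (hg.2 A)

theorem bdd (m : PotentialModel) : ∀ f, IsTest m f → ∀ s, |f s| ≤ 2 :=
  fun f hf s => abs_le_two_of_pot f hf.1 s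

/-- For each of the four bounded-potential coordinate models on the countably branching tree (rootless sibling, rooted sibling, antichain, global), the generated space, namely the closure of the span of the coordinate vectors in the supremum norm over the model's tests, is separable and infinite-dimensional, its norm has at every unit centre and every 0 < t < 1 averaged midpoint asymptotic quantity at least √(1 + t²/4) - 1, and no equivalent norm on it is asymptotically uniformly convex. -/
theorem result
    (m : Crest.AnalysisR.TreePotential.PotentialModel) :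
    (Crest.AnalysisR.TreePotential.modelBanach m).IsSeparableInfiniteDim ∧
      (∀ t : ℝ, 0 < t → t < 1 →
        (Crest.AnalysisR.TreePotential.modelBanach m).MidpointModulusGE
          (Crest.AnalysisR.TreePotential.modelBanach m).norm t (Real.sqrt (1 + t ^ 2 / 4) - 1)) ∧
      ∀ N : (Crest.AnalysisR.TreePotential.modelBanach m).X → ℝ,
        (Crest.AnalysisR.TreePotential.modelBanach m).IsEquivNorm N →
          ¬ (Crest.AnalysisR.TreePotential.modelBanach m).IsAUC N := by
  have hbdd := bdd m
  have hspace : modelBanach m = ⟨gspace hbdd, inferInstance, inferInstance, inferInstance⟩ := rfl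
  rw [hspace]
  set E : RealBanach := ⟨gspace hbdd, inferInstance, inferInstance, inferInstance⟩ with hE
  have hauc : ∀ N : E.X → ℝ, E.IsEquivNorm N → ¬ E.IsAUC N := by
    refine not_isAUC_of_tree E 2 1 one_pos ?_
    intro n
    obtain ⟨x, h0, h1, h2⟩ := gspace_tree (good m) hbdd n (by
      intro v hv _
      cases m
      · exact hv
      all_goals exact Set.mem_univ _)
    exact ⟨x, h0, fun v _ => h1 v, h2⟩
  refine ⟨⟨gspace_separable hbdd, infiniteDim_of_not_isAUC E hauc⟩, ?_, hauc⟩
  intro t ht _
  exact midpoint_of_AMP E (gspace_AMP (good m) hbdd) t ht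

end Crest.Agent.S0168
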