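import Crest.Statements.S0169
import Crest.Agent.Row125.Basic
-- import your own Crest.Agent.* helpers here

set_option autoImplicit false
open MeasureTheory ProbabilityTheory
open Crest Crest.AnalysisR

namespace Crest.Agent.S0169

open Crest.AnalysisR.TreeProduct Crest.Agent.Row125 Filter Topology

section aux

variable {ν : Measure ℝ} {Ω : Type} [MeasurableSpace Ω] {μ : Measure Ω} {W : List ℕ → Ω → ℝ}

theorem mul_meas {Ω' : Type} {m : MeasurableSpace Ω'} (f g : Ω' → ℝ) (hf : Measurable f)
    (hg : Measurable g) : Measurable (fun z => f z * g z) := hf.mul hg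

theorem const_meas {Ω' : Type} {m : MeasurableSpace Ω'} (c : ℝ) :
    Measurable (fun _ : Ω' => c) := measurable_const

/-- sigma-algebra generated by the vertices in `S`. -/
@[reducible] def sig (W : List ℕ → Ω → ℝ) (S : Set (List ℕ)) : MeasurableSpace Ω :=
  ⨆ u ∈ S, MeasurableSpace.comap (W u) inferInstance

theorem measurable_sig (W : List ℕ → Ω → ℝ) (S : Set (List ℕ)) (u : List ℕ) (hu : u ∈ S) :
    Measurable[sig W S] (W u) := by
  intro s hs
  have : MeasurableSpace.comap (W u) inferInstance ≤ sig W S :=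
    le_iSup₂_of_le u hu le_rfl
  exact this _ ⟨s, hs, rfl⟩

theorem pathProduct_measurable_sig (W : List ℕ → Ω → ℝ) (v : List ℕ) (n : ℕ) (hv : v.length ≤ n) :
    Measurable[sig W {u | u.length ≤ n}] (pathProduct W v) := by
  induction v with
  | nil => exact @const_meas Ω (sig W {u | u.length ≤ n}) 1
  | cons a v ih =>
    have h1 := ih (by simp at hv; omega)
    have h2 := measurable_sig W {u | u.length ≤ n} (a :: v) hv
    exact @mul_meas Ω (sig W {u | u.length ≤ n}) _ _ h1 h2

theorem sig_indep (hW : IsRealization ν μ W) (S T : Set (List ℕ)) (hST : Disjoint S T) :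
    Indep (sig W S) (sig W T) μ := by
  have h := (iIndepFun_iff_iIndep _ _ _).mp hW.2.1
  exact indep_iSup_of_disjoint (fun i => (hW.1 i).comap_le) h hST

theorem indep_of_sig (hW : IsRealization ν μ W) (S T : Set (List ℕ)) (hST : Disjoint S T)
    (f g : Ω → ℝ) (hf : Measurable[sig W S] f) (hg : Measurable[sig W T] g) :
    IndepFun f g μ := by
  rw [IndepFun_iff_Indep]
  exact indep_of_indep_of_le_left
    (indep_of_indep_of_le_right (sig_indep hW S T hST) hg.comap_le) hf.comap_le

theorem disjoint_levels (n : ℕ) :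
    Disjoint {u : List ℕ | u.length ≤ n} {u : List ℕ | u.length = n + 1} := by
  rw [Set.disjoint_left]
  intro u hu hu'
  simp only [Set.mem_ofPred_eq] at hu hu'
  omega

theorem pathProduct_measurable (hW : IsRealization ν μ W) (v : List ℕ) :
    Measurable (pathProduct W v) := by
  induction v with
  | nil => exact measurable_const
  | cons a v ih => exact ih.mul (hW.1 _)

variable [IsProbabilityMeasure ν]

theorem integrable_id_of (hmean : ∫ x, x ∂ν = 1) : Integrable (fun x : ℝ => x) ν := by
  by_contra h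
  rw [integral_undef h] at hmean
  exact zero_ne_one hmean

theorem W_integrable (hmean : ∫ x, x ∂ν = 1) (hW : IsRealization ν μ W) (v : List ℕ)
    (hv : v ≠ []) : Integrable (W v) μ := by
  have h := integrable_id_of hmean
  rw [← hW.2.2 v hv] at h
  exact (integrable_map_measure (by fun_prop) (hW.1 v).aemeasurable).mp h

theorem W_mean (hmean : ∫ x, x ∂ν = 1) (hW : IsRealization ν μ W) (v : List ℕ)
    (hv : v ≠ []) : ∫ z, W v z ∂μ = 1 := by
  rw [← hW.2.2 v hv, integral_map (hW.1 v).aemeasurable (by fun_prop)] at hmean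
  exact hmean

theorem W_pos (hpos : ν (Set.Ioi 0) = 1) (hW : IsRealization ν μ W) (v : List ℕ)
    (hv : v ≠ []) : ∀ᵐ z ∂μ, 0 < W v z := by
  have h : ∀ᵐ x ∂ν, x ∈ Set.Ioi (0 : ℝ) := by
    have h0 : Set.Ioi (0 : ℝ) ∈ ae ν := (mem_ae_iff_prob_eq_one measurableSet_Ioi).mpr hpos
    exact h0
  rw [← hW.2.2 v hv] at h
  exact ae_of_ae_map (hW.1 v).aemeasurable h

variable [IsProbabilityMeasure μ]

theorem pathProduct_integrable (hmean : ∫ x, x ∂ν = 1) (hW : IsRealization ν μ W) (v : List ℕ) :
    Integrable (pathProduct W v) μ ∧ ∫ z, pathProduct W v z ∂μ = 1 := by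
  induction v with
  | nil => exact ⟨integrable_const _, by simp [pathProduct]⟩
  | cons a v ih =>
    have hind : IndepFun (pathProduct W v) (W (a :: v)) μ :=
      indep_of_sig hW _ _ (disjoint_levels v.length) _ _
        (pathProduct_measurable_sig W v _ le_rfl)
        (measurable_sig W _ (a :: v) (by simp))
    have hWi := W_integrable hmean hW (a :: v) (by simp)
    refine ⟨hind.integrable_mul ih.1 hWi, ?_⟩
    have := hind.integral_fun_mul_eq_mul_integral ih.1.aestronglyMeasurable
      hWi.aestronglyMeasurable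
    simp only [pathProduct]
    rw [this, ih.2, W_mean hmean hW _ (by simp), one_mul]

theorem pathProduct_pos (hpos : ν (Set.Ioi 0) = 1) (hW : IsRealization ν μ W) (v : List ℕ) :
    ∀ᵐ z ∂μ, 0 < pathProduct W v z := by
  induction v with
  | nil => simp [pathProduct]
  | cons a v ih =>
    filter_upwards [ih, W_pos hpos hW (a :: v) (by simp)] with z h1 h2
    exact mul_pos h1 h2

theorem pathProduct_abs_integral (hpos : ν (Set.Ioi 0) = 1) (hmean : ∫ x, x ∂ν = 1)
    (hW : IsRealization ν μ W) (v : List ℕ) : ∫ z, |pathProduct W v z| ∂μ = 1 := by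
  rw [← (pathProduct_integrable hmean hW v).2]
  refine integral_congr_ae ?_
  filter_upwards [pathProduct_pos hpos hW v] with z hz
  exact abs_of_pos hz

/-- `E|X_v Y| = E|Y|` for `Y` measurable with respect to the next level. -/
theorem integral_abs_mul (hpos : ν (Set.Ioi 0) = 1) (hmean : ∫ x, x ∂ν = 1)
    (hW : IsRealization ν μ W) (v : List ℕ) (Y : Ω → ℝ)
    (hY : Measurable[sig W {u | u.length = v.length + 1}] Y) (hYm : Measurable Y) :
    ∫ z, |pathProduct W v z * Y z| ∂μ = ∫ z, |Y z| ∂μ := by
  have hind : IndepFun (pathProduct W v) Y μ :=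
    indep_of_sig hW _ _ (disjoint_levels v.length) _ _
      (pathProduct_measurable_sig W v _ le_rfl) hY
  have hind2 : IndepFun (fun z => |pathProduct W v z|) (fun z => |Y z|) μ :=
    hind.comp (φ := fun x : ℝ => |x|) (ψ := fun x : ℝ => |x|)
      (continuous_abs.measurable) (continuous_abs.measurable)
  have hXm := pathProduct_measurable hW v
  have h := hind2.integral_fun_mul_eq_mul_integral
    (continuous_abs.measurable.comp hXm).aestronglyMeasurable
    (continuous_abs.measurable.comp hYm).aestronglyMeasurable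
  simp only [abs_mul]
  rw [h, pathProduct_abs_integral hpos hmean hW v, one_mul]

/-- `L²` domination. -/
theorem integral_abs_sum_le (hmean : ∫ x, x ∂ν = 1) (hm2 : Integrable (fun x : ℝ => x ^ 2) ν)
    (hW : IsRealization ν μ W) (v : List ℕ) (s : Finset ℕ) (c : ℕ → ℝ) :
    ∫ z, |∑ a ∈ s, c a * (W (a :: v) z - 1)| ∂μ ≤
      √(∫ x, (x - 1) ^ 2 ∂ν) * √(∑ a ∈ s, c a ^ 2) := by
  have hmemν : MemLp (fun x : ℝ => x) 2 ν := by
    rw [memLp_two_iff_integrable_sq (by fun_prop)]
    exact hm2
  have hmem : ∀ a, MemLp (W (a :: v)) 2 μ := by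
    intro a
    have h := hmemν
    rw [← hW.2.2 (a :: v) (by simp)] at h
    exact (memLp_map_measure_iff (by fun_prop) (hW.1 _).aemeasurable).mp h
  have hmem1 : ∀ a, MemLp (fun z => W (a :: v) z - 1) 2 μ := fun a =>
    (hmem a).sub (memLp_const 1)
  have hmemc : ∀ a, MemLp (fun z => c a * (W (a :: v) z - 1)) 2 μ := fun a =>
    (hmem1 a).const_mul (c a)
  have hpair : Set.Pairwise (↑s : Set ℕ) fun i j =>
      IndepFun (fun z => c i * (W (i :: v) z - 1)) (fun z => c j * (W (j :: v) z - 1)) μ := by
    intro i _ j _ hij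
    have h := hW.2.1.indepFun (i := i :: v) (j := j :: v) (by simpa using hij)
    exact h.comp (φ := fun x : ℝ => c i * (x - 1)) (ψ := fun x : ℝ => c j * (x - 1))
      (by fun_prop) (by fun_prop)
  have hvar := IndepFun.variance_sum (μ := μ) (s := s) (X := fun a z => c a * (W (a :: v) z - 1))
    (fun a _ => hmemc a) hpair
  have hmeanW : ∀ a, ∫ z, (c a * (W (a :: v) z - 1)) ∂μ = 0 := by
    intro a
    rw [integral_const_mul, integral_sub (W_integrable hmean hW _ (by simp)) (integrable_const _),
      W_mean hmean hW _ (by simp)]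
    simp
  have hsumeq : (∑ a ∈ s, fun z => c a * (W (a :: v) z - 1)) =
      fun z => ∑ a ∈ s, c a * (W (a :: v) z - 1) := by
    ext z; simp
  have hmemS : MemLp (fun z => ∑ a ∈ s, c a * (W (a :: v) z - 1)) 2 μ :=
    memLp_finsetSum s (fun a _ => hmemc a)
  have hmeanS : ∫ z, (∑ a ∈ s, c a * (W (a :: v) z - 1)) ∂μ = 0 := by
    rw [integral_finsetSum _ (fun a _ => (hmemc a).integrable (by norm_num))]
    exact Finset.sum_eq_zero fun a _ => hmeanW a
  have hvar2 : ∀ a, variance (fun z => c a * (W (a :: v) z - 1)) μ =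
      c a ^ 2 * ∫ x, (x - 1) ^ 2 ∂ν := by
    intro a
    rw [variance_of_integral_eq_zero (hmemc a).aestronglyMeasurable.aemeasurable (hmeanW a)]
    rw [← hW.2.2 (a :: v) (by simp), integral_map (hW.1 _).aemeasurable (by fun_prop),
      ← integral_const_mul]
    refine integral_congr_ae (ae_of_all _ fun z => ?_)
    simp only
    ring
  rw [hsumeq] at hvar
  rw [variance_of_integral_eq_zero hmemS.aestronglyMeasurable.aemeasurable hmeanS] at hvar
  simp only [hvar2] at hvar
  rw [← Finset.sum_mul] at hvar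
  -- (E|Y|)^2 ≤ E Y^2
  have habs : MemLp (fun z => |∑ a ∈ s, c a * (W (a :: v) z - 1)|) 2 μ := hmemS.abs
  have hnn := variance_nonneg (fun z => |∑ a ∈ s, c a * (W (a :: v) z - 1)|) μ
  rw [variance_eq_sub habs] at hnn
  have h2 : ∫ z, ((fun z => |∑ a ∈ s, c a * (W (a :: v) z - 1)|) ^ 2) z ∂μ =
      ∫ z, (∑ a ∈ s, c a * (W (a :: v) z - 1)) ^ 2 ∂μ := by
    refine integral_congr_ae (ae_of_all _ fun z => ?_)
    simp [sq_abs]
  rw [h2, hvar] at hnn
  rw [← Real.sqrt_mul (integral_nonneg fun x => sq_nonneg _)]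
  apply Real.le_sqrt_of_sq_le
  linarith

omit [IsProbabilityMeasure μ] in
theorem incr_measurable_sig (v : List ℕ) (s : Finset ℕ) (c : ℕ → ℝ) :
    Measurable[sig W {u | u.length = v.length + 1}]
      (fun z => ∑ a ∈ s, c a * (W (a :: v) z - 1)) := by
  have h : ∀ a, Measurable[sig W {u | u.length = v.length + 1}] (W (a :: v)) := fun a =>
    measurable_sig W _ (a :: v) (by simp)
  have key : ∀ (m : MeasurableSpace Ω) (f : ℕ → Ω → ℝ), (∀ a, Measurable (f a)) →
      Measurable (fun z => ∑ a ∈ s, c a * (f a z - 1)) := by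
    intro m f hf
    fun_prop
  exact key _ _ h

omit [IsProbabilityMeasure μ] in
theorem incr_measurable (hW : IsRealization ν μ W) (v : List ℕ) (s : Finset ℕ) (c : ℕ → ℝ) :
    Measurable (fun z => ∑ a ∈ s, c a * (W (a :: v) z - 1)) := by
  have h := hW.1
  fun_prop

omit [IsProbabilityMeasure μ] in
theorem delta_pos (hmean : ∫ x, x ∂ν = 1) (hnc : ∀ c : ℝ, ν ≠ Measure.dirac c) :
    0 < ∫ x, |x - 1| ∂ν := by
  have hint : Integrable (fun x : ℝ => |x - 1|) ν :=
    ((integrable_id_of hmean).sub (integrable_const 1)).abs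
  rcases (integral_nonneg (μ := ν) (f := fun x : ℝ => |x - 1|)
    (fun x => abs_nonneg _)).eq_or_lt with h | h
  · exfalso
    have h0 := (integral_eq_zero_iff_of_nonneg (fun x => abs_nonneg _) hint).mp h.symm
    have h1 : ∀ᵐ x ∂ν, x = 1 := by
      filter_upwards [h0] with x hx
      have : |x - 1| = 0 := hx
      linarith [abs_eq_zero.mp this]
    refine hnc 1 ?_
    have h2 : ν ({1}ᶜ) = 0 := by
      rw [ae_iff] at h1
      exact h1
    ext t ht
    rw [Measure.dirac_apply' _ ht]
    by_cases h1t : (1 : ℝ) ∈ t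
    · have : ν tᶜ = 0 := measure_mono_null (by
        intro x hx; simp only [Set.mem_compl_iff, Set.mem_singleton_iff]
        rintro rfl; exact hx h1t) h2
      rw [(prob_compl_eq_zero_iff ht).mp this]
      simp [h1t]
    · have : ν t = 0 := measure_mono_null (by
        intro x hx; simp only [Set.mem_compl_iff, Set.mem_singleton_iff]
        rintro rfl; exact h1t hx) h2
      rw [this]
      simp [h1t]
  · exact h

/-- The class of the path product in `L¹`. -/
noncomputable def vec (hmean : ∫ x, x ∂ν = 1) (hW : IsRealization ν μ W) (v : List ℕ) :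
    Lp ℝ 1 μ := (pathProduct_integrable hmean hW v).1.toL1 (pathProduct W v)

theorem vec_mem (hmean : ∫ x, x ∂ν = 1) (hW : IsRealization ν μ W) (v : List ℕ) :
    vec hmean hW v ∈ productSpan μ W :=
  Submodule.le_topologicalClosure _ (Submodule.subset_span ⟨v, Integrable.coeFn_toL1 _⟩)

theorem vec_ae (hmean : ∫ x, x ∂ν = 1) (hW : IsRealization ν μ W) (v : List ℕ) :
    (vec hmean hW v : Ω → ℝ) =ᵐ[μ] pathProduct W v := Integrable.coeFn_toL1 _

theorem norm_vec (hpos : ν (Set.Ioi 0) = 1) (hmean : ∫ x, x ∂ν = 1)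
    (hW : IsRealization ν μ W) (v : List ℕ) : ‖vec hmean hW v‖ = 1 := by
  rw [L1.norm_eq_integral_norm, ← pathProduct_abs_integral hpos hmean hW v]
  refine integral_congr_ae ?_
  filter_upwards [vec_ae hmean hW v] with z hz
  rw [hz]; rfl

theorem norm_comb (hpos : ν (Set.Ioi 0) = 1) (hmean : ∫ x, x ∂ν = 1)
    (hW : IsRealization ν μ W) (v : List ℕ) (s : Finset ℕ) (c : ℕ → ℝ) :
    ‖∑ a ∈ s, c a • (vec hmean hW (a :: v) - vec hmean hW v)‖ =
      ∫ z, |∑ a ∈ s, c a * (W (a :: v) z - 1)| ∂μ := by
  rw [L1.norm_eq_integral_norm, ← integral_abs_mul hpos hmean hW v _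
    (incr_measurable_sig v s c) (incr_measurable hW v s c)]
  refine integral_congr_ae ?_
  have h1 := Lp.coeFn_fun_finsetSum s (fun a => c a • (vec hmean hW (a :: v) - vec hmean hW v))
  have h2 : ∀ᵐ z ∂μ, ∀ a : ℕ, (c a • (vec hmean hW (a :: v) - vec hmean hW v) : Lp ℝ 1 μ) z =
      c a * (pathProduct W v z * W (a :: v) z - pathProduct W v z) := by
    rw [ae_all_iff]
    intro a
    filter_upwards [Lp.coeFn_smul (c a) (vec hmean hW (a :: v) - vec hmean hW v),
      Lp.coeFn_sub (vec hmean hW (a :: v)) (vec hmean hW v), vec_ae hmean hW v,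
      vec_ae hmean hW (a :: v)] with z e1 e2 e3 e4
    rw [e1, Pi.smul_apply, e2, Pi.sub_apply, e3, e4]
    rfl
  filter_upwards [h1, h2] with z e1 e2
  rw [e1, Real.norm_eq_abs]
  congr 1
  rw [Finset.mul_sum]
  refine Finset.sum_congr rfl fun a _ => ?_
  rw [e2]
  ring

end aux

/-- Let ν be a Borel probability law on ℝ carried by (0,∞), not a point mass, with mean 1 and finite second moment, and W an independent family of real random variables on a probability space indexed by the vertices of the countably branching tree (finite lists of naturals; root [], parent of a :: v is v), each non-root one with law ν. Then the closed linear span in L¹ of the path products ∏_{root ≺ u ≼ v} W_u is infinite-dimensional and has no equivalent asymptotically uniformly convex norm. -/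
theorem result (ν : Measure ℝ) [IsProbabilityMeasure ν] (hpos : ν (Set.Ioi 0) = 1)
    (hnc : ∀ c : ℝ, ν ≠ Measure.dirac c) (hmean : ∫ x, x ∂ν = 1)
    (hm2 : Integrable (fun x : ℝ => x ^ 2) ν)
    (Ω : Type) [MeasurableSpace Ω] (μ : Measure Ω) [IsProbabilityMeasure μ]
    (W : List ℕ → Ω → ℝ) (hW : Crest.AnalysisR.TreeProduct.IsRealization ν μ W) :
    ¬ FiniteDimensional ℝ (Crest.AnalysisR.TreeProduct.productSpan μ W) ∧
      ∀ N : (Crest.AnalysisR.TreeProduct.spanBanach μ W).X → ℝ,
        (Crest.AnalysisR.TreeProduct.spanBanach μ W).IsEquivNorm N →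
          ¬ (Crest.AnalysisR.TreeProduct.spanBanach μ W).IsAUC N := by
  have main : ∀ N : (Crest.AnalysisR.TreeProduct.spanBanach μ W).X → ℝ,
        (Crest.AnalysisR.TreeProduct.spanBanach μ W).IsEquivNorm N →
          ¬ (Crest.AnalysisR.TreeProduct.spanBanach μ W).IsAUC N := by
    set δ : ℝ := min 1 (∫ x, |x - 1| ∂ν) with hδ
    have hδpos : 0 < δ := lt_min one_pos (delta_pos hmean hnc)
    refine not_isAUC_of_tree (spanBanach μ W) 1 δ hδpos ?_
    intro n
    refine ⟨fun v => (⟨vec hmean hW v, vec_mem hmean hW v⟩ : productSpan μ W), ?_, ?_, ?_⟩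
    · have h1 : δ ≤ 1 := min_le_left _ _
      have h2 := norm_vec hpos hmean hW []
      exact h1.trans h2.symm.le
    · intro v _
      exact (norm_vec hpos hmean hW v).le
    · intro v _
      refine ⟨?_, ?_⟩
      · intro a
        have h := norm_comb hpos hmean hW v {a} (fun _ => 1)
        simp only [Finset.sum_singleton, one_smul, one_mul] at h
        have h2 : ∫ z, |W (a :: v) z - 1| ∂μ = ∫ x, |x - 1| ∂ν := by
          rw [← hW.2.2 (a :: v) (by simp), integral_map (hW.1 _).aemeasurable (by fun_prop)]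
        rw [h2] at h
        have h3 : δ ≤ ‖vec hmean hW (a :: v) - vec hmean hW v‖ := by
          rw [h]; exact min_le_right _ _
        exact h3
      · intro φ
        refine weaklyNull_of_l2_dominated (X := productSpan μ W) _ (√(∫ x, (x - 1) ^ 2 ∂ν))
          (fun s c => ?_) φ
        have h := norm_comb hpos hmean hW v s c
        have h' := integral_abs_sum_le hmean hm2 hW v s c
        rw [← h] at h'
        refine le_trans (le_of_eq ?_) h'
        rw [Submodule.coe_norm]
        congr 1
        rw [AddSubmonoidClass.coe_finsetSum]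
        exact Finset.sum_congr rfl fun i _ => rfl
  exact ⟨infiniteDim_of_not_isAUC (spanBanach μ W) main, main⟩

end Crest.Agent.S0169
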