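import Crest.Statements.S0175
import Crest.Agent.S0175Aux.Final

set_option autoImplicit false
open MeasureTheory
open scoped ENNReal ContDiff
open Crest.AnalysisR.OT
open Crest Crest.AnalysisR Crest.AnalysisR.OT

namespace Crest.Agent.S0175

/-- For every d ≥ 2 and s > 0 there is a smooth, compactly supported, nonnegative ρ on ℝᵈ with integral 1 and smooth square root such that, for μ = ρ dx and the cost summing ‖xᵢ - xⱼ‖^(-s) over the three pairs of a triple: some coupling with all three marginals μ has finite cost, minimal among all such couplings; every pair of Borel maps T₂, T₃ pushing μ to itself gives the plan x ↦ (x, T₂ x, T₃ x) strictly larger cost; and such pairs have costs arbitrarily close to that minimum. -/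
theorem result
    (d : ℕ) (hd : 2 ≤ d) (s : ℝ) (hs : 0 < s) :
    ∃ ρ : EuclideanSpace ℝ (Fin d) → ℝ, (∀ x, 0 ≤ ρ x) ∧ ContDiff ℝ ∞ ρ ∧ HasCompactSupport ρ ∧
      ContDiff ℝ ∞ (fun x => Real.sqrt (ρ x)) ∧ ∫ x, ρ x = 1 ∧
      ∃ π₀ : Measure (EuclideanSpace ℝ (Fin d) × EuclideanSpace ℝ (Fin d) × EuclideanSpace ℝ (Fin d)),
        IsCoupling₃ (measOfDensity ρ) π₀ ∧ ∫⁻ p, tripleCost s p ∂π₀ < ⊤ ∧
        (∀ π : Measure (EuclideanSpace ℝ (Fin d) × EuclideanSpace ℝ (Fin d) × EuclideanSpace ℝ (Fin d)), IsCoupling₃ (measOfDensity ρ) π →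
          ∫⁻ p, tripleCost s p ∂π₀ ≤ ∫⁻ p, tripleCost s p ∂π) ∧
        (∀ T₂ T₃ : EuclideanSpace ℝ (Fin d) → EuclideanSpace ℝ (Fin d), Measurable T₂ → Measurable T₃ →
          (measOfDensity ρ).map T₂ = measOfDensity ρ → (measOfDensity ρ).map T₃ = measOfDensity ρ →
          ∫⁻ p, tripleCost s p ∂π₀ < ∫⁻ x, tripleCost s (x, T₂ x, T₃ x) ∂(measOfDensity ρ)) ∧
        (∀ ε : ℝ≥0∞, 0 < ε → ∃ T₂ T₃ : EuclideanSpace ℝ (Fin d) → EuclideanSpace ℝ (Fin d), Measurable T₂ ∧ Measurable T₃ ∧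
          (measOfDensity ρ).map T₂ = measOfDensity ρ ∧ (measOfDensity ρ).map T₃ = measOfDensity ρ ∧
          ∫⁻ x, tripleCost s (x, T₂ x, T₃ x) ∂(measOfDensity ρ) < ∫⁻ p, tripleCost s p ∂π₀ + ε) := by
  have : Nontrivial (EuclideanSpace ℝ (Fin d)) := by
    have : Nonempty (Fin d) := ⟨⟨0, by omega⟩⟩
    infer_instance
  let i₀ : Fin d := ⟨0, by omega⟩
  let i₁ : Fin d := ⟨1, by omega⟩
  have hne : i₀ ≠ i₁ := by
    intro h
    have := congrArg Fin.val h
    simp [i₀, i₁] at this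
  have h1 : ‖(EuclideanSpace.single i₀ (1 : ℝ) : EuclideanSpace ℝ (Fin d))‖ = 1 := by
    rw [EuclideanSpace.norm_single]; simp
  have h2 : ‖(EuclideanSpace.single i₁ (1 : ℝ) : EuclideanSpace ℝ (Fin d))‖ = 1 := by
    rw [EuclideanSpace.norm_single]; simp
  have h12 : inner ℝ (EuclideanSpace.single i₀ (1 : ℝ) : EuclideanSpace ℝ (Fin d))
      (EuclideanSpace.single i₁ (1 : ℝ)) = 0 := by
    rw [EuclideanSpace.inner_single_left]
    simp [hne]
  exact Crest.Agent.S0175Aux.final hs h1 h2 h12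

end Crest.Agent.S0175
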