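import Crest.Statements.S0209
import Crest.Agent.R149.Final
-- import your own Crest.Agent.* helpers here

set_option autoImplicit false
open Crest Crest.ProbabilityR

namespace Crest.Agent.S0209

/-- There is a bounded continuous stable radial pair potential in three-space (energy of `N` particles `≥ -B N`) with `φ(r)` at most `C r^(-3-1/32)` in size for `r ≥ 1`, an open density interval centred at `5p/3`, `p > 0` the unit-separation packing density (`packingNumber L / L^3 → p`), and one `β_c ∈ [7/8, 9/8]` such that at each `ρ` in it the free energy per volume `-lim_L log Z_{[0,L]^3, ⌊ρL^3⌋}(β)/(β L^3)` exists for `β > 0`, with one-sided `β`-derivatives at `β_c`, left above right. -/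
theorem result :
    ∃ φ : ℝ → ℝ, Continuous φ ∧ (∃ M : ℝ, ∀ r : ℝ, |φ r| ≤ M) ∧
      (∃ B : ℝ, ∀ (N : ℕ) (x : Fin N → Crest.ProbabilityR.Continuum.Pt), -B * N ≤ Crest.ProbabilityR.Continuum.energy φ x) ∧
      (∃ C : ℝ, ∀ r : ℝ, 1 ≤ r → |φ r| ≤ C * r ^ (-(3 + 1 / 32 : ℝ))) ∧
      ∃ p η βc : ℝ, 0 < p ∧
        Filter.Tendsto (fun L : ℝ => (Crest.ProbabilityR.Continuum.packingNumber L : ℝ) / L ^ 3)
          Filter.atTop (nhds p) ∧
        0 < η ∧ η ≤ 5 * p / 3 ∧ 7 / 8 ≤ βc ∧ βc ≤ 9 / 8 ∧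
        ∃ f : ℝ → ℝ → ℝ,
          (∀ ρ : ℝ, 5 * p / 3 - η < ρ → ρ < 5 * p / 3 + η → ∀ β : ℝ, 0 < β →
            Filter.Tendsto (fun L : ℝ => -(1 / (β * L ^ 3)) *
                Real.log (Crest.ProbabilityR.Continuum.partitionFn φ L ⌊ρ * L ^ 3⌋₊ β))
              Filter.atTop (nhds (f β ρ))) ∧
          (∀ ρ : ℝ, 5 * p / 3 - η < ρ → ρ < 5 * p / 3 + η → ∃ Dl Dr : ℝ,
            HasDerivWithinAt (fun β => f β ρ) Dl (Set.Iio βc) βc ∧
            HasDerivWithinAt (fun β => f β ρ) Dr (Set.Ioi βc) βc ∧ Dr < Dl) := by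
  obtain ⟨p, δ, η, c₀, a, hp, hδ, hδ', hη, hη', ha, hc, hlim, hmain⟩ :=
    Crest.Agent.R149.main_kink
  have hc0 : 0 < c₀ := lt_of_lt_of_le (by positivity) hc
  obtain ⟨φ₀, hφ, hcont, hle⟩ :=
    Crest.Agent.R149.exists_core_bounded (c := c₀) hδ hδ' hη hη' hc0
  obtain ⟨x0, hx0, G, hG, βs, hβ1, hβ2, hkink⟩ := hmain c₀ le_rfl φ₀ hφ
  obtain ⟨M, hM⟩ := Crest.Agent.R149.Tfull_bdd a hx0
  obtain ⟨C, hC⟩ := Crest.Agent.R149.Tfull_decay ha hx0
  refine ⟨fun r => φ₀ r - Crest.Agent.R149.Tfull a x0 r,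
    hcont.sub (Crest.Agent.R149.continuous_Tfull a hx0), ⟨c₀ + M, fun r => ?_⟩,
    ⟨c₀ / 2, fun N x => Crest.Agent.R149.final_stable hφ ha hc hx0 N x⟩,
    ⟨16 * c₀ + C, fun r hr => ?_⟩, p, p / 6, βs, hp, hlim, by positivity, by linarith, hβ1, hβ2,
    fun β ρ => -(1 / β) * G β ρ, fun ρ h1 h2 β hβ => ?_, fun ρ h1 h2 => ?_⟩
  · have h1 := hle r
    have h2 := hφ.nonneg r
    have h3 := abs_le.mp (hM r)
    rw [abs_le]
    constructor <;> linarith
  · have h1 := hle r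
    have h2 := hφ.nonneg r
    have h3 := hC r hr
    have hrpos : 0 < r := by linarith
    have h4 : φ₀ r ≤ 16 * c₀ * r ^ (-(3 + 1 / 32 : ℝ)) := by
      rcases le_or_gt r 2 with h | h
      · have h5 : (16 : ℝ)⁻¹ ≤ r ^ (-(3 + 1 / 32 : ℝ)) := by
          have h6 : (2 : ℝ) ^ (-(3 + 1 / 32 : ℝ)) ≤ r ^ (-(3 + 1 / 32 : ℝ)) :=
            Real.rpow_le_rpow_of_nonpos hrpos h (by norm_num)
          have h7 : (2 : ℝ) ^ (-(4 : ℝ)) ≤ (2 : ℝ) ^ (-(3 + 1 / 32 : ℝ)) :=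
            Real.rpow_le_rpow_of_exponent_le (by norm_num) (by norm_num)
          have h8 : (2 : ℝ) ^ (-(4 : ℝ)) = (16 : ℝ)⁻¹ := by
            rw [Real.rpow_neg (by norm_num)]
            norm_num
          linarith
        have h9 : c₀ = 16 * c₀ * (16 : ℝ)⁻¹ := by ring
        calc φ₀ r ≤ c₀ := h1
          _ = 16 * c₀ * (16 : ℝ)⁻¹ := h9
          _ ≤ 16 * c₀ * r ^ (-(3 + 1 / 32 : ℝ)) :=
            mul_le_mul_of_nonneg_left h5 (by positivity)
      · rw [hφ.far r (by linarith)]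
        positivity
    calc |φ₀ r - Crest.Agent.R149.Tfull a x0 r|
        ≤ |φ₀ r| + |Crest.Agent.R149.Tfull a x0 r| := abs_sub _ _
      _ = φ₀ r + |Crest.Agent.R149.Tfull a x0 r| := by rw [abs_of_nonneg h2]
      _ ≤ 16 * c₀ * r ^ (-(3 + 1 / 32 : ℝ)) + C * r ^ (-(3 + 1 / 32 : ℝ)) := add_le_add h4 h3
      _ = (16 * c₀ + C) * r ^ (-(3 + 1 / 32 : ℝ)) := by ring
  · exact Crest.Agent.R149.final_tendsto (hG β ρ hβ (by nlinarith))
  · obtain ⟨Dl, Dr, hl, hr, hD⟩ := hkink ρ (by linarith) (by linarith)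
    exact Crest.Agent.R149.final_deriv (by linarith) hl hr hD

end Crest.Agent.S0209
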