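import Crest.Statements.S0210
import Crest.Agent.R149.Final
-- import your own Crest.Agent.* helpers here

set_option autoImplicit false
open Crest Crest.ProbabilityR

namespace Crest.Agent.S0210

/-- There is a measurable radial pair potential in three-space, finite and locally bounded at positive distances, tending to `+∞` at `0`, below `-a < 0` on an interval, with `r² φ(r)` integrable at large `r`, `r³ φ(r) → 0`, and stable on configurations of distinct points, whose canonical free energy per volume `-lim_L log Z_{[0,L]^3, ⌊ρL^3⌋}(β)/(β L^3)` exists for all `β, ρ > 0` and has, on some open density interval, at one `β_c ∈ (1/2, 3/2)` a left `β`-derivative strictly above the right. -/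
theorem result :
    ∃ φ : ℝ → ℝ, Measurable φ ∧
      (∀ a b : ℝ, 0 < a → a ≤ b → ∃ M : ℝ, ∀ r : ℝ, a ≤ r → r ≤ b → |φ r| ≤ M) ∧
      Filter.Tendsto φ (nhdsWithin 0 (Set.Ioi 0)) Filter.atTop ∧
      (∃ r₁ r₂ a : ℝ, 0 < r₁ ∧ r₁ < r₂ ∧ 0 < a ∧ ∀ r : ℝ, r₁ ≤ r → r ≤ r₂ → φ r ≤ -a) ∧
      (∃ R : ℝ, 0 < R ∧ MeasureTheory.IntegrableOn (fun r : ℝ => r ^ 2 * |φ r|) (Set.Ioi R)) ∧
      Filter.Tendsto (fun r : ℝ => r ^ 3 * φ r) Filter.atTop (nhds 0) ∧
      (∃ B : ℝ, ∀ (N : ℕ) (x : Fin N → Crest.ProbabilityR.Continuum.Pt), Function.Injective x →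
        -B * N ≤ Crest.ProbabilityR.Continuum.energy φ x) ∧
      ∃ f : ℝ → ℝ → ℝ,
        (∀ ρ : ℝ, 0 < ρ → ∀ β : ℝ, 0 < β →
          Filter.Tendsto (fun L : ℝ => -(1 / (β * L ^ 3)) *
              Real.log (Crest.ProbabilityR.Continuum.partitionFn φ L ⌊ρ * L ^ 3⌋₊ β))
            Filter.atTop (nhds (f β ρ))) ∧
        ∃ ρ₁ ρ₂ βc : ℝ, 0 ≤ ρ₁ ∧ ρ₁ < ρ₂ ∧ 1 / 2 < βc ∧ βc < 3 / 2 ∧
          ∀ ρ : ℝ, ρ₁ < ρ → ρ < ρ₂ → ∃ Dl Dr : ℝ,
            HasDerivWithinAt (fun β => f β ρ) Dl (Set.Iio βc) βc ∧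
            HasDerivWithinAt (fun β => f β ρ) Dr (Set.Ioi βc) βc ∧ Dr < Dl := by
  obtain ⟨p, δ, η, c₀, a, hp, hδ, hδ', hη, hη', ha, hc, hlim, hmain⟩ :=
    Crest.Agent.R149.main_kink
  have hc0 : 0 < c₀ := lt_of_lt_of_le (by positivity) hc
  obtain ⟨φ₀, hφ, hdiv, hloc⟩ :=
    Crest.Agent.R149.exists_core_divergent (c := c₀) hδ hδ' hη hη' hc0
  obtain ⟨x0, hx0, G, hG, βs, hβ1, hβ2, hkink⟩ := hmain c₀ le_rfl φ₀ hφ
  obtain ⟨M, hM⟩ := Crest.Agent.R149.Tfull_bdd a hx0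
  obtain ⟨C, hC⟩ := Crest.Agent.R149.Tfull_decay ha hx0
  obtain ⟨t₀, ht₀, htl⟩ := Crest.Agent.R149.Tfull_ge ha hx0
  have hTm : Measurable (Crest.Agent.R149.Tfull a x0) :=
    (Crest.Agent.R149.continuous_Tfull a hx0).measurable
  have hfar : ∀ r : ℝ, 2 ≤ r → φ₀ r - Crest.Agent.R149.Tfull a x0 r =
      - Crest.Agent.R149.Tfull a x0 r := fun r hr => by
    rw [hφ.far r (by linarith)]; ring
  have hC0 : 0 ≤ C := by
    have h1 := hC 1 le_rfl
    rw [Real.one_rpow, mul_one] at h1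
    exact le_trans (abs_nonneg _) h1
  refine ⟨fun r => φ₀ r - Crest.Agent.R149.Tfull a x0 r, hφ.meas.sub hTm, ?_, ?_, ?_, ?_, ?_,
    ⟨c₀ / 2, fun N x _ => Crest.Agent.R149.final_stable hφ ha hc hx0 N x⟩,
    fun β ρ => -(1 / β) * G β ρ, ?_, 3 * p / 2, 11 * p / 6, βs, by positivity, by linarith,
    by linarith, by linarith, fun ρ h1 h2 => ?_⟩
  · intro a' b' ha' _
    obtain ⟨M', hM'⟩ := hloc a' ha'
    refine ⟨M' + M, fun r h1 _ => ?_⟩
    have h3 := abs_le.mp (hM r)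
    have h4 := hM' r h1
    have h5 := hφ.nonneg r
    rw [abs_le]
    constructor <;> linarith
  · have h1 : Filter.Tendsto (fun r => φ₀ r + (-M)) (nhdsWithin 0 (Set.Ioi 0)) Filter.atTop :=
      Filter.tendsto_atTop_add_const_right _ _ hdiv
    refine Filter.tendsto_atTop_mono (fun r => ?_) h1
    have h3 := abs_le.mp (hM r)
    linarith
  · refine ⟨2, 3, t₀, by norm_num, by norm_num, ht₀, fun r h1 h2 => ?_⟩
    show φ₀ r - Crest.Agent.R149.Tfull a x0 r ≤ -t₀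
    rw [hfar r h1]
    have := htl r (by rw [abs_of_nonneg (by linarith)]; exact h2)
    linarith
  · refine ⟨2, by norm_num, ?_⟩
    have h1 : MeasureTheory.IntegrableOn (fun r : ℝ => C * r ^ (-(33 / 32) : ℝ)) (Set.Ioi 2) :=
      (integrableOn_Ioi_rpow_of_lt (by norm_num) (by norm_num)).const_mul C
    refine MeasureTheory.Integrable.mono' h1 ?_ ?_
    · exact ((measurable_id.pow_const 2).mul (hφ.meas.sub hTm).abs).aestronglyMeasurable
    · refine (MeasureTheory.ae_restrict_mem measurableSet_Ioi).mono (fun r hr => ?_)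
      have hr2 : (2 : ℝ) < r := hr
      have hr0 : (0 : ℝ) < r := by linarith
      show ‖r ^ 2 * |φ₀ r - Crest.Agent.R149.Tfull a x0 r|‖ ≤ _
      rw [hfar r hr2.le, abs_neg, Real.norm_of_nonneg (by positivity)]
      have h3 := hC r (by linarith)
      have h4 : r ^ 2 * r ^ (-(3 + 1 / 32 : ℝ)) = r ^ (-(33 / 32) : ℝ) := by
        rw [← Real.rpow_natCast r 2, ← Real.rpow_add hr0]
        norm_num
      calc r ^ 2 * |Crest.Agent.R149.Tfull a x0 r|
          ≤ r ^ 2 * (C * r ^ (-(3 + 1 / 32 : ℝ))) := mul_le_mul_of_nonneg_left h3 (by positivity)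
        _ = C * (r ^ 2 * r ^ (-(3 + 1 / 32 : ℝ))) := by ring
        _ = C * r ^ (-(33 / 32) : ℝ) := by rw [h4]
  · have h1 : Filter.Tendsto (fun r : ℝ => C * r ^ (-(1 / 32) : ℝ)) Filter.atTop (nhds 0) := by
      have := (tendsto_rpow_neg_atTop (y := 1 / 32) (by norm_num)).const_mul C
      simpa using this
    refine squeeze_zero_norm' ?_ h1
    filter_upwards [Filter.eventually_ge_atTop (2 : ℝ)] with r hr
    have hr0 : (0 : ℝ) < r := by linarith
    show ‖r ^ 3 * (φ₀ r - Crest.Agent.R149.Tfull a x0 r)‖ ≤ _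
    rw [hfar r hr, norm_mul, norm_neg, Real.norm_of_nonneg (by positivity : (0:ℝ) ≤ r ^ 3),
      Real.norm_eq_abs]
    have h3 := hC r (by linarith)
    have h4 : r ^ 3 * r ^ (-(3 + 1 / 32 : ℝ)) = r ^ (-(1 / 32) : ℝ) := by
      rw [← Real.rpow_natCast r 3, ← Real.rpow_add hr0]
      norm_num
    calc r ^ 3 * |Crest.Agent.R149.Tfull a x0 r|
        ≤ r ^ 3 * (C * r ^ (-(3 + 1 / 32 : ℝ))) := mul_le_mul_of_nonneg_left h3 (by positivity)
      _ = C * (r ^ 3 * r ^ (-(3 + 1 / 32 : ℝ))) := by ring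
      _ = C * r ^ (-(1 / 32) : ℝ) := by rw [h4]
  · intro ρ hρ β hβ
    exact Crest.Agent.R149.final_tendsto (hG β ρ hβ hρ.le)
  · obtain ⟨Dl, Dr, hl, hr, hD⟩ := hkink ρ h1 h2
    exact Crest.Agent.R149.final_deriv (by linarith) hl hr hD

end Crest.Agent.S0210
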