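import Crest.Statements.S0241
import Crest.Agent.R160.Main
import Crest.Agent.R160.Zero

set_option autoImplicit false
universe u
open Crest Crest.ProbabilityR

namespace Crest.Agent.S0241

open MeasureTheory

theorem countable_of_tree {V : Type u} (G : SimpleGraph V) [G.LocallyFinite]
    (hc : G.Connected) : Countable V := by
  classical
  obtain ⟨o⟩ := hc.nonempty
  have hfin : ∀ n, {u | G.dist o u ≤ n}.Finite := by
    intro n
    induction n with
    | zero =>
      refine (Set.finite_singleton o).subset ?_
      intro u hu
      have h1 : G.dist o u = 0 := by simpa using hu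
      rw [hc.dist_eq_zero_iff] at h1
      exact h1.symm
    | succ n ih =>
      refine (ih.union (ih.biUnion (t := fun u => G.neighborSet u)
        (fun u _ => Set.toFinite _))).subset ?_
      intro u hu
      have hu' : G.dist o u ≤ n + 1 := hu
      by_cases h : G.dist o u ≤ n
      · exact Or.inl h
      · right
        obtain ⟨p, hp, hl⟩ := hc.exists_path_of_dist o u
        have hl' : p.length = n + 1 := by omega
        have hnn : ¬ p.Nil := by
          intro hnil
          have := SimpleGraph.Walk.length_eq_zero_iff.mpr hnil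
          omega
        refine Set.mem_biUnion (x := p.penultimate) ?_ ?_
        · have h3 : G.dist o p.penultimate ≤ p.dropLast.length := SimpleGraph.dist_le _
          have h4 : p.dropLast.length = n := by
            rw [SimpleGraph.Walk.length_dropLast]; omega
          exact le_trans h3 h4.le
        · exact SimpleGraph.Walk.adj_penultimate hnn
  have : (Set.univ : Set V) = ⋃ n, {u | G.dist o u ≤ n} := by
    ext u
    simp only [Set.mem_univ, Set.mem_iUnion, true_iff]
    exact ⟨G.dist o u, le_refl (G.dist o u)⟩
  have hcount : (Set.univ : Set V).Countable := by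
    rw [this]
    exact Set.countable_iUnion fun n => (hfin n).countable
  exact Set.countable_univ_iff.mp hcount

/-- Let `d ≥ 3`, `β ≥ 0`, `tanh β ≤ (d-1)^(-1/2)`. On every connected acyclic graph with all degrees `d` (the infinite `d`-regular tree) some measurable map from `[0,1]^V` to spin configurations commutes with every automorphism on every input and, fed independent uniform labels, outputs the free zero-field Ising state: each spin pattern on a finite connected vertex set `S` has probability `1/2` times the product over edges inside `S` of `(1 ± tanh β)/2`, with `+` for agreeing endpoints. -/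
theorem result (d : ℕ) (hd : 3 ≤ d) (β : ℝ)
    (hβ : 0 ≤ β) (hθ : Real.tanh β ≤ ((d : ℝ) - 1) ^ (-(1 / 2 : ℝ))) (V : Type u)
    (G : SimpleGraph V) [G.LocallyFinite] (hT : G.IsTree) (hreg : G.IsRegularOfDegree d) :
    ∃ Φ : (V → unitInterval) → (V → Bool),
      Measurable Φ ∧
      (∀ (g : G ≃g G) (x : V → unitInterval), Φ (x ∘ ⇑g) = Φ x ∘ ⇑g) ∧
      ∀ (S : Finset V) (η : V → Bool), (G.induce (S : Set V)).Connected →
        (Crest.ProbabilityR.Labels.labelMeasure V).map Φ {σ | ∀ v ∈ S, σ v = η v} =
          ENNReal.ofReal (Crest.ProbabilityR.TreeIsing.isingWeight G (Real.tanh β) S η) := by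
  classical
  by_cases h0 : Real.tanh β = 0
  · rw [h0]; exact R160.zero_case V G hT
  have hθ0 : 0 < Real.tanh β := by
    refine lt_of_le_of_ne ?_ (Ne.symm h0)
    rw [Real.tanh_eq_sinh_div_cosh]
    exact div_nonneg (Real.sinh_nonneg_iff.mpr hβ) (Real.cosh_pos β).le
  have hd1 : (0 : ℝ) < (d : ℝ) - 1 := by
    have : (3 : ℝ) ≤ d := by exact_mod_cast hd
    linarith
  have hθ2 : Real.tanh β ^ 2 * ((d : ℝ) - 1) ≤ 1 := by
    have h1 : Real.tanh β ^ 2 ≤ (((d : ℝ) - 1) ^ (-(1 / 2 : ℝ))) ^ 2 :=
      pow_le_pow_left₀ hθ0.le hθ 2
    have h2 : (((d : ℝ) - 1) ^ (-(1 / 2 : ℝ))) ^ 2 = ((d : ℝ) - 1)⁻¹ := by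
      rw [← Real.rpow_natCast, ← Real.rpow_mul hd1.le]
      norm_num
      rw [Real.rpow_neg_one]
    rw [h2] at h1
    calc Real.tanh β ^ 2 * ((d : ℝ) - 1) ≤ ((d : ℝ) - 1)⁻¹ * ((d : ℝ) - 1) :=
          mul_le_mul_of_nonneg_right h1 hd1.le
      _ = 1 := inv_mul_cancel₀ hd1.ne'
  haveI hcV : Countable V := countable_of_tree G hT.1
  obtain ⟨f, hf⟩ := exists_injective_nat V
  let V' : Type := Set.range f
  let e : V ≃ V' := Equiv.ofInjective f hf
  let G' : SimpleGraph V' := G.comap e.symm
  let iso : G ≃g G' :=
    { toEquiv := e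
      map_rel_iff' := by
        intro a b
        simp [G'] }
  letI lf' : G'.LocallyFinite := fun v =>
    Fintype.ofEquiv _ (iso.symm.mapNeighborSet v).symm
  have hreg' : G'.IsRegularOfDegree d := by
    intro v
    rw [← hreg (iso.symm v), ← SimpleGraph.card_neighborSet_eq_degree,
      ← SimpleGraph.card_neighborSet_eq_degree]
    exact Fintype.card_congr (iso.symm.mapNeighborSet v)
  obtain ⟨bm⟩ := R160.exists_BM
  obtain ⟨o⟩ := hT.1.nonempty
  let ST : R160.Setup V' :=
    { G := G'
      lf := lf'
      d := d
      rt := ⟨hd, iso.isTree_iff.mp hT, hreg'⟩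
      θ := Real.tanh β
      θpos := hθ0
      θle := hθ2
      o := e o
      β := bm }
  obtain ⟨Φ', hm, heq, hlaw⟩ := ST.main
  refine ⟨fun x => Φ' (x ∘ e.symm) ∘ e, ?_, ?_, ?_⟩
  · refine measurable_pi_lambda _ fun v => ?_
    refine (measurable_pi_apply (e v)).comp (hm.comp ?_)
    exact measurable_pi_lambda _ fun w => measurable_pi_apply _
  · intro g x
    let g' : G' ≃g G' := iso.symm.trans (g.trans iso)
    have h1 := heq g' (x ∘ e.symm)
    have h2 : (x ∘ e.symm) ∘ ⇑g' = (x ∘ ⇑g) ∘ e.symm := by
      funext w
      simp only [Function.comp_apply]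
      congr 1
      change e.symm (e (g (e.symm w))) = _
      simp
    rw [h2] at h1
    funext v
    change Φ' ((x ∘ ⇑g) ∘ e.symm) (e v) = Φ' (x ∘ e.symm) (e (g v))
    rw [h1]
    change Φ' (x ∘ e.symm) (e (g (e.symm (e v)))) = _
    simp
  · intro S η hS
    let S' : Finset V' := S.map e.toEmbedding
    have hS' : (ST.G.induce (S' : Set V')).Connected := by
      let isoS : G.induce (S : Set V) ≃g G'.induce (S' : Set V') :=
        { toFun := fun v => ⟨e v.1, by
            simp only [S', Finset.coe_map]
            exact ⟨v.1, v.2, rfl⟩⟩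
          invFun := fun w => ⟨e.symm w.1, by
            have := w.2
            simp only [S', Finset.coe_map] at this
            obtain ⟨z, hz, hzw⟩ := this
            rw [← hzw]
            simpa using hz⟩
          left_inv := fun v => by simp
          right_inv := fun w => by simp
          map_rel_iff' := by
            intro a b
            simp [G'] }
      exact isoS.connected_iff.mp hS
    have hl := hlaw S' (η ∘ e.symm) hS'
    have hmap : (Labels.labelMeasure V).map (fun x : V → unitInterval => x ∘ e.symm) =
        Labels.labelMeasure V' := by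
      have := Measure.infinitePi_map_piCongrLeft
        (μ := fun _ : V' => (volume : Measure unitInterval)) e
      unfold Labels.labelMeasure
      rw [← this]
      congr 1
      funext x w
      change _ = (Equiv.piCongrLeft (fun _ : V' => unitInterval) e) x w
      obtain ⟨v, rfl⟩ := e.surjective w
      rw [Equiv.piCongrLeft_apply_apply]
      simp
    have hmΨ : Measurable (fun x : V → unitInterval => x ∘ e.symm) :=
      measurable_pi_lambda _ fun w => measurable_pi_apply _
    have hmC : Measurable (fun σ : V' → Bool => σ ∘ e) :=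
      measurable_pi_lambda _ fun w => measurable_pi_apply _
    have hfun : (fun x : V → unitInterval => Φ' (x ∘ e.symm) ∘ e) =
        (fun σ : V' → Bool => σ ∘ e) ∘ Φ' ∘ (fun x : V → unitInterval => x ∘ e.symm) := rfl
    have hms : MeasurableSet {σ : V → Bool | ∀ v ∈ S, σ v = η v} := by
      have : {σ : V → Bool | ∀ v ∈ S, σ v = η v} = ⋂ v ∈ S, {σ | σ v = η v} := by
        ext σ; simp
      rw [this]
      exact Finset.measurableSet_biInter _ fun v _ =>
        measurableSet_eq_fun (measurable_pi_apply v) measurable_const
    rw [hfun, ← Measure.map_map hmC (hm.comp hmΨ), ← Measure.map_map hm hmΨ, hmap,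
      Measure.map_apply hmC hms]
    have hset : (fun σ : V' → Bool => σ ∘ e) ⁻¹' {σ : V → Bool | ∀ v ∈ S, σ v = η v} =
        {σ : V' → Bool | ∀ v ∈ S', σ v = (η ∘ e.symm) v} := by
      ext σ
      simp only [Set.mem_preimage, Set.mem_ofPred_eq, S', Finset.mem_map, Function.comp_apply]
      constructor
      · rintro h w ⟨v, hv, rfl⟩
        simpa using h v hv
      · intro h v hv
        simpa using h (e v) ⟨v, hv, rfl⟩
    rw [hset, hl]
    congr 1
    unfold TreeIsing.isingWeight
    congr 1
    refine Finset.prod_nbij' (Sym2.map e.symm) (Sym2.map e) ?_ ?_ ?_ ?_ ?_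
    · intro z
      refine z.ind fun a b => ?_
      simp only [Finset.mem_filter, Finset.mk_mem_sym2_iff, S', Finset.mem_map_equiv,
        SimpleGraph.mem_edgeSet, Sym2.map_mk]
      exact fun h => h
    · intro z
      refine z.ind fun a b => ?_
      simp only [Finset.mem_filter, Finset.mk_mem_sym2_iff, S', Finset.mem_map_equiv,
        SimpleGraph.mem_edgeSet, Sym2.map_mk, Equiv.symm_apply_apply]
      intro h
      refine ⟨h.1, ?_⟩
      change G.Adj (e.symm (e a)) (e.symm (e b))
      simpa using h.2
    · intro z _
      refine z.ind fun a b => ?_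
      simp
    · intro z _
      refine z.ind fun a b => ?_
      simp
    · intro z _
      rw [Sym2.map_map]

end Crest.Agent.S0241
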