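import Crest.Statements.S0244
import Crest.Agent.R163.Fin
import Crest.Agent.R163.BzA
import Crest.Agent.R163.BxCB
-- import your own Crest.Agent.* helpers here

set_option autoImplicit false
open Crest Crest.ProbabilityR

namespace Crest.Agent.S0244

/-- Three-valued spins spread from a uniform root down a tree, each child keeping its parent's spin with probability `λ` (-1/2 ≤ λ ≤ 1), else drawing a fresh uniform spin. If `d λ² ≤ 1`, the expected total variation distance between the conditional law of the root given the depth-`ℓ` spins and the uniform law tends to `0` as `ℓ → ∞`: on the `d`-ary tree for integer `d ≥ 2`, and on a Poisson(`d`) Galton–Watson tree seen to depth `ℓ`, averaged without conditioning on survival, for real `d > 1`. -/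
theorem result :
    (∀ b : ℕ, 2 ≤ b → ∀ lam : ℝ, -(1 / 2 : ℝ) ≤ lam → lam ≤ 1 → (b : ℝ) * lam ^ 2 ≤ 1 →
      Filter.Tendsto (Crest.ProbabilityR.Broadcast.advantage 3 b lam) Filter.atTop (nhds 0)) ∧
    (∀ d : ℝ, 1 < d → ∀ lam : ℝ, -(1 / 2 : ℝ) ≤ lam → lam ≤ 1 → d * lam ^ 2 ≤ 1 →
      Filter.Tendsto (Crest.ProbabilityR.Broadcast.gwAdvantage 3 lam d) Filter.atTop (nhds 0)) :=
  Crest.Agent.R163.s0244_final Crest.Agent.R163.Bx.certA Crest.Agent.R163.Bx.certB
    Crest.Agent.R163.Bx.certC

end Crest.Agent.S0244
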