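import Crest.Statements.S0256
import Crest.Agent.R169.FinE
-- import your own Crest.Agent.* helpers here

set_option autoImplicit false
open Crest Crest.AlgebraR

namespace Crest.Agent.S0256

/-- There is a complete Noetherian local normal domain of Krull dimension three that is an algebra over the complex numbers whose structure map induces a bijection onto the residue field, and over which no nonzero finitely generated module has a regular sequence of length three contained in the maximal ideal (no maximal Cohen–Macaulay module: every such module has depth at most two). -/
theorem result :
    ∃ (R : Type) (_ : CommRing R) (_ : IsLocalRing R) (_ : Algebra ℂ R),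
      IsDomain R ∧ IsNoetherianRing R ∧ IsIntegrallyClosed R ∧
      IsAdicComplete (IsLocalRing.maximalIdeal R) R ∧ ringKrullDim R = 3 ∧
      Function.Bijective (algebraMap ℂ (IsLocalRing.ResidueField R)) ∧
      ∀ (M : Type) [AddCommGroup M] [Module R M], Module.Finite R M → Nontrivial M →
        ∀ rs : List R, rs.length = 3 → (∀ r ∈ rs, r ∈ IsLocalRing.maximalIdeal R) →
          ¬ RingTheory.Sequence.IsRegular M rs := by
  obtain ⟨F⟩ := R169.exists_finalData
  exact R169.S0256_of F

end Crest.Agent.S0256
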