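import Mathlib

set_option autoImplicit false

namespace Crest.Agent.S0316Lib

/-- `τ s = 10 tan (s/10)` -/
noncomputable def tau (s : ℝ) : ℝ := 10 * Real.tan (s / 10)

lemma tau_zero : tau 0 = 0 := by simp [tau]
lemma tau_neg (s : ℝ) : tau (-s) = - tau s := by
  simp [tau, neg_div]

lemma cos_ge {s : ℝ} (hs : |s| ≤ 2 / 10) : 49/50 ≤ Real.cos s := by
  have h := Real.one_sub_sq_div_two_le_cos (x := s)
  have h2 : s ^ 2 ≤ (2/10)^2 := by
    rw [← sq_abs]; exact pow_le_pow_left₀ (abs_nonneg _) hs 2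
  nlinarith

lemma hasDerivAt_tau {s : ℝ} (hs : |s| ≤ 2) : HasDerivAt tau (1 / Real.cos (s/10) ^ 2) s := by
  have hc : 49/50 ≤ Real.cos (s/10) := cos_ge (by rw [abs_div]; norm_num; linarith)
  have hne : Real.cos (s/10) ≠ 0 := by linarith
  have h1 : HasDerivAt (fun s : ℝ => s / 10) (1/10) s := (hasDerivAt_id s).div_const 10
  have h2 := (Real.hasDerivAt_tan hne).comp s h1
  have h3 := h2.const_mul 10
  refine h3.congr_deriv ?_
  ring

lemma tau_bounds {s t : ℝ} (hs : 0 ≤ s) (hst : s ≤ t) (ht : t ≤ 2) :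
    t - s ≤ tau t - tau s ∧ tau t - tau s ≤ 21/20 * (t - s) := by
  have hD : ∀ x ∈ Set.Icc (0:ℝ) 2, HasDerivAt tau (1 / Real.cos (x/10) ^ 2) x := by
    intro x hx
    exact hasDerivAt_tau (by rw [abs_of_nonneg hx.1]; exact hx.2)
  have hcont : ContinuousOn tau (Set.Icc (0:ℝ) 2) := fun x hx => (hD x hx).continuousAt.continuousWithinAt
  have hdiff : DifferentiableOn ℝ tau (interior (Set.Icc (0:ℝ) 2)) := fun x hx =>
    (hD x (interior_subset hx)).differentiableAt.differentiableWithinAt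
  have hb : ∀ x ∈ Set.Icc (0:ℝ) 2, 1 ≤ 1 / Real.cos (x/10) ^ 2 ∧ 1 / Real.cos (x/10) ^ 2 ≤ 21/20 := by
    intro x hx
    have hc : 49/50 ≤ Real.cos (x/10) := cos_ge (by rw [abs_of_nonneg (by linarith [hx.1])]; linarith [hx.2])
    have hc1 := Real.cos_le_one (x/10)
    have hpos : 0 < Real.cos (x/10) ^ 2 := by positivity
    constructor
    · rw [le_div_iff₀ hpos]; nlinarith
    · rw [div_le_iff₀ hpos]; nlinarith
  have hsm : s ∈ Set.Icc (0:ℝ) 2 := ⟨hs, by linarith⟩
  have htm : t ∈ Set.Icc (0:ℝ) 2 := ⟨by linarith, ht⟩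
  constructor
  · have := Convex.mul_sub_le_image_sub_of_le_deriv (convex_Icc (0:ℝ) 2) hcont hdiff (C := 1)
      (fun x hx => by rw [(hD x (interior_subset hx)).deriv]; exact (hb x (interior_subset hx)).1)
      s hsm t htm hst
    linarith
  · have := Convex.image_sub_le_mul_sub_of_deriv_le (convex_Icc (0:ℝ) 2) hcont hdiff (C := 21/20)
      (fun x hx => by rw [(hD x (interior_subset hx)).deriv]; exact (hb x (interior_subset hx)).2)
      s hsm t htm hst
    linarith

lemma tau_bounds0 {t : ℝ} (h0 : 0 ≤ t) (ht : t ≤ 2) : t ≤ tau t ∧ tau t ≤ 21/20 * t := by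
  have := tau_bounds le_rfl h0 ht
  rw [tau_zero] at this
  constructor <;> linarith [this.1, this.2]

lemma le_one_of_norm {x X t : ℝ} (hx : 0 < x) (n1 : x ^ 2 * (1 + t ^ 2 / 100) + X ^ 2 = 1) :
    x ≤ 1 := by
  by_contra h
  push Not at h
  nlinarith [sq_nonneg X, sq_nonneg (x * t)]

lemma lt_one_of_norm {x X t : ℝ} (hx : 0 < x) (n1 : x ^ 2 * (1 + t ^ 2 / 100) + X ^ 2 = 1) :
    X < 1 := by
  by_contra h
  push Not at h
  have : 0 < x ^ 2 * (1 + t ^ 2 / 100) := by positivity
  nlinarith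

/-- no solutions in the positive case -/
lemma case_i {x y X Y : ℝ} (hx : 0 < x) (hy : 0 < y) (hX : 0 < X) (hY : 0 < Y)
    (h1 : tau (1 - Y) * X = tau y * x) (h2 : tau (1 - X) * Y = tau x * y)
    (n1 : x ^ 2 * (1 + tau y ^ 2 / 100) + X ^ 2 = 1)
    (n2 : y ^ 2 * (1 + tau x ^ 2 / 100) + Y ^ 2 = 1) : False := by
  have hx1 := le_one_of_norm hx n1
  have hy1 := le_one_of_norm hy n2
  have hX1 := lt_one_of_norm hx n1
  have hY1 := lt_one_of_norm hy n2
  have bp := tau_bounds0 (t := 1 - Y) (by linarith) (by linarith)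
  have bq := tau_bounds0 (t := 1 - X) (by linarith) (by linarith)
  have br := tau_bounds0 (t := x) (by linarith) (by linarith)
  have bs := tau_bounds0 (t := y) (by linarith) (by linarith)
  generalize tau (1 - Y) = p at *
  generalize tau (1 - X) = q at *
  generalize tau x = r at *
  generalize tau y = s at *
  have key : ∀ {y Y r p s : ℝ}, 0 < y → 0 < Y → Y < 1 → 0 ≤ r → r ≤ 21/20 →
      p ≤ 21/20 * (1 - Y) → y ≤ s → y ^ 2 * (1 + r ^ 2 / 100) + Y ^ 2 = 1 → p * Y < s * y := by
    intro y Y r p s hy hY hY1 hr0 hr hp hs n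
    have e1 : p * Y ≤ 21/20 * (1 - Y) * Y := by nlinarith
    have e2 : y ^ 2 ≤ s * y := by nlinarith
    have hr2 : 1 + r ^ 2 / 100 ≤ 1012/1000 := by nlinarith
    have hr3 : 0 < 1 + r ^ 2 / 100 := by positivity
    have e3 : 21/20 * (1 - Y) * Y < y ^ 2 := by
      by_contra hcon
      push Not at hcon
      have : y ^ 2 * (1 + r ^ 2 / 100) ≤ 21/20 * (1 - Y) * Y * (1012/1000) := by
        apply mul_le_mul hcon hr2 hr3.le
        have : 0 < 1 - Y := by linarith
        positivity
      have h5 : 0 < 1 - Y := by linarith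
      nlinarith [mul_pos h5 hY]
    linarith
  have kA := key hy hY hY1 (by linarith) (by linarith) bp.2 bs.1 n2
  have kB := key hx hX hX1 (by linarith) (by linarith) bq.2 br.1 n1
  have hp : 0 < p := by linarith
  have hq : 0 < q := by linarith
  have h3 : (p * Y) * (q * X) < (s * y) * (r * x) := by
    apply mul_lt_mul'' kA kB <;> positivity
  have h4 : (p * Y) * (q * X) = (s * y) * (r * x) := by
    calc (p * Y) * (q * X) = (p * X) * (q * Y) := by ring
      _ = (s * x) * (r * y) := by rw [h1, h2]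
      _ = _ := by ring
  linarith

lemma lower {x y X p s : ℝ} (hx : 0 < x) (hy : 0 < y) (hy1 : y ≤ 1) (hX : 0 < X) (hp : 1 ≤ p) (hs0 : 0 ≤ s)
    (hs : s ≤ 21/20 * y) (h1 : p * X = s * x) (n1 : x ^ 2 * (1 + s ^ 2 / 100) + X ^ 2 = 1) :
    1/2 < x := by
  have e1 : X ≤ 21/20 * x := by
    have : X ≤ p * X := by nlinarith
    have h2 : s * x ≤ 21/20 * y * x := by nlinarith
    nlinarith
  have e2 : X ^ 2 ≤ (21/20)^2 * x ^ 2 := by nlinarith
  have e3 : s ^ 2 ≤ 2 := by nlinarith
  nlinarith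

lemma case_ii_aux {x y X Y : ℝ} (hx : 0 < x) (hy : 0 < y) (hX : 0 < X) (hY : 0 < Y)
    (h1 : tau (1 + Y) * X = tau y * x) (h2 : tau (1 + X) * Y = tau x * y)
    (n1 : x ^ 2 * (1 + tau y ^ 2 / 100) + X ^ 2 = 1)
    (n2 : y ^ 2 * (1 + tau x ^ 2 / 100) + Y ^ 2 = 1) (hXY : Y ≤ X) : x = y ∧ X = Y := by
  have hx1 := le_one_of_norm hx n1
  have hy1 := le_one_of_norm hy n2
  have hX1 := lt_one_of_norm hx n1
  have hY1 := lt_one_of_norm hy n2
  have bp := tau_bounds0 (t := 1 + Y) (by linarith) (by linarith)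
  have bq := tau_bounds0 (t := 1 + X) (by linarith) (by linarith)
  have br := tau_bounds0 (t := x) (by linarith) (by linarith)
  have bs := tau_bounds0 (t := y) (by linarith) (by linarith)
  have bpq := tau_bounds (s := 1 + Y) (t := 1 + X) (by linarith) (by linarith) (by linarith)
  have hxl := lower hx hy hy1 hX (by linarith [bp.1]) (by linarith [bs.1]) bs.2 h1 n1
  have hyl := lower hy hx hx1 hY (by linarith [bq.1]) (by linarith [br.1]) br.2 h2 n2
  have hL : 19/20 * (X - Y) ≤ tau y * x - tau x * y := by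
    rw [← h1, ← h2]
    generalize tau (1 + Y) = p at *
    generalize tau (1 + X) = q at *
    nlinarith [mul_nonneg (sub_nonneg.2 hXY) hY.le, mul_nonneg (sub_nonneg.2 hXY) (sub_nonneg.2 hY1.le)]
  rcases le_total x y with hxy | hxy
  · have brs := tau_bounds (s := x) (t := y) hx.le hxy (by linarith)
    generalize tau (1 + Y) = p at *
    generalize tau (1 + X) = q at *
    generalize tau x = r at *
    generalize tau y = s at *
    have hR : s * x - r * y ≤ (y - x) / 20 := by
      have e1 : s * x - r * y = x * (s - r) - r * (y - x) := by ring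
      have e2 : x * (s - r) ≤ x * (21/20 * (y - x)) := mul_le_mul_of_nonneg_left brs.2 hx.le
      have e3 : x * (y - x) ≤ r * (y - x) := mul_le_mul_of_nonneg_right br.1 (by linarith)
      have e4 : x * (y - x) ≤ 1 * (y - x) := mul_le_mul_of_nonneg_right hx1 (by linarith)
      nlinarith
    have hS : 0 ≤ s * x + r * y := by
      have : 0 ≤ s := by linarith
      have : 0 ≤ r := by linarith
      positivity
    have hS2 : s * x + r * y ≤ 3 := by nlinarith
    have hsq : (X - Y) * (X + Y) = (y - x) * (y + x) - (s * x - r * y) * (s * x + r * y) / 100 := by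
      nlinarith
    have h5 : (s * x - r * y) * (s * x + r * y) ≤ (y - x)/20 * 3 := by
      calc (s * x - r * y) * (s * x + r * y) ≤ (y - x)/20 * (s * x + r * y) :=
            mul_le_mul_of_nonneg_right hR hS
        _ ≤ (y - x)/20 * 3 := mul_le_mul_of_nonneg_left hS2 (by linarith)
    have h6 : (y - x) * 1 ≤ (y - x) * (y + x) := mul_le_mul_of_nonneg_left (by linarith) (by linarith)
    have h7 : (X - Y) * (X + Y) ≤ (X - Y) * 2 := mul_le_mul_of_nonneg_left (by linarith) (by linarith)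
    have h8 : y - x ≤ 0 := by nlinarith
    have h9 : x = y := by linarith
    refine ⟨h9, ?_⟩
    linarith
  · have brs := tau_bounds (s := y) (t := x) hy.le hxy (by linarith)
    generalize tau (1 + Y) = p at *
    generalize tau (1 + X) = q at *
    generalize tau x = r at *
    generalize tau y = s at *
    have hR : -((x - y) / 20) ≤ s * x - r * y := by
      have e1 : s * x - r * y = s * (x - y) - y * (r - s) := by ring
      have e2 : y * (r - s) ≤ y * (21/20 * (x - y)) := mul_le_mul_of_nonneg_left brs.2 hy.le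
      have e3 : y * (x - y) ≤ s * (x - y) := mul_le_mul_of_nonneg_right bs.1 (by linarith)
      have e4 : y * (x - y) ≤ 1 * (x - y) := mul_le_mul_of_nonneg_right hy1 (by linarith)
      nlinarith
    have hS : 0 ≤ s * x + r * y := by
      have : 0 ≤ s := by linarith
      have : 0 ≤ r := by linarith
      positivity
    have hS2 : s * x + r * y ≤ 3 := by nlinarith
    have hsq : (X - Y) * (X + Y) = (y - x) * (y + x) - (s * x - r * y) * (s * x + r * y) / 100 := by
      nlinarith
    have h5 : -((x - y)/20 * 3) ≤ (s * x - r * y) * (s * x + r * y) := by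
      calc -((x - y)/20 * 3) ≤ -((x - y)/20 * (s * x + r * y)) :=
            neg_le_neg (mul_le_mul_of_nonneg_left hS2 (by linarith))
        _ = -((x - y) / 20) * (s * x + r * y) := by ring
        _ ≤ _ := mul_le_mul_of_nonneg_right hR hS
    have h6 : (x - y) * 1 ≤ (x - y) * (y + x) := mul_le_mul_of_nonneg_left (by linarith) (by linarith)
    have h7 : 0 ≤ (X - Y) * (X + Y) := mul_nonneg (by linarith) (by linarith)
    have h8 : x - y ≤ 0 := by nlinarith
    have h9 : x = y := by linarith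
    refine ⟨h9, ?_⟩
    subst h9
    have h10 : r = s := by linarith [brs.1, brs.2]
    subst h10
    linarith

lemma case_ii {x y X Y : ℝ} (hx : 0 < x) (hy : 0 < y) (hX : 0 < X) (hY : 0 < Y)
    (h1 : tau (1 + Y) * X = tau y * x) (h2 : tau (1 + X) * Y = tau x * y)
    (n1 : x ^ 2 * (1 + tau y ^ 2 / 100) + X ^ 2 = 1)
    (n2 : y ^ 2 * (1 + tau x ^ 2 / 100) + Y ^ 2 = 1) : x = y ∧ X = Y := by
  rcases le_total Y X with h | h
  · exact case_ii_aux hx hy hX hY h1 h2 n1 n2 h
  · have := case_ii_aux hy hx hY hX h2 h1 n2 n1 h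
    exact ⟨this.1.symm, this.2.symm⟩

lemma sym_unique_aux {x y X Y : ℝ} (hx : 0 < x) (hy : 0 < y) (hX : 0 < X) (hY : 0 < Y)
    (h1 : tau (1 + X) * X = tau x * x) (h2 : tau (1 + Y) * Y = tau y * y)
    (n1 : x ^ 2 * (1 + tau x ^ 2 / 100) + X ^ 2 = 1)
    (n2 : y ^ 2 * (1 + tau y ^ 2 / 100) + Y ^ 2 = 1) (hxy : x < y) : False := by
  have hx1 := le_one_of_norm hx n1
  have hy1 := le_one_of_norm hy n2
  have hX1 := lt_one_of_norm hx n1
  have hY1 := lt_one_of_norm hy n2
  have bp := tau_bounds0 (t := 1 + Y) (by linarith) (by linarith)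
  have br := tau_bounds0 (t := x) (by linarith) (by linarith)
  have brs := tau_bounds (s := x) (t := y) hx.le hxy.le (by linarith)
  have hrs : tau x < tau y := by linarith
  have hr : 0 < tau x := by linarith
  have h3 : x ^ 2 < y ^ 2 := by nlinarith
  have h4 : tau x ^ 2 < tau y ^ 2 := by nlinarith
  have h5 : x ^ 2 * (1 + tau x ^ 2 / 100) < y ^ 2 * (1 + tau y ^ 2 / 100) := by
    apply mul_lt_mul'' h3 (by linarith) <;> positivity
  have h6 : Y < X := by
    by_contra h; push Not at h; nlinarith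
  have bpq := tau_bounds (s := 1 + Y) (t := 1 + X) (by linarith) (by linarith) (by linarith)
  have h7 : tau (1 + Y) * Y < tau (1 + X) * X := by
    apply mul_lt_mul'' (by linarith) h6 (by linarith) hY.le
  have h8 : tau x * x < tau y * y := by
    apply mul_lt_mul'' hrs hxy hr.le hx.le
  linarith

lemma sym_unique {x y X Y : ℝ} (hx : 0 < x) (hy : 0 < y) (hX : 0 < X) (hY : 0 < Y)
    (h1 : tau (1 + X) * X = tau x * x) (h2 : tau (1 + Y) * Y = tau y * y)
    (n1 : x ^ 2 * (1 + tau x ^ 2 / 100) + X ^ 2 = 1)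
    (n2 : y ^ 2 * (1 + tau y ^ 2 / 100) + Y ^ 2 = 1) : x = y ∧ X = Y := by
  rcases lt_trichotomy x y with h | h | h
  · exact (sym_unique_aux hx hy hX hY h1 h2 n1 n2 h).elim
  · subst h
    refine ⟨rfl, ?_⟩
    have : X ^ 2 = Y ^ 2 := by linarith
    nlinarith
  · exact (sym_unique_aux hy hx hY hX h2 h1 n2 n1 h).elim

lemma sym_exists : ∃ x X : ℝ, 0 < x ∧ 0 < X ∧ tau (1 + X) * X = tau x * x ∧
    x ^ 2 * (1 + tau x ^ 2 / 100) + X ^ 2 = 1 := by
  have htc : ContinuousOn tau (Set.Icc (0:ℝ) 2) := fun x hx =>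
    (hasDerivAt_tau (by rw [abs_of_nonneg hx.1]; exact hx.2)).continuousAt.continuousWithinAt
  have htc1 : ContinuousOn tau (Set.Icc (0:ℝ) 1) :=
    htc.mono (Set.Icc_subset_Icc le_rfl (by norm_num))
  set X : ℝ → ℝ := fun x => Real.sqrt (1 - x ^ 2 * (1 + tau x ^ 2 / 100)) with hXdef
  have hX0 : ∀ x, 0 ≤ X x := fun x => Real.sqrt_nonneg _
  have hX1 : ∀ x, X x ≤ 1 := fun x => by
    rw [hXdef]; exact Real.sqrt_le_one.2 (by nlinarith [sq_nonneg (x * tau x), sq_nonneg x])
  have hXc : ContinuousOn X (Set.Icc (0:ℝ) 1) := by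
    rw [hXdef]
    apply ContinuousOn.sqrt
    fun_prop
  have hg : ContinuousOn (fun x => tau x * x - tau (1 + X x) * X x) (Set.Icc (0:ℝ) 1) := by
    apply ContinuousOn.sub
    · exact htc1.mul continuousOn_id
    · refine ContinuousOn.mul ?_ hXc
      refine htc.comp (continuousOn_const.add hXc) ?_
      intro x hx
      exact ⟨by linarith [hX0 x], by linarith [hX1 x]⟩
  have h0 : X 0 = 1 := by simp [hXdef]
  have h1 : X 1 = 0 := by
    simp only [hXdef]
    apply Real.sqrt_eq_zero_of_nonpos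
    nlinarith [sq_nonneg (tau 1)]
  have b2 := tau_bounds0 (t := 2) (by norm_num) le_rfl
  have b1 := tau_bounds0 (t := 1) (by norm_num) (by norm_num)
  have hmem : (0:ℝ) ∈ Set.Icc ((fun x => tau x * x - tau (1 + X x) * X x) 0) ((fun x => tau x * x - tau (1 + X x) * X x) 1) := by
    simp only [h0, h1, Set.mem_Icc]
    norm_num
    constructor
    · linarith
    · linarith
  obtain ⟨x, hx, hgx⟩ := intermediate_value_Icc (by norm_num : (0:ℝ) ≤ 1) hg hmem
  simp only at hgx
  have hxpos : 0 < x := by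
    rcases hx.1.eq_or_lt with h | h
    · exfalso
      rw [← h, h0] at hgx
      norm_num at hgx
      linarith
    · exact h
  have bx := tau_bounds0 (t := x) hx.1 (by linarith [hx.2])
  have hXpos : 0 < X x := by
    rcases (hX0 x).eq_or_lt with h | h
    · exfalso
      rw [← h] at hgx
      nlinarith
    · exact h
  refine ⟨x, X x, hxpos, hXpos, by linarith, ?_⟩
  have : X x ^ 2 = 1 - x ^ 2 * (1 + tau x ^ 2 / 100) := by
    apply Real.sq_sqrt
    exact (Real.sqrt_pos.1 hXpos).le
  linarith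

end Crest.Agent.S0316Lib
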