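import Mathlib
import Crest.Agent.S0316Real

set_option autoImplicit false

namespace Crest.Agent.S0316Lib

lemma refl1 {θ p q : ℝ} (h : Real.cos (2 * θ) * p + Real.sin (2 * θ) * q = p)
    (hs : Real.sin θ ≠ 0) : Real.cos θ * q = Real.sin θ * p := by
  rw [Real.cos_two_mul', Real.sin_two_mul] at h
  have h1 := Real.sin_sq_add_cos_sq θ
  have h2 : Real.sin θ * (Real.cos θ * q) = Real.sin θ * (Real.sin θ * p) := by
    linear_combination h / 2 - p / 2 * h1
  exact mul_left_cancel₀ hs h2

lemma refl2 {θ p q : ℝ} (h : Real.cos θ * q = Real.sin θ * p) :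
    Real.cos (2 * θ) * p + Real.sin (2 * θ) * q = p ∧
    Real.cos (2 * θ) * q - Real.sin (2 * θ) * p = -q := by
  rw [Real.cos_two_mul', Real.sin_two_mul]
  have h1 := Real.sin_sq_add_cos_sq θ
  constructor
  · linear_combination p * h1 + 2 * Real.sin θ * h
  · linear_combination (-q) * h1 + 2 * Real.cos θ * h

/-- the fixed point equations on `S² × S²`. -/
structure FixEq (a1 a2 a3 b1 b2 b3 : ℝ) : Prop where
  h1 : Real.cos (2 * (b1/10)) * a1 + Real.sin (2 * (b1/10)) * a2 = a1
  h2 : Real.cos (2 * ((1-b3)/10)) * (Real.cos (2 * (b1/10)) * a2 - Real.sin (2 * (b1/10)) * a1)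
        - Real.sin (2 * ((1-b3)/10)) * a3 = a2
  h3 : Real.cos (2 * ((1-b3)/10)) * a3 + Real.sin (2 * ((1-b3)/10)) *
        (Real.cos (2 * (b1/10)) * a2 - Real.sin (2 * (b1/10)) * a1) = a3
  h4 : Real.cos (2 * ((1-a3)/10)) * b3 - Real.sin (2 * ((1-a3)/10)) * b2 = b3
  h5 : Real.cos (2 * (a1/10)) * b1 - Real.sin (2 * (a1/10)) *
        (Real.cos (2 * ((1-a3)/10)) * b2 + Real.sin (2 * ((1-a3)/10)) * b3) = b1
  h6 : Real.cos (2 * (a1/10)) *
        (Real.cos (2 * ((1-a3)/10)) * b2 + Real.sin (2 * ((1-a3)/10)) * b3) +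
        Real.sin (2 * (a1/10)) * b1 = b2

lemma sin_ne {s : ℝ} (h0 : s ≠ 0) (hs : |s| ≤ 2) : Real.sin (s/10) ≠ 0 := by
  have hpi := Real.pi_gt_three
  rw [abs_le] at hs
  rcases lt_or_gt_of_ne h0 with h | h
  · exact (Real.sin_neg_of_neg_of_neg_pi_lt (by linarith) (by linarith)).ne
  · exact (Real.sin_pos_of_pos_of_lt_pi (by linarith) (by linarith)).ne'

lemma cos_ne {s : ℝ} (hs : |s| ≤ 2) : Real.cos (s/10) ≠ 0 := by
  have := cos_ge (s := s/10) (by rw [abs_div]; norm_num; linarith)
  linarith

lemma tau_of {s p q : ℝ} (hs : |s| ≤ 2) (h : Real.cos (s/10) * q = Real.sin (s/10) * p) :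
    q = tau s / 10 * p := by
  have hc := cos_ne hs
  rw [tau, Real.tan_eq_sin_div_cos]
  field_simp
  linarith

lemma tau_of' {s p q : ℝ} (hs : |s| ≤ 2) (h : q = tau s / 10 * p) :
    Real.cos (s/10) * q = Real.sin (s/10) * p := by
  have hc := cos_ne hs
  rw [h, tau, Real.tan_eq_sin_div_cos]
  field_simp

theorem fix_real {a1 a2 a3 b1 b2 b3 x0 X0 : ℝ} (hx0 : 0 < x0) (hX0 : 0 < X0)
    (hs : tau (1 + X0) * X0 = tau x0 * x0) (hn : x0 ^ 2 * (1 + tau x0 ^ 2 / 100) + X0 ^ 2 = 1)
    (ha : a1 ^ 2 + a2 ^ 2 + a3 ^ 2 = 1) (hb : b1 ^ 2 + b2 ^ 2 + b3 ^ 2 = 1)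
    (H : FixEq a1 a2 a3 b1 b2 b3) :
    a1 = b1 ∧ a2 = b2 ∧ a3 = b3 ∧
      ((a1 = 0 ∧ a2 = 0 ∧ a3 = 1) ∨ (a1 = x0 ∧ a2 = tau x0 * x0 / 10 ∧ a3 = -X0) ∨
        (a1 = -x0 ∧ a2 = tau x0 * x0 / 10 ∧ a3 = -X0)) := by
  obtain ⟨h1, h2, h3, h4, h5, h6⟩ := H
  have ba1 : |a1| ≤ 1 := by rw [abs_le]; constructor <;> nlinarith [sq_nonneg a2, sq_nonneg a3]
  have ba3 : |a3| ≤ 1 := by rw [abs_le]; constructor <;> nlinarith [sq_nonneg a2, sq_nonneg a1]
  have bb1 : |b1| ≤ 1 := by rw [abs_le]; constructor <;> nlinarith [sq_nonneg b2, sq_nonneg b3]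
  have bb3 : |b3| ≤ 1 := by rw [abs_le]; constructor <;> nlinarith [sq_nonneg b2, sq_nonneg b1]
  have bb3' : |1 - b3| ≤ 2 := by rw [abs_le] at bb3 ⊢; constructor <;> linarith
  have ba3' : |1 - a3| ≤ 2 := by rw [abs_le] at ba3 ⊢; constructor <;> linarith
  rw [abs_le] at ba3 bb3
  by_cases hb1 : b1 = 0
  · subst hb1
    simp only [zero_div, mul_zero, Real.cos_zero, Real.sin_zero, one_mul, zero_mul, sub_zero,
      add_zero] at h1 h2 h3 h4 h5 h6
    by_cases hb3 : b3 = 1
    · subst hb3
      have hb2 : b2 = 0 := by nlinarith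
      subst hb2
      have h7 : Real.sin ((1 - a3)/10) = 0 := by
        have := h4
        rw [Real.cos_two_mul'] at this
        have h8 := Real.sin_sq_add_cos_sq ((1 - a3)/10)
        nlinarith
      have ha3 : a3 = 1 := by
        by_contra hne
        exact sin_ne (s := 1 - a3) (by intro h; apply hne; linarith) ba3' h7
      subst ha3
      have : a1 = 0 := by nlinarith [sq_nonneg a2]
      have : a2 = 0 := by nlinarith [sq_nonneg a1]
      subst_vars
      simp
    · exfalso
      have hs1 := sin_ne (s := 1 - b3) (by intro h; apply hb3; linarith) bb3'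
      have h7 : a2 = 0 ∧ a3 = 0 := by
        rw [Real.cos_two_mul', Real.sin_two_mul] at h2 h3
        have h8 := Real.sin_sq_add_cos_sq ((1 - b3)/10)
        set c := Real.cos ((1 - b3)/10)
        set s := Real.sin ((1 - b3)/10)
        have e1 : s * (s * a2 + c * a3) = 0 := by linear_combination (-1/2) * h2 + (a2 / 2) * h8
        have e2 : s * (s * a3 - c * a2) = 0 := by linear_combination (-1/2) * h3 + (a3 / 2) * h8
        have e1' := (mul_eq_zero.1 e1).resolve_left hs1
        have e2' := (mul_eq_zero.1 e2).resolve_left hs1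
        constructor
        · linear_combination s * e1' - c * e2' - a2 * h8
        · linear_combination c * e1' + s * e2' - a3 * h8
      obtain ⟨ha2, ha3⟩ := h7
      subst ha2 ha3
      have ha1 : a1 ≠ 0 := by rintro rfl; norm_num at ha
      have hs2 := sin_ne (s := a1) ha1 (by linarith)
      have hc2 := cos_ne (s := a1) (by linarith)
      have hs3 : Real.sin ((1 - 0)/10) ≠ 0 := sin_ne (s := 1 - 0) (by norm_num) (by norm_num)
      have hc3 : Real.cos ((1 - 0)/10) ≠ 0 := cos_ne (s := 1 - 0) (by norm_num)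
      have h7 : Real.cos (2 * ((1 - 0)/10)) * b2 + Real.sin (2 * ((1 - 0)/10)) * b3 = 0 := by
        have h5' : Real.sin (2 * (a1/10)) * (Real.cos (2 * ((1 - 0)/10)) * b2 + Real.sin (2 * ((1 - 0)/10)) * b3) = 0 := by
          simp only [sub_zero] at h5 ⊢
          linarith
        rw [Real.sin_two_mul] at h5'
        rcases mul_eq_zero.1 h5' with h | h
        · exfalso
          rcases mul_eq_zero.1 h with h | h
          · rcases mul_eq_zero.1 h with h | h
            · norm_num at h
            · exact hs2 h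
          · exact hc2 h
        · exact h
      have hb2 : b2 = 0 := by
        simp only [sub_zero] at h6 h7
        rw [h7] at h6
        linarith
      subst hb2
      have hb3' : b3 = 0 := by
        rw [Real.sin_two_mul] at h7
        rcases mul_eq_zero.1 (by linarith : 2 * Real.sin ((1 - 0)/10) * Real.cos ((1 - 0)/10) * b3 = 0) with h | h
        · exfalso
          rcases mul_eq_zero.1 h with h | h
          · rcases mul_eq_zero.1 h with h | h
            · norm_num at h
            · exact hs3 h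
          · exact hc3 h
        · exact h
      subst hb3'
      norm_num at hb
  · -- main case
    have hs1 := sin_ne (s := b1) hb1 (by linarith)
    have A1 := refl1 h1 hs1
    have A1' := (refl2 A1).2
    rw [A1'] at h2 h3
    have hb3 : b3 ≠ 1 := by
      rintro rfl
      apply hb1; nlinarith [sq_nonneg b2]
    have hs2 := sin_ne (s := 1 - b3) (by intro h; apply hb3; linarith) bb3'
    have A2 := refl1 (θ := (1 - b3)/10) (p := a3) (q := -a2) (by linarith) hs2
    have B1 := tau_of (by linarith) A1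
    have B2 := tau_of bb3' A2
    have ha1 : a1 ≠ 0 := by
      rintro rfl
      have : a2 = 0 := by rw [B1]; ring
      subst this
      have h0 : Real.sin ((1 - b3)/10) * a3 = 0 := by rw [← A2]; ring
      have : a3 = 0 := (mul_eq_zero.1 h0).resolve_left hs2
      subst this
      norm_num at ha
    have ha3 : a3 ≠ 1 := by
      rintro rfl
      apply ha1; nlinarith [sq_nonneg a2]
    have hs3 := sin_ne (s := 1 - a3) (by intro h; apply ha3; linarith) ba3'
    have A3 := refl1 (θ := (1 - a3)/10) (p := b3) (q := -b2) (by linarith) hs3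
    have A3' := (refl2 A3).2
    have e : Real.cos (2 * ((1-a3)/10)) * b2 + Real.sin (2 * ((1-a3)/10)) * b3 = -b2 := by linarith
    rw [e] at h5 h6
    have hs4 := sin_ne (s := a1) ha1 (by linarith)
    have A4 := refl1 (θ := a1/10) (p := b1) (q := b2) (by linarith) hs4
    have B3 := tau_of ba3' A3
    have B4 := tau_of (by linarith) A4
    -- now the real system
    have C1 : tau b1 * a1 = - (tau (1 - b3) * a3) := by linarith
    have C2 : tau a1 * b1 = - (tau (1 - a3) * b3) := by linarith
    have tb : 0 < tau (1 - b3) := by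
      have h0 : 0 < 1 - b3 := by
        rcases bb3.2.eq_or_lt with h | h
        · exact (hb3 h).elim
        · linarith
      linarith [(tau_bounds0 (t := 1 - b3) h0.le (by linarith)).1]
    have ta : 0 < tau (1 - a3) := by
      have h0 : 0 < 1 - a3 := by
        rcases ba3.2.eq_or_lt with h | h
        · exact (ha3 h).elim
        · linarith
      linarith [(tau_bounds0 (t := 1 - a3) h0.le (by linarith)).1]
    have N1 : a1 ^ 2 * (1 + tau b1 ^ 2 / 100) + a3 ^ 2 = 1 := by
      linear_combination ha - (a2 + tau b1 / 10 * a1) * B1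
    have N2 : b1 ^ 2 * (1 + tau a1 ^ 2 / 100) + b3 ^ 2 = 1 := by
      linear_combination hb - (b2 + tau a1 / 10 * b1) * B4
    have tpos : ∀ t : ℝ, 0 < t → t ≤ 2 → 0 < tau t := fun t h1 h2 => by
      linarith [(tau_bounds0 (t := t) h1.le h2).1]
    rw [abs_le] at ba1 bb1
    rcases lt_or_gt_of_ne ha1 with sa | sa <;> rcases lt_or_gt_of_ne hb1 with sb | sb
    · -- both negative
      obtain ⟨x, rfl⟩ : ∃ x, a1 = -x := ⟨-a1, by ring⟩
      obtain ⟨y, rfl⟩ : ∃ y, b1 = -y := ⟨-b1, by ring⟩
      rw [tau_neg] at C1 C2 N1 N2 B1 B4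
      have hx : 0 < x := by linarith
      have hy : 0 < y := by linarith
      have ty := tpos y hy (by linarith)
      have tx := tpos x hx (by linarith)
      have ha3' : a3 < 0 := by
        have : 0 < tau y * x := by positivity
        by_contra h; push Not at h
        have : 0 ≤ tau (1 - b3) * a3 := by positivity
        linarith
      have hb3' : b3 < 0 := by
        have : 0 < tau x * y := by positivity
        by_contra h; push Not at h
        have : 0 ≤ tau (1 - a3) * b3 := by positivity
        linarith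
      obtain ⟨X, rfl⟩ : ∃ x, a3 = -x := ⟨-a3, by ring⟩
      obtain ⟨Y, rfl⟩ : ∃ y, b3 = -y := ⟨-b3, by ring⟩
      rw [sub_neg_eq_add] at C1 C2
      have hX : 0 < X := by linarith
      have hY : 0 < Y := by linarith
      obtain ⟨rfl, rfl⟩ := case_ii hx hy hX hY (by linarith) (by linarith)
        (by linarith) (by linarith)
      obtain ⟨rfl, rfl⟩ := sym_unique hx hx0 hX hX0 (by linarith) hs (by linarith) hn
      refine ⟨rfl, by rw [B1, B4], rfl, Or.inr (Or.inr ⟨rfl, ?_, rfl⟩)⟩
      rw [B1]; ring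
    · exfalso
      obtain ⟨x, rfl⟩ : ∃ x, a1 = -x := ⟨-a1, by ring⟩
      rw [tau_neg] at C2 N2 B4
      have hx : 0 < x := by linarith
      have ty := tpos b1 sb (by linarith)
      have tx := tpos x hx (by linarith)
      have ha3' : 0 < a3 := by
        have : 0 < tau b1 * x := by positivity
        by_contra h; push Not at h
        have : tau (1 - b3) * a3 ≤ 0 := mul_nonpos_of_nonneg_of_nonpos tb.le h
        linarith
      have hb3' : 0 < b3 := by
        have : 0 < tau x * b1 := by positivity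
        by_contra h; push Not at h
        have : tau (1 - a3) * b3 ≤ 0 := mul_nonpos_of_nonneg_of_nonpos ta.le h
        linarith
      exact case_i (x := x) (y := b1) hx sb ha3' hb3' (by linarith) (by linarith) (by linarith) (by linarith)
    · exfalso
      obtain ⟨y, rfl⟩ : ∃ y, b1 = -y := ⟨-b1, by ring⟩
      rw [tau_neg] at C1 N1 B1
      have hy : 0 < y := by linarith
      have ty := tpos y hy (by linarith)
      have tx := tpos a1 sa (by linarith)
      have ha3' : 0 < a3 := by
        have : 0 < tau y * a1 := by positivity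
        by_contra h; push Not at h
        have : tau (1 - b3) * a3 ≤ 0 := mul_nonpos_of_nonneg_of_nonpos tb.le h
        linarith
      have hb3' : 0 < b3 := by
        have : 0 < tau a1 * y := by positivity
        by_contra h; push Not at h
        have : tau (1 - a3) * b3 ≤ 0 := mul_nonpos_of_nonneg_of_nonpos ta.le h
        linarith
      exact case_i (x := a1) (y := y) sa hy ha3' hb3' (by linarith) (by linarith) (by linarith) (by linarith)
    · have ty := tpos b1 sb (by linarith)
      have tx := tpos a1 sa (by linarith)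
      have ha3' : a3 < 0 := by
        have : 0 < tau b1 * a1 := by positivity
        by_contra h; push Not at h
        have : 0 ≤ tau (1 - b3) * a3 := by positivity
        linarith
      have hb3' : b3 < 0 := by
        have : 0 < tau a1 * b1 := by positivity
        by_contra h; push Not at h
        have : 0 ≤ tau (1 - a3) * b3 := by positivity
        linarith
      obtain ⟨X, rfl⟩ : ∃ x, a3 = -x := ⟨-a3, by ring⟩
      obtain ⟨Y, rfl⟩ : ∃ y, b3 = -y := ⟨-b3, by ring⟩
      rw [sub_neg_eq_add] at C1 C2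
      have hX : 0 < X := by linarith
      have hY : 0 < Y := by linarith
      obtain ⟨rfl, rfl⟩ := case_ii sa sb hX hY (by linarith) (by linarith)
        (by linarith) (by linarith)
      obtain ⟨rfl, rfl⟩ := sym_unique sa hx0 hX hX0 (by linarith) hs (by linarith) hn
      refine ⟨rfl, by rw [B1, B4], rfl, Or.inr (Or.inl ⟨rfl, ?_, rfl⟩)⟩
      rw [B1]; ring

/-- converse: solutions -/
lemma fixEq_e3 : FixEq 0 0 1 0 0 1 := by
  constructor <;> simp

lemma fixEq_sym {x X : ℝ} (hx : |x| ≤ 1) (hX : 0 < X) (hX1 : X ≤ 1)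
    (hs : tau (1 + X) * X = tau x * x) :
    FixEq x (tau x * x / 10) (-X) x (tau x * x / 10) (-X) := by
  have hX2 : |1 - -X| ≤ 2 := by rw [abs_le]; constructor <;> linarith
  have e1 : Real.cos (x/10) * (tau x * x / 10) = Real.sin (x/10) * x :=
    tau_of' (by linarith) (by ring)
  have e2 : Real.cos ((1 - -X)/10) * (-(tau x * x / 10)) = Real.sin ((1 - -X)/10) * (-X) :=
    tau_of' hX2 (by rw [sub_neg_eq_add, ← hs]; ring)
  obtain ⟨f1, f2⟩ := refl2 e1
  obtain ⟨g1, g2⟩ := refl2 e2
  have g3 : Real.cos (2 * ((1 - -X)/10)) * (tau x * x / 10) + Real.sin (2 * ((1 - -X)/10)) * (-X) =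
    - (tau x * x / 10) := by linarith
  constructor
  · exact f1
  · rw [f2]; linarith
  · rw [f2]; linarith
  · linarith
  · rw [g3]; linarith
  · rw [g3]; linarith

end Crest.Agent.S0316Lib
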