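import Mathlib
import Crest.Prelude.Def_QuadricHamiltonian

set_option autoImplicit false
open Crest Crest.GeometryTopology

namespace Crest.Agent.S0316Lib

open Crest.GeometryTopology.Quadric

abbrev V := Fin 5 → ℂ

/-- real bilinear form `Im herm`. -/
noncomputable def om (u v : V) : ℝ := (herm u v).im

lemma om_eq (u v : V) : om u v = ∑ j, ((u j).re * (v j).im - (u j).im * (v j).re) := by
  simp only [om, herm, Complex.im_sum]
  refine Finset.sum_congr rfl fun j _ => ?_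
  simp [Complex.mul_im]
  ring

lemma om_add_left (u u' v : V) : om (u + u') v = om u v + om u' v := by
  simp only [om_eq, ← Finset.sum_add_distrib]
  refine Finset.sum_congr rfl fun j _ => ?_
  simp; ring

lemma om_add_right (u v v' : V) : om u (v + v') = om u v + om u v' := by
  simp only [om_eq, ← Finset.sum_add_distrib]
  refine Finset.sum_congr rfl fun j _ => ?_
  simp; ring

lemma om_smul_left (c : ℝ) (u v : V) : om (c • u) v = c * om u v := by
  simp only [om_eq, Finset.mul_sum]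
  refine Finset.sum_congr rfl fun j _ => ?_
  simp; ring

lemma om_smul_right (c : ℝ) (u v : V) : om u (c • v) = c * om u v := by
  simp only [om_eq, Finset.mul_sum]
  refine Finset.sum_congr rfl fun j _ => ?_
  simp; ring

lemma om_antisymm (u v : V) : om u v = - om v u := by
  simp only [om_eq, ← Finset.sum_neg_distrib]
  refine Finset.sum_congr rfl fun j _ => ?_
  ring

noncomputable def omL : V →L[ℝ] V →L[ℝ] ℝ :=
  LinearMap.toContinuousBilinearMap (LinearMap.mk₂ ℝ om om_add_left om_smul_left om_add_right om_smul_right)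

lemma omL_apply (u v : V) : omL u v = om u v := rfl

/-- data of a commuting pair of "infinitesimal rotations" -/
structure Pair where
  A : V →L[ℝ] V
  B : V →L[ℝ] V
  P : V →L[ℝ] V
  hAA : ∀ z, A (A z) = - P z
  hBB : ∀ z, B (B z) = - P z
  hPA : ∀ z, P (A z) = A z
  hAP : ∀ z, A (P z) = A z
  hPB : ∀ z, P (B z) = B z
  hBP : ∀ z, B (P z) = B z
  hPP : ∀ z, P (P z) = P z
  hAB : ∀ z, A (B z) = B (A z)
  hAo : ∀ u v, om (A u) v = - om u (A v)
  hBo : ∀ u v, om (B u) v = - om u (B v)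
  hPo : ∀ u v, om (P u) v = om u (P v)

noncomputable def rot (P A : V →L[ℝ] V) (θ : ℝ) (z : V) : V :=
  z + (Real.cos θ - 1) • P z + Real.sin θ • A z

noncomputable def mu (A : V →L[ℝ] V) (z : V) : ℝ := om (A z) z

/-- the flow of `μ_A (κ + ε (1 - μ_B))`. -/
noncomputable def flow (D : Pair) (κ ε : ℝ) (t : ℝ) (z : V) : V :=
  rot D.P D.A (t * (κ + ε * (1 - mu D.B z))) (rot D.P D.B (- (t * ε * mu D.A z)) z)

/-- the Hamiltonian. -/
noncomputable def ham (D : Pair) (κ ε : ℝ) (z : V) : ℝ :=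
  mu D.A z * (κ + ε * (1 - mu D.B z))

lemma contDiff_om {E : Type*} [NormedAddCommGroup E] [NormedSpace ℝ E] {f g : E → V}
    (hf : ContDiff ℝ (⊤ : ℕ∞) f) (hg : ContDiff ℝ (⊤ : ℕ∞) g) :
    ContDiff ℝ (⊤ : ℕ∞) (fun x => om (f x) (g x)) := by
  have : (fun x => om (f x) (g x)) = fun x => omL (f x) (g x) := rfl
  rw [this]
  exact (omL.contDiff.comp hf).clm_apply hg

lemma contDiff_flow (D : Pair) (κ ε : ℝ) :
    ContDiff ℝ (⊤ : ℕ∞) (fun p : ℝ × V => flow D κ ε p.1 p.2) := by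
  unfold flow rot mu
  have h1 : ContDiff ℝ (⊤ : ℕ∞) (fun p : ℝ × V => om (D.A p.2) p.2) :=
    contDiff_om (by fun_prop) (by fun_prop)
  have h2 : ContDiff ℝ (⊤ : ℕ∞) (fun p : ℝ × V => om (D.B p.2) p.2) :=
    contDiff_om (by fun_prop) (by fun_prop)
  fun_prop

lemma contDiff_ham (D : Pair) (κ ε : ℝ) :
    ContDiff ℝ (⊤ : ℕ∞) (fun z : V => ham D κ ε z) := by
  unfold ham mu
  have h1 : ContDiff ℝ (⊤ : ℕ∞) (fun p : V => om (D.A p) p) :=
    contDiff_om (by fun_prop) (by fun_prop)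
  have h2 : ContDiff ℝ (⊤ : ℕ∞) (fun p : V => om (D.B p) p) :=
    contDiff_om (by fun_prop) (by fun_prop)
  fun_prop


lemma om_neg_left (u v : V) : om (-u) v = - om u v := by
  have := om_smul_left (-1) u v
  simpa using this

lemma om_neg_right (u v : V) : om u (-v) = - om u v := by
  have := om_smul_right (-1) u v
  simpa using this

section rot
variable {P A : V →L[ℝ] V}

lemma rot_add (θ : ℝ) (u v : V) : rot P A θ (u + v) = rot P A θ u + rot P A θ v := by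
  simp only [rot, map_add, smul_add]; abel

lemma rot_smul (θ c : ℝ) (u : V) : rot P A θ (c • u) = c • rot P A θ u := by
  simp only [rot, map_smul, smul_add]
  rw [smul_comm, smul_comm (Real.sin θ)]

lemma rot_zero (u : V) : rot P A 0 u = u := by
  simp [rot]

lemma rot_neg_rot (hAA : ∀ z, A (A z) = - P z) (hPA : ∀ z, P (A z) = A z)
    (hAP : ∀ z, A (P z) = A z) (hPP : ∀ z, P (P z) = P z) (θ : ℝ) (z : V) :
    rot P A (-θ) (rot P A θ z) = z := by
  simp only [rot, map_add, map_smul, hAA, hPA, hAP, hPP, Real.cos_neg, Real.sin_neg]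
  have h := Real.sin_sq_add_cos_sq θ
  ext j
  simp
  have h2 : (Real.sin θ : ℂ) ^ 2 + (Real.cos θ : ℂ) ^ 2 = 1 := by exact_mod_cast h
  simp only [Complex.ofReal_cos, Complex.ofReal_sin] at h2
  linear_combination (P z j) * h2

lemma map_rot {A' : V →L[ℝ] V} (hPA : ∀ z, A' (P z) = P (A' z))
    (hAA : ∀ z, A' (A z) = A (A' z)) (θ : ℝ) (z : V) :
    A' (rot P A θ z) = rot P A θ (A' z) := by
  simp only [rot, map_add, map_smul, hPA, hAA]

lemma om_rot_rot (hAA : ∀ z, A (A z) = - P z) (hPA : ∀ z, P (A z) = A z)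
    (hAP : ∀ z, A (P z) = A z) (hPP : ∀ z, P (P z) = P z)
    (hAo : ∀ u v, om (A u) v = - om u (A v))
    (hPo : ∀ u v, om (P u) v = om u (P v)) (θ : ℝ) (u v : V) :
    om (rot P A θ u) (rot P A θ v) = om u v := by
  simp only [rot, om_add_left, om_add_right, om_smul_left, om_smul_right, hAo, hPo, hPA, hAP, hPP, hAA,
    om_neg_right]
  linear_combination (om u (P v)) * Real.sin_sq_add_cos_sq θ

lemma om_rot (hAo : ∀ u v, om (A u) v = - om u (A v))
    (hPo : ∀ u v, om (P u) v = om u (P v)) (θ : ℝ) (u v : V) :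
    om (rot P A θ u) v = om u (rot P A (-θ) v) := by
  simp only [rot, om_add_left, om_add_right, om_smul_left, om_smul_right, hAo, hPo,
    Real.cos_neg, Real.sin_neg]
  ring

lemma hasDerivAt_rot (hAA : ∀ z, A (A z) = - P z) 
    (hAP : ∀ z, A (P z) = A z) {θ : ℝ → ℝ} {z : ℝ → V} {θ' : ℝ} {z' : V} {s : ℝ}
    (hθ : HasDerivAt θ θ' s) (hz : HasDerivAt z z' s) :
    HasDerivAt (fun s => rot P A (θ s) (z s))
      (rot P A (θ s) z' + θ' • A (rot P A (θ s) (z s))) s := by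
  have hP : HasDerivAt (fun s => P (z s)) (P z') s := (P.hasFDerivAt).comp_hasDerivAt s hz
  have hA : HasDerivAt (fun s => A (z s)) (A z') s := (A.hasFDerivAt).comp_hasDerivAt s hz
  have h1 := (hθ.cos.sub_const 1).smul hP
  have h2 := hθ.sin.smul hA
  have h3 := (hz.add h1).add h2
  refine HasDerivAt.congr_deriv h3 ?_
  simp only [rot, map_add, map_smul, hAA, hAP]
  ext j
  simp
  ring

end rot

lemma hasDerivAt_mu {A : V →L[ℝ] V} (hAo : ∀ u v, om (A u) v = - om u (A v))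
    {z : ℝ → V} {z' : V} {s : ℝ} (hz : HasDerivAt z z' s) :
    HasDerivAt (fun s => mu A (z s)) (2 * om (A (z s)) z') s := by
  have hA : HasDerivAt (fun s => A (z s)) (A z') s := (A.hasFDerivAt).comp_hasDerivAt s hz
  have h1 : HasDerivAt (fun s => omL (A (z s))) (omL (A z')) s :=
    (omL.hasFDerivAt).comp_hasDerivAt s hA
  have h2 := h1.clm_apply hz
  have e : (fun s => mu A (z s)) = fun s => omL (A (z s)) (z s) := by
    funext s; rw [omL_apply]; rfl
  rw [e]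
  refine HasDerivAt.congr_deriv h2 ?_
  simp only [omL_apply]
  rw [hAo z', om_antisymm z']
  ring

namespace Pair
variable (D : Pair)

lemma mu_rotA_A (θ : ℝ) (z : V) : mu D.A (rot D.P D.A θ z) = mu D.A z := by
  unfold mu
  rw [map_rot (by intro z; rw [D.hAP, D.hPA]) (by intro z; rfl),
    om_rot_rot D.hAA D.hPA D.hAP D.hPP D.hAo D.hPo]

lemma mu_rotA_B (θ : ℝ) (z : V) : mu D.B (rot D.P D.A θ z) = mu D.B z := by
  unfold mu
  rw [map_rot (by intro z; rw [D.hBP, D.hPB]) (by intro z; rw [D.hAB]),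
    om_rot_rot D.hAA D.hPA D.hAP D.hPP D.hAo D.hPo]

lemma mu_rotB_A (θ : ℝ) (z : V) : mu D.A (rot D.P D.B θ z) = mu D.A z := by
  unfold mu
  rw [map_rot (by intro z; rw [D.hAP, D.hPA]) (by intro z; rw [D.hAB]),
    om_rot_rot D.hBB D.hPB D.hBP D.hPP D.hBo D.hPo]

lemma mu_rotB_B (θ : ℝ) (z : V) : mu D.B (rot D.P D.B θ z) = mu D.B z := by
  unfold mu
  rw [map_rot (by intro z; rw [D.hBP, D.hPB]) (by intro z; rfl),
    om_rot_rot D.hBB D.hPB D.hBP D.hPP D.hBo D.hPo]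

lemma rot_comm (θ η : ℝ) (z : V) :
    rot D.P D.B η (rot D.P D.A θ z) = rot D.P D.A θ (rot D.P D.B η z) := by
  simp only [rot, map_add, map_smul, smul_add, D.hAB, D.hPA, D.hPB, D.hAP, D.hBP, D.hPP]
  rw [smul_comm (Real.cos η - 1) (Real.cos θ - 1), smul_comm (Real.cos η - 1) (Real.sin θ),
    smul_comm (Real.sin η) (Real.cos θ - 1), smul_comm (Real.sin η) (Real.sin θ)]
  abel

lemma mu_flow_A (κ ε t : ℝ) (z : V) : mu D.A (flow D κ ε t z) = mu D.A z := by
  unfold flow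
  rw [mu_rotA_A, mu_rotB_A]

lemma mu_flow_B (κ ε t : ℝ) (z : V) : mu D.B (flow D κ ε t z) = mu D.B z := by
  unfold flow
  rw [mu_rotA_B, mu_rotB_B]

lemma flow_neg (κ ε t : ℝ) (z : V) : flow D κ ε (-t) (flow D κ ε t z) = z := by
  have h1 := D.mu_flow_A κ ε t z
  have h2 := D.mu_flow_B κ ε t z
  rw [flow, h1, h2, flow]
  have e1 : -(-t * ε * mu D.A z) = -(-(t * ε * mu D.A z)) := by ring
  have e2 : -t * (κ + ε * (1 - mu D.B z)) = -(t * (κ + ε * (1 - mu D.B z))) := by ring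
  rw [e1, e2, D.rot_comm, rot_neg_rot D.hBB D.hPB D.hBP D.hPP,
    rot_neg_rot D.hAA D.hPA D.hAP D.hPP]

/-- the linear map `E` -/
noncomputable def EE (θ η : ℝ) (z : V) : V := rot D.P D.A θ (rot D.P D.B η z)

lemma hasDerivAt_flow (κ ε : ℝ) {t : ℝ → ℝ} {z : ℝ → V} {t' : ℝ} {z' : V} {s : ℝ}
    (ht : HasDerivAt t t' s) (hz : HasDerivAt z z' s) :
    HasDerivAt (fun s => flow D κ ε (t s) (z s))
      (D.EE (t s * (κ + ε * (1 - mu D.B (z s)))) (- (t s * ε * mu D.A (z s))) z'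
        + (-(t' * ε * mu D.A (z s) + t s * ε * (2 * om (D.A (z s)) z'))) •
          D.B (flow D κ ε (t s) (z s))
        + (t' * (κ + ε * (1 - mu D.B (z s))) - t s * ε * (2 * om (D.B (z s)) z')) •
          D.A (flow D κ ε (t s) (z s))) s := by
  have hA := hasDerivAt_mu D.hAo hz
  have hB := hasDerivAt_mu D.hBo hz
  have hη : HasDerivAt (fun s => - (t s * ε * mu D.A (z s)))
      (-(t' * ε * mu D.A (z s) + t s * ε * (2 * om (D.A (z s)) z'))) s :=
    ((ht.mul_const ε).mul hA).neg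
  have hθ : HasDerivAt (fun s => t s * (κ + ε * (1 - mu D.B (z s))))
      (t' * (κ + ε * (1 - mu D.B (z s))) - t s * ε * (2 * om (D.B (z s)) z')) s := by
    refine (ht.mul (((hB.const_sub 1).const_mul ε).const_add κ)).congr_deriv ?_
    ring
  have h1 := hasDerivAt_rot (P := D.P) (A := D.B) D.hBB D.hBP hη hz
  have h2 := hasDerivAt_rot (P := D.P) (A := D.A) D.hAA D.hAP hθ h1
  unfold EE flow
  refine h2.congr_deriv ?_
  rw [rot_add, rot_smul, map_rot (A' := D.B) (A := D.A) (by intro z; rw [D.hBP, D.hPB])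
    (by intro z; rw [D.hAB]),
    map_rot (A' := D.B) (A := D.B) (by intro z; rw [D.hBP, D.hPB]) (by intro z; rfl)]


/-- the Hamiltonian vector field -/
noncomputable def X (κ ε : ℝ) (z : V) : V :=
  (-(ε * mu D.A z)) • D.B z + (κ + ε * (1 - mu D.B z)) • D.A z

lemma EE_zero (θ η : ℝ) : D.EE θ η 0 = 0 := by
  simp [EE, rot]

lemma hasDerivAt_flow_time (κ ε t : ℝ) (z : V) :
    HasDerivAt (fun s => flow D κ ε s z) (D.X κ ε (flow D κ ε t z)) t := by
  have h := D.hasDerivAt_flow κ ε (hasDerivAt_id t) (hasDerivAt_const t z)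
  refine h.congr_deriv ?_
  have h1 := D.mu_flow_A κ ε t z
  have h2 := D.mu_flow_B κ ε t z
  have e1 : om (D.A z) 0 = 0 := by simp [om_eq]
  have e2 : om (D.B z) 0 = 0 := by simp [om_eq]
  simp only [id, EE_zero, X, h1, h2, e1, e2]
  simp

lemma hasDerivAt_ham (κ ε : ℝ) {z : ℝ → V} {z' : V} {s : ℝ} (hz : HasDerivAt z z' s) :
    HasDerivAt (fun s => ham D κ ε (z s)) (2 * om (D.X κ ε (z s)) z') s := by
  have hA := hasDerivAt_mu D.hAo hz
  have hB := hasDerivAt_mu D.hBo hz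
  refine (hA.mul (((hB.const_sub 1).const_mul ε).const_add κ)).congr_deriv ?_
  simp only [X, om_add_left, om_smul_left]
  ring

lemma om_EE (θ η : ℝ) (u v : V) : om (D.EE θ η u) v = om u (D.EE (-θ) (-η) v) := by
  unfold EE
  rw [om_rot D.hAo D.hPo, om_rot D.hBo D.hPo, D.rot_comm]

end Pair

/-- the composed isotopy -/
noncomputable def Psi (D1 D2 : Pair) (κ1 κ2 ε : ℝ) (t : ℝ) (z : V) : V :=
  flow D1 κ1 ε t (flow D2 κ2 ε t z)

noncomputable def HH (D1 D2 : Pair) (κ1 κ2 ε : ℝ) (t : ℝ) (z : V) : ℝ :=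
  ham D1 κ1 ε z + ham D2 κ2 ε (flow D1 κ1 ε (-t) z)

lemma contDiff_Psi (D1 D2 : Pair) (κ1 κ2 ε : ℝ) :
    ContDiff ℝ (⊤ : ℕ∞) (fun p : ℝ × V => Psi D1 D2 κ1 κ2 ε p.1 p.2) := by
  unfold Psi
  have h : ContDiff ℝ (⊤ : ℕ∞) (fun p : ℝ × V => (p.1, flow D2 κ2 ε p.1 p.2)) :=
    contDiff_fst.prodMk (contDiff_flow D2 κ2 ε)
  exact ContDiff.comp (g := fun p : ℝ × V => flow D1 κ1 ε p.1 p.2) (contDiff_flow D1 κ1 ε) h

lemma contDiff_HH (D1 D2 : Pair) (κ1 κ2 ε : ℝ) :
    ContDiff ℝ (⊤ : ℕ∞) (fun p : ℝ × V => HH D1 D2 κ1 κ2 ε p.1 p.2) := by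
  unfold HH
  have h : ContDiff ℝ (⊤ : ℕ∞) (fun p : ℝ × V => (-p.1, p.2)) :=
    contDiff_fst.neg.prodMk contDiff_snd
  have h2 : ContDiff ℝ (⊤ : ℕ∞) (fun p : ℝ × V => flow D1 κ1 ε (-p.1) p.2) :=
    ContDiff.comp (g := fun p : ℝ × V => flow D1 κ1 ε p.1 p.2) (contDiff_flow D1 κ1 ε) h
  have h3 : ContDiff ℝ (⊤ : ℕ∞) (fun p : ℝ × V => ham D2 κ2 ε (flow D1 κ1 ε (-p.1) p.2)) :=
    ContDiff.comp (g := fun p : V => ham D2 κ2 ε p) (contDiff_ham D2 κ2 ε) h2
  have h4 : ContDiff ℝ (⊤ : ℕ∞) (fun p : ℝ × V => ham D1 κ1 ε p.2) :=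
    ContDiff.comp (g := fun p : V => ham D1 κ1 ε p) (contDiff_ham D1 κ1 ε) contDiff_snd
  exact h4.add h3

theorem hamilton_comp (D1 D2 : Pair) (κ1 κ2 ε : ℝ) (t : ℝ) (z w : V) :
    2 * (herm (deriv (fun s : ℝ => Psi D1 D2 κ1 κ2 ε s z) t) w).im =
      fderiv ℝ (fun x : V => HH D1 D2 κ1 κ2 ε t x) (Psi D1 D2 κ1 κ2 ε t z) w := by
  set x0 := flow D2 κ2 ε t z with hx0
  set y := Psi D1 D2 κ1 κ2 ε t z with hy
  have hyx : y = flow D1 κ1 ε t x0 := rfl
  have hback : flow D1 κ1 ε (-t) y = x0 := by rw [hyx, Pair.flow_neg]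
  -- time derivative
  have h1 := D2.hasDerivAt_flow_time κ2 ε t z
  have h2 := D1.hasDerivAt_flow κ1 ε (hasDerivAt_id t) h1
  have h3 : deriv (fun s : ℝ => Psi D1 D2 κ1 κ2 ε s z) t = _ := h2.deriv
  -- space derivative
  have hline : HasDerivAt (fun s : ℝ => y + s • w) w 0 := by
    simpa using ((hasDerivAt_id (0 : ℝ)).smul_const w).const_add y
  have h4 := D1.hasDerivAt_ham κ1 ε hline
  have h5 := D1.hasDerivAt_flow κ1 ε (hasDerivAt_const (0 : ℝ) (-t)) hline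
  have h6 := D2.hasDerivAt_ham κ2 ε h5
  have h7 := h4.add h6
  have hdiff : DifferentiableAt ℝ (fun x : V => HH D1 D2 κ1 κ2 ε t x) y := by
    have : ContDiff ℝ (⊤ : ℕ∞) (fun x : V => HH D1 D2 κ1 κ2 ε t x) :=
      ContDiff.comp (g := fun p : ℝ × V => HH D1 D2 κ1 κ2 ε p.1 p.2) (f := fun x => (t, x))
        (contDiff_HH D1 D2 κ1 κ2 ε) (contDiff_const.prodMk contDiff_id)
    exact (this.differentiable (by simp)).differentiableAt
  have h8 : HasDerivAt (fun s : ℝ => HH D1 D2 κ1 κ2 ε t (y + s • w))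
      (fderiv ℝ (fun x : V => HH D1 D2 κ1 κ2 ε t x) y w) 0 := by
    have := hdiff.hasFDerivAt
    have h9 : HasFDerivAt (fun x : V => HH D1 D2 κ1 κ2 ε t x)
      (fderiv ℝ (fun x : V => HH D1 D2 κ1 κ2 ε t x) y) (y + (0:ℝ) • w) := by
      simpa using this
    exact h9.comp_hasDerivAt (0:ℝ) hline
  have h10 := h8.unique h7
  rw [h10, h3]
  change 2 * om _ _ = _
  have m1 : mu D1.A y = mu D1.A x0 := by rw [hyx, Pair.mu_flow_A]
  have m2 : mu D1.B y = mu D1.B x0 := by rw [hyx, Pair.mu_flow_B]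
  simp only [id, zero_smul, add_zero]
  rw [hback]
  simp only [om_add_left, om_add_right, om_smul_left, om_smul_right, Pair.om_EE]
  rw [← hx0, ← hyx]
  simp only [Pair.X, om_add_left, om_add_right, om_smul_left, om_smul_right, m1, m2]
  rw [om_antisymm (D2.A x0) (D1.A x0), om_antisymm (D2.A x0) (D1.B x0),
    om_antisymm (D2.B x0) (D1.A x0), om_antisymm (D2.B x0) (D1.B x0)]
  have e1 : -t * (κ1 + ε * (1 - mu D1.B x0)) = -(t * (κ1 + ε * (1 - mu D1.B x0))) := by ring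
  have e2 : (-(-t * ε * mu D1.A x0)) = (- -(t * ε * mu D1.A x0)) := by ring
  rw [e1, e2]
  generalize D1.EE (-(t * (κ1 + ε * (1 - mu D1.B x0)))) (- -(t * ε * mu D1.A x0)) w = W
  ring

end Crest.Agent.S0316Lib
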