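import Mathlib
import Crest.Prelude.Def_QuadricHamiltonian
import Crest.Agent.S0316Flow

set_option autoImplicit false
open Crest Crest.GeometryTopology

namespace Crest.Agent.S0316Lib

open Crest.GeometryTopology.Quadric

noncomputable def PP : V →L[ℝ] V := LinearMap.toContinuousLinearMap
  { toFun := fun z => ![0, z 1, z 2, z 3, z 4]
    map_add' := fun u v => by ext j; fin_cases j <;> simp
    map_smul' := fun u v => by ext j; fin_cases j <;> simp }

noncomputable def I1 : V →L[ℝ] V := LinearMap.toContinuousLinearMap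
  { toFun := fun z => ![0, -z 2, z 1, -z 4, z 3]
    map_add' := fun u v => by ext j; fin_cases j <;> simp <;> ring
    map_smul' := fun u v => by ext j; fin_cases j <;> simp }

noncomputable def I2 : V →L[ℝ] V := LinearMap.toContinuousLinearMap
  { toFun := fun z => ![0, -z 3, z 4, z 1, -z 2]
    map_add' := fun u v => by ext j; fin_cases j <;> simp <;> ring
    map_smul' := fun u v => by ext j; fin_cases j <;> simp }

noncomputable def I3 : V →L[ℝ] V := LinearMap.toContinuousLinearMap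
  { toFun := fun z => ![0, -z 4, -z 3, z 2, z 1]
    map_add' := fun u v => by ext j; fin_cases j <;> simp <;> ring
    map_smul' := fun u v => by ext j; fin_cases j <;> simp }

noncomputable def J1 : V →L[ℝ] V := LinearMap.toContinuousLinearMap
  { toFun := fun z => ![0, -z 2, z 1, z 4, -z 3]
    map_add' := fun u v => by ext j; fin_cases j <;> simp <;> ring
    map_smul' := fun u v => by ext j; fin_cases j <;> simp }

noncomputable def J2 : V →L[ℝ] V := LinearMap.toContinuousLinearMap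
  { toFun := fun z => ![0, -z 3, -z 4, z 1, z 2]
    map_add' := fun u v => by ext j; fin_cases j <;> simp <;> ring
    map_smul' := fun u v => by ext j; fin_cases j <;> simp }

noncomputable def J3 : V →L[ℝ] V := LinearMap.toContinuousLinearMap
  { toFun := fun z => ![0, -z 4, z 3, -z 2, z 1]
    map_add' := fun u v => by ext j; fin_cases j <;> simp <;> ring
    map_smul' := fun u v => by ext j; fin_cases j <;> simp }

lemma PP_apply (z : V) : PP z = ![0, z 1, z 2, z 3, z 4] := rfl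
lemma I1_apply (z : V) : I1 z = ![0, -z 2, z 1, -z 4, z 3] := rfl
lemma I2_apply (z : V) : I2 z = ![0, -z 3, z 4, z 1, -z 2] := rfl
lemma I3_apply (z : V) : I3 z = ![0, -z 4, -z 3, z 2, z 1] := rfl
lemma J1_apply (z : V) : J1 z = ![0, -z 2, z 1, z 4, -z 3] := rfl
lemma J2_apply (z : V) : J2 z = ![0, -z 3, -z 4, z 1, z 2] := rfl
lemma J3_apply (z : V) : J3 z = ![0, -z 4, z 3, -z 2, z 1] := rfl

noncomputable def D1 : Pair where
  A := I1
  B := J3
  P := PP
  hAA z := by ext j; fin_cases j <;> simp [I1_apply, PP_apply]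
  hBB z := by ext j; fin_cases j <;> simp [J3_apply, PP_apply]
  hPA z := by ext j; fin_cases j <;> simp [I1_apply, PP_apply]
  hAP z := by ext j; fin_cases j <;> simp [I1_apply, PP_apply]
  hPB z := by ext j; fin_cases j <;> simp [J3_apply, PP_apply]
  hBP z := by ext j; fin_cases j <;> simp [J3_apply, PP_apply]
  hPP z := by ext j; fin_cases j <;> simp [PP_apply]
  hAB z := by ext j; fin_cases j <;> simp [I1_apply, J3_apply]
  hAo u v := by simp [om_eq, Fin.sum_univ_five, I1_apply]; ring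
  hBo u v := by simp [om_eq, Fin.sum_univ_five, J3_apply]; ring
  hPo u v := by simp [om_eq, Fin.sum_univ_five, PP_apply]

noncomputable def D2 : Pair where
  A := J1
  B := I3
  P := PP
  hAA z := by ext j; fin_cases j <;> simp [J1_apply, PP_apply]
  hBB z := by ext j; fin_cases j <;> simp [I3_apply, PP_apply]
  hPA z := by ext j; fin_cases j <;> simp [J1_apply, PP_apply]
  hAP z := by ext j; fin_cases j <;> simp [J1_apply, PP_apply]
  hPB z := by ext j; fin_cases j <;> simp [I3_apply, PP_apply]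
  hBP z := by ext j; fin_cases j <;> simp [I3_apply, PP_apply]
  hPP z := by ext j; fin_cases j <;> simp [PP_apply]
  hAB z := by ext j; fin_cases j <;> simp [J1_apply, I3_apply]
  hAo u v := by simp [om_eq, Fin.sum_univ_five, J1_apply]; ring
  hBo u v := by simp [om_eq, Fin.sum_univ_five, I3_apply]; ring
  hPo u v := by simp [om_eq, Fin.sum_univ_five, PP_apply]

lemma rot_apply (P A : V →L[ℝ] V) (θ : ℝ) (z : V) (j : Fin 5) :
    rot P A θ z j = z j + ((Real.cos θ : ℂ) - 1) * P z j + (Real.sin θ : ℂ) * A z j := by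
  simp [rot]

lemma rot_I1 (θ : ℝ) (z : V) : rot PP I1 θ z =
    ![z 0, Complex.cos θ * z 1 - Complex.sin θ * z 2, Complex.cos θ * z 2 + Complex.sin θ * z 1,
      Complex.cos θ * z 3 - Complex.sin θ * z 4, Complex.cos θ * z 4 + Complex.sin θ * z 3] := by
  ext j; rw [rot_apply]; fin_cases j <;> simp [I1_apply, PP_apply] <;> ring

lemma rot_I3 (θ : ℝ) (z : V) : rot PP I3 θ z =
    ![z 0, Complex.cos θ * z 1 - Complex.sin θ * z 4, Complex.cos θ * z 2 - Complex.sin θ * z 3,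
      Complex.cos θ * z 3 + Complex.sin θ * z 2, Complex.cos θ * z 4 + Complex.sin θ * z 1] := by
  ext j; rw [rot_apply]; fin_cases j <;> simp [I3_apply, PP_apply] <;> ring

lemma rot_J1 (θ : ℝ) (z : V) : rot PP J1 θ z =
    ![z 0, Complex.cos θ * z 1 - Complex.sin θ * z 2, Complex.cos θ * z 2 + Complex.sin θ * z 1,
      Complex.cos θ * z 3 + Complex.sin θ * z 4, Complex.cos θ * z 4 - Complex.sin θ * z 3] := by
  ext j; rw [rot_apply]; fin_cases j <;> simp [J1_apply, PP_apply] <;> ring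

lemma rot_J3 (θ : ℝ) (z : V) : rot PP J3 θ z =
    ![z 0, Complex.cos θ * z 1 - Complex.sin θ * z 4, Complex.cos θ * z 2 + Complex.sin θ * z 3,
      Complex.cos θ * z 3 - Complex.sin θ * z 2, Complex.cos θ * z 4 + Complex.sin θ * z 1] := by
  ext j; rw [rot_apply]; fin_cases j <;> simp [J3_apply, PP_apply] <;> ring

/-- quadratic form -/
noncomputable def qf (z : V) : ℂ := ∑ j, z j ^ 2

lemma cs (θ : ℝ) : Complex.sin θ ^ 2 + Complex.cos θ ^ 2 = 1 := Complex.sin_sq_add_cos_sq _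

lemma qf_I1 (θ : ℝ) (z : V) : qf (rot PP I1 θ z) = qf z := by
  rw [rot_I1]; simp only [qf, Fin.sum_univ_five]
  simp
  linear_combination (z 1 ^ 2 + z 2 ^ 2 + z 3 ^ 2 + z 4 ^ 2) * cs θ
lemma qf_I3 (θ : ℝ) (z : V) : qf (rot PP I3 θ z) = qf z := by
  rw [rot_I3]; simp only [qf, Fin.sum_univ_five]
  simp
  linear_combination (z 1 ^ 2 + z 2 ^ 2 + z 3 ^ 2 + z 4 ^ 2) * cs θ
lemma qf_J1 (θ : ℝ) (z : V) : qf (rot PP J1 θ z) = qf z := by
  rw [rot_J1]; simp only [qf, Fin.sum_univ_five]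
  simp
  linear_combination (z 1 ^ 2 + z 2 ^ 2 + z 3 ^ 2 + z 4 ^ 2) * cs θ
lemma qf_J3 (θ : ℝ) (z : V) : qf (rot PP J3 θ z) = qf z := by
  rw [rot_J3]; simp only [qf, Fin.sum_univ_five]
  simp
  linear_combination (z 1 ^ 2 + z 2 ^ 2 + z 3 ^ 2 + z 4 ^ 2) * cs θ

lemma conj_cos (θ : ℝ) : (starRingEnd ℂ) (Complex.cos θ) = Complex.cos θ := by
  rw [← Complex.ofReal_cos, Complex.conj_ofReal]
lemma conj_sin (θ : ℝ) : (starRingEnd ℂ) (Complex.sin θ) = Complex.sin θ := by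
  rw [← Complex.ofReal_sin, Complex.conj_ofReal]

lemma herm_I1 (θ : ℝ) (z : V) : herm (rot PP I1 θ z) (rot PP I1 θ z) = herm z z := by
  rw [rot_I1]; simp only [herm, Fin.sum_univ_five]
  simp [conj_cos, conj_sin]
  linear_combination (starRingEnd ℂ (z 1) * z 1 + starRingEnd ℂ (z 2) * z 2 +
    starRingEnd ℂ (z 3) * z 3 + starRingEnd ℂ (z 4) * z 4) * cs θ
lemma herm_I3 (θ : ℝ) (z : V) : herm (rot PP I3 θ z) (rot PP I3 θ z) = herm z z := by
  rw [rot_I3]; simp only [herm, Fin.sum_univ_five]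
  simp [conj_cos, conj_sin]
  linear_combination (starRingEnd ℂ (z 1) * z 1 + starRingEnd ℂ (z 2) * z 2 +
    starRingEnd ℂ (z 3) * z 3 + starRingEnd ℂ (z 4) * z 4) * cs θ
lemma herm_J1 (θ : ℝ) (z : V) : herm (rot PP J1 θ z) (rot PP J1 θ z) = herm z z := by
  rw [rot_J1]; simp only [herm, Fin.sum_univ_five]
  simp [conj_cos, conj_sin]
  linear_combination (starRingEnd ℂ (z 1) * z 1 + starRingEnd ℂ (z 2) * z 2 +
    starRingEnd ℂ (z 3) * z 3 + starRingEnd ℂ (z 4) * z 4) * cs θ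
lemma herm_J3 (θ : ℝ) (z : V) : herm (rot PP J3 θ z) (rot PP J3 θ z) = herm z z := by
  rw [rot_J3]; simp only [herm, Fin.sum_univ_five]
  simp [conj_cos, conj_sin]
  linear_combination (starRingEnd ℂ (z 1) * z 1 + starRingEnd ℂ (z 2) * z 2 +
    starRingEnd ℂ (z 3) * z 3 + starRingEnd ℂ (z 4) * z 4) * cs θ


lemma herm_smul (c : ℂ) (u v : V) : herm (c • u) (c • v) = (starRingEnd ℂ c * c) * herm u v := by
  simp only [herm, Finset.mul_sum]
  refine Finset.sum_congr rfl fun j _ => ?_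
  simp; ring

lemma conj_mul_self_of_norm {c : ℂ} (hc : ‖c‖ = 1) : starRingEnd ℂ c * c = 1 := by
  rw [mul_comm, Complex.mul_conj, Complex.normSq_eq_norm_sq, hc]; simp

lemma mu_smul {A : V →L[ℝ] V} (hA : ∀ (c : ℂ) (z : V), A (c • z) = c • A z) {c : ℂ}
    (hc : ‖c‖ = 1) (z : V) : mu A (c • z) = mu A z := by
  unfold mu om
  rw [hA, herm_smul, conj_mul_self_of_norm hc, one_mul]

lemma rot_csmul {P A : V →L[ℝ] V} (hP : ∀ (c : ℂ) (z : V), P (c • z) = c • P z)
    (hA : ∀ (c : ℂ) (z : V), A (c • z) = c • A z) (θ : ℝ) (c : ℂ) (z : V) :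
    rot P A θ (c • z) = c • rot P A θ z := by
  ext j
  rw [Pi.smul_apply, rot_apply, rot_apply, hP, hA]
  simp; ring

lemma PP_csmul (c : ℂ) (z : V) : PP (c • z) = c • PP z := by
  ext j; fin_cases j <;> simp [PP_apply]
lemma I1_csmul (c : ℂ) (z : V) : I1 (c • z) = c • I1 z := by
  ext j; fin_cases j <;> simp [I1_apply]
lemma I2_csmul (c : ℂ) (z : V) : I2 (c • z) = c • I2 z := by
  ext j; fin_cases j <;> simp [I2_apply]
lemma I3_csmul (c : ℂ) (z : V) : I3 (c • z) = c • I3 z := by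
  ext j; fin_cases j <;> simp [I3_apply]
lemma J1_csmul (c : ℂ) (z : V) : J1 (c • z) = c • J1 z := by
  ext j; fin_cases j <;> simp [J1_apply]
lemma J2_csmul (c : ℂ) (z : V) : J2 (c • z) = c • J2 z := by
  ext j; fin_cases j <;> simp [J2_apply]
lemma J3_csmul (c : ℂ) (z : V) : J3 (c • z) = c • J3 z := by
  ext j; fin_cases j <;> simp [J3_apply]

lemma D1A : D1.A = I1 := rfl
lemma D1B : D1.B = J3 := rfl
lemma D1P : D1.P = PP := rfl
lemma D2A : D2.A = J1 := rfl
lemma D2B : D2.B = I3 := rfl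
lemma D2P : D2.P = PP := rfl

lemma flow1_csmul (κ ε t : ℝ) {c : ℂ} (hc : ‖c‖ = 1) (z : V) :
    flow D1 κ ε t (c • z) = c • flow D1 κ ε t z := by
  unfold flow
  rw [D1A, D1B, D1P, mu_smul J3_csmul hc, mu_smul I1_csmul hc, rot_csmul PP_csmul J3_csmul,
    rot_csmul PP_csmul I1_csmul]

lemma flow2_csmul (κ ε t : ℝ) {c : ℂ} (hc : ‖c‖ = 1) (z : V) :
    flow D2 κ ε t (c • z) = c • flow D2 κ ε t z := by
  unfold flow
  rw [D2A, D2B, D2P, mu_smul I3_csmul hc, mu_smul J1_csmul hc, rot_csmul PP_csmul I3_csmul,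
    rot_csmul PP_csmul J1_csmul]

lemma ham1_csmul (κ ε : ℝ) {c : ℂ} (hc : ‖c‖ = 1) (z : V) :
    ham D1 κ ε (c • z) = ham D1 κ ε z := by
  unfold ham
  rw [D1A, D1B, mu_smul J3_csmul hc, mu_smul I1_csmul hc]

lemma ham2_csmul (κ ε : ℝ) {c : ℂ} (hc : ‖c‖ = 1) (z : V) :
    ham D2 κ ε (c • z) = ham D2 κ ε z := by
  unfold ham
  rw [D2A, D2B, mu_smul I3_csmul hc, mu_smul J1_csmul hc]

lemma mem_unitCone_iff (z : V) : z ∈ unitCone ↔ herm z z = 1 ∧ qf z = 0 := Iff.rfl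

lemma flow1_cone (κ ε t : ℝ) {z : V} (hz : z ∈ unitCone) : flow D1 κ ε t z ∈ unitCone := by
  rw [mem_unitCone_iff] at hz ⊢
  unfold flow
  rw [D1A, D1B, D1P, herm_I1, herm_J3, qf_I1, qf_J3]
  exact hz

lemma flow2_cone (κ ε t : ℝ) {z : V} (hz : z ∈ unitCone) : flow D2 κ ε t z ∈ unitCone := by
  rw [mem_unitCone_iff] at hz ⊢
  unfold flow
  rw [D2A, D2B, D2P, herm_J1, herm_I3, qf_J1, qf_I3]
  exact hz

lemma flow_zero (D : Pair) (κ ε : ℝ) (z : V) : flow D κ ε 0 z = z := by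
  unfold flow
  simp [rot_zero]

/-- the Hamiltonian cone lift -/
noncomputable def LL (ε : ℝ) : HamiltonianConeLift where
  Ψ p := Psi D1 D2 Real.pi 0 ε p.1 p.2
  H p := HH D1 D2 Real.pi 0 ε p.1 p.2
  smooth_Ψ := contDiff_Psi D1 D2 Real.pi 0 ε
  smooth_H := contDiff_HH D1 D2 Real.pi 0 ε
  mapsTo_cone t z hz := flow1_cone _ _ _ (flow2_cone _ _ _ hz)
  compatible t z hz c hc := ⟨c, by
    simp only [Psi]
    rw [flow2_csmul _ _ _ hc, flow1_csmul _ _ _ hc]⟩
  start z hz := ⟨1, by simp only [Psi]; rw [flow_zero, flow_zero, one_smul]⟩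
  invariant t z hz c hc := by
    simp only [HH]
    rw [flow1_csmul _ _ _ hc, ham1_csmul _ _ hc, ham2_csmul _ _ hc]
  hamilton t ht z hz w hw := hamilton_comp D1 D2 Real.pi 0 ε t z w

/-! rotation of moment maps -/

section moments
variable (θ : ℝ) (z : V)

lemma a1_I3 : mu I1 (rot PP I3 θ z) = Real.cos (2*θ) * mu I1 z - Real.sin (2*θ) * mu I2 z := by
  simp [mu, om, herm, Fin.sum_univ_five, I1_apply, I2_apply, rot_I3, Real.cos_two_mul',
    Real.sin_two_mul, ← Complex.ofReal_cos, ← Complex.ofReal_sin]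
  ring
lemma a2_I3 : mu I2 (rot PP I3 θ z) = Real.cos (2*θ) * mu I2 z + Real.sin (2*θ) * mu I1 z := by
  simp [mu, om, herm, Fin.sum_univ_five, I1_apply, I2_apply, rot_I3, Real.cos_two_mul',
    Real.sin_two_mul, ← Complex.ofReal_cos, ← Complex.ofReal_sin]
  ring
lemma a2_I1 : mu I2 (rot PP I1 θ z) = Real.cos (2*θ) * mu I2 z - Real.sin (2*θ) * mu I3 z := by
  simp [mu, om, herm, Fin.sum_univ_five, I3_apply, I2_apply, rot_I1, Real.cos_two_mul',
    Real.sin_two_mul, ← Complex.ofReal_cos, ← Complex.ofReal_sin]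
  ring
lemma a3_I1 : mu I3 (rot PP I1 θ z) = Real.cos (2*θ) * mu I3 z + Real.sin (2*θ) * mu I2 z := by
  simp [mu, om, herm, Fin.sum_univ_five, I3_apply, I2_apply, rot_I1, Real.cos_two_mul',
    Real.sin_two_mul, ← Complex.ofReal_cos, ← Complex.ofReal_sin]
  ring
lemma b2_J1 : mu J2 (rot PP J1 θ z) = Real.cos (2*θ) * mu J2 z + Real.sin (2*θ) * mu J3 z := by
  simp [mu, om, herm, Fin.sum_univ_five, J3_apply, J2_apply, rot_J1, Real.cos_two_mul',
    Real.sin_two_mul, ← Complex.ofReal_cos, ← Complex.ofReal_sin]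
  ring
lemma b3_J1 : mu J3 (rot PP J1 θ z) = Real.cos (2*θ) * mu J3 z - Real.sin (2*θ) * mu J2 z := by
  simp [mu, om, herm, Fin.sum_univ_five, J3_apply, J2_apply, rot_J1, Real.cos_two_mul',
    Real.sin_two_mul, ← Complex.ofReal_cos, ← Complex.ofReal_sin]
  ring
lemma b1_J3 : mu J1 (rot PP J3 θ z) = Real.cos (2*θ) * mu J1 z + Real.sin (2*θ) * mu J2 z := by
  simp [mu, om, herm, Fin.sum_univ_five, J1_apply, J2_apply, rot_J3, Real.cos_two_mul',
    Real.sin_two_mul, ← Complex.ofReal_cos, ← Complex.ofReal_sin]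
  ring
lemma b2_J3 : mu J2 (rot PP J3 θ z) = Real.cos (2*θ) * mu J2 z - Real.sin (2*θ) * mu J1 z := by
  simp [mu, om, herm, Fin.sum_univ_five, J1_apply, J2_apply, rot_J3, Real.cos_two_mul',
    Real.sin_two_mul, ← Complex.ofReal_cos, ← Complex.ofReal_sin]
  ring

lemma mu_comm_A (D : Pair) {C : V →L[ℝ] V} (hP : ∀ z, C (D.P z) = D.P (C z))
    (hA : ∀ z, C (D.A z) = D.A (C z)) : mu C (rot D.P D.A θ z) = mu C z := by
  unfold mu
  rw [map_rot hP hA, om_rot_rot D.hAA D.hPA D.hAP D.hPP D.hAo D.hPo]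
lemma mu_comm_B (D : Pair) {C : V →L[ℝ] V} (hP : ∀ z, C (D.P z) = D.P (C z))
    (hB : ∀ z, C (D.B z) = D.B (C z)) : mu C (rot D.P D.B θ z) = mu C z := by
  unfold mu
  rw [map_rot hP hB, om_rot_rot D.hBB D.hPB D.hBP D.hPP D.hBo D.hPo]

lemma a1_I1 : mu I1 (rot PP I1 θ z) = mu I1 z :=
  mu_comm_A θ z D1 (fun z => by ext j; fin_cases j <;> simp [D1P, I1_apply, PP_apply]) (fun z => rfl)
lemma a3_I3 : mu I3 (rot PP I3 θ z) = mu I3 z :=
  mu_comm_B θ z D2 (fun z => by ext j; fin_cases j <;> simp [D2P, I3_apply, PP_apply]) (fun z => rfl)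
lemma b1_J1 : mu J1 (rot PP J1 θ z) = mu J1 z :=
  mu_comm_A θ z D2 (fun z => by ext j; fin_cases j <;> simp [D2P, J1_apply, PP_apply]) (fun z => rfl)
lemma b3_J3 : mu J3 (rot PP J3 θ z) = mu J3 z :=
  mu_comm_B θ z D1 (fun z => by ext j; fin_cases j <;> simp [D1P, J3_apply, PP_apply]) (fun z => rfl)

lemma b1_I1 : mu J1 (rot PP I1 θ z) = mu J1 z :=
  mu_comm_A θ z D1 (fun z => by ext j; fin_cases j <;> simp [D1P, J1_apply, PP_apply])
    (fun z => by ext j; fin_cases j <;> simp [D1A, J1_apply, I1_apply])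
lemma b2_I1 : mu J2 (rot PP I1 θ z) = mu J2 z :=
  mu_comm_A θ z D1 (fun z => by ext j; fin_cases j <;> simp [D1P, J2_apply, PP_apply])
    (fun z => by ext j; fin_cases j <;> simp [D1A, J2_apply, I1_apply])
lemma b3_I1 : mu J3 (rot PP I1 θ z) = mu J3 z :=
  mu_comm_A θ z D1 (fun z => by ext j; fin_cases j <;> simp [D1P, J3_apply, PP_apply])
    (fun z => by ext j; fin_cases j <;> simp [D1A, J3_apply, I1_apply])
lemma b1_I3 : mu J1 (rot PP I3 θ z) = mu J1 z :=
  mu_comm_B θ z D2 (fun z => by ext j; fin_cases j <;> simp [D2P, J1_apply, PP_apply])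
    (fun z => by ext j; fin_cases j <;> simp [D2B, J1_apply, I3_apply])
lemma b2_I3 : mu J2 (rot PP I3 θ z) = mu J2 z :=
  mu_comm_B θ z D2 (fun z => by ext j; fin_cases j <;> simp [D2P, J2_apply, PP_apply])
    (fun z => by ext j; fin_cases j <;> simp [D2B, J2_apply, I3_apply])
lemma b3_I3 : mu J3 (rot PP I3 θ z) = mu J3 z :=
  mu_comm_B θ z D2 (fun z => by ext j; fin_cases j <;> simp [D2P, J3_apply, PP_apply])
    (fun z => by ext j; fin_cases j <;> simp [D2B, J3_apply, I3_apply])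
lemma a1_J1 : mu I1 (rot PP J1 θ z) = mu I1 z :=
  mu_comm_A θ z D2 (fun z => by ext j; fin_cases j <;> simp [D2P, I1_apply, PP_apply])
    (fun z => by ext j; fin_cases j <;> simp [D2A, J1_apply, I1_apply])
lemma a2_J1 : mu I2 (rot PP J1 θ z) = mu I2 z :=
  mu_comm_A θ z D2 (fun z => by ext j; fin_cases j <;> simp [D2P, I2_apply, PP_apply])
    (fun z => by ext j; fin_cases j <;> simp [D2A, J1_apply, I2_apply])
lemma a3_J1 : mu I3 (rot PP J1 θ z) = mu I3 z :=
  mu_comm_A θ z D2 (fun z => by ext j; fin_cases j <;> simp [D2P, I3_apply, PP_apply])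
    (fun z => by ext j; fin_cases j <;> simp [D2A, J1_apply, I3_apply])
lemma a1_J3 : mu I1 (rot PP J3 θ z) = mu I1 z :=
  mu_comm_B θ z D1 (fun z => by ext j; fin_cases j <;> simp [D1P, I1_apply, PP_apply])
    (fun z => by ext j; fin_cases j <;> simp [D1B, J3_apply, I1_apply])
lemma a2_J3 : mu I2 (rot PP J3 θ z) = mu I2 z :=
  mu_comm_B θ z D1 (fun z => by ext j; fin_cases j <;> simp [D1P, I2_apply, PP_apply])
    (fun z => by ext j; fin_cases j <;> simp [D1B, J3_apply, I2_apply])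
lemma a3_J3 : mu I3 (rot PP J3 θ z) = mu I3 z :=
  mu_comm_B θ z D1 (fun z => by ext j; fin_cases j <;> simp [D1P, I3_apply, PP_apply])
    (fun z => by ext j; fin_cases j <;> simp [D1B, J3_apply, I3_apply])

end moments

lemma Psi_one_eq (ε : ℝ) (z : V) : (LL ε).Ψ (1, z) =
    rot PP I1 (Real.pi + ε * (1 - mu J3 (flow D2 0 ε 1 z)))
      (rot PP J3 (-(ε * mu I1 (flow D2 0 ε 1 z))) (flow D2 0 ε 1 z)) := by
  simp [LL, Psi, flow, D1A, D1B, D1P]

lemma flow2_one_eq (ε : ℝ) (z : V) : flow D2 0 ε 1 z =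
    rot PP J1 (ε * (1 - mu I3 z)) (rot PP I3 (-(ε * mu J1 z)) z) := by
  simp [flow, D2A, D2B, D2P]

lemma cone_re {z : V} (hz : z ∈ unitCone) (h0 : z 0 = 0) :
    (z 1).re ^ 2 + (z 1).im ^ 2 + (z 2).re ^ 2 + (z 2).im ^ 2 + (z 3).re ^ 2 + (z 3).im ^ 2 +
      (z 4).re ^ 2 + (z 4).im ^ 2 = 1 ∧
    (z 1).re ^ 2 - (z 1).im ^ 2 + (z 2).re ^ 2 - (z 2).im ^ 2 + (z 3).re ^ 2 - (z 3).im ^ 2 +
      (z 4).re ^ 2 - (z 4).im ^ 2 = 0 ∧
    (z 1).re * (z 1).im + (z 2).re * (z 2).im + (z 3).re * (z 3).im + (z 4).re * (z 4).im = 0 := by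
  obtain ⟨h1, h2⟩ := hz
  simp only [herm, Fin.sum_univ_five, h0] at h1 h2
  have h1r := congrArg Complex.re h1
  have h2r := congrArg Complex.re h2
  have h2i := congrArg Complex.im h2
  simp [pow_two] at h1r h2r h2i
  refine ⟨by linear_combination h1r, by linear_combination h2r, by linear_combination h2i / 2⟩

lemma sphere_a {z : V} (hz : z ∈ unitCone) (h0 : z 0 = 0) :
    mu I1 z ^ 2 + mu I2 z ^ 2 + mu I3 z ^ 2 = 1 := by
  obtain ⟨h1, h2, h3⟩ := cone_re hz h0
  simp [mu, om, herm, Fin.sum_univ_five, I1_apply, I2_apply, I3_apply]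
  generalize (z 1).re = x1 at *
  generalize (z 1).im = y1 at *
  generalize (z 2).re = x2 at *
  generalize (z 2).im = y2 at *
  generalize (z 3).re = x3 at *
  generalize (z 3).im = y3 at *
  generalize (z 4).re = x4 at *
  generalize (z 4).im = y4 at *
  linear_combination (x1^2+y1^2+x2^2+y2^2+x3^2+y3^2+x4^2+y4^2+1) * h1
    - (x1^2-y1^2+x2^2-y2^2+x3^2-y3^2+x4^2-y4^2) * h2 - 4 * (x1*y1+x2*y2+x3*y3+x4*y4) * h3

lemma sphere_b {z : V} (hz : z ∈ unitCone) (h0 : z 0 = 0) :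
    mu J1 z ^ 2 + mu J2 z ^ 2 + mu J3 z ^ 2 = 1 := by
  obtain ⟨h1, h2, h3⟩ := cone_re hz h0
  simp [mu, om, herm, Fin.sum_univ_five, J1_apply, J2_apply, J3_apply]
  generalize (z 1).re = x1 at *
  generalize (z 1).im = y1 at *
  generalize (z 2).re = x2 at *
  generalize (z 2).im = y2 at *
  generalize (z 3).re = x3 at *
  generalize (z 3).im = y3 at *
  generalize (z 4).re = x4 at *
  generalize (z 4).im = y4 at *
  linear_combination (x1^2+y1^2+x2^2+y2^2+x3^2+y3^2+x4^2+y4^2+1) * h1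
    - (x1^2-y1^2+x2^2-y2^2+x3^2-y3^2+x4^2-y4^2) * h2 - 4 * (x1*y1+x2*y2+x3*y3+x4*y4) * h3

/-- Plücker coordinates `Im (conj z_j z_k)` -/
noncomputable def pl (z : V) (j k : Fin 5) : ℝ := (starRingEnd ℂ (z j) * z k).im

lemma mul_conj_of_pl {z : V} (hz : z ∈ unitCone) (j k : Fin 5) :
    starRingEnd ℂ (z j) * z k =
      2 * ∑ l, (pl z j l : ℂ) * (pl z l k : ℂ) * (-1) + Complex.I * (pl z j k : ℂ) := by
  obtain ⟨h1, h2⟩ := hz
  have hpl : ∀ a b : Fin 5, (pl z a b : ℂ) = (starRingEnd ℂ (z a) * z b - z a * starRingEnd ℂ (z b)) / (2 * Complex.I) := by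
    intro a b
    have : (pl z a b : ℂ) = (starRingEnd ℂ (z a) * z b - starRingEnd ℂ (starRingEnd ℂ (z a) * z b)) / (2 * Complex.I) := by
      rw [Complex.sub_conj, pl]; push_cast; field_simp
    rw [this]; simp
  have h3 : ∑ j, starRingEnd ℂ (z j) ^ 2 = 0 := by
    have := congrArg (starRingEnd ℂ) h2
    simpa using this
  simp only [hpl]
  simp only [herm, Fin.sum_univ_five] at h1 h2 h3 ⊢
  field_simp
  linear_combination (starRingEnd ℂ (z j) * z k + z j * starRingEnd ℂ (z k)) * (Complex.I_sq + h1)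
    - starRingEnd ℂ (z j) * starRingEnd ℂ (z k) * h2 - z j * z k * h3

lemma pl_self (z : V) (j : Fin 5) : pl z j j = 0 := by
  simp [pl]; ring

lemma pl_symm (z : V) (j k : Fin 5) : pl z j k = - pl z k j := by
  simp [pl]; ring

lemma pl_12 (z : V) : pl z 1 2 = (mu I1 z + mu J1 z) / 4 := by
  simp [pl, mu, om, herm, Fin.sum_univ_five, J1_apply, I1_apply]; ring
lemma pl_34 (z : V) : pl z 3 4 = (mu I1 z - mu J1 z) / 4 := by
  simp [pl, mu, om, herm, Fin.sum_univ_five, J1_apply, I1_apply]; ring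
lemma pl_13 (z : V) : pl z 1 3 = (mu I2 z + mu J2 z) / 4 := by
  simp [pl, mu, om, herm, Fin.sum_univ_five, J2_apply, I2_apply]; ring
lemma pl_24 (z : V) : pl z 2 4 = (mu J2 z - mu I2 z) / 4 := by
  simp [pl, mu, om, herm, Fin.sum_univ_five, J2_apply, I2_apply]; ring
lemma pl_14 (z : V) : pl z 1 4 = (mu I3 z + mu J3 z) / 4 := by
  simp [pl, mu, om, herm, Fin.sum_univ_five, J3_apply, I3_apply]; ring
lemma pl_23 (z : V) : pl z 2 3 = (mu I3 z - mu J3 z) / 4 := by
  simp [pl, mu, om, herm, Fin.sum_univ_five, J3_apply, I3_apply]; ring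

lemma pl_0 {z : V} (h0 : z 0 = 0) (k : Fin 5) : pl z 0 k = 0 := by
  simp [pl, h0]

/-- The moment maps separate lines. -/
lemma eq_smul_of_moments {z z' : V} (hz : z ∈ unitCone) (hz' : z' ∈ unitCone)
    (h0 : z 0 = 0) (h0' : z' 0 = 0) (ha1 : mu I1 z = mu I1 z') (ha2 : mu I2 z = mu I2 z')
    (ha3 : mu I3 z = mu I3 z') (hb1 : mu J1 z = mu J1 z') (hb2 : mu J2 z = mu J2 z')
    (hb3 : mu J3 z = mu J3 z') : z' = herm z z' • z := by
  have h12 : pl z 1 2 = pl z' 1 2 := by rw [pl_12, pl_12, ha1, hb1]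
  have h34 : pl z 3 4 = pl z' 3 4 := by rw [pl_34, pl_34, ha1, hb1]
  have h13 : pl z 1 3 = pl z' 1 3 := by rw [pl_13, pl_13, ha2, hb2]
  have h24 : pl z 2 4 = pl z' 2 4 := by rw [pl_24, pl_24, ha2, hb2]
  have h14 : pl z 1 4 = pl z' 1 4 := by rw [pl_14, pl_14, ha3, hb3]
  have h23 : pl z 2 3 = pl z' 2 3 := by rw [pl_23, pl_23, ha3, hb3]
  have hall : ∀ j k, pl z j k = pl z' j k := by
    have hlt : ∀ j k : Fin 5, j < k → pl z j k = pl z' j k := by
      intro j k hjk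
      fin_cases j <;> fin_cases k <;> first | (exfalso; revert hjk; decide) | assumption |
        (simp only [Fin.zero_eta, Fin.isValue, Fin.reduceFinMk]; rw [pl_0 h0, pl_0 h0']) 
    intro j k
    rcases lt_trichotomy j k with h | h | h
    · exact hlt j k h
    · subst h; rw [pl_self, pl_self]
    · rw [pl_symm z, pl_symm z', hlt k j h]
  have hP : ∀ j k, starRingEnd ℂ (z j) * z k = starRingEnd ℂ (z' j) * z' k := by
    intro j k
    rw [mul_conj_of_pl hz, mul_conj_of_pl hz']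
    simp only [hall]
  have h1' := hz'.1
  ext k
  simp only [Pi.smul_apply, smul_eq_mul, herm, Finset.sum_mul] at h1' ⊢
  calc z' k = (∑ j, starRingEnd ℂ (z' j) * z' j) * z' k := by
        rw [h1', one_mul]
    _ = ∑ j, (starRingEnd ℂ (z' j) * z' k) * z' j := by
        rw [Finset.sum_mul]; refine Finset.sum_congr rfl fun j _ => by ring
    _ = ∑ j, (starRingEnd ℂ (z j) * z k) * z' j := by simp only [hP]
    _ = ∑ j, starRingEnd ℂ (z j) * z' j * z k := by
        refine Finset.sum_congr rfl fun j _ => by ring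

end Crest.Agent.S0316Lib
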