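import Mathlib
import Crest.Prelude.Def_QuadricHamiltonian
import Crest.Agent.S0316Ops
import Crest.Agent.S0316Fix

set_option autoImplicit false
open Crest Crest.GeometryTopology

namespace Crest.Agent.S0316Lib

open Crest.GeometryTopology.Quadric

/-- the lift with ε = 1/10 -/
noncomputable def L0 : HamiltonianConeLift := LL (1/10)

noncomputable def ww (z : V) : V := flow D2 0 (1/10) 1 z

lemma ww_eq (z : V) : ww z = rot PP J1 ((1 - mu I3 z)/10) (rot PP I3 (-(mu J1 z/10)) z) := by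
  have e1 : (1:ℝ)/10 * (1 - mu I3 z) = (1 - mu I3 z)/10 := by ring
  have e2 : (1:ℝ)/10 * mu J1 z = mu J1 z/10 := by ring
  rw [ww, flow2_one_eq, e1, e2]

lemma L0_eq (z : V) : L0.Ψ (1, z) =
    rot PP I1 (Real.pi + (1 - mu J3 (ww z))/10) (rot PP J3 (-(mu I1 (ww z)/10)) (ww z)) := by
  rw [L0, Psi_one_eq]
  change rot PP I1 (Real.pi + 1 / 10 * (1 - mu J3 (ww z)))
      (rot PP J3 (-(1 / 10 * mu I1 (ww z))) (ww z)) = _
  have e1 : (1:ℝ)/10 * (1 - mu J3 (ww z)) = (1 - mu J3 (ww z))/10 := by ring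
  have e2 : (1:ℝ)/10 * mu I1 (ww z) = mu I1 (ww z)/10 := by ring
  rw [e1, e2]

lemma mom_w_I1 (z : V) : mu I1 (ww z) =
    Real.cos (2 * (mu J1 z/10)) * mu I1 z + Real.sin (2 * (mu J1 z/10)) * mu I2 z := by
  rw [ww_eq, a1_J1, a1_I3, mul_neg, Real.cos_neg, Real.sin_neg]; ring
lemma mom_w_I2 (z : V) : mu I2 (ww z) =
    Real.cos (2 * (mu J1 z/10)) * mu I2 z - Real.sin (2 * (mu J1 z/10)) * mu I1 z := by
  rw [ww_eq, a2_J1, a2_I3, mul_neg, Real.cos_neg, Real.sin_neg]; ring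
lemma mom_w_I3 (z : V) : mu I3 (ww z) = mu I3 z := by
  rw [ww_eq, a3_J1, a3_I3]
lemma mom_w_J1 (z : V) : mu J1 (ww z) = mu J1 z := by
  rw [ww_eq, b1_J1, b1_I3]
lemma mom_w_J2 (z : V) : mu J2 (ww z) =
    Real.cos (2 * ((1 - mu I3 z)/10)) * mu J2 z + Real.sin (2 * ((1 - mu I3 z)/10)) * mu J3 z := by
  rw [ww_eq, b2_J1, b2_I3, b3_I3]
lemma mom_w_J3 (z : V) : mu J3 (ww z) =
    Real.cos (2 * ((1 - mu I3 z)/10)) * mu J3 z - Real.sin (2 * ((1 - mu I3 z)/10)) * mu J2 z := by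
  rw [ww_eq, b3_J1, b2_I3, b3_I3]

lemma cos_two_pi_add (θ : ℝ) : Real.cos (2 * (Real.pi + θ)) = Real.cos (2 * θ) := by
  rw [mul_add, add_comm, Real.cos_add_two_pi]
lemma sin_two_pi_add (θ : ℝ) : Real.sin (2 * (Real.pi + θ)) = Real.sin (2 * θ) := by
  rw [mul_add, add_comm, Real.sin_add_two_pi]

lemma mom_I1 (z : V) : mu I1 (L0.Ψ (1, z)) = mu I1 (ww z) := by
  rw [L0_eq, a1_I1, a1_J3]
lemma mom_I2 (z : V) : mu I2 (L0.Ψ (1, z)) =
    Real.cos (2 * ((1 - mu J3 (ww z))/10)) * mu I2 (ww z)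
      - Real.sin (2 * ((1 - mu J3 (ww z))/10)) * mu I3 (ww z) := by
  rw [L0_eq, a2_I1, a2_J3, a3_J3, cos_two_pi_add, sin_two_pi_add]
lemma mom_I3 (z : V) : mu I3 (L0.Ψ (1, z)) =
    Real.cos (2 * ((1 - mu J3 (ww z))/10)) * mu I3 (ww z)
      + Real.sin (2 * ((1 - mu J3 (ww z))/10)) * mu I2 (ww z) := by
  rw [L0_eq, a3_I1, a2_J3, a3_J3, cos_two_pi_add, sin_two_pi_add]
lemma mom_J1 (z : V) : mu J1 (L0.Ψ (1, z)) =
    Real.cos (2 * (mu I1 (ww z)/10)) * mu J1 (ww z)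
      - Real.sin (2 * (mu I1 (ww z)/10)) * mu J2 (ww z) := by
  rw [L0_eq, b1_I1, b1_J3, mul_neg, Real.cos_neg, Real.sin_neg]; ring
lemma mom_J2 (z : V) : mu J2 (L0.Ψ (1, z)) =
    Real.cos (2 * (mu I1 (ww z)/10)) * mu J2 (ww z)
      + Real.sin (2 * (mu I1 (ww z)/10)) * mu J1 (ww z) := by
  rw [L0_eq, b2_I1, b2_J3, mul_neg, Real.cos_neg, Real.sin_neg]; ring
lemma mom_J3 (z : V) : mu J3 (L0.Ψ (1, z)) = mu J3 (ww z) := by
  rw [L0_eq, b3_I1, b3_J3]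

lemma fixEq_of (z : V) (c : ℂ) (hc : ‖c‖ = 1) (h : L0.Ψ (1, z) = c • z) :
    FixEq (mu I1 z) (mu I2 z) (mu I3 z) (mu J1 z) (mu J2 z) (mu J3 z) := by
  have e1 := mom_I1 z
  have e2 := mom_I2 z
  have e3 := mom_I3 z
  have f1 := mom_J1 z
  have f2 := mom_J2 z
  have f3 := mom_J3 z
  rw [h, mu_smul I1_csmul hc] at e1
  rw [h, mu_smul I2_csmul hc] at e2
  rw [h, mu_smul I3_csmul hc] at e3
  rw [h, mu_smul J1_csmul hc] at f1
  rw [h, mu_smul J2_csmul hc] at f2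
  rw [h, mu_smul J3_csmul hc] at f3
  rw [← f3, mom_w_I3] at e2 e3
  rw [← e1, mom_w_J1] at f1 f2
  rw [mom_w_I2] at e2 e3
  rw [mom_w_J2] at f1 f2
  rw [mom_w_I1] at e1
  rw [mom_w_J3] at f3
  exact ⟨e1.symm, e2.symm, e3.symm, f3.symm, f1.symm, f2.symm⟩

lemma moments_of_fixEq (z : V)
    (h : FixEq (mu I1 z) (mu I2 z) (mu I3 z) (mu J1 z) (mu J2 z) (mu J3 z)) :
    mu I1 (L0.Ψ (1, z)) = mu I1 z ∧ mu I2 (L0.Ψ (1, z)) = mu I2 z ∧
    mu I3 (L0.Ψ (1, z)) = mu I3 z ∧ mu J1 (L0.Ψ (1, z)) = mu J1 z ∧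
    mu J2 (L0.Ψ (1, z)) = mu J2 z ∧ mu J3 (L0.Ψ (1, z)) = mu J3 z := by
  obtain ⟨h1, h2, h3, h4, h5, h6⟩ := h
  have e1 : mu I1 (ww z) = mu I1 z := by rw [mom_w_I1]; exact h1
  have e3 : mu J3 (ww z) = mu J3 z := by rw [mom_w_J3]; exact h4
  rw [mom_I1, mom_I2, mom_I3, mom_J1, mom_J2, mom_J3, e1, e3, mom_w_I2, mom_w_I3, mom_w_J1,
    mom_w_J2]
  exact ⟨rfl, h2, h3, h5, h6, rfl⟩

lemma L0_cone {z : V} (hz : z ∈ unitCone) : L0.Ψ (1, z) ∈ unitCone := L0.mapsTo_cone 1 z hz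

lemma L0_zero (z : V) : L0.Ψ (1, z) 0 = z 0 := by
  rw [L0_eq, rot_I1, rot_J3, ww_eq, rot_J1, rot_I3]; simp

lemma norm_c {z : V} (hz : z ∈ unitCone) {c : ℂ} (h : L0.Ψ (1, z) = c • z) : ‖c‖ = 1 := by
  have h1 := (L0_cone hz).1
  rw [h, herm_smul, hz.1, mul_one, mul_comm, Complex.mul_conj, Complex.normSq_eq_norm_sq] at h1
  have h2 : ‖c‖ ^ 2 = 1 := by exact_mod_cast h1
  have h3 : 0 ≤ ‖c‖ := norm_nonneg c
  nlinarith

/-- the real part of the inner product on the last four coordinates -/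
noncomputable def ip (u v : V) : ℝ :=
  (starRingEnd ℂ (u 1) * v 1 + starRingEnd ℂ (u 2) * v 2 + starRingEnd ℂ (u 3) * v 3
    + starRingEnd ℂ (u 4) * v 4).re

noncomputable def m1 (z : V) : ℝ := 2 * ((starRingEnd ℂ (z 1) * z 3).re - (starRingEnd ℂ (z 2) * z 4).re)
noncomputable def m2 (z : V) : ℝ := -(2 * ((starRingEnd ℂ (z 1) * z 3).re + (starRingEnd ℂ (z 2) * z 4).re))

lemma ip_w (z : V) (β φ : ℝ) : ip z (rot PP J1 β (rot PP I3 φ z)) =
    Real.cos β * Real.cos φ * ip z z + Real.sin β * Real.sin φ * m1 z := by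
  rw [rot_J1, rot_I3]
  simp [ip, m1, ← Complex.ofReal_cos, ← Complex.ofReal_sin]
  ring

lemma ip_w2 (z : V) (β φ : ℝ) : ip z (rot PP J3 β (rot PP I1 φ z)) =
    Real.cos β * Real.cos φ * ip z z + Real.sin β * Real.sin φ * m2 z := by
  rw [rot_J3, rot_I1]
  simp [ip, m2, ← Complex.ofReal_cos, ← Complex.ofReal_sin]
  ring

lemma m1_le (z : V) : |m1 z| ≤ ip z z := by
  rw [abs_le]
  simp only [m1, ip, Complex.mul_re, Complex.conj_re, Complex.conj_im, Complex.add_re]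
  constructor
  · nlinarith [sq_nonneg ((z 1).re + (z 3).re), sq_nonneg ((z 1).im + (z 3).im),
      sq_nonneg ((z 2).re - (z 4).re), sq_nonneg ((z 2).im - (z 4).im)]
  · nlinarith [sq_nonneg ((z 1).re - (z 3).re), sq_nonneg ((z 1).im - (z 3).im),
      sq_nonneg ((z 2).re + (z 4).re), sq_nonneg ((z 2).im + (z 4).im)]

lemma m2_le (z : V) : |m2 z| ≤ ip z z := by
  rw [abs_le]
  simp only [m2, ip, Complex.mul_re, Complex.conj_re, Complex.conj_im, Complex.add_re]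
  constructor
  · nlinarith [sq_nonneg ((z 1).re - (z 3).re), sq_nonneg ((z 1).im - (z 3).im),
      sq_nonneg ((z 2).re - (z 4).re), sq_nonneg ((z 2).im - (z 4).im)]
  · nlinarith [sq_nonneg ((z 1).re + (z 3).re), sq_nonneg ((z 1).im + (z 3).im),
      sq_nonneg ((z 2).re + (z 4).re), sq_nonneg ((z 2).im + (z 4).im)]

lemma cone_re' {z : V} (hz : z ∈ unitCone) :
    (z 0).re ^ 2 + (z 0).im ^ 2 + 
    (z 1).re ^ 2 + (z 1).im ^ 2 + (z 2).re ^ 2 + (z 2).im ^ 2 + (z 3).re ^ 2 + (z 3).im ^ 2 +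
      (z 4).re ^ 2 + (z 4).im ^ 2 = 1 := by
  obtain ⟨h1, h2⟩ := hz
  simp only [herm, Fin.sum_univ_five] at h1 
  have h1r := congrArg Complex.re h1
  simp at h1r
  linear_combination h1r

lemma mu_le {z : V} (hz : z ∈ unitCone) :
    |mu I1 z| ≤ 1 ∧ |mu I3 z| ≤ 1 ∧ |mu J1 z| ≤ 1 ∧ |mu J3 z| ≤ 1 := by
  have h := cone_re' hz
  simp [mu, om, herm, Fin.sum_univ_five, I1_apply, I3_apply, J1_apply, J3_apply, abs_le]
  generalize (z 0).re = x0 at *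
  generalize (z 0).im = y0 at *
  generalize (z 1).re = x1 at *
  generalize (z 1).im = y1 at *
  generalize (z 2).re = x2 at *
  generalize (z 2).im = y2 at *
  generalize (z 3).re = x3 at *
  generalize (z 3).im = y3 at *
  generalize (z 4).re = x4 at *
  generalize (z 4).im = y4 at *
  refine ⟨⟨?_, ?_⟩, ⟨?_, ?_⟩, ⟨?_, ?_⟩, ⟨?_, ?_⟩⟩
  · nlinarith [sq_nonneg x0, sq_nonneg y0, sq_nonneg (x1 + y2), sq_nonneg (x2 - y1), sq_nonneg (x3 + y4), sq_nonneg (x4 - y3)]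
  · nlinarith [sq_nonneg x0, sq_nonneg y0, sq_nonneg (x1 - y2), sq_nonneg (x2 + y1), sq_nonneg (x3 - y4), sq_nonneg (x4 + y3)]
  · nlinarith [sq_nonneg x0, sq_nonneg y0, sq_nonneg (x1 + y4), sq_nonneg (x4 - y1), sq_nonneg (x2 + y3), sq_nonneg (x3 - y2)]
  · nlinarith [sq_nonneg x0, sq_nonneg y0, sq_nonneg (x1 - y4), sq_nonneg (x4 + y1), sq_nonneg (x2 - y3), sq_nonneg (x3 + y2)]
  · nlinarith [sq_nonneg x0, sq_nonneg y0, sq_nonneg (x1 + y2), sq_nonneg (x2 - y1), sq_nonneg (x3 - y4), sq_nonneg (x4 + y3)]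
  · nlinarith [sq_nonneg x0, sq_nonneg y0, sq_nonneg (x1 - y2), sq_nonneg (x2 + y1), sq_nonneg (x3 + y4), sq_nonneg (x4 - y3)]
  · nlinarith [sq_nonneg x0, sq_nonneg y0, sq_nonneg (x1 + y4), sq_nonneg (x4 - y1), sq_nonneg (x2 - y3), sq_nonneg (x3 + y2)]
  · nlinarith [sq_nonneg x0, sq_nonneg y0, sq_nonneg (x1 - y4), sq_nonneg (x4 + y1), sq_nonneg (x2 + y3), sq_nonneg (x3 - y2)]

lemma combo_pos {β φ N M : ℝ} (hβ : |β| ≤ 2/10) (hφ : |φ| ≤ 2/10) (hN : 0 < N) (hM : |M| ≤ N) :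
    0 < Real.cos β * Real.cos φ * N + Real.sin β * Real.sin φ * M := by
  have c1 := cos_ge hβ
  have c2 := cos_ge hφ
  have s1 : |Real.sin β| ≤ 2/10 := (Real.abs_sin_le_abs).trans hβ
  have s2 : |Real.sin φ| ≤ 2/10 := (Real.abs_sin_le_abs).trans hφ
  have h1 : |Real.sin β * Real.sin φ * M| ≤ 2/10 * (2/10) * N := by
    rw [abs_mul, abs_mul]
    gcongr
  have h2 : 49/50 * (49/50) * N ≤ Real.cos β * Real.cos φ * N := by gcongr
  rw [abs_le] at h1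
  nlinarith

lemma z0_eq_zero {z : V} (hz : z ∈ unitCone) {c : ℂ} (h : L0.Ψ (1, z) = c • z) : z 0 = 0 := by
  by_contra h0
  have hc : c = 1 := by
    have h1 : c * z 0 = z 0 := by
      have := L0_zero z
      rw [h] at this
      exact this
    exact mul_right_cancel₀ h0 (by rw [one_mul]; exact h1)
  subst hc
  rw [one_smul, L0_eq] at h
  have hw : ww z ∈ unitCone := flow2_cone _ _ _ hz
  obtain ⟨b1, b2, b3, b4⟩ := mu_le hz
  obtain ⟨d1, d2, d3, d4⟩ := mu_le hw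
  set γ := (1 - mu J3 (ww z))/10 with hγ
  set δ := mu I1 (ww z)/10 with hδ
  have hγ' : |γ| ≤ 2/10 := by
    rw [abs_le] at d4 ⊢; constructor <;> linarith [d4.1, d4.2]
  have hδ' : |δ| ≤ 2/10 := by
    rw [abs_le] at d1 ⊢; constructor <;> linarith [d1.1, d1.2]
  have hback : ww z = rot PP J3 δ (rot PP I1 (-(Real.pi + γ)) z) := by
    have e1 : rot PP I1 (-(Real.pi + γ)) z = rot PP J3 (-δ) (ww z) := by
      conv_lhs => rw [← h]
      exact rot_neg_rot D1.hAA D1.hPA D1.hAP D1.hPP _ _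
    rw [e1]
    have e2 := rot_neg_rot (P := PP) (A := J3) D1.hBB D1.hPB D1.hBP D1.hPP (-δ) (ww z)
    rw [neg_neg] at e2
    exact e2.symm
  have p1 : 0 < ip z z := by
    have : 0 ≤ ip z z := le_trans (abs_nonneg _) (m1_le z)
    rcases this.eq_or_lt with h5 | h5
    · exfalso
      have h6 : (z 1).re ^ 2 + (z 1).im ^ 2 + (z 2).re ^ 2 + (z 2).im ^ 2 + (z 3).re ^ 2 + (z 3).im ^ 2 +
        (z 4).re ^ 2 + (z 4).im ^ 2 = 0 := by
        simp only [ip, Complex.mul_re, Complex.conj_re, Complex.conj_im, Complex.add_re] at h5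
        linarith
      have z1 : z 1 = 0 := by
        apply Complex.ext <;> simp <;> nlinarith [sq_nonneg (z 1).re, sq_nonneg (z 1).im, sq_nonneg (z 2).re, sq_nonneg (z 2).im, sq_nonneg (z 3).re, sq_nonneg (z 3).im, sq_nonneg (z 4).re, sq_nonneg (z 4).im]
      have z2 : z 2 = 0 := by
        apply Complex.ext <;> simp <;> nlinarith [sq_nonneg (z 1).re, sq_nonneg (z 1).im, sq_nonneg (z 2).re, sq_nonneg (z 2).im, sq_nonneg (z 3).re, sq_nonneg (z 3).im, sq_nonneg (z 4).re, sq_nonneg (z 4).im]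
      have z3 : z 3 = 0 := by
        apply Complex.ext <;> simp <;> nlinarith [sq_nonneg (z 1).re, sq_nonneg (z 1).im, sq_nonneg (z 2).re, sq_nonneg (z 2).im, sq_nonneg (z 3).re, sq_nonneg (z 3).im, sq_nonneg (z 4).re, sq_nonneg (z 4).im]
      have z4 : z 4 = 0 := by
        apply Complex.ext <;> simp <;> nlinarith [sq_nonneg (z 1).re, sq_nonneg (z 1).im, sq_nonneg (z 2).re, sq_nonneg (z 2).im, sq_nonneg (z 3).re, sq_nonneg (z 3).im, sq_nonneg (z 4).re, sq_nonneg (z 4).im]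
      have h7 := hz.2
      simp only [Fin.sum_univ_five, z1, z2, z3, z4] at h7
      simp at h7
      exact h0 h7
    · exact h5
  have q1 : 0 < ip z (ww z) := by
    rw [ww_eq, ip_w]
    apply combo_pos _ _ p1 (m1_le z)
    · rw [abs_le] at b2 ⊢; constructor <;> linarith [b2.1, b2.2]
    · rw [abs_le] at b3 ⊢; constructor <;> linarith [b3.1, b3.2]
  have q2 : ip z (ww z) < 0 := by
    rw [hback, ip_w2]
    have e1 : Real.cos (-(Real.pi + γ)) = - Real.cos γ := by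
      rw [Real.cos_neg, add_comm, Real.cos_add_pi]
    have e2 : Real.sin (-(Real.pi + γ)) = Real.sin γ := by
      rw [Real.sin_neg, add_comm, Real.sin_add_pi, neg_neg]
    rw [e1, e2]
    have := combo_pos hδ' hγ' p1 (M := - m2 z) (by rw [abs_neg]; exact m2_le z)
    linarith
  linarith

end Crest.Agent.S0316Lib
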