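import Crest.Statements.S0316
import Crest.Agent.S0316Asm

set_option autoImplicit false
open Crest Crest.GeometryTopology

namespace Crest.Agent.S0316

open Crest.Agent.S0316Lib
open Crest.GeometryTopology.Quadric

noncomputable def r0 : ℝ := Real.sqrt (1/2)

lemma r0_sq : r0 * r0 = 1/2 := Real.mul_self_sqrt (by norm_num)
lemma r0_pos : 0 < r0 := Real.sqrt_pos.2 (by norm_num)

noncomputable def zz (a1 a2 a3 : ℝ) : V :=
  ![0, r0, r0 * Complex.I * a1, r0 * Complex.I * a2, r0 * Complex.I * a3]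

lemma zz_cone {a1 a2 a3 : ℝ} (h : a1 ^ 2 + a2 ^ 2 + a3 ^ 2 = 1) : zz a1 a2 a3 ∈ unitCone := by
  have hr := r0_sq
  have hrc : (r0 : ℂ) * r0 = 1/2 := by rw [← Complex.ofReal_mul, hr]; norm_num
  have hc : (a1:ℂ) ^ 2 + (a2:ℂ) ^ 2 + (a3:ℂ) ^ 2 = 1 := by exact_mod_cast h
  constructor
  · simp [herm, Fin.sum_univ_five, zz]
    linear_combination (1 + a1^2 + a2^2 + a3^2 - (a1^2 + a2^2 + a3^2) * (Complex.I^2 + 1)) * hrc + (1/2) * hc
      - (1/2 : ℂ) * (a1^2 + a2^2 + a3^2) * Complex.I_sq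
  · simp [Fin.sum_univ_five, zz]
    linear_combination (1 + Complex.I^2 * (a1^2 + a2^2 + a3^2)) * hrc + (1/2) * Complex.I^2 * hc + (1/2) * Complex.I_sq

lemma zz_I1 (a1 a2 a3 : ℝ) : mu I1 (zz a1 a2 a3) = a1 := by
  have hr := r0_sq
  simp [mu, om, herm, Fin.sum_univ_five, I1_apply, zz]
  linear_combination (2 * a1) * hr
lemma zz_I2 (a1 a2 a3 : ℝ) : mu I2 (zz a1 a2 a3) = a2 := by
  have hr := r0_sq
  simp [mu, om, herm, Fin.sum_univ_five, I2_apply, zz]
  linear_combination (2 * a2) * hr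
lemma zz_I3 (a1 a2 a3 : ℝ) : mu I3 (zz a1 a2 a3) = a3 := by
  have hr := r0_sq
  simp [mu, om, herm, Fin.sum_univ_five, I3_apply, zz]
  linear_combination (2 * a3) * hr
lemma zz_J1 (a1 a2 a3 : ℝ) : mu J1 (zz a1 a2 a3) = a1 := by
  have hr := r0_sq
  simp [mu, om, herm, Fin.sum_univ_five, J1_apply, zz]
  linear_combination (2 * a1) * hr
lemma zz_J2 (a1 a2 a3 : ℝ) : mu J2 (zz a1 a2 a3) = a2 := by
  have hr := r0_sq
  simp [mu, om, herm, Fin.sum_univ_five, J2_apply, zz]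
  linear_combination (2 * a2) * hr
lemma zz_J3 (a1 a2 a3 : ℝ) : mu J3 (zz a1 a2 a3) = a3 := by
  have hr := r0_sq
  simp [mu, om, herm, Fin.sum_univ_five, J3_apply, zz]
  linear_combination (2 * a3) * hr

noncomputable def line (a1 a2 a3 : ℝ) : Submodule ℂ (Fin 5 → ℂ) := Submodule.span ℂ {zz a1 a2 a3}

lemma line_inj {a1 a2 a3 b1 b2 b3 : ℝ} (h : line a1 a2 a3 = line b1 b2 b3) :
    a1 = b1 ∧ a2 = b2 ∧ a3 = b3 := by
  have h1 : zz a1 a2 a3 ∈ line b1 b2 b3 := by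
    rw [← h]; exact Submodule.mem_span_singleton_self _
  obtain ⟨c, hc⟩ := Submodule.mem_span_singleton.1 h1
  have hr : (r0 : ℂ) ≠ 0 := by exact_mod_cast r0_pos.ne'
  have e1 := congrFun hc 1
  have e2 := congrFun hc 2
  have e3 := congrFun hc 3
  have e4 := congrFun hc 4
  simp only [zz, Pi.smul_apply, smul_eq_mul, Matrix.cons_val] at e1 e2 e3 e4
  have hc1 : c = 1 := mul_right_cancel₀ hr (by rw [one_mul]; exact e1)
  subst hc1
  have hrI : (r0 : ℂ) * Complex.I ≠ 0 := mul_ne_zero hr Complex.I_ne_zero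
  rw [one_mul] at e2 e3 e4
  refine ⟨?_, ?_, ?_⟩
  · have := mul_left_cancel₀ hrI e2; exact_mod_cast this.symm
  · have := mul_left_cancel₀ hrI e3; exact_mod_cast this.symm
  · have := mul_left_cancel₀ hrI e4; exact_mod_cast this.symm

lemma line_mem {a1 a2 a3 : ℝ} (h : a1 ^ 2 + a2 ^ 2 + a3 ^ 2 = 1)
    (hf : FixEq a1 a2 a3 a1 a2 a3) : line a1 a2 a3 ∈ fixedLines L0 := by
  have hz := zz_cone h
  refine ⟨zz a1 a2 a3, hz, rfl, ?_⟩
  have hf' : FixEq (mu I1 (zz a1 a2 a3)) (mu I2 (zz a1 a2 a3)) (mu I3 (zz a1 a2 a3))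
      (mu J1 (zz a1 a2 a3)) (mu J2 (zz a1 a2 a3)) (mu J3 (zz a1 a2 a3)) := by
    rw [zz_I1, zz_I2, zz_I3, zz_J1, zz_J2, zz_J3]; exact hf
  obtain ⟨e1, e2, e3, e4, e5, e6⟩ := moments_of_fixEq _ hf'
  have h0 : zz a1 a2 a3 0 = 0 := rfl
  have h0' : L0.Ψ (1, zz a1 a2 a3) 0 = 0 := by rw [L0_zero, h0]
  have := eq_smul_of_moments hz (L0_cone hz) h0 h0' e1.symm e2.symm e3.symm e4.symm e5.symm e6.symm
  rw [this]
  exact Submodule.mem_span_singleton.2 ⟨_, rfl⟩

lemma mem_line {z : V} (hz : z ∈ unitCone) (h0 : z 0 = 0) {a1 a2 a3 : ℝ}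
    (h : a1 ^ 2 + a2 ^ 2 + a3 ^ 2 = 1) (e1 : mu I1 z = a1) (e2 : mu I2 z = a2) (e3 : mu I3 z = a3)
    (e4 : mu J1 z = a1) (e5 : mu J2 z = a2) (e6 : mu J3 z = a3) :
    Submodule.span ℂ {z} = line a1 a2 a3 := by
  have hz' := zz_cone h
  have key := eq_smul_of_moments hz hz' h0 rfl (e1.trans (zz_I1 _ _ _).symm)
    (e2.trans (zz_I2 _ _ _).symm) (e3.trans (zz_I3 _ _ _).symm) (e4.trans (zz_J1 _ _ _).symm)
    (e5.trans (zz_J2 _ _ _).symm) (e6.trans (zz_J3 _ _ _).symm)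
  have hc : herm z (zz a1 a2 a3) ≠ 0 := by
    intro hc
    rw [hc, zero_smul] at key
    have := hz'.1
    rw [key] at this
    simp [herm] at this
  unfold line
  rw [key, Submodule.span_singleton_smul_eq (IsUnit.mk0 _ hc)]

theorem fixedLines_L0 : ∃ x0 X0 : ℝ, 0 < x0 ∧ 0 < X0 ∧
    fixedLines L0 = {line 0 0 1, line x0 (tau x0 * x0 / 10) (-X0), line (-x0) (tau x0 * x0 / 10) (-X0)} := by
  obtain ⟨x0, X0, hx0, hX0, hs, hn⟩ := sym_exists
  have hx1 : x0 ≤ 1 := le_one_of_norm hx0 hn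
  have hX1 : X0 < 1 := lt_one_of_norm hx0 hn
  have hsph : x0 ^ 2 + (tau x0 * x0 / 10) ^ 2 + (-X0) ^ 2 = 1 := by
    rw [← hn]; ring
  have hsph' : (-x0) ^ 2 + (tau x0 * x0 / 10) ^ 2 + (-X0) ^ 2 = 1 := by
    rw [← hn]; ring
  refine ⟨x0, X0, hx0, hX0, ?_⟩
  ext ℓ
  constructor
  · rintro ⟨z, hz, rfl, hmem⟩
    obtain ⟨c, hc⟩ := Submodule.mem_span_singleton.1 hmem
    have h0 := z0_eq_zero hz hc.symm
    have hn1 := norm_c hz hc.symm
    have hf := fixEq_of z c hn1 hc.symm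
    obtain ⟨e1, e2, e3, h⟩ := fix_real hx0 hX0 hs hn (sphere_a hz h0) (sphere_b hz h0) hf
    rcases h with ⟨f1, f2, f3⟩ | ⟨f1, f2, f3⟩ | ⟨f1, f2, f3⟩
    · left
      exact mem_line hz h0 (by norm_num) f1 f2 f3 (by rw [← e1, f1]) (by rw [← e2, f2]) (by rw [← e3, f3])
    · right; left
      exact mem_line hz h0 hsph f1 f2 f3 (by rw [← e1, f1]) (by rw [← e2, f2]) (by rw [← e3, f3])
    · right; right
      exact mem_line hz h0 hsph' f1 f2 f3 (by rw [← e1, f1]) (by rw [← e2, f2]) (by rw [← e3, f3])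
  · have g1 : |x0| ≤ 1 := by rw [abs_of_pos hx0]; exact hx1
    rintro (rfl | rfl | rfl)
    · exact line_mem (by norm_num) fixEq_e3
    · exact line_mem hsph (fixEq_sym g1 hX0 hX1.le hs)
    · have := fixEq_sym (x := -x0) (X := X0) (by rw [abs_neg]; exact g1) hX0 hX1.le
        (by rw [tau_neg, hs]; ring)
      rw [tau_neg, neg_mul_neg] at this
      exact line_mem hsph' this

theorem ncard_L0 : (fixedLines L0).ncard = 3 := by
  obtain ⟨x0, X0, hx0, hX0, h⟩ := fixedLines_L0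
  rw [Set.ncard_eq_three]
  refine ⟨_, _, _, ?_, ?_, ?_, h⟩
  · intro h; have := (line_inj h).1; linarith
  · intro h; have := (line_inj h).1; linarith
  · intro h; have := (line_inj h).1; linarith

noncomputable def w0 : V := ![0, 0, 1, 0, 0]

lemma degenerate_L0 : HasDegenerateFixedPoint L0 := by
  set z := zz 0 0 1 with hzdef
  have hz : z ∈ unitCone := zz_cone (by norm_num)
  have m1 : mu I1 z = 0 := zz_I1 _ _ _
  have m2 : mu I3 z = 1 := zz_I3 _ _ _
  have m3 : mu J1 z = 0 := zz_J1 _ _ _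
  have m4 : mu J3 z = 1 := zz_J3 _ _ _
  have hww : flow D2 0 (1/10) 1 z = z := by
    change ww z = z
    rw [ww_eq, m2, m3]; simp [rot_zero]
  have hval : L0.Ψ (1, z) = (-1 : ℂ) • z := by
    rw [L0_eq]
    have : ww z = z := hww
    rw [this, m1, m4]
    simp only [sub_self, zero_div, neg_zero, add_zero, rot_zero]
    rw [rot_I1]
    ext j; fin_cases j <;> simp [hzdef, zz]
  have hw : w0 ∈ coneTangent z := by
    constructor
    · simp [herm, Fin.sum_univ_five, w0, hzdef, zz]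
    · simp [Fin.sum_univ_five, w0, hzdef, zz]
  refine ⟨z, hz, -1, hval, w0, hw, ?_, 0, ?_⟩
  · intro r h
    have := congrFun h 2
    simp [w0, hzdef, zz] at this
  · have hdiff : DifferentiableAt ℝ (fun x : V => L0.Ψ (1, x)) z := by
      have : ContDiff ℝ (⊤ : ℕ∞) (fun x : V => L0.Ψ (1, x)) :=
        ContDiff.comp (g := L0.Ψ) (f := fun x : V => ((1 : ℝ), x)) L0.smooth_Ψ
          (contDiff_const.prodMk contDiff_id)
      exact (this.differentiable (by simp)).differentiableAt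
    have hline : HasDerivAt (fun s : ℝ => z + s • w0) w0 0 := by
      simpa using ((hasDerivAt_id (0 : ℝ)).smul_const w0).const_add z
    have h8 : HasDerivAt (fun s : ℝ => L0.Ψ (1, z + s • w0))
        (fderiv ℝ (fun x : V => L0.Ψ (1, x)) z w0) 0 := by
      have := hdiff.hasFDerivAt
      have h9 : HasFDerivAt (fun x : V => L0.Ψ (1, x))
        (fderiv ℝ (fun x : V => L0.Ψ (1, x)) z) (z + (0:ℝ) • w0) := by
        simpa using this
      exact h9.comp_hasDerivAt (0:ℝ) hline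
    have h1 := D2.hasDerivAt_flow 0 (1/10) (hasDerivAt_const (0 : ℝ) (1:ℝ)) hline
    have h2 := D1.hasDerivAt_flow Real.pi (1/10) (hasDerivAt_const (0 : ℝ) (1:ℝ)) h1
    have h3 := h8.unique h2
    rw [h3]
    simp only [zero_smul, add_zero]
    rw [hww]
    have o1 : om (D2.A z) w0 = 0 := by
      simp [om_eq, D2A, J1_apply, Fin.sum_univ_five, w0, hzdef, zz]
    have o2 : om (D2.B z) w0 = 0 := by
      simp [om_eq, D2B, I3_apply, Fin.sum_univ_five, w0, hzdef, zz]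
    have o3 : om (D1.A z) w0 = 0 := by
      simp [om_eq, D1A, I1_apply, Fin.sum_univ_five, w0, hzdef, zz]
    have o4 : om (D1.B z) w0 = 0 := by
      simp [om_eq, D1B, J3_apply, Fin.sum_univ_five, w0, hzdef, zz]
    rw [o1, o2]
    simp only [D2A, D2B, D1A, D1B, m1, m2, m3, m4, Pair.EE, mul_zero, mul_one, sub_self, add_zero, zero_mul, neg_zero,
      zero_smul, rot_zero, one_mul]
    have o3' : om (I1 z) w0 = 0 := o3
    have o4' : om (J3 z) w0 = 0 := o4
    rw [o3', o4', D1P, rot_I1]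
    ext j; fin_cases j <;> simp [w0]

/-- There is a Hamiltonian diffeomorphism of the complex quadric threefold having exactly three fixed points, at least one degenerate. -/
theorem result :
    ∃ L : Crest.GeometryTopology.Quadric.HamiltonianConeLift,
      (Crest.GeometryTopology.Quadric.fixedLines L).ncard = 3 ∧
      Crest.GeometryTopology.Quadric.HasDegenerateFixedPoint L :=
  ⟨L0, ncard_L0, degenerate_L0⟩

end Crest.Agent.S0316
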