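import Crest.Statements.S0324
import Crest.Agent.Row211.Cover2
import Crest.Agent.Row211.MinProj
import Crest.Agent.Row211.Plane

set_option autoImplicit false
open MeasureTheory
open scoped ENNReal
open Crest Crest.GeometryTopology Crest.GeometryTopology.Convex

namespace Crest.Agent.S0324

open Crest.Agent.Row211

/-- μHE and μH differ by a positive constant -/
lemma toReal_scale : ∃ c : ℝ, 0 < c ∧ ∀ S : Set E3, (μHE[2] S).toReal = c * (μH[(2 : ℝ)] S).toReal := by
  refine ⟨(Measure.addHaarScalarFactor (volume : Measure (EuclideanSpace ℝ (Fin 2))) μH[(2 : ℕ)] : NNReal), ?_, ?_⟩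
  · exact NNReal.coe_pos.2 (pos_iff_ne_zero.2 (Measure.addHaarScalarFactor_volume_hausdorffMeasure_ne_zero 2))
  · intro S
    rw [Measure.euclideanHausdorffMeasure_def, Measure.smul_apply, ENNReal.smul_def, smul_eq_mul, ENNReal.toReal_mul]
    simp

lemma min_proj_real {v : E3} (hv : ‖v‖ = 1) :
    Real.sqrt 2 ≤ (μHE[2] ((fun y => y - inner ℝ y v • v) '' K0)).toReal := by
  have h1 := min_proj hv
  have hb : Bornology.IsBounded K0 := by
    have : ({!₂[1, 0, 0], !₂[-1, 0, 0], !₂[0, 1, Real.sqrt 2], !₂[0, -1, Real.sqrt 2]} : Set E3).Finite := by simp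
    exact (this.isCompact_convexHull ℝ).isBounded
  have h2 := proj_image_finite hv hb
  have h3 := (ENNReal.ofReal_le_iff_le_toReal h2.ne).1 h1
  exact h3

/-- The regular tetrahedron `K` with vertices `(±1, 0, 0)`, `(0, ±1, √2)` is covered by finitely many cylinders `Bᵢ + ℝ uᵢ`, each with unit direction `uᵢ` and base `Bᵢ` a triangle (convex hull of three points) in the plane `uᵢ^⊥`, whose total base area `∑ᵢ area(Bᵢ)` is smaller, by a positive margin, than half the area of the orthogonal projection of `K` onto `v^⊥` for every unit vector `v`; areas are 2-dimensional Hausdorff measure. -/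
theorem result :
    ∃ (m : ℕ) (u p q r : Fin m → EuclideanSpace ℝ (Fin 3)),
      (∀ i, ‖u i‖ = 1) ∧
      (∀ i, inner ℝ (p i) (u i) = 0 ∧ inner ℝ (q i) (u i) = 0 ∧ inner ℝ (r i) (u i) = 0) ∧
      convexHull ℝ {!₂[1, 0, 0], !₂[-1, 0, 0], !₂[0, 1, Real.sqrt 2], !₂[0, -1, Real.sqrt 2]} ⊆
        ⋃ i, {x : EuclideanSpace ℝ (Fin 3) | ∃ b ∈ convexHull ℝ {p i, q i, r i}, ∃ t : ℝ, x = b + t • u i} ∧
      ∃ δ : ℝ, 0 < δ ∧ ∀ v : EuclideanSpace ℝ (Fin 3), ‖v‖ = 1 →
        ∑ i, (μH[(2 : ℝ)] (convexHull ℝ {p i, q i, r i})).toReal + δ ≤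
          (μH[(2 : ℝ)] ((fun y => y - inner ℝ y v • v) '' convexHull ℝ {!₂[1, 0, 0], !₂[-1, 0, 0], !₂[0, 1, Real.sqrt 2], !₂[0, -1, Real.sqrt 2]})).toReal / 2 := by
  obtain ⟨c, hc, hscale⟩ := toReal_scale
  let e := Fintype.equivFin II
  refine ⟨Fintype.card II, fun i => uC (e.symm i), fun i => pC (e.symm i), fun i => qC (e.symm i),
    fun i => rC (e.symm i), fun i => norm_uC _, ?_, ?_, ?_⟩
  · intro i
    exact ⟨inner_proj (norm_uC _) _, inner_proj (norm_uC _) _, inner_proj (norm_uC _) _⟩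
  · intro x hx
    have h := cover_C hx
    rw [Set.mem_iUnion] at h ⊢
    obtain ⟨i, hi⟩ := h
    refine ⟨e i, ?_⟩
    simpa using hi
  · refine ⟨Real.sqrt 2 * (1/40000) / c, by positivity, ?_⟩
    intro v hv
    have h1 := min_proj_real hv
    have h2 := total_area
    rw [← Equiv.sum_comp e.symm] at h2
    simp only [hscale] at h1 h2
    rw [← Finset.mul_sum] at h2
    have h3 : ∑ i, (μH[(2 : ℝ)] (convexHull ℝ {pC (e.symm i), qC (e.symm i), rC (e.symm i)})).toReal ≤
        Real.sqrt 2 * (1/2 - 1/40000) / c := by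
      rw [le_div_iff₀ hc]; linarith
    have h4 : Real.sqrt 2 / c ≤ (μH[(2 : ℝ)] ((fun y => y - inner ℝ y v • v) '' K0)).toReal := by
      rw [div_le_iff₀ hc]; linarith
    have h5 : Real.sqrt 2 * (1/2 - 1/40000) / c + Real.sqrt 2 * (1/40000) / c = (Real.sqrt 2 / c) / 2 := by
      field_simp; ring
    have h6 : ∑ i, (μH[(2 : ℝ)] (convexHull ℝ {pC (e.symm i), qC (e.symm i), rC (e.symm i)})).toReal
        + Real.sqrt 2 * (1/40000) / c ≤ (μH[(2 : ℝ)] ((fun y => y - inner ℝ y v • v) '' K0)).toReal / 2 := by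
      linarith
    exact h6

end Crest.Agent.S0324
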