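import Crest.Statements.S0325
import Crest.Agent.Row211.Cover2
import Crest.Agent.Row211.MinProj
import Crest.Agent.Row211.Plane

set_option autoImplicit false
open MeasureTheory
open scoped ENNReal
open Crest Crest.GeometryTopology Crest.GeometryTopology.Convex

namespace Crest.Agent.S0325

open Crest.Agent.Row211

/-- a triangle of prescribed area in the plane orthogonal to the first axis -/
lemma dummy_area (A : ℝ) (hA : 0 ≤ A) :
    (μHE[2] (convexHull ℝ ({0, !₂[0, 2 * A, 0], !₂[0, 0, 1]} : Set E3))).toReal = A := by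
  rw [area_triangle]
  have h : ‖(!₂[0, 2 * A, 0] : E3) - 0‖ ^ 2 * ‖(!₂[0, 0, 1] : E3) - 0‖ ^ 2 -
      inner ℝ ((!₂[0, 2 * A, 0] : E3) - 0) ((!₂[0, 0, 1] : E3) - 0) ^ 2 = (2 * A) ^ 2 := by
    rw [sub_zero, sub_zero, normsq3, normsq3, inner3]; simp
  rw [h, Real.sqrt_sq (by linarith), ENNReal.toReal_ofReal (by linarith)]
  ring

lemma zero_area : (μHE[2] (convexHull ℝ ({0, 0, 0} : Set E3))).toReal = 0 := by
  rw [area_triangle]; simp

/-- Padding a finite family of prisms to a family over `Fin M` with prescribed total area. -/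
lemma pad (M : ℕ) (hM : 200001 ≤ M) (T : ℝ)
    (hT : ∑ i : II, (μHE[2] (convexHull ℝ ({pC i, qC i, rC i} : Set E3))).toReal ≤ T) :
    ∃ (u p q r : Fin M → EuclideanSpace ℝ (Fin 3)),
      (∀ i, ‖u i‖ = 1) ∧
      (∀ i, inner ℝ (p i) (u i) = 0 ∧ inner ℝ (q i) (u i) = 0 ∧ inner ℝ (r i) (u i) = 0) ∧
      K0 ⊆ ⋃ i, {x : EuclideanSpace ℝ (Fin 3) | ∃ b ∈ convexHull ℝ {p i, q i, r i}, ∃ t : ℝ, x = b + t • u i} ∧
      ∑ i, (μHE[2] (convexHull ℝ ({p i, q i, r i} : Set (EuclideanSpace ℝ (Fin 3))))).toReal = T := by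
  have hcard : Fintype.card (Fin M) = Fintype.card (Option II ⊕ Fin (M - 200001)) := by
    rw [Fintype.card_sum, Fintype.card_option, Fintype.card_sum, Fintype.card_fin, Fintype.card_fin,
      Fintype.card_fin]
    omega
  let e : Fin M ≃ Option II ⊕ Fin (M - 200001) := Fintype.equivOfCardEq hcard
  set A := T - ∑ i : II, (μHE[2] (convexHull ℝ ({pC i, qC i, rC i} : Set E3))).toReal with hA
  have hA0 : 0 ≤ A := by linarith
  let u' : Option II ⊕ Fin (M - 200001) → E3 := Sum.elim (fun o => o.elim !₂[1, 0, 0] uC) (fun _ => !₂[1, 0, 0])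
  let p' : Option II ⊕ Fin (M - 200001) → E3 := Sum.elim (fun o => o.elim 0 pC) (fun _ => 0)
  let q' : Option II ⊕ Fin (M - 200001) → E3 := Sum.elim (fun o => o.elim !₂[0, 2 * A, 0] qC) (fun _ => 0)
  let r' : Option II ⊕ Fin (M - 200001) → E3 := Sum.elim (fun o => o.elim !₂[0, 0, 1] rC) (fun _ => 0)
  have hu : ∀ j, ‖u' j‖ = 1 := by
    rintro ((_ | j) | j)
    · simp [u', EuclideanSpace.norm_eq, Fin.sum_univ_three]
    · exact norm_uC j
    · simp [u', EuclideanSpace.norm_eq, Fin.sum_univ_three]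
  have hp : ∀ j, inner ℝ (p' j) (u' j) = 0 ∧ inner ℝ (q' j) (u' j) = 0 ∧ inner ℝ (r' j) (u' j) = 0 := by
    rintro ((_ | j) | j)
    · simp only [u', p', q', r', Sum.elim_inl, Option.elim_none]
      rw [inner3, inner3, inner3]; simp
    · exact ⟨inner_proj (norm_uC _) _, inner_proj (norm_uC _) _, inner_proj (norm_uC _) _⟩
    · simp only [u', p', q', r', Sum.elim_inr]
      rw [inner3]; simp
  refine ⟨fun i => u' (e i), fun i => p' (e i), fun i => q' (e i), fun i => r' (e i),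
    fun i => hu (e i), fun i => hp (e i), ?_, ?_⟩
  · intro x hx
    have h := cover_C hx
    rw [Set.mem_iUnion] at h ⊢
    obtain ⟨i, hi⟩ := h
    refine ⟨e.symm (Sum.inl (some i)), ?_⟩
    simp only [Equiv.apply_symm_apply]
    exact hi
  · rw [Equiv.sum_comp e (fun j => (μHE[2] (convexHull ℝ ({p' j, q' j, r' j} : Set E3))).toReal),
      Fintype.sum_sum_type, Fintype.sum_option]
    simp only [p', q', r', Sum.elim_inl, Sum.elim_inr, Option.elim_none, Option.elim_some]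
    rw [dummy_area A hA0]
    simp only [zero_area, Finset.sum_const_zero]
    rw [hA]; ring

/-- Let K be the regular tetrahedron with vertices (±1, 0, 0), (0, ±1, √2); areas are Lebesgue-normalised 2-dimensional Hausdorff measure. (1) The least area of an orthogonal projection of K onto a plane is √2: each map y ↦ y − ⟪y, v⟫ v with ‖v‖ = 1 sends K to a set of area ≥ √2, equal for some v. (2) For every 0 < ε ≤ 5·10⁻⁴, K is covered by 2⌈2/ε²⌉ cylinders Bᵢ + ℝ uᵢ, uᵢ a unit vector, Bᵢ a triangle (convex hull of three points) in uᵢ^⊥, of total area A with ‖A/√2 − 1/2 + 13 ε²/6000‖ ≤ 2 ε⁴. -/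
theorem result :
    ((∀ v : EuclideanSpace ℝ (Fin 3), ‖v‖ = 1 →
        ENNReal.ofReal (Real.sqrt 2) ≤ μHE[2] ((fun y => y - inner ℝ y v • v) '' convexHull ℝ {!₂[1, 0, 0], !₂[-1, 0, 0], !₂[0, 1, Real.sqrt 2], !₂[0, -1, Real.sqrt 2]})) ∧
      ∃ v : EuclideanSpace ℝ (Fin 3), ‖v‖ = 1 ∧
        μHE[2] ((fun y => y - inner ℝ y v • v) '' convexHull ℝ {!₂[1, 0, 0], !₂[-1, 0, 0], !₂[0, 1, Real.sqrt 2], !₂[0, -1, Real.sqrt 2]}) = ENNReal.ofReal (Real.sqrt 2)) ∧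
    ∀ ε : ℝ, 0 < ε → ε ≤ 1 / 2000 →
      ∃ (u p q r : Fin (2 * ⌈2 / ε ^ 2⌉₊) → EuclideanSpace ℝ (Fin 3)),
        (∀ i, ‖u i‖ = 1) ∧
        (∀ i, inner ℝ (p i) (u i) = 0 ∧ inner ℝ (q i) (u i) = 0 ∧ inner ℝ (r i) (u i) = 0) ∧
        convexHull ℝ {!₂[1, 0, 0], !₂[-1, 0, 0], !₂[0, 1, Real.sqrt 2], !₂[0, -1, Real.sqrt 2]} ⊆
          ⋃ i, {x : EuclideanSpace ℝ (Fin 3) | ∃ b ∈ convexHull ℝ {p i, q i, r i}, ∃ t : ℝ, x = b + t • u i} ∧
        abs ((∑ i, (μHE[2] (convexHull ℝ ({p i, q i, r i} : Set (EuclideanSpace ℝ (Fin 3))))).toReal) / Real.sqrt 2 -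
            (1 / 2 - 13 / 6000 * ε ^ 2)) ≤ 2 * ε ^ 4 := by
  refine ⟨⟨fun v hv => min_proj hv, !₂[1, 0, 0], min_proj_attained.1, min_proj_attained.2⟩, ?_⟩
  intro ε hε hε2
  have hs2 : Real.sqrt 2 ≠ 0 := by positivity
  have hs2' : 0 < Real.sqrt 2 := by positivity
  have hM : 200001 ≤ 2 * ⌈2 / ε ^ 2⌉₊ := by
    have h1 : (8000000 : ℝ) ≤ 2 / ε ^ 2 := by
      rw [le_div_iff₀ (by positivity)]
      have : ε ^ 2 ≤ (1/2000) ^ 2 := by gcongr
      nlinarith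
    have h2 : (8000000 : ℝ) ≤ (⌈2 / ε ^ 2⌉₊ : ℝ) := h1.trans (Nat.le_ceil _)
    have h3 : 8000000 ≤ ⌈2 / ε ^ 2⌉₊ := by exact_mod_cast h2
    omega
  have hT : ∑ i : II, (μHE[2] (convexHull ℝ ({pC i, qC i, rC i} : Set E3))).toReal ≤
      Real.sqrt 2 * (1/2 - 13/6000 * ε ^ 2) := by
    refine total_area.trans ?_
    have : ε ^ 2 ≤ (1/2000) ^ 2 := by gcongr
    apply mul_le_mul_of_nonneg_left _ hs2'.le
    nlinarith
  obtain ⟨u, p, q, r, h1, h2, h3, h4⟩ := pad _ hM _ hT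
  refine ⟨u, p, q, r, h1, h2, h3, ?_⟩
  rw [h4]
  have : Real.sqrt 2 * (1/2 - 13/6000 * ε ^ 2) / Real.sqrt 2 - (1/2 - 13/6000 * ε ^ 2) = 0 := by
    field_simp; ring
  rw [this, abs_zero]
  positivity

end Crest.Agent.S0325
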