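import Crest.Statements.S0326
import Crest.Agent.Row211.Ruled

set_option autoImplicit false
open MeasureTheory
open scoped ENNReal
open Crest Crest.GeometryTopology Crest.GeometryTopology.Convex

namespace Crest.Agent.S0326

open Crest.Agent.Row211.Ruled

/-- `K` can be covered at cost at most `t` -/
def Q (V : E2 → E2) (L h : ℝ) (K : Set E2) (t : ℝ) : Prop :=
  ∃ l : List Tile, Cov V L K l ∧ (l.map (Tile.cost h)).sum ≤ t

lemma Q_union {V : E2 → E2} {L h : ℝ} {K K' : Set E2} {t t' : ℝ} (h1 : Q V L h K t)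
    (h2 : Q V L h K' t') : Q V L h (K ∪ K') (t + t') := by
  obtain ⟨l, hl, hc⟩ := h1
  obtain ⟨l', hl', hc'⟩ := h2
  refine ⟨l ++ l', hl.append hl', ?_⟩
  rw [List.map_append, List.sum_append]
  exact add_le_add hc hc'

lemma glue {V : E2 → E2} {L h : ℝ} {D : Set E2} (hD : IsCompact D) {f : E2 → ℝ}
    (hf : ContinuousOn f D)
    (hloc : ∀ x ∈ D, ∃ ρ > 0, ∀ K : Set E2, IsCompact K → K ⊆ D → K ⊆ Metric.closedBall x ρ →
      ∀ ε2 > 0, Q V L h K ((∫ p in K, f p) + ε2)) :
    ∀ ε2 > 0, Q V L h D ((∫ p in D, f p) + ε2) := by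
  choose! ρ hρ hloc using hloc
  obtain ⟨t, htD, hcov⟩ := hD.elim_nhds_subcover (fun x => Metric.ball x (ρ x))
    (fun x hx => Metric.ball_mem_nhds x (hρ x hx))
  have key : ∀ t : Finset E2, (∀ x ∈ t, x ∈ D) → ∀ K : Set E2, IsCompact K → K ⊆ D →
      K ⊆ ⋃ x ∈ t, Metric.ball x (ρ x) → ∀ ε2 > 0, Q V L h K ((∫ p in K, f p) + ε2) := by
    intro t
    induction t using Finset.induction_on with
    | empty =>
      intro _ K _ _ hK ε2 hε2
      have : K = ∅ := by simpa using hK
      subst this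
      refine ⟨[], fun p hp => absurd hp (Set.notMem_empty p), ?_⟩
      simp [hε2.le]
    | insert x t _ ih =>
      intro ht K hKc hKD hK ε2 hε2
      have hx : x ∈ D := ht x (Finset.mem_insert_self _ _)
      have c1 : IsCompact (K ∩ Metric.closedBall x (ρ x)) := hKc.inter_right Metric.isClosed_closedBall
      have c2 : IsCompact (K \ Metric.ball x (ρ x)) := hKc.diff Metric.isOpen_ball
      have q1 := hloc x hx _ c1 (Set.inter_subset_left.trans hKD) Set.inter_subset_right (ε2 / 2)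
        (by positivity)
      have q2 := ih (fun y hy => ht y (Finset.mem_insert_of_mem hy)) _ c2
        (Set.diff_subset.trans hKD) (by
          intro y hy
          have := hK hy.1
          rw [Finset.set_biUnion_insert] at this
          rcases this with h | h
          · exact absurd h hy.2
          · exact h) (ε2 / 2) (by positivity)
      have hu : (K ∩ Metric.closedBall x (ρ x)) ∪ (K \ Metric.ball x (ρ x)) = K := by
        ext y
        constructor
        · rintro (h | h)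
          · exact h.1
          · exact h.1
        · intro h
          by_cases hy : y ∈ Metric.ball x (ρ x)
          · exact Or.inl ⟨h, Metric.ball_subset_closedBall hy⟩
          · exact Or.inr ⟨h, hy⟩
      have q3 := Q_union q1 q2
      rw [hu] at q3
      have hI1 : IntegrableOn f (K ∩ Metric.closedBall x (ρ x)) :=
        (hf.mono (Set.inter_subset_left.trans hKD)).integrableOn_compact c1
      have hI2 : IntegrableOn f (K \ Metric.ball x (ρ x)) :=
        (hf.mono (Set.diff_subset.trans hKD)).integrableOn_compact c2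
      have hdis : AEDisjoint volume (K ∩ Metric.closedBall x (ρ x)) (K \ Metric.ball x (ρ x)) := by
        have hsub : (K ∩ Metric.closedBall x (ρ x)) ∩ (K \ Metric.ball x (ρ x)) ⊆ Metric.sphere x (ρ x) := by
          rintro y ⟨⟨_, h1⟩, ⟨_, h2⟩⟩
          rw [Metric.mem_closedBall] at h1
          rw [Metric.mem_ball, not_lt] at h2
          exact le_antisymm h1 h2
        exact measure_mono_null hsub (Measure.addHaar_sphere_of_ne_zero _ _ (hρ x hx).ne')
      have hint : ∫ p in K, f p = (∫ p in K ∩ Metric.closedBall x (ρ x), f p)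
          + ∫ p in K \ Metric.ball x (ρ x), f p := by
        conv_lhs => rw [← hu]
        exact integral_union_ae hdis c2.measurableSet.nullMeasurableSet hI1 hI2
      obtain ⟨l, hl, hc⟩ := q3
      exact ⟨l, hl, hc.trans (le_of_eq (by rw [hint]; ring))⟩
  exact key t htD D hD le_rfl hcov

/-- Let D ⊂ ℝ² be compact, V : ℝ² → ℝ² be C¹ on an open set containing D, and L, h > 0, with tr DV(p) = 0 and −1/L² < det DV(p) ≤ 0 for p ∈ D. Let E ⊂ ℝ × ℝ² be the ruled set of points (s, p + s V(p)), p ∈ D, −L ≤ s ≤ L. For every ε > 0, finitely many squares Tᵢ = cᵢ + [0,1]aᵢ + [0,1]bᵢ (aᵢ ⊥ bᵢ of equal nonzero length) and velocities gᵢ ∈ ℝ² exist whose sheared cylinders {(s, ξ) : ξ ∈ Tᵢ + s gᵢ} cover E, with ∑ᵢ area(Tᵢ) J(gᵢ) ≤ ∫_D J(V(p)) dp + ε, where J(g) = (1 + g₁² + h² g₂²)^(−1/2). -/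
theorem result
    (D : Set (EuclideanSpace ℝ (Fin 2))) (hD : IsCompact D)
    (V : EuclideanSpace ℝ (Fin 2) → EuclideanSpace ℝ (Fin 2)) (U : Set (EuclideanSpace ℝ (Fin 2)))
    (hU : IsOpen U) (hDU : D ⊆ U) (hV : ContDiffOn ℝ 1 V U) (L h : ℝ) (hL : 0 < L) (hh : 0 < h)
    (htr : ∀ p ∈ D, LinearMap.trace ℝ _ (fderiv ℝ V p).toLinearMap = 0)
    (hdet : ∀ p ∈ D, -(L ^ 2)⁻¹ < LinearMap.det (fderiv ℝ V p).toLinearMap ∧
      LinearMap.det (fderiv ℝ V p).toLinearMap ≤ 0)
    (ε : ℝ) (hε : 0 < ε) :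
    ∃ (k : ℕ) (c a b g : Fin k → EuclideanSpace ℝ (Fin 2)),
      (∀ i, a i ≠ 0 ∧ ‖b i‖ = ‖a i‖ ∧ inner ℝ (a i) (b i) = 0) ∧
      {z : ℝ × EuclideanSpace ℝ (Fin 2) | ∃ p ∈ D, abs z.1 ≤ L ∧ z.2 = p + z.1 • V p} ⊆
        ⋃ i, {z : ℝ × EuclideanSpace ℝ (Fin 2) | ∃ x ∈ Set.Icc (0 : ℝ) 1, ∃ y ∈ Set.Icc (0 : ℝ) 1,
          z.2 = c i + x • a i + y • b i + z.1 • g i} ∧
      ∑ i, ‖a i‖ ^ 2 / Real.sqrt (1 + (g i 0) ^ 2 + h ^ 2 * (g i 1) ^ 2) ≤
        (∫ p in D, 1 / Real.sqrt (1 + (V p 0) ^ 2 + h ^ 2 * (V p 1) ^ 2)) + ε := by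
  have hVc : ContinuousOn V D := hV.continuousOn.mono hDU
  have hJV : ContinuousOn (fun p => J h (V p)) D := (continuous_J h).comp_continuousOn hVc
  -- the margin
  set vD := (volume D).toReal with hvD
  have hvD0 : 0 ≤ vD := ENNReal.toReal_nonneg
  set ε1 := ε / (2 * (vD + 1)) with hε1
  have hε1p : 0 < ε1 := by positivity
  have hglue := glue (V := V) (L := L) (h := h) hD (f := fun p => J h (V p) + ε1)
    (hJV.add continuousOn_const) (by
      intro x hx
      have hxU : U ∈ nhds x := hU.mem_nhds (hDU hx)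
      have hst : HasStrictFDerivAt V (fderiv ℝ V x) x :=
        (hV.contDiffAt hxU).hasStrictFDerivAt (by norm_num)
      obtain ⟨ρ1, hρ1, hloc⟩ := local_cover (h := h) hL hst (htr x hx) (hdet x hx).1 (hdet x hx).2
        (ε := ε1 / 3) (by positivity)
      obtain ⟨ρ2, hρ2, hJc⟩ : ∃ ρ2 > 0, ∀ y ∈ Metric.ball x ρ2, J h (V x) - ε1 / 3 ≤ J h (V y) := by
        have h1 : ContinuousAt (fun x => J h (V x)) x :=
          (continuous_J h).continuousAt.comp hst.hasFDerivAt.continuousAt
        have h2 : ∀ᶠ y in nhds x, J h (V x) - ε1 / 3 < J h (V y) := by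
          apply continuousAt_const.eventually_lt h1
          linarith
        rw [Metric.eventually_nhds_iff_ball] at h2
        obtain ⟨ρ2, hρ2, h3⟩ := h2
        exact ⟨ρ2, hρ2, fun x hx => (h3 x hx).le⟩
      refine ⟨min ρ1 (ρ2 / 2), by positivity, fun K hK hKD hKb ε2 hε2 => ?_⟩
      have hJ1 := J_le_one h (V x)
      have hJ0 := J_pos h (V x)
      obtain ⟨l, hl, hc⟩ := hloc K hK (hKb.trans (Metric.closedBall_subset_closedBall (min_le_left _ _)))
        (ε2 / (1 + ε1)) (by positivity)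
      refine ⟨l, hl, hc.trans ?_⟩
      have hKfin : volume K ≠ ⊤ := hK.measure_ne_top
      have hIK : IntegrableOn (fun p => J h (V p) + ε1) K :=
        ((hJV.mono hKD).add continuousOn_const).integrableOn_compact hK
      have hlow : (J h (V x) + ε1 / 3) * (volume K).toReal ≤ ∫ p in K, (J h (V p) + ε1) := by
        have h1 : ∫ _p in K, (J h (V x) + ε1 / 3) = (J h (V x) + ε1 / 3) * (volume K).toReal := by
          rw [setIntegral_const]
          simp [Measure.real, mul_comm]
        rw [← h1]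
        refine setIntegral_mono_on ?_ hIK hK.measurableSet (fun p hp => ?_)
        · exact integrableOn_const hKfin
        · have h2 := hJc p (by
            have := hKb hp
            rw [Metric.mem_closedBall] at this
            rw [Metric.mem_ball]
            have h3 : min ρ1 (ρ2 / 2) ≤ ρ2 / 2 := min_le_right _ _
            linarith)
          linarith
      have h5 : (J h (V x) + ε1 / 3) * (ε2 / (1 + ε1)) ≤ ε2 := by
        calc (J h (V x) + ε1 / 3) * (ε2 / (1 + ε1)) ≤ (1 + ε1) * (ε2 / (1 + ε1)) :=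
              mul_le_mul_of_nonneg_right (by linarith) (by positivity)
          _ = ε2 := by field_simp
      calc (J h (V x) + ε1 / 3) * ((volume K).toReal + ε2 / (1 + ε1))
          = (J h (V x) + ε1 / 3) * (volume K).toReal + (J h (V x) + ε1 / 3) * (ε2 / (1 + ε1)) := by ring
        _ ≤ _ := add_le_add hlow h5)
    (ε / 2) (by positivity)
  obtain ⟨l, hl, hc⟩ := hglue
  refine ⟨l.length, fun i => (l.get i).c, fun i => (l.get i).a, fun i => (l.get i).b,
    fun i => (l.get i).g, fun i => ⟨(l.get i).ha, (l.get i).hab, (l.get i).hi⟩, ?_, ?_⟩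
  · rintro ⟨s, ξ⟩ ⟨p, hp, hs, hξ⟩
    obtain ⟨T, hT, hm⟩ := hl p hp s hs
    obtain ⟨i, hi⟩ := List.get_of_mem hT
    simp only [Set.mem_iUnion]
    refine ⟨i, ?_⟩
    obtain ⟨x, hx, y, hy, he⟩ := hm
    refine ⟨x, hx, y, hy, ?_⟩
    simp only at hξ ⊢
    rw [hξ, he, hi]
  · have hsum : ∑ i : Fin l.length, ‖(l.get i).a‖ ^ 2 /
        Real.sqrt (1 + ((l.get i).g 0) ^ 2 + h ^ 2 * ((l.get i).g 1) ^ 2)
        = (l.map (Tile.cost h)).sum := by
      have h1 : ∀ T : Tile, ‖T.a‖ ^ 2 / Real.sqrt (1 + (T.g 0) ^ 2 + h ^ 2 * (T.g 1) ^ 2)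
          = Tile.cost h T := by
        intro T; unfold Tile.cost J; ring
      simp_rw [h1]
      rw [← List.sum_ofFn]
      congr 1
      conv_rhs => rw [← List.ofFn_get l, List.map_ofFn]
      rfl
    rw [hsum]
    refine hc.trans ?_
    have h2 : ∫ p in D, (J h (V p) + ε1) = (∫ p in D, J h (V p)) + ε1 * vD := by
      rw [integral_add (hJV.integrableOn_compact hD) (integrableOn_const hD.measure_ne_top),
        setIntegral_const]
      simp [Measure.real, mul_comm, hvD]
    rw [h2]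
    have h3 : ε1 * vD ≤ ε / 2 := by
      rw [hε1]
      rw [div_mul_eq_mul_div, div_le_div_iff₀ (by positivity) (by norm_num)]
      nlinarith
    have h4 : (∫ p in D, J h (V p)) = ∫ p in D, 1 / Real.sqrt (1 + (V p 0) ^ 2 + h ^ 2 * (V p 1) ^ 2) := rfl
    rw [← h4]
    linarith

end Crest.Agent.S0326
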