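import Crest.Statements.S0327
import Crest.Agent.Row211.Transfer

set_option autoImplicit false
open MeasureTheory
open scoped ENNReal
open Crest Crest.GeometryTopology Crest.GeometryTopology.Convex

namespace Crest.Agent.S0327

open Crest.Agent.Row211

lemma strip_sum : ∑ j : Fin 100000, (1 - ((j : ℕ) : ℝ) / 100000) * (1 / 100000) * 2 = 1 + 1 / 100000 := by
  rw [Fin.sum_univ_eq_sum_range (fun j => (1 - (j : ℝ) / 100000) * (1 / 100000) * 2) 100000]
  have h : ∀ M : ℕ, ∑ j ∈ Finset.range M, (1 - (j : ℝ) / 100000) * (1 / 100000) * 2 =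
      (2 * M - M * (M - 1) / 100000) / 100000 := by
    intro M
    induction M with
    | zero => simp
    | succ n ih => rw [Finset.sum_range_succ, ih]; push_cast; ring
  rw [h]
  norm_num

/-- covering a triangle by strips (parallelograms) -/
lemma mem_strip {p q r x : E3} (hx : x ∈ convexHull ℝ ({p, q, r} : Set E3)) :
    ∃ j : Fin 100000, ∃ s ∈ Set.Icc (0 : ℝ) 1, ∃ t ∈ Set.Icc (0 : ℝ) 1,
      x = (p + (((j : ℕ) : ℝ) / 100000) • (r - p)) + s • ((1 - ((j : ℕ) : ℝ) / 100000) • (q - p)) +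
        t • ((1 / 100000 : ℝ) • (r - p)) := by
  rw [mem_triangle] at hx
  obtain ⟨s, t, hs, ht, hst, rfl⟩ := hx
  obtain ⟨j, hj1, hj2, hj3⟩ : ∃ j : ℕ, j < 100000 ∧ (j : ℝ) ≤ 100000 * t ∧ 100000 * t ≤ j + 1 := by
    rcases lt_or_ge t 1 with h | h
    · refine ⟨⌊100000 * t⌋₊, ?_, Nat.floor_le (by positivity), (Nat.lt_floor_add_one _).le⟩
      rw [Nat.floor_lt (by positivity)]
      push_cast; linarith
    · have : t = 1 := by linarith
      refine ⟨99999, by norm_num, ?_, ?_⟩ <;> rw [this] <;> norm_num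
  have hj4 : (j : ℝ) ≤ 99999 := by
    have : j ≤ 99999 := by omega
    exact_mod_cast this
  have hpos : 0 < 1 - (j : ℝ) / 100000 := by
    have : (j : ℝ) / 100000 < 1 := by rw [div_lt_one (by norm_num)]; linarith
    linarith
  refine ⟨⟨j, hj1⟩, s / (1 - (j : ℝ) / 100000), ⟨by positivity, ?_⟩, 100000 * t - j, ⟨by linarith, by linarith⟩, ?_⟩
  · rw [div_le_one hpos]
    have : (j : ℝ) / 100000 ≤ t := by rw [div_le_iff₀ (by norm_num)]; linarith
    linarith
  · simp only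
    rw [smul_smul, div_mul_cancel₀ _ hpos.ne', smul_smul]
    module

lemma strip_area (p q r : E3) {c : ℝ} (hc : 0 ≤ 1 - c / 100000) :
    (μHE[2] {x : E3 | ∃ s ∈ Set.Icc (0 : ℝ) 1, ∃ t ∈ Set.Icc (0 : ℝ) 1,
      x = (p + (c / 100000) • (r - p)) + s • ((1 - c / 100000) • (q - p)) + t • ((1 / 100000 : ℝ) • (r - p))}).toReal =
      (1 - c / 100000) * (1 / 100000) * 2 * (μHE[2] (convexHull ℝ ({p, q, r} : Set E3))).toReal := by
  rw [area_parallelogram, area_triangle, ENNReal.toReal_ofReal (Real.sqrt_nonneg _),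
    ENNReal.toReal_ofReal (by positivity)]
  have h : ‖(1 - c / 100000) • (q - p)‖ ^ 2 * ‖(1 / 100000 : ℝ) • (r - p)‖ ^ 2 -
      inner ℝ ((1 - c / 100000) • (q - p)) ((1 / 100000 : ℝ) • (r - p)) ^ 2 =
      ((1 - c / 100000) * (1 / 100000)) ^ 2 * (‖q - p‖ ^ 2 * ‖r - p‖ ^ 2 - inner ℝ (q - p) (r - p) ^ 2) := by
    rw [norm_smul, norm_smul, inner_smul_left, inner_smul_right, mul_pow, mul_pow, Real.norm_eq_abs,
      Real.norm_eq_abs, sq_abs, sq_abs]
    simp only [conj_trivial]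
    ring
  rw [h, Real.sqrt_mul (by positivity), Real.sqrt_sq (by positivity)]
  ring

/-- Let K ⊂ ℝ³ be a regular tetrahedron (convex hull of four points with equal pairwise distances ℓ > 0); areas are Lebesgue-normalised 2-dimensional Hausdorff measure, π_v y = y − ⟪y, v⟫ v. (1) Finitely many cylinders Bᵢ + ℝ uᵢ, ‖uᵢ‖ = 1, with parallelogram bases Bᵢ = cᵢ + [0,1]aᵢ + [0,1]bᵢ in uᵢ^⊥ cover K, ∑ᵢ area(Bᵢ) being below half of area(π_v K) by a positive margin for all unit v, and ∑ᵢ area(Bᵢ)/area(π_{uᵢ} K) < 1/2. (2) The same with bounded relatively open subsets of the uᵢ^⊥ as bases. -/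
theorem result
    (w : Fin 4 → EuclideanSpace ℝ (Fin 3)) (ℓ : ℝ) (hℓ : 0 < ℓ)
    (hw : ∀ i j, i ≠ j → dist (w i) (w j) = ℓ) :
    (∃ (k : ℕ) (u c a b : Fin k → EuclideanSpace ℝ (Fin 3)),
      (∀ i, ‖u i‖ = 1) ∧
      (∀ i, inner ℝ (c i) (u i) = 0 ∧ inner ℝ (a i) (u i) = 0 ∧ inner ℝ (b i) (u i) = 0) ∧
      convexHull ℝ (Set.range w) ⊆ ⋃ i, {x : EuclideanSpace ℝ (Fin 3) |
        ∃ s ∈ Set.Icc (0 : ℝ) 1, ∃ t ∈ Set.Icc (0 : ℝ) 1, ∃ τ : ℝ, x = c i + s • a i + t • b i + τ • u i} ∧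
      (∃ δ : ℝ, 0 < δ ∧ ∀ v : EuclideanSpace ℝ (Fin 3), ‖v‖ = 1 →
        (∑ i, (μHE[2] {x : EuclideanSpace ℝ (Fin 3) |
            ∃ s ∈ Set.Icc (0 : ℝ) 1, ∃ t ∈ Set.Icc (0 : ℝ) 1, x = c i + s • a i + t • b i}).toReal) + δ ≤
          (μHE[2] ((fun y => y - inner ℝ y v • v) '' convexHull ℝ (Set.range w))).toReal / 2) ∧
      ∑ i, (μHE[2] {x : EuclideanSpace ℝ (Fin 3) |
            ∃ s ∈ Set.Icc (0 : ℝ) 1, ∃ t ∈ Set.Icc (0 : ℝ) 1, x = c i + s • a i + t • b i}).toReal /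
          (μHE[2] ((fun y => y - inner ℝ y (u i) • u i) '' convexHull ℝ (Set.range w))).toReal < 1 / 2) ∧
    (∃ (k : ℕ) (u : Fin k → EuclideanSpace ℝ (Fin 3)) (B : Fin k → Set (EuclideanSpace ℝ (Fin 3))),
      (∀ i, ‖u i‖ = 1) ∧
      (∀ i, Bornology.IsBounded (B i) ∧ ∃ O : Set (EuclideanSpace ℝ (Fin 3)), IsOpen O ∧
        B i = O ∩ {x | inner ℝ x (u i) = 0}) ∧
      convexHull ℝ (Set.range w) ⊆
        ⋃ i, {x : EuclideanSpace ℝ (Fin 3) | ∃ y ∈ B i, ∃ τ : ℝ, x = y + τ • u i} ∧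
      (∃ δ : ℝ, 0 < δ ∧ ∀ v : EuclideanSpace ℝ (Fin 3), ‖v‖ = 1 →
        (∑ i, (μHE[2] (B i)).toReal) + δ ≤
          (μHE[2] ((fun y => y - inner ℝ y v • v) '' convexHull ℝ (Set.range w))).toReal / 2) ∧
      ∑ i, (μHE[2] (B i)).toReal /
          (μHE[2] ((fun y => y - inner ℝ y (u i) • u i) '' convexHull ℝ (Set.range w))).toReal < 1 / 2) := by
  obtain ⟨c0, φ, hK⟩ := exists_similarity w ℓ hℓ hw
  have hl : 0 < ℓ / 2 := by linarith
  obtain ⟨u, p, q, r, hu, hpqr, hcov, htot⟩ := transport c0 φ hl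
  rw [hK]
  have hs2' : 0 < Real.sqrt 2 := by positivity
  set K := (fun x => c0 + (ℓ / 2) • φ x) '' K0 with hKdef
  set A0 := (ℓ / 2) ^ 2 * Real.sqrt 2 with hA0
  have hA0pos : 0 < A0 := by positivity
  have hmin : ∀ v : EuclideanSpace ℝ (Fin 3), ‖v‖ = 1 →
      A0 ≤ (μHE[2] ((fun y => y - inner ℝ y v • v) '' K)).toReal := fun v hv => min_proj_sim c0 φ hl hv
  set T := ∑ i, (μHE[2] (convexHull ℝ ({p i, q i, r i} : Set E3))).toReal with hT
  have hT1 : T ≤ A0 * (1/2 - 1/40000) := by rw [hA0]; linarith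
  have hT0 : 0 ≤ T := Finset.sum_nonneg fun i _ => ENNReal.toReal_nonneg
  -- generic finishing argument for the normalised sum
  have hfin : ∀ (k : ℕ) (v : Fin k → EuclideanSpace ℝ (Fin 3)) (g : Fin k → ℝ), (∀ i, ‖v i‖ = 1) → (∀ i, 0 ≤ g i) →
      ∑ i, g i ≤ A0 * (1/2 - 1/100000) →
      (∃ δ : ℝ, 0 < δ ∧ ∀ x : EuclideanSpace ℝ (Fin 3), ‖x‖ = 1 →
        (∑ i, g i) + δ ≤ (μHE[2] ((fun y => y - inner ℝ y x • x) '' K)).toReal / 2) ∧
      ∑ i, g i / (μHE[2] ((fun y => y - inner ℝ y (v i) • v i) '' K)).toReal < 1 / 2 := by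
    intro k v g hv hg hsum
    refine ⟨⟨A0 * (1/100000), by positivity, ?_⟩, ?_⟩
    · intro x hx
      have := hmin x hx
      linarith
    · have h1 : ∑ i, g i / (μHE[2] ((fun y => y - inner ℝ y (v i) • v i) '' K)).toReal ≤ ∑ i, g i / A0 := by
        apply Finset.sum_le_sum
        intro i _
        exact div_le_div_of_nonneg_left (hg i) hA0pos (hmin _ (hv i))
      rw [← Finset.sum_div] at h1
      have h2 : (∑ i, g i) / A0 ≤ 1/2 - 1/100000 := by
        rw [div_le_iff₀ hA0pos]; linarith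
      linarith
  constructor
  · -- parallelograms
    let e := Fintype.equivFin (II × Fin 100000)
    let cj : Fin 100000 → ℝ := fun j => ((j : ℕ) : ℝ)
    have hcj : ∀ j, 0 ≤ 1 - cj j / 100000 := by
      intro j
      have h1 : cj j ≤ 100000 := by
        have := j.2.le
        simp only [cj]; exact_mod_cast this
      have : cj j / 100000 ≤ 1 := by rw [div_le_one (by norm_num)]; exact h1
      linarith
    let u' : II × Fin 100000 → E3 := fun z => u z.1
    let c' : II × Fin 100000 → E3 := fun z => p z.1 + (cj z.2 / 100000) • (r z.1 - p z.1)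
    let a' : II × Fin 100000 → E3 := fun z => (1 - cj z.2 / 100000) • (q z.1 - p z.1)
    let b' : II × Fin 100000 → E3 := fun z => (1 / 100000 : ℝ) • (r z.1 - p z.1)
    have harea : ∀ z, (μHE[2] {x : EuclideanSpace ℝ (Fin 3) |
            ∃ s ∈ Set.Icc (0 : ℝ) 1, ∃ t ∈ Set.Icc (0 : ℝ) 1, x = c' z + s • a' z + t • b' z}).toReal =
        (1 - cj z.2 / 100000) * (1 / 100000) * 2 * (μHE[2] (convexHull ℝ ({p z.1, q z.1, r z.1} : Set E3))).toReal :=
      fun z => strip_area _ _ _ (hcj _)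
    have hsum : ∑ i, (μHE[2] {x : EuclideanSpace ℝ (Fin 3) |
            ∃ s ∈ Set.Icc (0 : ℝ) 1, ∃ t ∈ Set.Icc (0 : ℝ) 1,
              x = c' (e.symm i) + s • a' (e.symm i) + t • b' (e.symm i)}).toReal = (1 + 1/100000) * T := by
      rw [Equiv.sum_comp e.symm (fun z => (μHE[2] {x : EuclideanSpace ℝ (Fin 3) |
            ∃ s ∈ Set.Icc (0 : ℝ) 1, ∃ t ∈ Set.Icc (0 : ℝ) 1, x = c' z + s • a' z + t • b' z}).toReal)]
      rw [Fintype.sum_congr _ _ harea, Fintype.sum_prod_type, hT, Finset.mul_sum]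
      apply Finset.sum_congr rfl
      intro i _
      have h := congrArg (fun z => z * (μHE[2] (convexHull ℝ ({p i, q i, r i} : Set E3))).toReal) strip_sum
      simp only [Finset.sum_mul] at h
      exact h
    obtain ⟨h1, h2⟩ := hfin _ (fun i => u' (e.symm i)) (fun i => (μHE[2] {x : EuclideanSpace ℝ (Fin 3) |
            ∃ s ∈ Set.Icc (0 : ℝ) 1, ∃ t ∈ Set.Icc (0 : ℝ) 1,
              x = c' (e.symm i) + s • a' (e.symm i) + t • b' (e.symm i)}).toReal)
      (fun i => hu _) (fun i => ENNReal.toReal_nonneg) (by rw [hsum]; nlinarith)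
    refine ⟨Fintype.card (II × Fin 100000), fun i => u' (e.symm i), fun i => c' (e.symm i), fun i => a' (e.symm i),
      fun i => b' (e.symm i), fun i => hu _, ?_, ?_, h1, h2⟩
    · intro i
      obtain ⟨g1, g2, g3⟩ := hpqr (e.symm i).1
      simp only [c', a', b', u', inner_add_left, inner_smul_left, inner_sub_left, g1, g2, g3]
      simp
    · intro x hx
      have h := hcov hx
      rw [Set.mem_iUnion] at h ⊢
      obtain ⟨i, b, hb, t, rfl⟩ := h
      obtain ⟨j, s, hs, t', ht', rfl⟩ := mem_strip hb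
      refine ⟨e (i, j), s, hs, t', ht', t, ?_⟩
      simp only [Equiv.symm_apply_apply, c', a', b', u', cj]
  · -- open sets
    have hε : ENNReal.ofReal (A0 / 20000000000) ≠ 0 := by
      rw [Ne, ENNReal.ofReal_eq_zero]; push Not; positivity
    have hplane : ∀ i, convexHull ℝ ({p i, q i, r i} : Set E3) ⊆ plane (u i) := by
      intro i x hx
      rw [mem_triangle] at hx
      obtain ⟨s, t, -, -, -, rfl⟩ := hx
      obtain ⟨g1, g2, g3⟩ := hpqr i
      simp only [plane, Set.mem_ofPred_eq, inner_add_left, inner_smul_left, inner_sub_left, g1, g2, g3]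
      simp
    have hcomp : ∀ i, IsCompact (convexHull ℝ ({p i, q i, r i} : Set E3)) := by
      intro i
      have : ({p i, q i, r i} : Set E3).Finite := by simp
      exact this.isCompact_convexHull ℝ
    choose O hO1 hO2 hO3 hO4 using fun i => exists_open_enlarge (hu i) (hplane i) (hcomp i) hε
    let e := Fintype.equivFin II
    have harea : ∀ i, (μHE[2] (O i ∩ plane (u i))).toReal ≤
        (μHE[2] (convexHull ℝ ({p i, q i, r i} : Set E3))).toReal + A0 / 20000000000 := by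
      intro i
      have hf := finite_of_bounded (hu i) (hplane i) (hcomp i).isBounded
      have h1 := ENNReal.toReal_mono (ENNReal.add_ne_top.2 ⟨hf.ne, ENNReal.ofReal_ne_top⟩) (hO4 i).le
      rw [ENNReal.toReal_add hf.ne ENNReal.ofReal_ne_top, ENNReal.toReal_ofReal (by positivity)] at h1
      exact h1
    have hsum : ∑ i, (μHE[2] (O (e.symm i) ∩ plane (u (e.symm i)))).toReal ≤ T + A0 * (1/100000) := by
      rw [Equiv.sum_comp e.symm (fun i => (μHE[2] (O i ∩ plane (u i))).toReal)]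
      calc ∑ i, (μHE[2] (O i ∩ plane (u i))).toReal ≤
          ∑ i, ((μHE[2] (convexHull ℝ ({p i, q i, r i} : Set E3))).toReal + A0 / 20000000000) :=
            Finset.sum_le_sum fun i _ => harea i
        _ = T + A0 * (1/100000) := by
          rw [Finset.sum_add_distrib, ← hT, Finset.sum_const, Finset.card_univ, Fintype.card_sum, Fintype.card_fin]
          rw [nsmul_eq_mul]
          have : ((100000 + 100000 : ℕ) : ℝ) * (A0 / 20000000000) = A0 * (1/100000) := by
            push_cast; ring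
          rw [this]
    obtain ⟨h1, h2⟩ := hfin _ (fun i => u (e.symm i)) (fun i => (μHE[2] (O (e.symm i) ∩ plane (u (e.symm i)))).toReal)
      (fun i => hu _) (fun i => ENNReal.toReal_nonneg) (by linarith)
    refine ⟨Fintype.card II, fun i => u (e.symm i), fun i => O (e.symm i) ∩ plane (u (e.symm i)), fun i => hu _, ?_, ?_, h1, h2⟩
    · intro i
      exact ⟨(hO2 _).subset Set.inter_subset_left, O (e.symm i), hO1 _, rfl⟩
    · intro x hx
      have h := hcov hx
      rw [Set.mem_iUnion] at h ⊢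
      obtain ⟨i, b, hb, t, rfl⟩ := h
      refine ⟨e i, b, ?_, t, ?_⟩
      · simp only [Equiv.symm_apply_apply]
        exact ⟨hO3 i hb, hplane i hb⟩
      · simp only [Equiv.symm_apply_apply]

end Crest.Agent.S0327
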