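import Crest.Statements.S0328
import Crest.Agent.Row211.SweepSum

set_option autoImplicit false
open MeasureTheory
open scoped ENNReal
open Crest Crest.GeometryTopology Crest.GeometryTopology.Convex

namespace Crest.Agent.S0328

open Crest.Agent.Row211 Crest.Agent.Row211.Sweep in
/-- Unit e; a, b, p₀ ∈ e^⊥, a, b independent; α < β; L > 0; R ≥ 0, λ both continuous on [α, β]; w(t) ∈ e^⊥, w′ = λ(t)(a + tb). S = {p₀ + ρ(a + t b) + s(e + w t) : α ≤ t ≤ β, 0 ≤ ρ ≤ R t, ‖s‖ ≤ L}; A = κ ∫_α^β R²/(2√(1 + ‖w‖²)), κ = area spanned by a, b. For η > 0 a δ > 0 makes each partition t₀ < … < t_N of [α, β] of mesh ≤ δ, tags cᵢ, admit N cylinders (axes e + w(cᵢ), nondegenerate triangle bases) covering S, total area within η of A; same for S's pieces tᵢ ≤ t ≤ tᵢ₊₁ projected along these axes. -/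
theorem result
    (e a b p₀ : EuclideanSpace ℝ (Fin 3)) (he : ‖e‖ = 1)
    (ha : inner ℝ a e = 0) (hb : inner ℝ b e = 0) (hp₀ : inner ℝ p₀ e = 0)
    (hab : LinearIndependent ℝ ![a, b]) (L : ℝ) (hL : 0 < L) (α β : ℝ) (hαβ : α < β)
    (R : ℝ → ℝ) (hR : ContinuousOn R (Set.Icc α β)) (hR0 : ∀ t ∈ Set.Icc α β, 0 ≤ R t)
    (w : ℝ → EuclideanSpace ℝ (Fin 3)) (hw : ∀ t ∈ Set.Icc α β, inner ℝ (w t) e = 0)
    (lam : ℝ → ℝ) (hlam : ContinuousOn lam (Set.Icc α β))
    (hw' : ∀ t ∈ Set.Icc α β, HasDerivWithinAt w (lam t • (a + t • b)) (Set.Icc α β) t)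
    (η : ℝ) (hη : 0 < η) :
    ∃ δ : ℝ, 0 < δ ∧ ∀ (N : ℕ) (t : Fin (N + 1) → ℝ) (c : Fin N → ℝ),
      StrictMono t → t 0 = α → t (Fin.last N) = β →
      (∀ i : Fin N, t i.succ - t i.castSucc ≤ δ) →
      (∀ i : Fin N, t i.castSucc ≤ c i ∧ c i ≤ t i.succ) →
      (∃ (p q r : Fin N → EuclideanSpace ℝ (Fin 3)),
        (∀ i, inner ℝ (p i) (e + w (c i)) = 0 ∧ inner ℝ (q i) (e + w (c i)) = 0 ∧
          inner ℝ (r i) (e + w (c i)) = 0) ∧
        (∀ i, AffineIndependent ℝ ![p i, q i, r i]) ∧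
        {x : EuclideanSpace ℝ (Fin 3) | ∃ τ ∈ Set.Icc α β, ∃ ρ ∈ Set.Icc 0 (R τ), ∃ s : ℝ, abs s ≤ L ∧
            x = p₀ + ρ • (a + τ • b) + s • (e + w τ)} ⊆
          ⋃ i, {x : EuclideanSpace ℝ (Fin 3) | ∃ y ∈ convexHull ℝ {p i, q i, r i}, ∃ σ : ℝ,
            x = y + σ • (e + w (c i))} ∧
        abs ((∑ i, (μHE[2] (convexHull ℝ ({p i, q i, r i} : Set (EuclideanSpace ℝ (Fin 3))))).toReal) -
            Real.sqrt (‖a‖ ^ 2 * ‖b‖ ^ 2 - inner ℝ a b ^ 2) *
              ∫ τ in α..β, R τ ^ 2 / (2 * Real.sqrt (1 + ‖w τ‖ ^ 2))) ≤ η) ∧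
      abs ((∑ i : Fin N, (μHE[2] ((fun y => y - (inner ℝ y (e + w (c i)) / ‖e + w (c i)‖ ^ 2) • (e + w (c i))) ''
            {x : EuclideanSpace ℝ (Fin 3) | ∃ τ ∈ Set.Icc (t i.castSucc) (t i.succ), ∃ ρ ∈ Set.Icc 0 (R τ),
              ∃ s : ℝ, abs s ≤ L ∧ x = p₀ + ρ • (a + τ • b) + s • (e + w τ)})).toReal) -
          Real.sqrt (‖a‖ ^ 2 * ‖b‖ ^ 2 - inner ℝ a b ^ 2) *
            ∫ τ in α..β, R τ ^ 2 / (2 * Real.sqrt (1 + ‖w τ‖ ^ 2))) ≤ η := by
  set κ := Real.sqrt (‖a‖ ^ 2 * ‖b‖ ^ 2 - inner ℝ a b ^ 2) with hκ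
  have hκ0 : 0 ≤ κ := Real.sqrt_nonneg _
  obtain ⟨Λ, M, C, hC0, hdisp⟩ := disp hαβ hlam hw'
  have hwc : ContinuousOn w (Set.Icc α β) := fun x hx => (hw' x hx).continuousWithinAt
  have hgc : ContinuousOn (fun τ => gf a b (w τ)) (Set.Icc α β) := by
    unfold gf
    apply ContinuousOn.div continuousOn_const
    · exact continuousOn_const.mul ((continuousOn_const.add (hwc.norm.pow 2)).sqrt)
    · intro x _; positivity
  have hgle : ∀ v : EuclideanSpace ℝ (Fin 3), gf a b v ≤ κ / 2 := by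
    intro v
    unfold gf
    apply div_le_div_of_nonneg_left hκ0 (by norm_num)
    have : 1 ≤ Real.sqrt (1 + ‖v‖ ^ 2) := by
      rw [Real.one_le_sqrt]; nlinarith [sq_nonneg ‖v‖]
    linarith
  set G : ℝ → ℝ := fun τ => R τ ^ 2 * gf a b (w τ) with hG
  have hGc : ContinuousOn G (Set.Icc α β) := (hR.pow 2).mul hgc
  have hA : κ * ∫ τ in α..β, R τ ^ 2 / (2 * Real.sqrt (1 + ‖w τ‖ ^ 2)) = ∫ τ in α..β, G τ := by
    rw [← intervalIntegral.integral_const_mul]
    congr 1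
    funext τ
    simp only [hG, gf]
    ring
  rw [hA]
  obtain ⟨B, hB⟩ := isCompact_Icc.exists_bound_of_continuousOn hR
  have hB' : ∀ τ ∈ Set.Icc α β, R τ ≤ B := fun τ hτ => (le_abs_self _).trans (hB τ hτ)
  have hB0 : 0 ≤ B := (norm_nonneg _).trans (hB α ⟨le_refl _, hαβ.le⟩)
  set ρ := η / (β - α) with hρ
  have hβα : 0 < β - α := by linarith
  have hρ0 : 0 < ρ := div_pos hη hβα
  have hρη : ρ * (β - α) ≤ η := by rw [hρ, div_mul_cancel₀ _ hβα.ne']
  set ε := min (1 / 2) (ρ / (4 * (κ + 1) * (B ^ 2 + 1))) with hε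
  have hε0 : 0 < ε := lt_min (by norm_num) (by positivity)
  have hε1 : ε ≤ 1 / 2 := min_le_left _ _
  have hε2 : 4 * (κ + 1) * (B ^ 2 + 1) * ε ≤ ρ := by
    have h1 : ε ≤ ρ / (4 * (κ + 1) * (B ^ 2 + 1)) := min_le_right _ _
    rw [le_div_iff₀ (by positivity)] at h1
    linarith
  set θ := min 1 (ρ / (4 * (κ + 1) * (2 * B + 1))) with hθ
  have hθ0 : 0 < θ := lt_min (by norm_num) (by positivity)
  have hθ1 : θ ≤ 1 := min_le_left _ _
  have hθ2 : 4 * (κ + 1) * (2 * B + 1) * θ ≤ ρ := by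
    have h1 : θ ≤ ρ / (4 * (κ + 1) * (2 * B + 1)) := min_le_right _ _
    rw [le_div_iff₀ (by positivity)] at h1
    linarith
  set K := L * C with hK
  set K' := K + 2 * K / ε + 1 with hK'
  have hK0 : 0 ≤ K := by rw [hK]; positivity
  have hK'0 : 0 < K' := by rw [hK']; positivity
  obtain ⟨δ1, hδ1, hu1⟩ := Metric.uniformContinuousOn_iff_le.1
    (isCompact_Icc.uniformContinuousOn_of_continuous hR) (θ / 2) (by positivity)
  obtain ⟨δ2, hδ2, hu2⟩ := Metric.uniformContinuousOn_iff_le.1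
    (isCompact_Icc.uniformContinuousOn_of_continuous hGc) (ρ / 2) (by positivity)
  set δ3 := θ / (2 * (K + K')) with hδ3
  have hδ30 : 0 < δ3 := by rw [hδ3]; positivity
  refine ⟨min δ1 (min δ2 δ3), lt_min hδ1 (lt_min hδ2 hδ30), ?_⟩
  intro N t c ht h0 hN hmesh hc
  have hmem : ∀ j, t j ∈ Set.Icc α β := mono_mem ht h0 hN
  have hlt : ∀ i : Fin N, t i.castSucc < t i.succ := fun i => ht (Fin.castSucc_lt_succ)
  have hcmem : ∀ i, c i ∈ Set.Icc α β := fun i =>
    ⟨(hmem i.castSucc).1.trans (hc i).1, (hc i).2.trans (hmem i.succ).2⟩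
  have hsub : ∀ i : Fin N, ∀ τ ∈ Set.Icc (t i.castSucc) (t i.succ), τ ∈ Set.Icc α β := fun i τ hτ =>
    ⟨(hmem i.castSucc).1.trans hτ.1, hτ.2.trans (hmem i.succ).2⟩
  have hdist : ∀ i : Fin N, ∀ τ ∈ Set.Icc (t i.castSucc) (t i.succ),
      |τ - c i| ≤ t i.succ - t i.castSucc := by
    intro i τ hτ
    rw [abs_le]
    constructor <;> linarith [hτ.1, hτ.2, (hc i).1, (hc i).2]
  have hRnear : ∀ i : Fin N, ∀ τ ∈ Set.Icc (t i.castSucc) (t i.succ),
      |R τ - R (c i)| ≤ θ / 2 := by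
    intro i τ hτ
    have := hu1 τ (hsub i τ hτ) (c i) (hcmem i) (by
      rw [Real.dist_eq]
      exact (hdist i τ hτ).trans ((hmesh i).trans (min_le_left _ _)))
    rwa [Real.dist_eq] at this
  have hGnear : ∀ i : Fin N, ∀ τ ∈ Set.Icc (t i.castSucc) (t i.succ),
      |G τ - G (c i)| ≤ ρ / 2 := by
    intro i τ hτ
    have := hu2 τ (hsub i τ hτ) (c i) (hcmem i) (by
      rw [Real.dist_eq]
      exact (hdist i τ hτ).trans ((hmesh i).trans ((min_le_right _ _).trans (min_le_left _ _))))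
    rwa [Real.dist_eq] at this
  -- integral estimate on a piece
  have hI : ∀ i : Fin N, |(t i.succ - t i.castSucc) * G (c i) -
      ∫ τ in (t i.castSucc)..(t i.succ), G τ| ≤ ρ / 2 * (t i.succ - t i.castSucc) := by
    intro i
    have hint : IntervalIntegrable G volume (t i.castSucc) (t i.succ) := by
      apply ContinuousOn.intervalIntegrable
      rw [Set.uIcc_of_le (hlt i).le]
      exact hGc.mono (hsub i)
    have e1 : (t i.succ - t i.castSucc) * G (c i) - ∫ τ in (t i.castSucc)..(t i.succ), G τ =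
        ∫ τ in (t i.castSucc)..(t i.succ), (G (c i) - G τ) := by
      rw [intervalIntegral.integral_sub (by simp) hint]
      simp
    rw [e1]
    have h1 := intervalIntegral.norm_integral_le_of_norm_le_const (a := t i.castSucc) (b := t i.succ)
      (f := fun τ => G (c i) - G τ) (C := ρ / 2) (by
        intro τ hτ
        rw [Set.uIoc_of_le (hlt i).le] at hτ
        rw [Real.norm_eq_abs, abs_sub_comm]
        exact hGnear i τ ⟨hτ.1.le, hτ.2⟩)
    rw [Real.norm_eq_abs, abs_of_pos (sub_pos.2 (hlt i))] at h1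
    exact h1
  -- covers
  have hcov : ∀ i : Fin N, ∃ p q r : EuclideanSpace ℝ (Fin 3),
      (inner ℝ p (e + w (c i)) = 0 ∧ inner ℝ q (e + w (c i)) = 0 ∧
        inner ℝ r (e + w (c i)) = 0) ∧
      AffineIndependent ℝ ![p, q, r] ∧
      (∀ x ∈ Piece e a b p₀ w R L (t i.castSucc) (t i.succ),
        Pr (e + w (c i)) x ∈ convexHull ℝ ({p, q, r} : Set (EuclideanSpace ℝ (Fin 3)))) ∧
      μHE[2] (convexHull ℝ ({p, q, r} : Set (EuclideanSpace ℝ (Fin 3)))) = ENNReal.ofReal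
        (((R (c i) + θ / 2) + K * (t i.succ - t i.castSucc) + K' * (t i.succ - t i.castSucc)) ^ 2 *
          ((1 + 2 * ε) * (t i.succ - t i.castSucc)) * gf a b (w (c i))) := by
    intro i
    apply piece_cover he ha hb hab hL.le hC0 hε0
    · have := hR0 (c i) (hcmem i); positivity
    · exact hlt i
    · exact (hc i).1
    · exact (hc i).2
    · exact hw _ (hcmem i)
    · intro τ hτ
      have := (abs_le.1 (hRnear i τ hτ)).2
      linarith
    · intro τ hτ
      exact ⟨_, _, hdisp τ (hsub i τ hτ) (c i) (hcmem i)⟩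
  choose p q r hpqr haff hcovx harea using hcov
  -- lower bounds
  have hlow : ∀ i : Fin N, ENNReal.ofReal ((max (R (c i) - θ / 2) 0) ^ 2 *
      (t i.succ - t i.castSucc) * gf a b (w (c i))) ≤
      μHE[2] ((fun y => Pr (e + w (c i)) y) '' Piece e a b p₀ w R L (t i.castSucc) (t i.succ)) := by
    intro i
    apply piece_lower he ha hb hab hL.le (hlt i) (hw _ (hcmem i)) (le_max_right _ _)
    intro τ hτ
    apply max_le
    · have := (abs_le.1 (hRnear i τ hτ)).1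
      linarith
    · exact hR0 τ (hsub i τ hτ)
  have hup : ∀ i : Fin N,
      μHE[2] ((fun y => Pr (e + w (c i)) y) '' Piece e a b p₀ w R L (t i.castSucc) (t i.succ)) ≤
      μHE[2] (convexHull ℝ ({p i, q i, r i} : Set (EuclideanSpace ℝ (Fin 3)))) := by
    intro i
    apply measure_mono
    rintro _ ⟨x, hx, rfl⟩
    exact hcovx i x hx
  -- numbers
  have hθ' : ∀ i : Fin N, 0 ≤ θ / 2 + (K + K') * (t i.succ - t i.castSucc) ∧
      θ / 2 + (K + K') * (t i.succ - t i.castSucc) ≤ θ := by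
    intro i
    have h1 : t i.succ - t i.castSucc ≤ δ3 :=
      (hmesh i).trans ((min_le_right _ _).trans (min_le_right _ _))
    have h2 : (K + K') * (t i.succ - t i.castSucc) ≤ (K + K') * δ3 :=
      mul_le_mul_of_nonneg_left h1 (by positivity)
    have h3 : (K + K') * δ3 = θ / 2 := by rw [hδ3]; field_simp
    have h4 : 0 < t i.succ - t i.castSucc := sub_pos.2 (hlt i)
    constructor
    · positivity
    · linarith
  have hnum : ∀ i : Fin N,
      |(((R (c i) + θ / 2) + K * (t i.succ - t i.castSucc) + K' * (t i.succ - t i.castSucc)) ^ 2 *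
          ((1 + 2 * ε) * (t i.succ - t i.castSucc)) * gf a b (w (c i))) -
        ∫ τ in (t i.castSucc)..(t i.succ), G τ| ≤ ρ * (t i.succ - t i.castSucc) ∧
      |((max (R (c i) - θ / 2) 0) ^ 2 * (t i.succ - t i.castSucc) * gf a b (w (c i))) -
        ∫ τ in (t i.castSucc)..(t i.succ), G τ| ≤ ρ * (t i.succ - t i.castSucc) := by
    intro i
    have h4 : 0 < t i.succ - t i.castSucc := sub_pos.2 (hlt i)
    set h := t i.succ - t i.castSucc with hh
    have hs1 := (scalar_est (κ := κ) (B := B) (ε := ε) (θ := θ) (ρ := ρ) (Rc := R (c i))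
      (g := gf a b (w (c i))) (θ' := θ / 2 + (K + K') * h) hκ0 (hR0 _ (hcmem i)) (hB' _ (hcmem i))
      (gf_nonneg _ _ _) (hgle _) hε0 hε1 hε2 hθ0.le hθ1 hθ2 (hθ' i).1 (hθ' i).2).1
    have hs2 := (scalar_est (κ := κ) (B := B) (ε := ε) (θ := θ) (ρ := ρ) (Rc := R (c i))
      (g := gf a b (w (c i))) (θ' := θ / 2) hκ0 (hR0 _ (hcmem i)) (hB' _ (hcmem i))
      (gf_nonneg _ _ _) (hgle _) hε0 hε1 hε2 hθ0.le hθ1 hθ2 (by positivity) (by linarith)).2
    have hIi := hI i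
    have hGci : G (c i) = R (c i) ^ 2 * gf a b (w (c i)) := rfl
    constructor
    · have e1 : (((R (c i) + θ / 2) + K * h + K' * h) ^ 2 *
          ((1 + 2 * ε) * h) * gf a b (w (c i))) - ∫ τ in (t i.castSucc)..(t i.succ), G τ =
          h * ((R (c i) + (θ / 2 + (K + K') * h)) ^ 2 * (1 + 2 * ε) * gf a b (w (c i)) -
            R (c i) ^ 2 * gf a b (w (c i))) +
          (h * G (c i) - ∫ τ in (t i.castSucc)..(t i.succ), G τ) := by rw [hGci]; ring
      rw [e1]
      refine (abs_add_le _ _).trans ?_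
      rw [abs_mul, abs_of_pos h4]
      have := mul_le_mul_of_nonneg_left hs1 h4.le
      linarith
    · have e1 : ((max (R (c i) - θ / 2) 0) ^ 2 * h * gf a b (w (c i))) -
          ∫ τ in (t i.castSucc)..(t i.succ), G τ =
          h * ((max (R (c i) - θ / 2) 0) ^ 2 * gf a b (w (c i)) -
            R (c i) ^ 2 * gf a b (w (c i))) +
          (h * G (c i) - ∫ τ in (t i.castSucc)..(t i.succ), G τ) := by rw [hGci]; ring
      rw [e1]
      refine (abs_add_le _ _).trans ?_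
      rw [abs_mul, abs_of_pos h4]
      have := mul_le_mul_of_nonneg_left hs2 h4.le
      linarith
  have hnn1 : ∀ i : Fin N,
      0 ≤ (((R (c i) + θ / 2) + K * (t i.succ - t i.castSucc) + K' * (t i.succ - t i.castSucc)) ^ 2 *
          ((1 + 2 * ε) * (t i.succ - t i.castSucc)) * gf a b (w (c i))) := by
    intro i
    have h4 : 0 < t i.succ - t i.castSucc := sub_pos.2 (hlt i)
    have := gf_nonneg a b (w (c i))
    positivity
  have hnn2 : ∀ i : Fin N,
      0 ≤ ((max (R (c i) - θ / 2) 0) ^ 2 * (t i.succ - t i.castSucc) * gf a b (w (c i))) := by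
    intro i
    have h4 : 0 < t i.succ - t i.castSucc := sub_pos.2 (hlt i)
    have := gf_nonneg a b (w (c i))
    positivity
  refine ⟨⟨p, q, r, hpqr, haff, ?_, ?_⟩, ?_⟩
  · rintro x ⟨τ, hτ, ρ', hρ', s, hs, rfl⟩
    obtain ⟨i, hi⟩ := exists_piece hαβ h0 hN hτ
    rw [Set.mem_iUnion]
    refine ⟨i, ?_⟩
    have hx := hcovx i _ ⟨τ, hi, ρ', hρ', s, hs, rfl⟩
    exact ⟨_, hx, _, Pr_decomp (e + w (c i)) _⟩
  · apply sum_est ht h0 hN hGc _ hρη
    intro i
    rw [harea i, ENNReal.toReal_ofReal (hnn1 i)]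
    exact (hnum i).1
  · apply sum_est ht h0 hN hGc _ hρη
    intro i
    have hu : (μHE[2] ((fun y => Pr (e + w (c i)) y) ''
        Piece e a b p₀ w R L (t i.castSucc) (t i.succ))).toReal ≤
        (((R (c i) + θ / 2) + K * (t i.succ - t i.castSucc) + K' * (t i.succ - t i.castSucc)) ^ 2 *
          ((1 + 2 * ε) * (t i.succ - t i.castSucc)) * gf a b (w (c i))) := by
      apply ENNReal.toReal_le_of_le_ofReal (hnn1 i)
      rw [← harea i]; exact hup i
    have hfin : μHE[2] ((fun y => Pr (e + w (c i)) y) ''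
        Piece e a b p₀ w R L (t i.castSucc) (t i.succ)) ≠ ⊤ := by
      apply ne_top_of_le_ne_top _ (hup i)
      rw [harea i]; exact ENNReal.ofReal_ne_top
    have hl : ((max (R (c i) - θ / 2) 0) ^ 2 * (t i.succ - t i.castSucc) * gf a b (w (c i))) ≤
        (μHE[2] ((fun y => Pr (e + w (c i)) y) ''
        Piece e a b p₀ w R L (t i.castSucc) (t i.succ))).toReal :=
      (ENNReal.ofReal_le_iff_le_toReal hfin).1 (hlow i)
    have g1 := abs_le.1 (hnum i).1
    have g2 := abs_le.1 (hnum i).2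
    change |(μHE[2] ((fun y => Pr (e + w (c i)) y) ''
        Piece e a b p₀ w R L (t i.castSucc) (t i.succ))).toReal - _| ≤ _
    rw [abs_le]
    constructor <;> linarith [g1.2, g2.1]

end Crest.Agent.S0328
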