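import Crest.Statements.S0329
import Crest.Agent.S0326
import Crest.Agent.Row211.Area

set_option autoImplicit false
open MeasureTheory
open scoped ENNReal
open Crest Crest.GeometryTopology Crest.GeometryTopology.Convex

namespace Crest.Agent.S0329

open Crest.Agent.Row211

/-- embedding of the plane -/
noncomputable def emb (h : ℝ) (ξ : E2) : E3 := !₂[0, ξ 0, h * ξ 1]

/-- direction -/
noncomputable def dir (h : ℝ) (g : E2) : E3 := !₂[1, g 0, h * g 1]

/-- norm of the direction -/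
noncomputable def NN (h : ℝ) (g : E2) : ℝ := Real.sqrt (1 + (g 0) ^ 2 + h ^ 2 * (g 1) ^ 2)

lemma NN_pos (h : ℝ) (g : E2) : 0 < NN h g := by
  unfold NN
  have : 0 < 1 + (g 0) ^ 2 + h ^ 2 * (g 1) ^ 2 := by positivity
  positivity

lemma norm_dir (h : ℝ) (g : E2) : ‖dir h g‖ = NN h g := by
  have h1 : ‖dir h g‖ ^ 2 = NN h g ^ 2 := by
    rw [normsq3]
    unfold NN
    rw [Real.sq_sqrt (by positivity)]
    simp [dir]; ring
  exact (sq_eq_sq₀ (norm_nonneg _) (NN_pos h g).le).1 h1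

noncomputable def uu (h : ℝ) (g : E2) : E3 := (NN h g)⁻¹ • dir h g

lemma norm_uu (h : ℝ) (g : E2) : ‖uu h g‖ = 1 := by
  unfold uu
  rw [norm_smul, norm_dir, norm_inv, Real.norm_of_nonneg (NN_pos h g).le]
  exact inv_mul_cancel₀ (NN_pos h g).ne'

lemma emb_add (h : ℝ) (x y : E2) : emb h (x + y) = emb h x + emb h y := by
  ext i; fin_cases i <;> simp [emb, mul_add]

lemma emb_smul (h c : ℝ) (x : E2) : emb h (c • x) = c • emb h x := by
  ext i; fin_cases i <;> simp [emb]; ring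

/-- the open (enlarged) square -/
def sq' (δ : ℝ) : Set E2 := {x | (-δ < x 0 ∧ x 0 < 1 + δ) ∧ (-δ < x 1 ∧ x 1 < 1 + δ)}

lemma volume_sq' {δ : ℝ} (hδ : 0 < δ) : volume (sq' δ) = ENNReal.ofReal ((1 + 2 * δ) ^ 2) := by
  have hset : sq' δ = (WithLp.ofLp : E2 → (Fin 2 → ℝ)) ⁻¹'
      (Set.pi Set.univ fun _ => Set.Ioo (-δ) (1 + δ)) := by
    ext y
    simp only [sq', Set.mem_ofPred_eq, Set.mem_preimage, Set.mem_pi, Set.mem_univ,
      forall_true_left, Fin.forall_fin_two, Set.mem_Ioo]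
  have hms : MeasurableSet (Set.pi Set.univ fun _ : Fin 2 => Set.Ioo (-δ) (1 + δ)) :=
    MeasurableSet.univ_pi fun i => measurableSet_Ioo
  rw [hset, (PiLp.volume_preserving_ofLp (Fin 2)).measure_preimage hms.nullMeasurableSet,
    Real.volume_pi_Ioo]
  simp only [Fin.prod_univ_two]
  rw [← ENNReal.ofReal_mul (by linarith)]
  congr 1; ring

/-- the base -/
noncomputable def base (h δ : ℝ) (c a b g : E2) : Set E3 :=
  (fun x : E2 => proj (uu h g) (emb h c) + (x 0 • proj (uu h g) (emb h a)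
    + x 1 • proj (uu h g) (emb h b))) '' sq' δ

lemma base_eq (h : ℝ) (c a b g : E2) (s t : ℝ) :
    proj (uu h g) (emb h c) + (s • proj (uu h g) (emb h a)
    + t • proj (uu h g) (emb h b)) = proj (uu h g) (emb h (c + s • a + t • b)) := by
  rw [emb_add, emb_add, emb_smul, emb_smul, proj_add, proj_add, proj_smul, proj_smul]
  abel

lemma det_eq {h : ℝ} (hh : 0 < h) (a b g : E2) (hab : ‖b‖ = ‖a‖) (hi : inner ℝ a b = 0) :
    det3 (emb h a) (emb h b) (uu h g) ^ 2 = (h * (‖a‖ ^ 2 / NN h g)) ^ 2 := by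
  have e1 : det3 (emb h a) (emb h b) (uu h g) = h * (a 0 * b 1 - a 1 * b 0) / NN h g := by
    simp only [det3, emb, uu, dir, PiLp.smul_apply, smul_eq_mul]
    simp
    ring
  have e2 : (a 0 * b 1 - a 1 * b 0) ^ 2 = (‖a‖ ^ 2) ^ 2 := by
    have h1 : (a 0 * b 1 - a 1 * b 0) ^ 2 = ‖a‖ ^ 2 * ‖b‖ ^ 2 - (inner ℝ a b) ^ 2 := by
      rw [Ruled.normsq2, Ruled.normsq2, Ruled.inner2]; ring
    rw [h1, hi, hab]; ring
  rw [e1, div_pow, mul_pow, e2]
  ring

lemma area_base {h δ : ℝ} (hh : 0 < h) (hδ : 0 < δ) (c a b g : E2) (hab : ‖b‖ = ‖a‖)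
    (hi : inner ℝ a b = 0) :
    (μHE[2] (base h δ c a b g)).toReal = h * (‖a‖ ^ 2 / NN h g) * (1 + 2 * δ) ^ 2 := by
  unfold base
  rw [area_image, gram_proj (norm_uu h g), volume_sq' hδ, det_eq hh a b g hab hi]
  have h0 : 0 ≤ h * (‖a‖ ^ 2 / NN h g) := by
    have := NN_pos h g
    positivity
  rw [Real.sqrt_sq h0, ENNReal.toReal_mul, ENNReal.toReal_ofReal h0,
    ENNReal.toReal_ofReal (by positivity)]

/-- plane coordinates of the oblique projection -/
noncomputable def xi (h : ℝ) (g : E2) (x : E3) : E2 := !₂[x 1 - x 0 * g 0, (x 2 - x 0 * (h * g 1)) / h]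

lemma continuous_xi (h : ℝ) (g : E2) : Continuous (xi h g) := by
  unfold xi
  have h1 : Continuous (fun x : E3 => (![x 1 - x 0 * g 0, (x 2 - x 0 * (h * g 1)) / h] : Fin 2 → ℝ)) := by
    refine continuous_pi (fun i => ?_)
    fin_cases i
    · simp only [Fin.zero_eta, Matrix.cons_val_zero]; fun_prop
    · simp only [Fin.mk_one, Matrix.cons_val_one, Matrix.cons_val_fin_one]; fun_prop
  exact (PiLp.continuous_toLp 2 _).comp h1

lemma emb_xi {h : ℝ} (hh : 0 < h) (g : E2) (x : E3) : emb h (xi h g x) = x - x 0 • dir h g := by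
  ext i
  fin_cases i
  · simp [emb, xi, dir]
  · simp [emb, xi, dir]
  · simp [emb, xi, dir]
    field_simp

lemma xi_proj {h : ℝ} (hh : 0 < h) (g : E2) (ξ : E2) : xi h g (proj (uu h g) (emb h ξ)) = ξ := by
  set lam := inner ℝ (emb h ξ) (uu h g) * (NN h g)⁻¹ with hlam
  have e : proj (uu h g) (emb h ξ) = emb h ξ - lam • dir h g := by
    unfold proj
    rw [hlam, mul_smul]; rfl
  rw [e]
  ext i
  fin_cases i
  · simp [xi, emb, dir]
  · simp [xi, emb, dir]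
    field_simp

lemma proj_dir (h : ℝ) (g : E2) : proj (uu h g) (dir h g) = 0 := by
  have h1 : dir h g = NN h g • uu h g := by
    unfold uu
    rw [smul_smul, mul_inv_cancel₀ (NN_pos h g).ne', one_smul]
  conv_lhs => rw [h1]
  rw [proj_smul, proj_self (norm_uu h g), smul_zero]

/-- membership of the square in terms of inner products -/
def sqOpen (δ : ℝ) (c a b : E2) : Set E2 :=
  {ξ | (-δ * ‖a‖ ^ 2 < inner ℝ (ξ - c) a ∧ inner ℝ (ξ - c) a < (1 + δ) * ‖a‖ ^ 2) ∧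
    (-δ * ‖a‖ ^ 2 < inner ℝ (ξ - c) b ∧ inner ℝ (ξ - c) b < (1 + δ) * ‖a‖ ^ 2)}

lemma isOpen_sqOpen (δ : ℝ) (c a b : E2) : IsOpen (sqOpen δ c a b) := by
  have h1 : IsOpen {ξ : E2 | -δ * ‖a‖ ^ 2 < inner ℝ (ξ - c) a} :=
    isOpen_lt continuous_const (by fun_prop)
  have h2 : IsOpen {ξ : E2 | inner ℝ (ξ - c) a < (1 + δ) * ‖a‖ ^ 2} :=
    isOpen_lt (by fun_prop) continuous_const
  have h3 : IsOpen {ξ : E2 | -δ * ‖a‖ ^ 2 < inner ℝ (ξ - c) b} :=
    isOpen_lt continuous_const (by fun_prop)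
  have h4 : IsOpen {ξ : E2 | inner ℝ (ξ - c) b < (1 + δ) * ‖a‖ ^ 2} :=
    isOpen_lt (by fun_prop) continuous_const
  exact (h1.inter h2).inter (h3.inter h4)

lemma mem_sqOpen {δ : ℝ} {c a b : E2} (ha : a ≠ 0) (hab : ‖b‖ = ‖a‖) (hi : inner ℝ a b = 0) (ξ : E2) :
    ξ ∈ sqOpen δ c a b ↔ ∃ x ∈ sq' δ, ξ = c + x 0 • a + x 1 • b := by
  have hn : 0 < ‖a‖ ^ 2 := by have := norm_pos_iff.2 ha; positivity
  have hi' : inner ℝ b a = 0 := by rw [real_inner_comm]; exact hi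
  constructor
  · rintro ⟨⟨h1, h2⟩, h3, h4⟩
    refine ⟨!₂[inner ℝ (ξ - c) a / ‖a‖ ^ 2, inner ℝ (ξ - c) b / ‖a‖ ^ 2], ?_, ?_⟩
    · simp only [sq', Set.mem_ofPred_eq]
      simp
      refine ⟨⟨?_, ?_⟩, ?_, ?_⟩
      · rw [lt_div_iff₀ hn]; linarith
      · rw [div_lt_iff₀ hn]; linarith
      · rw [lt_div_iff₀ hn]; linarith
      · rw [div_lt_iff₀ hn]; linarith
    · -- expansion in the orthogonal basis
      have ea : a 0 * b 0 + a 1 * b 1 = 0 := by rw [← Ruled.inner2]; exact hi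
      have eb : b 0 ^ 2 + b 1 ^ 2 = a 0 ^ 2 + a 1 ^ 2 := by
        rw [← Ruled.normsq2, ← Ruled.normsq2, hab]
      have en : ‖a‖ ^ 2 = a 0 ^ 2 + a 1 ^ 2 := Ruled.normsq2 a
      have hn' : a 0 ^ 2 + a 1 ^ 2 ≠ 0 := by rw [← en]; exact hn.ne'
      -- `b = ± rot a`
      have k0 : b 0 ^ 2 = a 1 ^ 2 := by
        have : (a 0 ^ 2 + a 1 ^ 2) * (b 0 ^ 2 - a 1 ^ 2) = 0 := by
          linear_combination (a 0 * b 0 - a 1 * b 1) * ea + a 1 ^ 2 * eb
        rcases mul_eq_zero.1 this with h | h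
        · exact absurd h hn'
        · linarith
      have k1 : b 1 ^ 2 = a 0 ^ 2 := by linarith
      have k2 : b 0 * b 1 = -(a 0 * a 1) := by
        have : (a 0 ^ 2 + a 1 ^ 2) * (b 0 * b 1 + a 0 * a 1) = 0 := by
          linear_combination (a 0 * b 1 + a 1 * b 0) * ea - (a 0 * a 1) * eb
        rcases mul_eq_zero.1 this with h | h
        · exact absurd h hn'
        · linarith
      ext i
      fin_cases i
      · simp [Ruled.inner2]
        rw [en]
        field_simp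
        linear_combination (-(ξ 0 - c 0)) * k0 - (ξ 1 - c 1) * k2
      · simp [Ruled.inner2]
        rw [en]
        field_simp
        linear_combination (-(ξ 1 - c 1)) * k1 - (ξ 0 - c 0) * k2
  · rintro ⟨x, ⟨⟨h1, h2⟩, h3, h4⟩, rfl⟩
    have e : c + x 0 • a + x 1 • b - c = x 0 • a + x 1 • b := by abel
    have e1 : inner ℝ (x 0 • a + x 1 • b) a = x 0 * ‖a‖ ^ 2 := by
      rw [inner_add_left, inner_smul_left, inner_smul_left, hi', real_inner_self_eq_norm_sq]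
      simp
    have e2 : inner ℝ (x 0 • a + x 1 • b) b = x 1 * ‖a‖ ^ 2 := by
      rw [inner_add_left, inner_smul_left, inner_smul_left, hi, real_inner_self_eq_norm_sq, hab]
      simp
    refine ⟨⟨?_, ?_⟩, ?_, ?_⟩
    · rw [e, e1]; nlinarith
    · rw [e, e1]; nlinarith
    · rw [e, e2]; nlinarith
    · rw [e, e2]; nlinarith

lemma base_open {h δ : ℝ} (hh : 0 < h) (c a b g : E2) (ha : a ≠ 0) (hab : ‖b‖ = ‖a‖)
    (hi : inner ℝ a b = 0) :
    base h δ c a b g = (xi h g ⁻¹' sqOpen δ c a b) ∩ {x | inner ℝ x (uu h g) = 0} := by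
  ext z
  constructor
  · rintro ⟨x, hx, rfl⟩
    simp only [base_eq]
    refine ⟨?_, inner_proj (norm_uu h g) _⟩
    rw [Set.mem_preimage, xi_proj hh, mem_sqOpen ha hab hi]
    exact ⟨x, hx, rfl⟩
  · rintro ⟨h1, h2⟩
    rw [Set.mem_preimage, mem_sqOpen ha hab hi] at h1
    obtain ⟨x, hx, he⟩ := h1
    refine ⟨x, hx, ?_⟩
    simp only
    rw [base_eq, ← he, emb_xi hh]
    have h3 : proj (uu h g) (z - z 0 • dir h g) = z := by
      rw [← proj_sub, proj_smul, proj_dir, smul_zero, sub_zero]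
      unfold proj
      have : inner ℝ z (uu h g) = 0 := h2
      rw [this]; simp
    exact h3

lemma base_bounded (h δ : ℝ) (c a b g : E2) : Bornology.IsBounded (base h δ c a b g) := by
  have hK : IsCompact {x : E2 | (-δ ≤ x 0 ∧ x 0 ≤ 1 + δ) ∧ (-δ ≤ x 1 ∧ x 1 ≤ 1 + δ)} := by
    have : {x : E2 | (-δ ≤ x 0 ∧ x 0 ≤ 1 + δ) ∧ (-δ ≤ x 1 ∧ x 1 ≤ 1 + δ)} =
        (EuclideanSpace.equiv (Fin 2) ℝ).toHomeomorph ⁻¹' (Set.pi Set.univ fun _ => Set.Icc (-δ) (1 + δ)) := by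
      ext x
      simp [Pi.le_def, Fin.forall_fin_two]
      tauto
    rw [this]
    exact (Homeomorph.isCompact_preimage _).2 (isCompact_univ_pi fun _ => isCompact_Icc)
  have hc : Continuous (fun x : E2 => proj (uu h g) (emb h c) + (x 0 • proj (uu h g) (emb h a)
    + x 1 • proj (uu h g) (emb h b))) := by fun_prop
  refine (hK.image hc).isBounded.subset (Set.image_mono ?_)
  rintro x ⟨⟨h1, h2⟩, h3, h4⟩
  exact ⟨⟨h1.le, h2.le⟩, h3.le, h4.le⟩

/-- Let h, M > 0, D ⊂ ℝ² be compact with Lebesgue-null boundary, and V : ℝ² → ℝ² be C¹ on an open set containing D with tr DV(p) = 0 and −1/M² < det DV(p) < 0 for p ∈ D. For every ε > 0 the set of points (x, p₁ + x V₁(p), h (p₂ + x V₂(p))) ∈ ℝ³ with p ∈ D, −M ≤ x ≤ M is covered by finitely many cylinders Bᵢ + ℝ uᵢ, ‖uᵢ‖ = 1, with bases Bᵢ bounded relatively open subsets of the planes uᵢ^⊥ and ∑ᵢ area(Bᵢ) ≤ h ∫_D (1 + V₁² + h² V₂²)^(−1/2) + ε (areas: normalised 2-dimensional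 Hausdorff measure). -/
theorem result
    (h M : ℝ) (hh : 0 < h) (hM : 0 < M) (D : Set (EuclideanSpace ℝ (Fin 2))) (hD : IsCompact D)
    (hbd : volume (frontier D) = 0)
    (V : EuclideanSpace ℝ (Fin 2) → EuclideanSpace ℝ (Fin 2)) (U : Set (EuclideanSpace ℝ (Fin 2)))
    (hU : IsOpen U) (hDU : D ⊆ U) (hV : ContDiffOn ℝ 1 V U)
    (htr : ∀ p ∈ D, LinearMap.trace ℝ _ (fderiv ℝ V p).toLinearMap = 0)
    (hdet : ∀ p ∈ D, -(M ^ 2)⁻¹ < LinearMap.det (fderiv ℝ V p).toLinearMap ∧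
      LinearMap.det (fderiv ℝ V p).toLinearMap < 0)
    (ε : ℝ) (hε : 0 < ε) :
    ∃ (k : ℕ) (u : Fin k → EuclideanSpace ℝ (Fin 3)) (B : Fin k → Set (EuclideanSpace ℝ (Fin 3))),
      (∀ i, ‖u i‖ = 1) ∧
      (∀ i, Bornology.IsBounded (B i) ∧ ∃ O : Set (EuclideanSpace ℝ (Fin 3)), IsOpen O ∧
        B i = O ∩ {x | inner ℝ x (u i) = 0}) ∧
      {z : EuclideanSpace ℝ (Fin 3) | ∃ p ∈ D, ∃ x : ℝ, abs x ≤ M ∧
          z = !₂[x, p 0 + x * V p 0, h * (p 1 + x * V p 1)]} ⊆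
        ⋃ i, {z : EuclideanSpace ℝ (Fin 3) | ∃ y ∈ B i, ∃ τ : ℝ, z = y + τ • u i} ∧
      ∑ i, (μHE[2] (B i)).toReal ≤
        h * (∫ p in D, 1 / Real.sqrt (1 + (V p 0) ^ 2 + h ^ 2 * (V p 1) ^ 2)) + ε := by
  obtain ⟨k, c, a, b, g, hT, hcov, hsum⟩ := Crest.Agent.S0326.result D hD V U hU hDU hV M h hM hh
    htr (fun p hp => ⟨(hdet p hp).1, (hdet p hp).2.le⟩) (ε / (2 * h)) (by positivity)
  set I := ∫ p in D, 1 / Real.sqrt (1 + (V p 0) ^ 2 + h ^ 2 * (V p 1) ^ 2) with hI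
  set S := ∑ i, ‖a i‖ ^ 2 / Real.sqrt (1 + (g i 0) ^ 2 + h ^ 2 * (g i 1) ^ 2) with hS
  have hS0 : 0 ≤ S := Finset.sum_nonneg fun i _ => by positivity
  set δ := min (1 / 2) (ε / (12 * h * (S + 1))) with hδ
  have hδ0 : 0 < δ := by positivity
  refine ⟨k, fun i => uu h (g i), fun i => base h δ (c i) (a i) (b i) (g i),
    fun i => norm_uu h (g i), fun i => ⟨base_bounded _ _ _ _ _ _, _,
      (isOpen_sqOpen δ (c i) (a i) (b i)).preimage (continuous_xi h (g i)),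
      base_open hh _ _ _ _ (hT i).1 (hT i).2.1 (hT i).2.2⟩, ?_, ?_⟩
  · rintro z ⟨p, hp, x, hx, rfl⟩
    have h1 : ((x, p + x • V p) : ℝ × E2) ∈ {z : ℝ × EuclideanSpace ℝ (Fin 2) | ∃ p ∈ D, abs z.1 ≤ M ∧ z.2 = p + z.1 • V p} :=
      ⟨p, hp, hx, rfl⟩
    have h2 := hcov h1
    simp only [Set.mem_iUnion] at h2 ⊢
    obtain ⟨i, s, hs, t, ht, he⟩ := h2
    simp only at he
    refine ⟨i, proj (uu h (g i)) (emb h (c i + s • a i + t • b i)), ?_, ?_⟩
    · refine ⟨!₂[s, t], ?_, ?_⟩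
      · simp only [sq', Set.mem_ofPred_eq]
        simp
        refine ⟨⟨by linarith [hs.1], by linarith [hs.2]⟩, by linarith [ht.1], by linarith [ht.2]⟩
      · simp only
        rw [base_eq h]
        simp
    · refine ⟨inner ℝ (emb h (c i + s • a i + t • b i)) (uu h (g i)) + x * NN h (g i), ?_⟩
      have e1 : (x * NN h (g i)) • uu h (g i) = x • dir h (g i) := by
        unfold uu
        rw [smul_smul, mul_assoc, mul_inv_cancel₀ (NN_pos h (g i)).ne', mul_one]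
      rw [add_smul, e1]
      unfold proj
      have e2 : (!₂[x, p 0 + x * V p 0, h * (p 1 + x * V p 1)] : E3)
          = emb h (c i + s • a i + t • b i) + x • dir h (g i) := by
        have e3 : emb h (p + x • V p) = emb h (c i + s • a i + t • b i) + x • emb h (g i) := by
          rw [he, emb_add _ _ (x • g i), emb_smul]
        have e4 : (!₂[x, p 0 + x * V p 0, h * (p 1 + x * V p 1)] : E3)
            = emb h (p + x • V p) + x • (!₂[1, 0, 0] : E3) := by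
          ext i; fin_cases i <;> simp [emb]
        have e5 : dir h (g i) = emb h (g i) + (!₂[1, 0, 0] : E3) := by
          ext i; fin_cases i <;> simp [emb, dir]
        rw [e4, e3, e5, smul_add]; abel
      rw [e2]; abel
  · have h1 : ∑ i, (μHE[2] (base h δ (c i) (a i) (b i) (g i))).toReal = h * (1 + 2 * δ) ^ 2 * S := by
      rw [hS, Finset.mul_sum]
      refine Finset.sum_congr rfl fun i _ => ?_
      rw [area_base hh hδ0 _ _ _ _ (hT i).2.1 (hT i).2.2]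
      unfold NN; ring
    rw [h1]
    have h2 : (1 + 2 * δ) ^ 2 ≤ 1 + 6 * δ := by
      have : δ ≤ 1 / 2 := min_le_left _ _
      nlinarith
    have h3 : 6 * δ * (h * S) ≤ ε / 2 := by
      have h4 : δ ≤ ε / (12 * h * (S + 1)) := min_le_right _ _
      calc 6 * δ * (h * S) ≤ 6 * (ε / (12 * h * (S + 1))) * (h * (S + 1)) := by
            gcongr; linarith
        _ = ε / 2 := by field_simp; norm_num
    calc h * (1 + 2 * δ) ^ 2 * S ≤ h * (1 + 6 * δ) * S := by gcongr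
      _ = h * S + 6 * δ * (h * S) := by ring
      _ ≤ h * (I + ε / (2 * h)) + ε / 2 := by
          apply add_le_add (mul_le_mul_of_nonneg_left hsum hh.le) h3
      _ = h * I + ε := by field_simp; ring

end Crest.Agent.S0329
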