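import Crest.Statements.S0332
import Crest.Agent.R214.Fin214
-- import your own Crest.Agent.* helpers here

set_option autoImplicit false
open Crest.GeometryTopology.PeriodicPerimeter
open Crest Crest.GeometryTopology

namespace Crest.Agent.S0332

/-- For 0 < V < 1 put v = min(V, 1 − V) and I = min((36π)^(1/3) v^(2/3), 2√(πv), 2). Subsets of the cubic flat three-torus ℝ³/ℤ³ are modelled as ℤ³-periodic measurable subsets of ℝ³, with volume the Lebesgue measure of the part in [0,1)³ and perimeter the supremum, over ℤ³-periodic C¹ vector fields of length at most 1, of the integral of the divergence over that part. Every such set of volume V has perimeter at least I, and some such set of volume V has perimeter exactly I. -/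
theorem result (V : ℝ) (hV : 0 < V) (hV' : V < 1) :
    (∀ E : Set (EuclideanSpace ℝ (Fin 3)), MeasurableSet E → IsLatticePeriodic E →
        periodicVolume E = V →
        ENNReal.ofReal (min (min ((36 * Real.pi) ^ ((1 : ℝ) / 3) * (min V (1 - V)) ^ ((2 : ℝ) / 3))
          (2 * Real.sqrt (Real.pi * min V (1 - V)))) 2) ≤ periodicPerimeter E) ∧
      ∃ E : Set (EuclideanSpace ℝ (Fin 3)), MeasurableSet E ∧ IsLatticePeriodic E ∧
        periodicVolume E = V ∧
        periodicPerimeter E = ENNReal.ofReal (min (min ((36 * Real.pi) ^ ((1 : ℝ) / 3) * (min V (1 - V)) ^ ((2 : ℝ) / 3))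
          (2 * Real.sqrt (Real.pi * min V (1 - V)))) 2) := by
  exact Crest.Agent.R214.Model.S0332_of Crest.Agent.R214.lowerBound_final V hV hV'

end Crest.Agent.S0332
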