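import Crest.Statements.S0333
import Crest.Agent.R214.Fin214
-- import your own Crest.Agent.* helpers here

set_option autoImplicit false
open Crest.GeometryTopology.PeriodicPerimeter
open Crest Crest.GeometryTopology

namespace Crest.Agent.S0333

/-- Subsets of the cubic flat three-torus: ℤ³-periodic measurable subsets of ℝ³, volume and perimeter in [0,1)³; v = min(V, 1−V), I = min((36π)^(1/3) v^(2/3), 2√(πv), 2). For 0 < V < 1 a set of volume V has perimeter I iff: V ≤ 1/2 and, up to a signed coordinate permutation plus translation and a null set, it is the periodic ball of radius (3V/(4π))^(1/3) with V ≤ 4π/81, tube of radius √(V/π) with 4π/81 ≤ V ≤ 1/π, or slab of width V with 1/π ≤ V; or V > 1/2, same for the complement at 1−V. -/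
theorem result
    (V : ℝ) (hV : 0 < V) (hV' : V < 1) (E : Set (EuclideanSpace ℝ (Fin 3)))
    (hE : MeasurableSet E) (hper : IsLatticePeriodic E) (hvol : periodicVolume E = V) :
    periodicPerimeter E = ENNReal.ofReal (min (min ((36 * Real.pi) ^ ((1 : ℝ) / 3) * (min V (1 - V)) ^ ((2 : ℝ) / 3))
          (2 * Real.sqrt (Real.pi * min V (1 - V)))) 2) ↔
      ((V ≤ 1 / 2 ∧ IsStandardRegion V E) ∨ (1 / 2 < V ∧ IsStandardRegion (1 - V) Eᶜ)) := by
  exact Crest.Agent.R214.Model.S0333_of Crest.Agent.R214.lowerBound_final
    Crest.Agent.R214.equalityCases_final V hV hV' E hE hper hvol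

end Crest.Agent.S0333
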