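import Crest.Statements.S0382
import Crest.Agent.R248.FinC
import Crest.Agent.R248.FinD

set_option autoImplicit false
open CategoryTheory CategoryTheory.Limits Crest.GeometryTopology.Coherator
universe u
open Crest Crest.GeometryTopology

namespace Crest.Agent.S0382

/-- For every Grothendieck coherator C (a globular theory with a tower of free filler extensions in which every admissible pair, in the height-at-most-n+1 convention, has a filler), every choice e of unit operations, every cellular C-model X, every n and every map a from the n-disk to X: if a, the source-face map of disks, i : X ⟶ Y and b form a pushout square of models, then i is bijective on path components and on homotopy classes of loops at the iterated e-units of each 0-cell of X. -/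
theorem result
    (C : GlobTheory.{u}) (hC : C.IsCoheratorTheory) (e : C.UnitChoice)
    (X : C.GlobModel) (hX : X.IsCellularModel) (n : ℕ)
    (a : GlobTheory.GlobModel.diskModel C n ⟶ X)
    (Y : C.GlobModel) (i : X ⟶ Y) (b : GlobTheory.GlobModel.diskModel C (n + 1) ⟶ Y)
    (sq : IsPushout a (GlobTheory.GlobModel.sourceIncl C n) i b) :
    GlobTheory.GlobModel.IsWeakEquiv e i := by
  have hc : Crest.Agent.R248.Ctr C := hC.2
  obtain ⟨O⟩ := Crest.Agent.R248.exists_ops hc
  obtain ⟨r, hr, hb⟩ := Crest.Agent.R248.po_exists sq X (𝟙 X)
    (O.un X (Crest.Agent.R248.dcell a)) (O.fc_un X false _)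
  exact Crest.Agent.R248.weq e i r hr
    (fun m z hz => Crest.Agent.R248.key hC.1 hc O sq hX r hr hb m z hz)

end Crest.Agent.S0382
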