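import Crest.Statements.S0423
import Crest.Agent.H82Exp.Large
import Crest.Agent.H82Exp.Single

set_option autoImplicit false
open Crest Crest.AlgGeometry

namespace Crest.Agent.S0423

open MeasureTheory Set Filter Topology
open Crest.Agent.H82Exp

lemma perm2 {N : ℕ} (a : Fin N → ℝ) {i j : Fin N} (hij : i ≠ j) :
    ∃ R : List ℝ, ∀ a' : Fin N → ℝ, (∀ l, l ≠ i → l ≠ j → a' l = a l) →
      (List.ofFn a').Perm (a' i :: a' j :: R) := by
  classical
  set T : Finset (Fin N) := (Finset.univ.erase i).erase j with hT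
  refine ⟨T.toList.map a, fun a' ha' => ?_⟩
  have h1 : (List.finRange N).Perm (i :: j :: T.toList) := by
    rw [List.perm_ext_iff_of_nodup (List.nodup_finRange N)]
    · intro l
      simp [hT]
      tauto
    · refine List.nodup_cons.mpr ⟨?_, List.nodup_cons.mpr ⟨?_, T.nodup_toList⟩⟩
      · simp [hT, hij]
      · simp [hT]
  have h2 := h1.map a'
  rw [← List.ofFn_eq_map, List.map_cons, List.map_cons] at h2
  refine h2.trans ?_
  have h3 : T.toList.map a' = T.toList.map a := by
    apply List.map_congr_left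
    intro l hl
    simp [hT] at hl
    exact ha' l (by tauto) (by tauto)
  rw [h3]

lemma perm1 {N : ℕ} (a : Fin N → ℝ) (i : Fin N) (hneg : ∀ l, l ≠ i → a l ≤ 0) :
    ∃ R : List ℝ, (List.ofFn a).Perm (a i :: R) ∧ ∀ c ∈ R, c ≤ 0 := by
  classical
  set T : Finset (Fin N) := Finset.univ.erase i with hT
  refine ⟨T.toList.map a, ?_, ?_⟩
  · have h1 : (List.finRange N).Perm (i :: T.toList) := by
      rw [List.perm_ext_iff_of_nodup (List.nodup_finRange N)]
      · intro l
        simp [hT]
        tauto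
      · refine List.nodup_cons.mpr ⟨?_, T.nodup_toList⟩
        simp [hT]
    have h2 := h1.map a
    rwa [← List.ofFn_eq_map, List.map_cons] at h2
  · intro c hc
    rw [List.mem_map] at hc
    obtain ⟨l, hl, rfl⟩ := hc
    simp [hT] at hl
    exact hneg l hl

lemma right_limit {α β s : ℝ} {k : ℝ → ℝ} (hk : BM k) (hc : Continuous k)
    (h : ∀ᶠ ε in 𝓝[>] (0:ℝ), Eop (α + ε) (Eop (β - ε) k) s ≤ 0) :
    Eop α (Eop β k) s ≤ 0 := by
  have hcont : Continuous (fun ε : ℝ => Eop (α + ε) (Eop (β - ε) k) s) :=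
    (continuous_two hk hc s).comp (by fun_prop : Continuous fun ε : ℝ => (α + ε, β - ε))
  have hlim : Tendsto (fun ε : ℝ => Eop (α + ε) (Eop (β - ε) k) s) (𝓝[>] 0)
      (𝓝 (Eop (α + 0) (Eop (β - 0) k) s)) :=
    (hcont.tendsto 0).mono_left nhdsWithin_le_nhds
  rw [add_zero, sub_zero] at hlim
  exact le_of_tendsto hlim h

lemma left_limit {α β s : ℝ} {k : ℝ → ℝ} (hk : BM k) (hc : Continuous k)
    (h : ∀ᶠ ε in 𝓝[<] (0:ℝ), 0 ≤ Eop (α + ε) (Eop (β - ε) k) s) :
    0 ≤ Eop α (Eop β k) s := by
  have hcont : Continuous (fun ε : ℝ => Eop (α + ε) (Eop (β - ε) k) s) :=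
    (continuous_two hk hc s).comp (by fun_prop : Continuous fun ε : ℝ => (α + ε, β - ε))
  have hlim : Tendsto (fun ε : ℝ => Eop (α + ε) (Eop (β - ε) k) s) (𝓝[<] 0)
      (𝓝 (Eop (α + 0) (Eop (β - 0) k) s)) :=
    (hcont.tendsto 0).mono_left nhdsWithin_le_nhds
  rw [add_zero, sub_zero] at hlim
  exact ge_of_tendsto hlim h

theorem upper (N : ℕ) (a₀ : Fin N → ℝ) (ha₀ : ∑ i, a₀ i = 0) :
    EL (List.ofFn a₀) truncExpWeight (4 / 3) ≤ 1 - 4 / 9 * Real.exp (-(1 / 3)) := by
  by_contra hcon
  push Not at hcon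
  set F : (Fin N → ℝ) → ℝ := fun a => EL (List.ofFn a) truncExpWeight (4 / 3) with hF
  have hlarge : ∀ a : Fin N → ℝ, ∑ i, a i = 0 → 1 - 4 / 9 * Real.exp (-(1 / 3)) < F a →
      ∀ i, |a i| < 100 := by
    intro a ha hFa i
    by_contra h
    push Not at h
    have := large_bound (List.ofFn a) (by rw [List.sum_ofFn]; exact ha)
      (List.mem_ofFn.mpr ⟨i, rfl⟩) h
    simp only [hF] at hFa
    linarith
  set K : Set (Fin N → ℝ) := {a | (∀ i, |a i| ≤ 100) ∧ ∑ i, a i = 0} with hK
  have hKc : IsCompact K := by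
    have h1 : IsCompact (Set.pi Set.univ (fun _ : Fin N => Icc (-100:ℝ) 100)) :=
      isCompact_univ_pi (fun _ => isCompact_Icc)
    apply h1.of_isClosed_subset
    · apply IsClosed.inter
      · have : {a : Fin N → ℝ | ∀ i, |a i| ≤ 100} = ⋂ i, {a | |a i| ≤ 100} := by
          ext; simp
        rw [show (fun a : Fin N → ℝ => ∀ i, |a i| ≤ 100) = {a : Fin N → ℝ | ∀ i, |a i| ≤ 100} from rfl,
          this]
        exact isClosed_iInter fun i => isClosed_le (by fun_prop) continuous_const
      · exact isClosed_eq (by fun_prop) continuous_const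
    · intro a ha i _
      exact abs_le.mp (ha.1 i)
  have ha₀K : a₀ ∈ K := ⟨fun i => (hlarge a₀ ha₀ hcon i).le, ha₀⟩
  obtain ⟨a, haK, hmax⟩ := hKc.exists_isMaxOn ⟨a₀, ha₀K⟩
    (continuous_EL BM_g cont_g N (4/3)).continuousOn
  have hFa : 1 - 4 / 9 * Real.exp (-(1 / 3)) < F a := lt_of_lt_of_le hcon (hmax ha₀K)
  have hint := hlarge a haK.2 hFa
  set kk := EL (List.ofFn a) g2 with hkk
  have hBk : BM kk := BM_g2.list _
  -- facts when there is a positive coefficient
  have hpos_facts : ∀ i, 0 < a i → SC kk ∧ Continuous kk := by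
    intro i hi
    have hp := mem_perm (List.mem_ofFn.mpr ⟨i, rfl⟩ : a i ∈ List.ofFn a)
    have e : kk = EL ((List.ofFn a).erase (a i)) (Eop (a i) g2) := by
      rw [hkk, EL_perm BM_g2 hp, EL_append]; rfl
    rw [e]
    exact ⟨(SC_base hi).list (BM_g2.op _) _, continuous_list (BM_g2.op _) (cont_op_g2 hi.ne') _⟩
  -- local variation
  have hvar : ∀ i j, i ≠ j → ∀ᶠ ε in 𝓝 (0:ℝ),
      0 ≤ (-ε * (a i - a j + ε)) * Eop (a i + ε) (Eop (a j - ε) kk) (4 / 3) := by
    intro i j hij
    obtain ⟨R, hR⟩ := perm2 a hij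
    have hbi : ∀ᶠ ε in 𝓝 (0:ℝ), |a i + ε| < 100 := by
      have : Tendsto (fun ε : ℝ => |a i + ε|) (𝓝 0) (𝓝 |a i + 0|) := by
        apply Continuous.tendsto; fun_prop
      rw [add_zero] at this
      exact this.eventually_lt_const (hint i)
    have hbj : ∀ᶠ ε in 𝓝 (0:ℝ), |a j - ε| < 100 := by
      have : Tendsto (fun ε : ℝ => |a j - ε|) (𝓝 0) (𝓝 |a j - 0|) := by
        apply Continuous.tendsto; fun_prop
      rw [sub_zero] at this
      exact this.eventually_lt_const (hint j)
    filter_upwards [hbi, hbj] with ε h1 h2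
    set a' : Fin N → ℝ := Function.update (Function.update a i (a i + ε)) j (a j - ε) with ha'
    have hai : a' i = a i + ε := by simp [ha', Function.update_of_ne hij]
    have haj : a' j = a j - ε := by simp [ha']
    have hal : ∀ l, l ≠ i → l ≠ j → a' l = a l := by
      intro l hli hlj
      simp [ha', Function.update_of_ne hlj, Function.update_of_ne hli]
    have hp' := hR a' hal
    have hp := hR a (fun _ _ _ => rfl)
    have ha'K : a' ∈ K := by
      refine ⟨fun l => ?_, ?_⟩
      · by_cases hlj : l = j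
        · rw [hlj, haj]; exact h2.le
        · by_cases hli : l = i
          · rw [hli, hai]; exact h1.le
          · rw [hal l hli hlj]; exact (hint l).le
      · have e1 := hp'.sum_eq
        have e2 := hp.sum_eq
        rw [List.sum_ofFn] at e1 e2
        rw [e1, List.sum_cons, List.sum_cons, hai, haj]
        rw [List.sum_cons, List.sum_cons, haK.2] at e2
        linarith
    have hle : F a' ≤ F a := hmax ha'K
    simp only [hF] at hle
    rw [EL_perm BM_g hp', EL_perm BM_g hp, hai, haj] at hle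
    simp only [EL_cons] at hle
    have hsec := (der_g.list BM_g BM_g1 R).second (BM_g.list R) (BM_g1.list R) (BM_g2.list R)
      (der_g1.list BM_g1 BM_g2 R) (a i) (a j) (a i + ε) (a j - ε) (4/3) (by ring)
    have hk2 : Eop (a i) (Eop (a j) (Eop (a i + ε) (Eop (a j - ε) (EL R g2))))
        = Eop (a i + ε) (Eop (a j - ε) kk) := by
      have e : kk = Eop (a i) (Eop (a j) (EL R g2)) := by
        rw [hkk, EL_perm BM_g2 hp]; rfl
      rw [e]
      have B0 := BM_g2.list R
      rw [Eop_comm (B0.op _) (a j - ε) (a i), Eop_comm B0 (a j - ε) (a j),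
        Eop_comm ((B0.op _).op _) (a i + ε) (a i), Eop_comm (B0.op _) (a i + ε) (a j)]
    rw [hk2] at hsec
    have hco : (a i + ε) * (a j - ε) - a i * a j = -ε * (a i - a j + ε) := by ring
    rw [hco] at hsec
    rw [← hsec]
    linarith
  -- consequence of local maximality
  have hle0 : ∀ i j, i ≠ j → a j ≤ a i → Continuous kk →
      Eop (a i) (Eop (a j) kk) (4/3) ≤ 0 := by
    intro i j hij hji hc
    apply right_limit hBk hc
    have := (hvar i j hij).filter_mono (nhdsWithin_le_nhds (s := Ioi 0))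
    filter_upwards [this, self_mem_nhdsWithin] with ε h1 h2
    have h2' : 0 < ε := h2
    by_contra hneg
    push Not at hneg
    have : 0 < ε * (a i - a j + ε) := by
      apply mul_pos h2'; linarith
    nlinarith [mul_pos this hneg]
  have hge0 : ∀ i j, i ≠ j → a j < a i → Continuous kk →
      0 ≤ Eop (a i) (Eop (a j) kk) (4/3) := by
    intro i j hij hji hc
    apply left_limit hBk hc
    have h3 : ∀ᶠ ε in 𝓝[<] (0:ℝ), -(a i - a j) < ε := by
      apply Filter.Eventually.filter_mono nhdsWithin_le_nhds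
      exact eventually_gt_nhds (by linarith)
    have := (hvar i j hij).filter_mono (nhdsWithin_le_nhds (s := Iio 0))
    filter_upwards [this, self_mem_nhdsWithin, h3] with ε h1 h2 h4
    have h2' : ε < 0 := h2
    by_contra hneg
    push Not at hneg
    have : 0 < -ε * (a i - a j + ε) := by
      apply mul_pos (by linarith); linarith
    nlinarith [mul_pos this (neg_pos.mpr hneg)]
  by_cases hcase : ∃ i j, i ≠ j ∧ 0 < a i ∧ 0 < a j
  · obtain ⟨i, j, hij, hi, hj⟩ := hcase
    obtain ⟨hsc, hc⟩ := hpos_facts i hi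
    -- a negative coefficient
    have : ∃ l, a l < 0 := by
      by_contra h
      push Not at h
      have h1 := (Finset.sum_eq_zero_iff_of_nonneg (fun l _ => h l)).mp haK.2 i (Finset.mem_univ _)
      linarith
    obtain ⟨l, hl⟩ := this
    have hil : i ≠ l := by rintro rfl; linarith
    have h1 := hge0 i l hil (by linarith) hc
    have h1' := hle0 i l hil (by linarith) hc
    have h2 : Eop (a i) (Eop (a j) kk) (4/3) ≤ 0 := by
      rcases le_total (a j) (a i) with h | h
      · exact hle0 i j hij h hc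
      · rw [Eop_comm hBk]; exact hle0 j i hij.symm h hc
    exact key_contra (k0 := EL (List.ofFn a) g1) (BM_g1.list _) hBk
      (der_g1.list BM_g1 BM_g2 _) hsc (p1 := a i) (p2 := a j) (v := -a l) hj (by linarith)
      (by rw [neg_neg]; exact h1) (by rw [neg_neg]; exact h1') h2
  · push Not at hcase
    have hfin : F a ≤ 1 - 4 / 9 * Real.exp (-(1 / 3)) := by
      by_cases hp : ∃ i, 0 < a i
      · obtain ⟨i, hi⟩ := hp
        obtain ⟨R, hR1, hR2⟩ := perm1 a i (fun l hl => hcase i l hl.symm hi)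
        simp only [hF]
        rw [EL_perm BM_g hR1]
        apply single_bound hi.le R hR2
        have := hR1.sum_eq
        rw [List.sum_ofFn, haK.2, List.sum_cons] at this
        linarith
      · push Not at hp
        have := single_bound le_rfl (List.ofFn a) (fun c hc => by
          rw [List.mem_ofFn] at hc
          obtain ⟨i, rfl⟩ := hc
          exact hp i) (by rw [List.sum_ofFn, haK.2, add_zero])
        rw [EL_cons, Eop_zero] at this
        exact this
    linarith

lemma lower_quad (n : ℕ) (hn : 0 < n) (θ : ℝ) (hθ : 0 < θ) :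
    (1 - 4 / 9 * Real.exp (-(1 / 3))) - 1 / (4 * θ) - 4 * θ / n
      ≤ EL (2 :: List.replicate n (-2 / (n:ℝ))) truncExpWeight (4 / 3) := by
  rw [EL_cons, ← EL_comm BM_g]
  set k := Eop 2 truncExpWeight with hk
  have hkm : k (-(2/3)) = 1 - 4 / 9 * Real.exp (-(1 / 3)) := by
    rw [hk, op_g_nonpos (by norm_num) (by norm_num)]
    norm_num
  have hlip : ∀ y, k (-(2/3)) - |y + 2/3| ≤ k y := by
    intro y
    have hd := der_g.op BM_g BM_g1 2
    have h1 := hd (-(2/3)) y
    have h2 := intervalIntegral.norm_integral_le_of_norm_le_const (a := -(2/3)) (b := y)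
      (f := Eop 2 g1) (C := 1) (fun x _ => by
        have := EL_bound (C := 1) (k := g1) (fun y => abs_le.mpr ⟨g1_ge y, by linarith [g1_nonpos y]⟩)
          [2] x
        simpa using this)
    rw [← h1, Real.norm_eq_abs, one_mul] at h2
    have h3 := (abs_le.mp h2).1
    have e : y - -(2/3) = y + 2/3 := by ring
    rw [e] at h3
    linarith
  have hq := EL_quad (BM_g.op 2) (α := k (-(2/3)) - 1 / (4 * θ) - θ * (2/3) ^ 2)
    (β := 2 * θ * (-(2/3))) (γ := θ) (by
      intro y
      have h1 := hlip y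
      have h2 : |y + 2/3| ≤ θ * (y + 2/3) ^ 2 + 1 / (4 * θ) := by
        have h3 : 0 ≤ θ * (|y + 2/3| - 1 / (2 * θ)) ^ 2 := by positivity
        have e : θ * (|y + 2/3| - 1 / (2 * θ)) ^ 2
            = θ * |y + 2/3| ^ 2 - |y + 2/3| + 1 / (4 * θ) := by field_simp; ring
        rw [e, sq_abs] at h3
        linarith
      have e2 : k (-(2/3)) - 1 / (4 * θ) - θ * (2/3) ^ 2 + 2 * θ * (-(2/3)) * y - θ * y ^ 2
          = k (-(2/3)) - 1 / (4 * θ) - θ * (y + 2/3) ^ 2 := by ring
      rw [e2]
      linarith) (List.replicate n (-2 / (n:ℝ))) (4/3)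
  have hn' : (n:ℝ) ≠ 0 := by positivity
  have hs : (List.replicate n (-2 / (n:ℝ))).sum = -2 := by
    rw [List.sum_replicate, nsmul_eq_mul]; field_simp
  have hs2 : ((List.replicate n (-2 / (n:ℝ))).map (fun c : ℝ => c ^ 2)).sum = 4 / (n:ℝ) := by
    rw [List.map_replicate, List.sum_replicate, nsmul_eq_mul]; field_simp; ring
  rw [hs, hs2, hkm] at hq
  calc _ = _ := by field_simp; ring
    _ ≤ _ := hq

/-- For independent mean-one exponential random variables `X_1, …, X_N` (written as an integral over the positive orthant against the density `exp (-(x_1 + ⋯ + x_N))`), real coefficients `a_1, …, a_N` summing to zero, and the weight `g = truncExpWeight`, the quantity `(e^{4/3} / (4/3)) · E[g(4/3 + a_1 X_1 + ⋯ + a_N X_N)]` has supremum over all `N ≥ 1` and all such `a` exactly `(3/4) e^{4/3} − e/3`: it never exceeds this value, and comes within any `ε > 0` of it for some `N` and `a`. -/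
theorem result :
    (∀ (N : ℕ) (a : Fin N → ℝ), 1 ≤ N → ∑ i, a i = 0 →
      Real.exp (4 / 3) / (4 / 3) *
          ∫ x in Set.pi Set.univ (fun _ : Fin N => Set.Ioi (0 : ℝ)),
            Crest.AlgGeometry.truncExpWeight (4 / 3 + ∑ i, a i * x i) * Real.exp (-∑ i, x i)
        ≤ 3 / 4 * Real.exp (4 / 3) - Real.exp 1 / 3) ∧
    (∀ ε : ℝ, 0 < ε → ∃ (N : ℕ) (a : Fin N → ℝ), 1 ≤ N ∧ ∑ i, a i = 0 ∧
      3 / 4 * Real.exp (4 / 3) - Real.exp 1 / 3 - ε <
        Real.exp (4 / 3) / (4 / 3) *
          ∫ x in Set.pi Set.univ (fun _ : Fin N => Set.Ioi (0 : ℝ)),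
            Crest.AlgGeometry.truncExpWeight (4 / 3 + ∑ i, a i * x i) * Real.exp (-∑ i, x i)) := by
  have hconst : 3 / 4 * Real.exp (4 / 3) - Real.exp 1 / 3
      = Real.exp (4 / 3) / (4 / 3) * (1 - 4 / 9 * Real.exp (-(1 / 3))) := by
    have : Real.exp 1 = Real.exp (4/3) * Real.exp (-(1/3)) := by
      rw [← Real.exp_add]; norm_num
    rw [this]; ring
  have hE : 0 < Real.exp (4 / 3) / (4 / 3) := by positivity
  constructor
  · intro N a _ ha
    rw [rep_vol BM_g, hconst]
    exact mul_le_mul_of_nonneg_left (upper N a ha) hE.le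
  · intro ε hε
    set C := Real.exp (4 / 3) / (4 / 3) with hC
    -- choose θ and n
    set δ := ε / C with hδ
    have hδ0 : 0 < δ := div_pos hε hE
    set θ := 1 / δ with hθ
    have hθ0 : 0 < θ := by positivity
    obtain ⟨n, hn⟩ := exists_nat_gt (8 * θ / δ)
    have hn0 : (0:ℝ) < n := lt_trans (by positivity) hn
    have hn1 : 0 < n := by exact_mod_cast hn0
    refine ⟨n + 1, Fin.cons 2 (fun _ => -2 / (n:ℝ)), by omega, ?_, ?_⟩
    · rw [Fin.sum_univ_succ]
      simp only [Fin.cons_zero, Fin.cons_succ, Finset.sum_const, Finset.card_univ, Fintype.card_fin,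
        nsmul_eq_mul]
      field_simp
      ring
    · rw [rep_vol BM_g, hconst]
      have hlist : List.ofFn (Fin.cons 2 (fun _ => -2 / (n:ℝ)) : Fin (n+1) → ℝ)
          = 2 :: List.replicate n (-2 / (n:ℝ)) := by
        rw [List.ofFn_succ]
        simp
      rw [hlist]
      have h1 := lower_quad n hn1 θ hθ0
      have h2 : 1 / (4 * θ) = δ / 4 := by rw [hθ]; field_simp
      have h3 : 4 * θ / n < δ / 2 := by
        rw [div_lt_iff₀ hδ0] at hn
        rw [div_lt_iff₀ hn0]
        linarith
      have h4 : C * δ = ε := by rw [hδ]; field_simp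
      have h5 := mul_le_mul_of_nonneg_left h1 hE.le
      have h6 : C * (4 * θ / n) < C * (δ / 2) := mul_lt_mul_of_pos_left h3 hE
      rw [h2] at h5
      nlinarith

end Crest.Agent.S0423
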