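import Crest.Statements.S0435
import Crest.Agent.R290.HInst

set_option autoImplicit false
open Crest Crest.LogicCS

namespace Crest.Agent.S0435

/-- For some absolute constant c > 0 and threshold k₀ and every k ≥ k₀, in the joint and the separate convention alike: if a multi-stack machine, on every code of a pair of simple connected graphs of diameter at most two with equally many vertices, outputs whether the two are k-dimensional Weisfeiler-Leman equivalent, within a step bound depending on the input length (nothing is asked on other inputs), then for all large n that bound is at least n^(c·k) at the input length of such n-vertex pairs. -/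
theorem result :
    ∃ c : ℝ, 0 < c ∧ ∃ k₀ : ℕ, ∀ k ≥ k₀,
      (∀ (g : Crest.WLRefine.diamTwoPairCodes → Bool),
        (∀ x, x.1 ∈ Crest.WLRefine.jointEquivLang k ↔ g x = true) →
        ∀ M : Turing.TM2ComputableInTime (fun x : Crest.WLRefine.diamTwoPairCodes => x.1)
            Computability.encodeBool g,
          ∃ n₀ : ℕ, ∀ n ≥ n₀,
            (n : ℝ) ^ (c * k) ≤ M.time (2 * ((Crest.Enc.natCode n).length + n * n))) ∧
      (∀ (g : Crest.WLRefine.diamTwoPairCodes → Bool),
        (∀ x, x.1 ∈ Crest.WLRefine.sepEquivLang k ↔ g x = true) →
        ∀ M : Turing.TM2ComputableInTime (fun x : Crest.WLRefine.diamTwoPairCodes => x.1)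
            Computability.encodeBool g,
          ∃ n₀ : ℕ, ∀ n ≥ n₀,
            (n : ℝ) ^ (c * k) ≤ M.time (2 * ((Crest.Enc.natCode n).length + n * n))) :=
  Crest.Agent.R290.S0435_of Crest.Agent.R290.diagJ Crest.Agent.R290.diagS

end Crest.Agent.S0435
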