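import Crest.Statements.S0436
import Crest.Agent.R290.HardEXP
import Crest.Agent.R290.GMain

set_option autoImplicit false
open Crest Crest.LogicCS

namespace Crest.Agent.S0436

/-- Deciding, for k ≥ 2 in binary and two simple graphs given by adjacency matrices, whether they are k-dimensional Weisfeiler-Leman equivalent in the joint-update convention (equal colour histograms at every round) is EXPTIME-complete under polynomial-time many-one reductions, and so is its restriction to pairs of connected graphs of maximum degree at most three with equally many vertices. EXPTIME: some test decides membership within c·2^(N^k) + c steps on inputs of length N, for some k and c. -/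
theorem result :
    Crest.ExpTime.EXPComplete Crest.WLRefine.varDimEquivLang ∧
      Crest.ExpTime.EXPComplete Crest.WLRefine.subcubicVarDimEquivLang := by
  exact ⟨⟨Crest.Agent.R290G.varDim_inEXP, Crest.Agent.R290.hard_varDim⟩,
    ⟨Crest.Agent.R290G.subcubicVarDim_inEXP, Crest.Agent.R290.hard_subcubic⟩⟩

end Crest.Agent.S0436
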