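import Crest.Statements.S0437
import Crest.Agent.R290.HardEXP
import Crest.Agent.R290.GMain

set_option autoImplicit false
open Crest Crest.LogicCS

namespace Crest.Agent.S0437

/-- Deciding, for a positive integer k in binary and a simple graph with at least one vertex given by its adjacency matrix, whether some dimension k' with 1 ≤ k' ≤ k identifies the graph (every simple graph equivalent to it under k'-dimensional Weisfeiler-Leman refinement, ordinary colour refinement for k' = 1 and the joint-update convention for k' ≥ 2, is isomorphic to it), that is whether its Weisfeiler-Leman dimension is at most k, is EXPTIME-complete under polynomial-time many-one reductions. -/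
theorem result :
    Crest.ExpTime.EXPComplete Crest.WLRefine.wlDimLeLang := by
  exact ⟨Crest.Agent.R290G.wlDimLe_inEXP, Crest.Agent.R290.hard_wlDim⟩

end Crest.Agent.S0437
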