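import Crest.Statements.S0438
import Crest.Agent.R290.AFin
-- import your own Crest.Agent.* helpers here

set_option autoImplicit false
open Crest.WLRefine Crest.WLRefine.ParityLift
open Crest Crest.LogicCS

namespace Crest.Agent.S0438

open Crest.Agent.R290 Crest.Agent.R290.A in
theorem joint_part (k : ℕ) (hk : 4 ≤ k) (C : ChoiceSystem (k + 1)) :
      IsSimple (asMatrix (liftAdj C (lift0Parity (k + 1)))) ∧ IsSimple (asMatrix (liftAdj C (liftStarParity (k + 1)))) ∧
      Fintype.card (LiftV C (lift0Parity (k + 1))) = Fintype.card (LiftV C (liftStarParity (k + 1))) ∧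
      (∀ A : ℕ, 1 ≤ A → C.SizeAtMost A →
        Fintype.card (LiftV C (lift0Parity (k + 1))) ≤ A * orderFactor (k + 1)) ∧
      (JEquiv k (asMatrix (liftAdj C (lift0Parity (k + 1)))) (asMatrix (liftAdj C (liftStarParity (k + 1)))) ↔ ¬ C.Successful) ∧
      (PureJEquiv k (asMatrix (liftAdj C (lift0Parity (k + 1)))) (asMatrix (liftAdj C (liftStarParity (k + 1)))) ↔ ¬ C.Successful) ∧
      (C.Successful → (Finset.univ.val.map (jcolor (asMatrix (liftAdj C (lift0Parity (k + 1)))) k 2)) ≠
          Finset.univ.val.map (jcolor (asMatrix (liftAdj C (liftStarParity (k + 1)))) k 2) ∧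
        ¬ PureJHistEq k 2 (asMatrix (liftAdj C (lift0Parity (k + 1)))) (asMatrix (liftAdj C (liftStarParity (k + 1))))) := by
  refine ⟨AE.isSimple_lift C _, AE.isSimple_lift C _, AE.card_lift_eq (by omega) C _ _,
    fun A _ hA => AE.card_lift_le (by omega) C _ A hA, ?_, ?_, ?_⟩
  · constructor
    · intro h hC
      exact joint_hist_ne hk C hC (h 2)
    · intro hC
      rw [jEquiv_asMatrix, jeq_iff_seq_succ (by omega)]
      exact seq_lift (by omega) C hC
  · constructor
    · intro h hC
      exact joint_pure_ne hk C hC (h 2)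
    · intro hC
      apply pureJEquiv_asMatrix_of_jeq
      rw [jeq_iff_seq_succ (by omega)]
      exact seq_lift (by omega) C hC
  · intro hC
    exact ⟨joint_hist_ne hk C hC, joint_pure_ne hk C hC⟩

open Crest.Agent.R290 Crest.Agent.R290.A in
theorem sep_part (k : ℕ) (hk : 4 ≤ k) (C : ChoiceSystem k) :
      IsSimple (asMatrix (liftAdj C (lift0Parity k))) ∧ IsSimple (asMatrix (liftAdj C (liftStarParity k))) ∧
      Fintype.card (LiftV C (lift0Parity k)) = Fintype.card (LiftV C (liftStarParity k)) ∧
      (∀ A : ℕ, 1 ≤ A → C.SizeAtMost A →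
        Fintype.card (LiftV C (lift0Parity k)) ≤ A * orderFactor k) ∧
      (SEquiv k (asMatrix (liftAdj C (lift0Parity k))) (asMatrix (liftAdj C (liftStarParity k))) ↔ ¬ C.Successful) ∧
      (PureSEquiv k (asMatrix (liftAdj C (lift0Parity k))) (asMatrix (liftAdj C (liftStarParity k))) ↔ ¬ C.Successful) ∧
      (C.Successful → (Finset.univ.val.map (scolor (asMatrix (liftAdj C (lift0Parity k))) k 1)) ≠
          Finset.univ.val.map (scolor (asMatrix (liftAdj C (liftStarParity k))) k 1) ∧
        ¬ PureSHistEq k 1 (asMatrix (liftAdj C (lift0Parity k))) (asMatrix (liftAdj C (liftStarParity k)))) := by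
  refine ⟨AE.isSimple_lift C _, AE.isSimple_lift C _, AE.card_lift_eq (by omega) C _ _,
    fun A _ hA => AE.card_lift_le (by omega) C _ A hA, ?_, ?_, ?_⟩
  · constructor
    · intro h hC
      exact sep_hist_ne hk C hC (h 1)
    · intro hC
      rw [sEquiv_asMatrix]
      exact seq_lift (by omega) C hC
  · constructor
    · intro h hC
      exact sep_pure_ne hk C hC (h 1)
    · intro hC
      exact pureSEquiv_asMatrix_of_seq (seq_lift (by omega) C hC)
  · intro hC
    exact ⟨sep_hist_ne hk C hC, sep_pure_ne hk C hC⟩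

/-- Fix k ≥ 4; t = k+1 (joint updates) or k (separate). For every choice system on t domains the two parity lifts of its base graph (parities all even, versus odd at main type 0) are simple with equally many vertices — ≤ A·(t·2^(t−2+3·C(t−1,2)) + 12·C(t,3)) if domains and label sets have size ≤ A —, and are k-dimensionally equivalent, also by pure tuples in the disjoint union, exactly when no successful choice exists; a successful one shows at round 2 joint (1 separate) in both comparisons. -/
theorem result (k : ℕ) (hk : 4 ≤ k) :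
    (∀ C : ChoiceSystem (k + 1),
      IsSimple (asMatrix (liftAdj C (lift0Parity (k + 1)))) ∧ IsSimple (asMatrix (liftAdj C (liftStarParity (k + 1)))) ∧
      Fintype.card (LiftV C (lift0Parity (k + 1))) = Fintype.card (LiftV C (liftStarParity (k + 1))) ∧
      (∀ A : ℕ, 1 ≤ A → C.SizeAtMost A →
        Fintype.card (LiftV C (lift0Parity (k + 1))) ≤ A * orderFactor (k + 1)) ∧
      (JEquiv k (asMatrix (liftAdj C (lift0Parity (k + 1)))) (asMatrix (liftAdj C (liftStarParity (k + 1)))) ↔ ¬ C.Successful) ∧
      (PureJEquiv k (asMatrix (liftAdj C (lift0Parity (k + 1)))) (asMatrix (liftAdj C (liftStarParity (k + 1)))) ↔ ¬ C.Successful) ∧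
      (C.Successful → (Finset.univ.val.map (jcolor (asMatrix (liftAdj C (lift0Parity (k + 1)))) k 2)) ≠
          Finset.univ.val.map (jcolor (asMatrix (liftAdj C (liftStarParity (k + 1)))) k 2) ∧
        ¬ PureJHistEq k 2 (asMatrix (liftAdj C (lift0Parity (k + 1)))) (asMatrix (liftAdj C (liftStarParity (k + 1)))))) ∧
    (∀ C : ChoiceSystem k,
      IsSimple (asMatrix (liftAdj C (lift0Parity k))) ∧ IsSimple (asMatrix (liftAdj C (liftStarParity k))) ∧
      Fintype.card (LiftV C (lift0Parity k)) = Fintype.card (LiftV C (liftStarParity k)) ∧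
      (∀ A : ℕ, 1 ≤ A → C.SizeAtMost A →
        Fintype.card (LiftV C (lift0Parity k)) ≤ A * orderFactor k) ∧
      (SEquiv k (asMatrix (liftAdj C (lift0Parity k))) (asMatrix (liftAdj C (liftStarParity k))) ↔ ¬ C.Successful) ∧
      (PureSEquiv k (asMatrix (liftAdj C (lift0Parity k))) (asMatrix (liftAdj C (liftStarParity k))) ↔ ¬ C.Successful) ∧
      (C.Successful → (Finset.univ.val.map (scolor (asMatrix (liftAdj C (lift0Parity k))) k 1)) ≠
          Finset.univ.val.map (scolor (asMatrix (liftAdj C (liftStarParity k))) k 1) ∧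
        ¬ PureSHistEq k 1 (asMatrix (liftAdj C (lift0Parity k))) (asMatrix (liftAdj C (liftStarParity k))))) :=
  ⟨fun C => joint_part k hk C, fun C => sep_part k hk C⟩

end Crest.Agent.S0438
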