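import Crest.Statements.S0453
import Crest.Agent.R299.Main
import Crest.Agent.R299.Link
import Crest.Agent.R299.TV

set_option autoImplicit false
open Finset
open Crest Crest.LogicCS

namespace Crest.Agent.S0453

/-- For every n ≥ 4 and every labeled degree vector on n vertices with a simple realization: the lazy switch chain (hold with probability 1/2, else take a uniform four-vertex set and a uniform ordered pair of distinct perfect matchings on it, swapping the first for the second when the first is present and the second absent) is, from every realization, within total variation 1/4 of uniform on the realizations after some t ≤ 2n^8 steps; and Var(f) ≤ 24 n² C(n,4) ⟨f, (I − P) f⟩ for the uniform law. -/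
theorem result (n : ℕ) (hn : 4 ≤ n)
    (d : Fin n → ℕ) (hd : (Crest.SwitchChain.realizations d).Nonempty) :
    (∃ t : ℕ, t ≤ 2 * n ^ 8 ∧ ∀ G ∈ Crest.SwitchChain.realizations d,
        Crest.SwitchChain.tvDist (fun G' => (Crest.SwitchChain.kernel n ^ t) G G')
          (Crest.SwitchChain.unifOn (Crest.SwitchChain.realizations d)) ≤ 1 / 4) ∧
      ∀ f : Finset (Crest.SwitchChain.Edge n) → ℝ,
        ((Crest.SwitchChain.realizations d).card : ℝ) *
              (∑ G ∈ Crest.SwitchChain.realizations d, f G ^ 2) -
            (∑ G ∈ Crest.SwitchChain.realizations d, f G) ^ 2 ≤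
          24 * (n : ℝ) ^ 2 * (n.choose 4 : ℝ) * (Crest.SwitchChain.realizations d).card *
            ∑ G ∈ Crest.SwitchChain.realizations d,
              f G * (f G - ∑ G' ∈ Crest.SwitchChain.realizations d,
                Crest.SwitchChain.kernel n G G' * f G') := by
  have hP := Crest.Agent.R299.Link.poincare_of_gap n hn d
    (fun f hf => Crest.Agent.R299.main_gap f (fun G => by convert hf G))
  exact ⟨Crest.Agent.R299.tv_of_poincare n hn d hP, hP⟩

end Crest.Agent.S0453
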