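import Crest.Statements.S0499
import Crest.Agent.StreamLB.Final

set_option autoImplicit false
set_option maxHeartbeats 4000000
open Crest Crest.LogicCS

namespace Crest.Agent.S0499

open Crest.Agent.StreamLB in
/-- The main numerical regime. -/
theorem mid_regime (A0 K Γ X a' : ℕ) (hX : X = 80 * (A0 + 2)) (ha' : a' = 2 * (X + 40))
    (hΓ : Γ = 12 + a' + 80 * X) (hK : 1 ≤ K) (d : ℕ) (hd : 160 ≤ d)
    (hpoly : 8 * K * (K + 9) * d ^ 2 ≤ 2 ^ (d / 40)) (M T : ℕ) (hM : M ≤ A0 * d ^ 2)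
    (ε : ℝ) (hε0 : 0 < ε) (hε1 : ε ≤ 1 / 10) (L : Crest.StreamLearn.RLearner d T M)
    (hT : (T : ℝ) < 1 / (1000 * Γ * K) * d * Real.log (1 / ε))
    (hT1 : (3 / 10 : ℝ) * d < T) (hΛ : Real.log (1 / ε) ≤ K * d) : L.successProb ε ≤ 1 / 2 := by
  obtain ⟨Λ, hΛdef⟩ : ∃ Λ, Λ = Real.log (1 / ε) := ⟨_, rfl⟩
  rw [← hΛdef] at hT hΛ
  obtain ⟨c, hc⟩ : ∃ c : ℝ, c = 1 / (1000 * Γ * K) := ⟨_, rfl⟩
  rw [← hc] at hT
  have hΓ1 : 1 ≤ Γ := by omega
  have hΓr : (1 : ℝ) ≤ Γ := by exact_mod_cast hΓ1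
  have hKr : (1 : ℝ) ≤ K := by exact_mod_cast hK
  have hdr : (160 : ℝ) ≤ d := by exact_mod_cast hd
  have hGK : (1 : ℝ) ≤ Γ * K := by nlinarith
  have hcpos : 0 < c := by rw [hc]; positivity
  have hcGK : c * (1000 * (Γ * K)) = 1 := by rw [hc]; field_simp
  -- lower bound for Λ
  have hΛ1 : 300 * (Γ * K) < Λ := by
    have h1 : (3 / 10 : ℝ) * d < c * d * Λ := hT1.trans hT
    have h2 : (3 / 10 : ℝ) < c * Λ := by
      by_contra hcon
      push Not at hcon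
      nlinarith
    have h3 : 300 * (Γ * K : ℝ) * 1 < 1000 * (Γ * K) * (c * Λ) := by nlinarith
    have h4 : 1000 * (Γ * K) * (c * Λ) = Λ := by
      calc 1000 * (Γ * K) * (c * Λ) = (c * (1000 * (Γ * K))) * Λ := by ring
        _ = Λ := by rw [hcGK, one_mul]
    linarith
  have hΛ300 : 300 < Λ := by nlinarith
  -- parameters
  obtain ⟨q, hq⟩ : ∃ q, q = d / 40 := ⟨_, rfl⟩
  rw [← hq] at hpoly
  have hq4 : 4 ≤ q := by omega
  have hqd : 40 * q ≤ d := by omega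
  have hdq : d ≤ 80 * q := by omega
  have hdqr : (d : ℝ) ≤ 80 * q := by exact_mod_cast hdq
  obtain ⟨e, he⟩ : ∃ e, e = d - 1 - 3 * q := ⟨_, rfl⟩
  have he1 : 3 * q + e + 1 = d := by omega
  have he2 : d ≤ 2 * e := by omega
  obtain ⟨N, hN⟩ : ∃ N, N = T / q + 1 := ⟨_, rfl⟩
  have hTN : T ≤ N * q := by
    have := Nat.lt_div_mul_add (a := T) (b := q) (by omega)
    rw [hN]; nlinarith
  have hNq : (N : ℝ) ≤ T / q + 1 := by
    rw [hN]; push_cast
    have := @Nat.cast_div_le ℝ _ _ _ T q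
    linarith
  have hqr : (0 : ℝ) < q := by
    have : (4 : ℝ) ≤ q := by exact_mod_cast hq4
    linarith
  have hTpos : (0 : ℝ) < T := by nlinarith
  have hdpos : (0 : ℝ) < d := by linarith
  have hNΛ : (N : ℝ) ≤ 84 * (c * Λ) := by
    have h1 : (T : ℝ) / q ≤ 80 * (T / d) := by
      rw [div_le_iff₀ hqr]
      have : 80 * ((T : ℝ) / d) * q = T * (80 * q) / d := by ring
      rw [this, le_div_iff₀ hdpos]
      nlinarith
    have h2 : (1 : ℝ) ≤ 4 * (T / d) := by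
      have : (3 / 10 : ℝ) < T / d := by rw [lt_div_iff₀ hdpos]; exact hT1
      linarith
    have h3 : (T : ℝ) / d < c * Λ := by
      rw [div_lt_iff₀ hdpos]
      linarith
    linarith
  have hJr : (N : ℝ) * Γ ≤ Λ / 10 := by
    have h1 : (N : ℝ) * Γ ≤ 84 * (c * Λ) * Γ := by nlinarith
    have h2 : 84 * (c * Λ) * Γ ≤ 84 * Λ / 1000 := by
      have h3 : c * Γ ≤ 1 / 1000 := by
        have : c * Γ * K * 1000 = 1 := by linarith [hcGK]
        have h4 : c * Γ ≤ c * Γ * K := by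
          have h5 : 0 ≤ c * Γ := by positivity
          exact le_mul_of_one_le_right h5 hKr
        linarith
      have : 84 * (c * Λ) * Γ = 84 * Λ * (c * Γ) := by ring
      rw [this]
      nlinarith
    nlinarith
  have hΛpos : 0 < Λ := by linarith
  have hNΛ2 : (N : ℝ) ≤ Λ := by
    have : (N : ℝ) * 1 ≤ N * Γ := by gcongr
    linarith
  have hNK : N ≤ K * d := by
    have : (N : ℝ) ≤ K * d := hNΛ2.trans hΛ
    exact_mod_cast this
  have hJK : N * Γ ≤ K * d := by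
    have : ((N * Γ : ℕ) : ℝ) ≤ ((K * d : ℕ) : ℝ) := by push_cast; linarith
    exact_mod_cast this
  have hTd : (T : ℝ) < d ^ 2 := by
    calc (T : ℝ) < c * d * Λ := hT
      _ ≤ c * d * (K * d) := by gcongr
      _ = (c * K) * d ^ 2 := by ring
      _ ≤ 1 * d ^ 2 := by
          gcongr
          have : c * Γ * K * 1000 = 1 := by linarith [hcGK]
          have h4 : c * K ≤ c * K * Γ := by
            have h5 : 0 ≤ c * K := by positivity
            exact le_mul_of_one_le_right h5 hΓr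
          have h6 : c * K * Γ = c * Γ * K := by ring
          linarith
      _ = d ^ 2 := one_mul _
  have hTd' : T < d ^ 2 := by exact_mod_cast hTd
  refine regime2 (by omega) L (N := N) (q := q) (e := e) (x := X * d) (w := A0 * d ^ 2 + 2 * d)
    (ℓ := 10 * q + q * a' + X * d + 2) (a' := a') (i0 := 24) (J := N * Γ) he1 (by omega) (by omega)
    hTN ?_ (by omega) ?_ ?_ ?_ ε hε0 hε1 ?_ ?_ ?_
  · -- number of states
    have h1 : 2 ^ M ≤ 2 ^ (A0 * d ^ 2) := Nat.pow_le_pow_right (by norm_num) hM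
    have h2 : d + 1 ≤ 2 ^ d := Nat.lt_two_pow_self
    have h3 : T + 2 ≤ 2 ^ (2 * d) := by
      have h4 : (d + 1) ^ 2 ≤ (2 ^ d) ^ 2 := Nat.pow_le_pow_left h2 2
      rw [← pow_mul, mul_comm d 2] at h4
      nlinarith
    calc 2 ^ M * (T + 2) ≤ 2 ^ (A0 * d ^ 2) * 2 ^ (2 * d) := Nat.mul_le_mul h1 h3
      _ = 2 ^ (A0 * d ^ 2 + 2 * d) := by rw [pow_add]
  · have h1 : d * (X + 40) ≤ (2 * e) * (X + 40) := Nat.mul_le_mul_right _ he2
    have h2 : e * a' = (2 * e) * (X + 40) := by rw [ha']; ring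
    rw [h2]
    nlinarith
  · have h1 : d * d ≤ (80 * q) * d := Nat.mul_le_mul_right _ hdq
    have h2 : X * d * q = (A0 + 2) * ((80 * q) * d) := by rw [hX]; ring
    rw [h2]
    have h3 : (A0 + 2) * (d * d) ≤ (A0 + 2) * ((80 * q) * d) := Nat.mul_le_mul_left _ h1
    nlinarith
  · -- potential
    have h1 : 10 * q + q * a' + X * d + 2 + 1 + q ≤ q * Γ := by
      have h2 : X * d ≤ X * (80 * q) := Nat.mul_le_mul_left _ hdq
      rw [hΓ]; nlinarith
    calc N * (10 * q + q * a' + X * d + 2 + 1 + q) ≤ N * (q * Γ) := Nat.mul_le_mul_left _ h1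
      _ = q * (N * Γ) := by ring
      _ < q * (N * Γ + 1) := by nlinarith
  · -- accuracy
    have h1 : ((N * Γ + 24 : ℕ) : ℝ) ≤ Λ := by push_cast; linarith
    have h2 : Real.exp ((N * Γ + 24 : ℕ) : ℝ) ≤ 1 / ε := by
      rw [← Real.exp_log (show (0 : ℝ) < 1 / ε by positivity), ← hΛdef]
      exact Real.exp_le_exp.mpr h1
    have h3 : (2 : ℝ) ^ (N * Γ + 24) ≤ Real.exp ((N * Γ + 24 : ℕ) : ℝ) := by
      have : Real.exp ((N * Γ + 24 : ℕ) : ℝ) = (Real.exp 1) ^ (N * Γ + 24) := by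
        rw [← Real.exp_nat_mul]; congr 1; ring
      rw [this]
      apply pow_le_pow_left₀ (by norm_num)
      have := Real.add_one_le_exp (1 : ℝ)
      linarith
    have h4 : (2 : ℝ) ^ (N * Γ + 24) ≤ 1 / ε := h3.trans h2
    have h5 : ε ≤ (1 / 2) ^ (N * Γ + 24) := by
      rw [one_div_pow]
      rw [le_div_iff₀ (by positivity)]
      rw [le_div_iff₀ hε0] at h4
      linarith
    have h6 : (0 : ℝ) < (1 / 2) ^ (N * Γ + 24) := by positivity
    linarith
  · omega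
  · -- losses
    calc N * (N * Γ + 9) * 8 ≤ (K * d) * (K * d + 9) * 8 := by gcongr
      _ ≤ (K * d) * (K * d + 9 * d) * 8 := by gcongr; omega
      _ = 8 * K * (K + 9) * d ^ 2 := by ring
      _ ≤ 2 ^ q := hpoly

open Crest.Agent.StreamLB in
/-- The regime of extremely small accuracy. -/
theorem tiny_regime (A0 K : ℕ) (hK : K = 2 * A0 + 8) (d : ℕ) (hd : 160 ≤ d)
    (M T : ℕ) (hM : M ≤ A0 * d ^ 2) (c : ℝ) (hc0 : 0 < c) (hc1 : c ≤ 1 / 1000)
    (ε : ℝ) (hε0 : 0 < ε) (hε1 : ε ≤ 1 / 10) (L : Crest.StreamLearn.RLearner d T M)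
    (hT : (T : ℝ) < c * d * Real.log (1 / ε))
    (hΛ : K * d < Real.log (1 / ε)) : L.successProb ε ≤ 1 / 2 := by
  refine (regime3 (by omega) L ε hε0 hε1).trans ?_
  have hdr : (160 : ℝ) ≤ d := by exact_mod_cast hd
  obtain ⟨d', hD⟩ : ∃ d', d = d' + 2 := ⟨d - 2, by omega⟩
  have hinv : (10 : ℝ) ≤ 1 / ε := by
    rw [le_div_iff₀ hε0]; linarith
  have hlog : Real.log (1 / ε) ≤ 1 / ε := by
    have := Real.log_le_sub_one_of_pos (show (0 : ℝ) < 1 / ε by positivity)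
    linarith
  have hlogpos : 0 < Real.log (1 / ε) := Real.log_pos (by linarith)
  have hdpos : (0 : ℝ) < d := by linarith
  -- (T+2) ε ≤ d
  have h1 : ((T : ℝ) + 2) * ε ≤ d := by
    have h2 : (T : ℝ) ≤ 1 / 1000 * d * (1 / ε) := by
      calc (T : ℝ) ≤ c * d * Real.log (1 / ε) := hT.le
        _ ≤ 1 / 1000 * d * (1 / ε) := by gcongr
    have h3 : (1 / ε) * ε = 1 := by field_simp
    have h4 : (T : ℝ) * ε ≤ 1 / 1000 * d := by
      calc (T : ℝ) * ε ≤ 1 / 1000 * d * (1 / ε) * ε := by gcongr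
        _ = 1 / 1000 * d * ((1 / ε) * ε) := by ring
        _ = 1 / 1000 * d := by rw [h3, mul_one]
    nlinarith
  have h2 : (1 / ε + 1) * ε ≤ 2 := by
    have : (1 / ε + 1) * ε = 1 + ε := by field_simp
    rw [this]; linarith
  -- ε ≤ 2^{-K d}
  have h3 : ε ≤ (1 / 2) ^ (K * d) := by
    have h4 : (2 : ℝ) ^ (K * d) ≤ 1 / ε := by
      calc (2 : ℝ) ^ (K * d) ≤ (Real.exp 1) ^ (K * d) := by
            apply pow_le_pow_left₀ (by norm_num)
            have := Real.add_one_le_exp (1 : ℝ)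
            linarith
        _ = Real.exp ((K * d : ℕ) : ℝ) := by
            rw [← Real.exp_nat_mul]; congr 1; ring
        _ ≤ Real.exp (Real.log (1 / ε)) := by
            apply Real.exp_le_exp.mpr
            push_cast; exact hΛ.le
        _ = 1 / ε := Real.exp_log (by positivity)
    rw [one_div_pow, le_div_iff₀ (by positivity)]
    rw [le_div_iff₀ hε0] at h4
    linarith
  have h4 : ε ^ d' ≤ ((1 / 2) ^ (K * d)) ^ d' := pow_le_pow_left₀ hε0.le h3 d'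
  have h5 : (d : ℝ) ≤ 2 ^ d := by
    exact_mod_cast (Nat.lt_two_pow_self (n := d)).le
  have h6 : (2 : ℝ) ^ M ≤ 2 ^ (A0 * d ^ 2) := pow_le_pow_right₀ (by norm_num) hM
  have hexp : A0 * d ^ 2 + 2 * d + 2 ≤ K * d * d' := by
    rw [hK]
    have h7 : d ≤ 2 * d' := by omega
    have h8 : d * d ≤ d * (2 * d') := Nat.mul_le_mul_left _ h7
    have h9 : (A0 + 4) * (d * d) ≤ (A0 + 4) * (d * (2 * d')) := Nat.mul_le_mul_left _ h8
    have h10 : (2 * A0 + 8) * d * d' = (A0 + 4) * (d * (2 * d')) := by ring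
    rw [h10]
    nlinarith
  calc ((T : ℝ) + 2) * 2 ^ M * ((1 / ε + 1) * (2 * ε) ^ d)
      = (((T : ℝ) + 2) * ε) * ((1 / ε + 1) * ε) * (2 ^ M * 2 ^ d * ε ^ d') := by
        rw [hD, mul_pow, pow_add ε]; ring
    _ ≤ d * 2 * (2 ^ (A0 * d ^ 2) * 2 ^ d * ((1 / 2) ^ (K * d)) ^ d') := by
        gcongr
    _ ≤ 2 ^ d * 2 * (2 ^ (A0 * d ^ 2) * 2 ^ d * ((1 / 2) ^ (K * d)) ^ d') := by gcongr
    _ = 2 ^ (A0 * d ^ 2 + 2 * d + 1) * (1 / 2) ^ (K * d * d') := by
        rw [← pow_mul, pow_add, pow_add]; ring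
    _ ≤ 2 ^ (A0 * d ^ 2 + 2 * d + 1) * (1 / 2) ^ (A0 * d ^ 2 + 2 * d + 2) := by
        gcongr 2 ^ (A0 * d ^ 2 + 2 * d + 1) * ?_
        exact pow_le_pow_of_le_one (by norm_num) (by norm_num) hexp
    _ = 1 / 2 := by
        rw [show A0 * d ^ 2 + 2 * d + 2 = (A0 * d ^ 2 + 2 * d + 1) + 1 by ring, pow_succ (1 / 2 : ℝ),
          ← mul_assoc, ← mul_pow]
        norm_num

/-- For each A > 0 there are c > 0 and d₀ such that for all d ≥ d₀, naturals M ≤ A·d² and T, and 0 < ε ≤ 1/10: if a randomized one-pass learner with at most 2^M states (own seed independent of the data; transitions read one pair (x_t, ⟪x_t, s⟫) at a time; optional early stopping; unit-vector output from stopping index, seed and final state), fed T independent standard Gaussian samples in ℝ^d with s uniform on the sphere, is within angle ε of s with probability ≥ 2/3, then T ≥ c·d·log(1/ε). -/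
theorem result :
    ∀ A : ℝ, 0 < A → ∃ c : ℝ, 0 < c ∧ ∃ d₀ : ℕ, ∀ d ≥ d₀, ∀ (M T : ℕ),
      (M : ℝ) ≤ A * (d : ℝ) ^ 2 → ∀ ε : ℝ, 0 < ε → ε ≤ 1 / 10 →
        ∀ L : Crest.StreamLearn.RLearner d T M,
          2 / 3 ≤ L.successProb ε → c * d * Real.log (1 / ε) ≤ T := by
  intro A hA
  obtain ⟨A0, hAA0⟩ : ∃ A0 : ℕ, A ≤ A0 := ⟨⌈A⌉₊, Nat.le_ceil A⟩
  obtain ⟨K, hK⟩ : ∃ K : ℕ, K = 2 * A0 + 8 := ⟨_, rfl⟩
  obtain ⟨X, hX⟩ : ∃ X : ℕ, X = 80 * (A0 + 2) := ⟨_, rfl⟩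
  obtain ⟨a', ha'⟩ : ∃ a' : ℕ, a' = 2 * (X + 40) := ⟨_, rfl⟩
  obtain ⟨Γ, hΓ⟩ : ∃ Γ : ℕ, Γ = 12 + a' + 80 * X := ⟨_, rfl⟩
  have hΓ1 : (1 : ℝ) ≤ Γ := by
    have : 1 ≤ Γ := by omega
    exact_mod_cast this
  have hK1 : (1 : ℝ) ≤ K := by
    have : 1 ≤ K := by omega
    exact_mod_cast this
  have hGK : (1 : ℝ) ≤ Γ * K := by nlinarith
  obtain ⟨d₀, hd₀, hpoly⟩ := Crest.Agent.StreamLB.poly_le (8 * K * (K + 9))
  refine ⟨1 / (1000 * Γ * K), by positivity, d₀, ?_⟩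
  intro d hd M T hM ε hε0 hε1 L hsucc
  by_contra hcon
  push Not at hcon
  have hd160 : 160 ≤ d := le_trans hd₀ hd
  have hM' : M ≤ A0 * d ^ 2 := by
    have : (M : ℝ) ≤ A0 * d ^ 2 := hM.trans (by gcongr)
    exact_mod_cast this
  by_cases h1 : (T : ℝ) ≤ 3 / 10 * d
  · have := Crest.Agent.StreamLB.regime1 (by omega) L ε hε0 hε1 h1
    linarith
  · push Not at h1
    by_cases h2 : Real.log (1 / ε) ≤ K * d
    · have := mid_regime A0 K Γ X a' hX ha' hΓ (by omega) d hd160 (hpoly d hd) M T hM' ε hε0 hε1 L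
        hcon h1 h2
      linarith
    · push Not at h2
      have := tiny_regime A0 K hK d hd160 M T hM' (1 / (1000 * Γ * K)) (by positivity) (by
        apply one_div_le_one_div_of_le (by norm_num)
        nlinarith) ε hε0 hε1 L hcon h2
      linarith

end Crest.Agent.S0499
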