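import Crest.Statements.S0535
import Crest.Agent.GAD.Parts

set_option autoImplicit false
open Crest.Quantum Crest.MathPhysics.AmpDamp
open Crest Crest.MathPhysics

namespace Crest.Agent.S0535

/-- Tensor the generalized amplitude-damping qubit channel (parameters in `[0, 1]`) with any channel `Ψ` between nonzero finite-dimensional systems (linear, completely positive, trace preserving): Holevo capacity and minimum output entropy (nats) are additive: each ensemble for the product map is matched, up to any `ε > 0`, by ensembles for the two factors whose Holevo informations add up to at least as much, and conversely; likewise, reversed, for output entropies of single states. -/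
theorem result (γ ν : ℝ)
    (hγ : γ ∈ Set.Icc (0 : ℝ) 1) (hν : ν ∈ Set.Icc (0 : ℝ) 1)
    (d e : Type) [Fintype d] [Fintype e] [DecidableEq d] [DecidableEq e] [Nonempty d] [Nonempty e]
    (Ψ : Matrix d d ℂ → Matrix e e ℂ) (hΨ : IsChannel Ψ) :
    (∀ (m : ℕ) (q : Fin m → ℝ) (ρ : Fin m → Matrix (Bool × d) (Bool × d) ℂ), IsEnsemble q ρ →
      ∀ ε > (0 : ℝ), ∃ (m₁ : ℕ) (q₁ : Fin m₁ → ℝ) (ρ₁ : Fin m₁ → Matrix Bool Bool ℂ)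
        (m₂ : ℕ) (q₂ : Fin m₂ → ℝ) (ρ₂ : Fin m₂ → Matrix d d ℂ),
        IsEnsemble q₁ ρ₁ ∧ IsEnsemble q₂ ρ₂ ∧
          holevoInfo (qubitTensor (gadMap γ ν) Ψ) q ρ ≤
            holevoInfo (gadMap γ ν) q₁ ρ₁ + holevoInfo Ψ q₂ ρ₂ + ε) ∧
    (∀ (m₁ : ℕ) (q₁ : Fin m₁ → ℝ) (ρ₁ : Fin m₁ → Matrix Bool Bool ℂ)
      (m₂ : ℕ) (q₂ : Fin m₂ → ℝ) (ρ₂ : Fin m₂ → Matrix d d ℂ), IsEnsemble q₁ ρ₁ → IsEnsemble q₂ ρ₂ →
      ∃ (m : ℕ) (q : Fin m → ℝ) (ρ : Fin m → Matrix (Bool × d) (Bool × d) ℂ), IsEnsemble q ρ ∧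
        holevoInfo (gadMap γ ν) q₁ ρ₁ + holevoInfo Ψ q₂ ρ₂ ≤
          holevoInfo (qubitTensor (gadMap γ ν) Ψ) q ρ) ∧
    (∀ ρ : Matrix (Bool × d) (Bool × d) ℂ, IsDensity ρ → ∀ ε > (0 : ℝ),
      ∃ (ρ₁ : Matrix Bool Bool ℂ) (ρ₂ : Matrix d d ℂ), IsDensity ρ₁ ∧ IsDensity ρ₂ ∧
        vnEntropy (gadMap γ ν ρ₁) + vnEntropy (Ψ ρ₂) ≤ vnEntropy (qubitTensor (gadMap γ ν) Ψ ρ) + ε) ∧
    (∀ (ρ₁ : Matrix Bool Bool ℂ) (ρ₂ : Matrix d d ℂ), IsDensity ρ₁ → IsDensity ρ₂ →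
      ∃ ρ : Matrix (Bool × d) (Bool × d) ℂ, IsDensity ρ ∧
        vnEntropy (qubitTensor (gadMap γ ν) Ψ ρ) ≤ vnEntropy (gadMap γ ν ρ₁) + vnEntropy (Ψ ρ₂)) := by
  refine ⟨?_, ?_, ?_, ?_⟩
  · intro m q ρ hE ε hε
    obtain ⟨m₁, q₁, ρ₁, m₂, q₂, ρ₂, h1, h2, h3⟩ := Crest.Agent.GAD.part1 hγ hν hΨ q ρ hE
    exact ⟨m₁, q₁, ρ₁, m₂, q₂, ρ₂, h1, h2, by linarith⟩
  · intro m₁ q₁ ρ₁ m₂ q₂ ρ₂ h1 h2
    exact Crest.Agent.GAD.part2 hγ hν hΨ q₁ ρ₁ q₂ ρ₂ h1 h2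
  · intro ρ hρ ε hε
    obtain ⟨ρ₁, ρ₂, h1, h2, h3⟩ := Crest.Agent.GAD.part3 hγ hν hΨ ρ hρ
    exact ⟨ρ₁, ρ₂, h1, h2, by linarith⟩
  · intro ρ₁ ρ₂ h1 h2
    exact Crest.Agent.GAD.part4 hγ hν hΨ ρ₁ ρ₂ h1 h2

end Crest.Agent.S0535
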